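import Vale.Agent.P347.Defs

/-!
# P347, module ALG: the chain is an algorithm
-/

namespace LCS

open MeasureTheory ProbabilityTheory Set Filter
open scoped ENNReal NNReal Topology RealInnerProductSpace BigOperators

namespace ALG

set_option linter.unusedSectionVars false

/-- space of the auxiliary variables of one step -/
abbrev R (d J : ℕ) : Type := (Fin J → E d) × E d

noncomputable section

variable {d J : ℕ} (s β : ℝ) (c w : Fin J → ℝ)

theorem sbR (d J : ℕ) : StandardBorelSpace (R d J) := by infer_instance

theorem sbRN (d J N : ℕ) : StandardBorelSpace (Fin N → R d J) :=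
  @StandardBorelSpace.pi_countable (Fin N) _ (fun _ => R d J) _ (fun _ => sbR d J)

/-- step given the gradients -/
def stp (q : E d × E d) (r : R d J) (g : ℕ → E d) : E d × E d :=
  (q.1 + (2 * √s) • ((β • q.2 - √s • ((1 - β) • g 0 + β • ∑ j : Fin J, w j • g (j + 1)))
      + √(1 - β ^ 2) • r.2),
    (β • q.2 - √s • ((1 - β) • g 0 + β • ∑ j : Fin J, w j • g (j + 1))) + √(1 - β ^ 2) • r.2)

/-- state after `n` steps, as a function of the auxiliary variables and of the gradients -/
def st (ω : ℕ → R d J) (g : ℕ → E d) : ℕ → E d × E d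
  | 0 => (0, 0)
  | n + 1 => stp s β w (st ω g n) (ω n) (fun i => g (n * (J + 1) + i))

/-- the `r`-th query of step `n` -/
def qq (n r : ℕ) (ω : ℕ → R d J) (g : ℕ → E d) : E d :=
  if h : r - 1 < J ∧ r ≠ 0 then
    (st s β w ω g n).1 - √s • ((1 - c ⟨r - 1, h.1⟩) • (√s • g (n * (J + 1)))
      + c ⟨r - 1, h.1⟩ • (st s β w ω g n).2 + √(1 - c ⟨r - 1, h.1⟩ ^ 2) • (ω n).1 ⟨r - 1, h.1⟩)
  else (st s β w ω g n).1

/-- query `k` -/
def qr (k : ℕ) (ω : ℕ → R d J) (g : ℕ → E d) : E d :=
  qq s β c w (k / (J + 1)) (k % (J + 1)) ω g

/-- extension of the vector of answers -/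
def extA {k : ℕ} (a : Fin k → ℝ × E d) (i : ℕ) : E d := if h : i < k then (a ⟨i, h⟩).2 else 0

/-- extension of the seed -/
def extO {N : ℕ} (ω : Fin N → R d J) (n : ℕ) : R d J := if h : n < N then ω ⟨n, h⟩ else 0

variable {s β c w}

lemma st_congr (ω : ℕ → R d J) (g g' : ℕ → E d) (n : ℕ)
    (h : ∀ i, i < n * (J + 1) → g i = g' i) : st s β w ω g n = st s β w ω g' n := by
  induction n with
  | zero => rfl
  | succ n ih =>
    have h1 : st s β w ω g n = st s β w ω g' n := by
      apply ih
      intro i hi
      apply h
      have : n * (J + 1) ≤ (n + 1) * (J + 1) := Nat.mul_le_mul_right _ (Nat.le_succ n)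
      omega
    have h2 : ∀ i, i < J + 1 → g (n * (J + 1) + i) = g' (n * (J + 1) + i) := by
      intro i hi
      apply h
      have : (n + 1) * (J + 1) = n * (J + 1) + (J + 1) := by ring
      omega
    show stp s β w (st s β w ω g n) (ω n) (fun i => g (n * (J + 1) + i))
      = stp s β w (st s β w ω g' n) (ω n) (fun i => g' (n * (J + 1) + i))
    unfold stp
    have h3 : ∑ j : Fin J, w j • g (n * (J + 1) + (j + 1))
        = ∑ j : Fin J, w j • g' (n * (J + 1) + (j + 1)) := by
      refine Finset.sum_congr rfl fun j _ => ?_
      rw [h2 (j + 1) (by omega)]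
    simp only
    rw [h1, h2 0 (by omega), h3]

lemma qr_congr (k : ℕ) (ω : ℕ → R d J) (g g' : ℕ → E d)
    (h : ∀ i, i < k → g i = g' i) : qr s β c w k ω g = qr s β c w k ω g' := by
  have hk := Nat.div_add_mod k (J + 1)
  have hk' : k / (J + 1) * (J + 1) + k % (J + 1) = k := by
    rw [mul_comm]; exact hk
  unfold qr qq
  have h1 : st s β w ω g (k / (J + 1)) = st s β w ω g' (k / (J + 1)) := by
    apply st_congr
    intro i hi
    apply h
    omega
  rw [h1]
  split_ifs with h2
  · rw [h (k / (J + 1) * (J + 1)) (by omega)]
  · rfl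

lemma stp_measurable {X : Type*} [MeasurableSpace X] {q : X → E d × E d} {r : X → R d J}
    {g : X → ℕ → E d} (hq : Measurable q) (hr : Measurable r) (hg : ∀ i, Measurable fun x => g x i) :
    Measurable fun x => stp s β w (q x) (r x) (g x) := by
  have h1 : Measurable fun x => (β • (q x).2 - √s • ((1 - β) • g x 0 +
      β • ∑ j : Fin J, w j • g x (j + 1))) + √(1 - β ^ 2) • (r x).2 := by
    apply Measurable.fun_add
    · apply Measurable.fun_sub
      · exact hq.snd.fun_const_smul β
      · apply Measurable.fun_const_smul
        apply Measurable.fun_add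
        · exact (hg 0).fun_const_smul _
        · apply Measurable.fun_const_smul
          apply Finset.measurable_fun_sum
          intro j _
          exact (hg _).fun_const_smul _
    · exact hr.snd.fun_const_smul _
  exact (hq.fst.fun_add (h1.fun_const_smul _)).prodMk h1

lemma st_measurable {X : Type*} [MeasurableSpace X] {ω : X → ℕ → R d J}
    {g : X → ℕ → E d} (hω : ∀ i, Measurable fun x => ω x i) (hg : ∀ i, Measurable fun x => g x i)
    (n : ℕ) : Measurable fun x => st s β w (ω x) (g x) n := by
  induction n with
  | zero => exact measurable_const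
  | succ n ih => exact stp_measurable ih (hω n) (fun i => hg _)

lemma qr_measurable {X : Type*} [MeasurableSpace X] {ω : X → ℕ → R d J}
    {g : X → ℕ → E d} (hω : ∀ i, Measurable fun x => ω x i) (hg : ∀ i, Measurable fun x => g x i)
    (k : ℕ) : Measurable fun x => qr s β c w k (ω x) (g x) := by
  unfold qr qq
  have h1 := st_measurable (s := s) (β := β) (w := w) hω hg (k / (J + 1))
  by_cases h : k % (J + 1) - 1 < J ∧ k % (J + 1) ≠ 0
  · simp only [dif_pos h]
    apply Measurable.fun_sub h1.fst
    apply Measurable.fun_const_smul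
    apply Measurable.fun_add
    · apply Measurable.fun_add
      · exact ((hg _).fun_const_smul _).fun_const_smul _
      · exact h1.snd.fun_const_smul _
    · apply Measurable.fun_const_smul
      exact (measurable_pi_apply _).comp (hω _).fst
  · simp only [dif_neg h]
    exact h1.fst

lemma extA_measurable {k : ℕ} (i : ℕ) : Measurable fun a : Fin k → ℝ × E d => extA a i := by
  unfold extA
  by_cases h : i < k
  · simp only [dif_pos h]
    exact (measurable_pi_apply _).snd
  · simp only [dif_neg h]
    exact measurable_const

lemma extO_measurable {N : ℕ} (i : ℕ) : Measurable fun a : Fin N → R d J => extO a i := by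
  unfold extO
  by_cases h : i < N
  · simp only [dif_pos h]
    exact measurable_pi_apply _
  · simp only [dif_neg h]
    exact measurable_const

instance (d J : ℕ) : IsProbabilityMeasure (aux d J) := by
  unfold aux
  infer_instance

variable (s β c w)

/-- the algorithm -/
def AA (N : ℕ) : Alg d (N * (J + 1)) where
  Ω := Fin N → R d J
  mΩ := inferInstance
  sb := sbRN d J N
  seed := Measure.pi fun _ => aux d J
  prob := inferInstance
  query k ω a := qr s β c w k (extO ω) (extA a)
  query_meas k := by
    apply qr_measurable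
    · exact fun i => (extO_measurable i).comp measurable_fst
    · exact fun i => (extA_measurable i).comp measurable_snd
  out ω a := (st s β w (extO ω) (extA a) N).1 - √s • (st s β w (extO ω) (extA a) N).2
  out_meas := by
    have h := st_measurable (s := s) (β := β) (w := w)
      (X := (Fin N → R d J) × (Fin (N * (J + 1)) → ℝ × E d))
      (ω := fun p => extO p.1) (g := fun p => extA p.2)
      (fun i => (extO_measurable i).comp measurable_fst)
      (fun i => (extA_measurable i).comp measurable_snd) N
    exact h.fst.fun_sub (h.snd.fun_const_smul _)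

variable (V : E d → ℝ)

/-- the chain as a function of the auxiliary variables -/
def Sx (ω : ℕ → R d J) : ℕ → E d × E d
  | 0 => (0, 0)
  | n + 1 => pstep V s β c w (Sx ω n, ω n)

variable {s β c w V}

lemma Sx_congr (ω ω' : ℕ → R d J) (n : ℕ) (h : ∀ i, i < n → ω i = ω' i) :
    Sx s β c w V ω n = Sx s β c w V ω' n := by
  induction n with
  | zero => rfl
  | succ n ih =>
    show pstep V s β c w (Sx s β c w V ω n, ω n) = pstep V s β c w (Sx s β c w V ω' n, ω' n)
    rw [ih fun i hi => h i (by omega), h n (by omega)]

lemma ans_ext (N : ℕ) (ω : Fin N → R d J) (k : ℕ) (hk : k ≤ N * (J + 1)) (i : ℕ) (hi : i < k) :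
    extA ((AA s β c w N).ans V ω k hk) i
      = gradient V (qr s β c w i (extO ω) (extA ((AA s β c w N).ans V ω i (by omega)))) := by
  induction k with
  | zero => omega
  | succ k ih =>
    by_cases h : i < k
    · rw [← ih (by omega) h]
      unfold extA
      rw [dif_pos hi, dif_pos h]
      congr 1
      show (Fin.snoc (α := fun _ => ℝ × E d) ((AA s β c w N).ans V ω k _) _ : Fin (k + 1) → ℝ × E d)
        ⟨i, hi⟩ = _
      have e : (⟨i, hi⟩ : Fin (k + 1)) = Fin.castSucc ⟨i, h⟩ := rfl
      rw [e, Fin.snoc_castSucc]
    · have h2 : i = k := by omega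
      subst h2
      unfold extA
      rw [dif_pos hi]
      show ((Fin.snoc (α := fun _ => ℝ × E d) ((AA s β c w N).ans V ω i _) _ : Fin (i + 1) → ℝ × E d)
        ⟨i, hi⟩).2 = _
      have e : (⟨i, hi⟩ : Fin (i + 1)) = Fin.last i := rfl
      rw [e, Fin.snoc_last]
      rfl

lemma ans_G (N : ℕ) (ω : Fin N → R d J) (i : ℕ) (hi : i < N * (J + 1)) :
    extA ((AA s β c w N).ans V ω _ le_rfl) i
      = gradient V (qr s β c w i (extO ω) (extA ((AA s β c w N).ans V ω _ le_rfl))) := by
  rw [ans_ext N ω _ le_rfl i hi]
  congr 1
  apply qr_congr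
  intro m hm
  rw [ans_ext N ω i _ m hm, ans_ext N ω _ le_rfl m (by omega)]

lemma st_eq_Sx (N : ℕ) (ω : ℕ → R d J) (G : ℕ → E d)
    (hG : ∀ i, i < N * (J + 1) → G i = gradient V (qr s β c w i ω G)) (n : ℕ) (hn : n ≤ N) :
    st s β w ω G n = Sx s β c w V ω n := by
  induction n with
  | zero => rfl
  | succ n ih =>
    have ih := ih (by omega)
    show stp s β w (st s β w ω G n) (ω n) (fun i => G (n * (J + 1) + i))
      = pstep V s β c w (Sx s β c w V ω n, ω n)
    rw [ih]
    have hb : (n + 1) * (J + 1) ≤ N * (J + 1) := Nat.mul_le_mul_right _ hn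
    have hb2 : (n + 1) * (J + 1) = n * (J + 1) + (J + 1) := by ring
    have e0 : G (n * (J + 1) + 0) = gradient V (Sx s β c w V ω n).1 := by
      rw [hG _ (by omega)]
      unfold qr
      rw [Nat.add_zero, Nat.mul_div_cancel _ (Nat.succ_pos J), Nat.mul_mod_left]
      unfold qq
      rw [dif_neg (by simp), ih]
    have e1 : ∀ j : Fin J, G (n * (J + 1) + (j + 1))
        = gradient V (node V s (c j) (Sx s β c w V ω n).1 (Sx s β c w V ω n).2 ((ω n).1 j)) := by
      intro j
      rw [hG _ (by omega)]
      unfold qr
      have d1 : (n * (J + 1) + (j + 1 : ℕ)) / (J + 1) = n := by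
        rw [mul_comm, Nat.mul_add_div (Nat.succ_pos J), Nat.div_eq_of_lt (by omega)]
        rfl
      have d2 : (n * (J + 1) + (j + 1 : ℕ)) % (J + 1) = j + 1 := by
        rw [mul_comm, Nat.mul_add_mod, Nat.mod_eq_of_lt (by omega)]
      rw [d1, d2]
      unfold qq
      rw [dif_pos ⟨by simp, by simp⟩, ih]
      unfold node
      rw [← Nat.add_zero (n * (J + 1)), e0]
      rfl
    unfold stp pstep rmean
    simp only [e0, e1]

lemma pstep_measurable (hg : Measurable (gradient V)) : Measurable (pstep V s β c w) := by
  have hn : ∀ j : Fin J, Measurable fun q : (E d × E d) × R d J =>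
      node V s (c j) q.1.1 q.1.2 (q.2.1 j) := by
    intro j
    unfold node
    apply measurable_fst.fst.fun_sub
    apply Measurable.fun_const_smul
    apply Measurable.fun_add
    · apply Measurable.fun_add
      · exact ((hg.comp measurable_fst.fst).fun_const_smul _).fun_const_smul _
      · exact measurable_fst.snd.fun_const_smul _
    · apply Measurable.fun_const_smul
      exact (measurable_pi_apply j).comp measurable_snd.fst
  have h1 : Measurable fun q : (E d × E d) × R d J =>
      rmean V s β c w q.1 q.2.1 + √(1 - β ^ 2) • q.2.2 := by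
    unfold rmean
    apply Measurable.fun_add
    · apply Measurable.fun_sub
      · exact measurable_fst.snd.fun_const_smul _
      · apply Measurable.fun_const_smul
        apply Measurable.fun_add
        · exact (hg.comp measurable_fst.fst).fun_const_smul _
        · apply Measurable.fun_const_smul
          apply Finset.measurable_fun_sum
          intro j _
          exact (hg.comp (hn j)).fun_const_smul _
    · exact measurable_snd.snd.fun_const_smul _
  exact (measurable_fst.fst.fun_add (h1.fun_const_smul _)).prodMk h1

lemma Sx_measurable (hV : Measurable (pstep V s β c w)) {X : Type*} [MeasurableSpace X]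
    {ω : X → ℕ → R d J} (hω : ∀ i, Measurable fun x => ω x i) (n : ℕ) :
    Measurable fun x => Sx s β c w V (ω x) n := by
  induction n with
  | zero => exact measurable_const
  | succ n ih => exact hV.comp (ih.prodMk (hω n))

lemma law_Sx (hV : Measurable (pstep V s β c w)) (n : ℕ) :
    (Measure.pi fun _ : Fin n => aux d J).map (fun ω => Sx s β c w V (extO ω) n)
      = chain V s β c w n := by
  induction n with
  | zero =>
    show (Measure.pi fun _ : Fin 0 => aux d J).map (fun _ => ((0, 0) : E d × E d)) = _
    rw [Measure.map_const]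
    simp [chain]
  | succ n ih =>
    have hmp := (measurePreserving_piFinSuccAbove (fun _ : Fin (n + 1) => aux d J) (Fin.last n)).symm
    have hF : Measurable fun ω : Fin n → R d J => Sx s β c w V (extO ω) n :=
      Sx_measurable hV (fun i => extO_measurable i) n
    rw [← hmp.map_eq, Measure.map_map
      (Sx_measurable hV (fun i => extO_measurable i) (n + 1)) hmp.measurable]
    show _ = ((chain V s β c w n).prod (aux d J)).map (pstep V s β c w)
    rw [← ih]
    have e1 : ((Measure.pi fun _ : Fin n => aux d J).map
        (fun ω => Sx s β c w V (extO ω) n)).prod (aux d J)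
        = ((Measure.pi fun _ : Fin n => aux d J).prod (aux d J)).map
          (Prod.map (fun ω => Sx s β c w V (extO ω) n) id) := by
      rw [← Measure.map_prod_map _ _ hF measurable_id, Measure.map_id]
    rw [e1, Measure.map_map hV (hF.prodMap measurable_id)]
    have e2 : (aux d J).prod (Measure.pi fun _ : Fin n => aux d J)
        = ((Measure.pi fun _ : Fin n => aux d J).prod (aux d J)).map Prod.swap :=
      (Measure.prod_swap).symm
    have e3 : (Measure.pi fun j : Fin n => (fun _ : Fin (n + 1) => aux d J) ((Fin.last n).succAbove j))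
      = Measure.pi fun _ : Fin n => aux d J := rfl
    rw [e3, e2, Measure.map_map
      ((Sx_measurable hV (fun i => extO_measurable i) (n + 1)).comp hmp.measurable) measurable_swap]
    congr 1
    funext x
    obtain ⟨ω, r⟩ := x
    show pstep V s β c w (Sx s β c w V (extO (Fin.insertNth (Fin.last n) r ω)) n,
      extO (Fin.insertNth (Fin.last n) r ω) n) = pstep V s β c w (Sx s β c w V (extO ω) n, r)
    have h1 : ∀ i, i < n → extO (Fin.insertNth (α := fun _ => R d J) (Fin.last n) r ω) i
        = extO ω i := by
      intro i hi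
      unfold extO
      rw [dif_pos (by omega), dif_pos hi, Fin.insertNth_last']
      have e : (⟨i, by omega⟩ : Fin (n + 1)) = Fin.castSucc ⟨i, hi⟩ := rfl
      rw [e, Fin.snoc_castSucc]
    have h2 : extO (Fin.insertNth (α := fun _ => R d J) (Fin.last n) r ω) n = r := by
      unfold extO
      rw [dif_pos (by omega), Fin.insertNth_last']
      have e : (⟨n, by omega⟩ : Fin (n + 1)) = Fin.last n := rfl
      rw [e, Fin.snoc_last]
    rw [Sx_congr _ _ n h1, h2]

end

end ALG

theorem alg : S_ALG := by
  intro d J N s β c w
  refine ⟨ALG.AA s β c w N, fun V hV => ?_⟩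
  have hg : Measurable (gradient V) := by
    have h1 : Continuous (fderiv ℝ V) := hV.smooth.continuous_fderiv (by norm_num)
    have h2 : Continuous (gradient V) :=
      (InnerProductSpace.toDual ℝ (E d)).symm.continuous.comp h1
    exact h2.measurable
  have hp := ALG.pstep_measurable (s := s) (β := β) (c := c) (w := w) hg
  rw [← ALG.law_Sx hp N, Measure.map_map _
    (ALG.Sx_measurable hp (fun i => ALG.extO_measurable i) N)]
  · show (Measure.pi fun _ : Fin N => aux d J).map _ = _
    congr 1
    funext ω
    show (ALG.st s β w (ALG.extO ω) (ALG.extA ((ALG.AA s β c w N).ans V ω _ le_rfl)) N).1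
      - √s • (ALG.st s β w (ALG.extO ω) (ALG.extA ((ALG.AA s β c w N).ans V ω _ le_rfl)) N).2 = _
    rw [ALG.st_eq_Sx N (ALG.extO ω) _ (fun i hi => ALG.ans_G N ω i hi) N le_rfl]
    rfl
  · exact measurable_fst.fun_sub (measurable_snd.fun_const_smul _)

end LCS
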