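import Vale.Agent.P347.Defs

/-!
# P347, module IBP: Gaussian integration by parts
-/

namespace LCS

open MeasureTheory ProbabilityTheory Set Filter
open scoped ENNReal NNReal Topology RealInnerProductSpace BigOperators ContDiff

namespace IBP

/-- exponential growth implies integrability -/
theorem integrable_of_growth (hCM : S_CM) {d : ℕ} {F : Type*} [NormedAddCommGroup F]
    {g : E d → F} (hg : AEStronglyMeasurable g (gam d)) (A B : ℝ)
    (h : ∀ y, ‖g y‖ ≤ A * Real.exp (B * ‖y‖)) : Integrable g (gam d) := by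
  have h1 := ((hCM d).2.2 (1 / 4) (by norm_num)).1
  have h2 : Integrable (fun x : E d => A * Real.exp (B ^ 2) * Real.exp (1 / 4 * ‖x‖ ^ 2)) (gam d) :=
    h1.const_mul _
  refine h2.mono' hg (Eventually.of_forall fun y => ?_)
  have hA : 0 ≤ A := by
    have := (norm_nonneg _).trans (h y)
    exact nonneg_of_mul_nonneg_left this (Real.exp_pos _)
  refine (h y).trans ?_
  rw [mul_assoc, ← Real.exp_add]
  refine mul_le_mul_of_nonneg_left (Real.exp_le_exp.mpr ?_) hA
  nlinarith [sq_nonneg (B - ‖y‖ / 2)]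

/-- the density as a real function -/
noncomputable def dens {d : ℕ} (x : E d) : ℝ := Real.exp (-‖x‖ ^ 2 / 2)

theorem integrable_gam_iff (hCM : S_CM) {d : ℕ} {F : Type*} [NormedAddCommGroup F]
    [NormedSpace ℝ F] {g : E d → F} :
    Integrable g (gam d) ↔ Integrable (fun x => dens x • g x) volume := by
  rw [(hCM d).2.1, integrable_smul_measure (by positivity) ENNReal.ofReal_ne_top,
    integrable_withDensity_iff_integrable_smul' (by fun_prop)
      (Eventually.of_forall fun x => ENNReal.ofReal_lt_top)]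
  simp only [ENNReal.toReal_ofReal (Real.exp_nonneg _)]
  rfl

theorem integral_gam (hCM : S_CM) {d : ℕ} {F : Type*} [NormedAddCommGroup F]
    [NormedSpace ℝ F] (g : E d → F) :
    ∫ x, g x ∂(gam d) = ((2 * Real.pi) ^ (-(d : ℝ) / 2)) • ∫ x, dens x • g x := by
  rw [(hCM d).2.1, integral_smul_measure,
    integral_withDensity_eq_integral_toReal_smul (by fun_prop)
      (Eventually.of_forall fun x => ENNReal.ofReal_lt_top)]
  simp only [ENNReal.toReal_ofReal (Real.exp_nonneg _)]
  rw [ENNReal.toReal_ofReal (by positivity)]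
  rfl

theorem hasFDerivAt_dens {d : ℕ} (x : E d) :
    HasFDerivAt (dens : E d → ℝ) (-(dens x • innerSL ℝ x)) x := by
  have h1 : HasFDerivAt (fun x : E d => ‖x‖ ^ 2) (2 • innerSL ℝ x) x :=
    (hasStrictFDerivAt_norm_sq x).hasFDerivAt
  have h2 : HasFDerivAt (fun x : E d => -‖x‖ ^ 2 / 2) (-(innerSL ℝ x)) x := by
    have h4 := h1.neg.mul_const (1 / 2 : ℝ)
    have h5 : (fun x : E d => -‖x‖ ^ 2 / 2) = fun y : E d => (-fun x : E d => ‖x‖ ^ 2) y * (1 / 2) := by
      funext y
      simp only [Pi.neg_apply]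
      ring
    rw [h5]
    refine h4.congr_fderiv ?_
    ext v
    simp
  have h3 := h2.exp
  refine h3.congr_fderiv ?_
  ext v
  simp [dens]

end IBP

theorem ibp (hCM : S_CM) : S_IBP := by
  intro d g C hg hgr v
  have hC : 0 ≤ C := by
    have h0 := (add_nonneg (abs_nonneg (g 0)) (norm_nonneg (fderiv ℝ g 0))).trans (hgr 0)
    exact nonneg_of_mul_nonneg_left h0 (Real.exp_pos _)
  have hg1 : ∀ y, |g y| ≤ C * Real.exp (C * ‖y‖) := fun y =>
    (le_add_of_nonneg_right (norm_nonneg _)).trans (hgr y)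
  have hg2 : ∀ y, ‖fderiv ℝ g y‖ ≤ C * Real.exp (C * ‖y‖) := fun y =>
    (le_add_of_nonneg_left (abs_nonneg _)).trans (hgr y)
  have hgc : Continuous g := hg.continuous
  have hgd : Continuous (fderiv ℝ g) := hg.continuous_fderiv one_ne_zero
  -- integrability
  have i1 : Integrable g (gam d) :=
    IBP.integrable_of_growth hCM hgc.aestronglyMeasurable C C hg1
  have i2 : Integrable (fun y => fderiv ℝ g y v) (gam d) := by
    refine IBP.integrable_of_growth hCM (by fun_prop) (C * ‖v‖) C fun y => ?_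
    refine ((fderiv ℝ g y).le_opNorm v).trans ?_
    calc ‖fderiv ℝ g y‖ * ‖v‖ ≤ C * Real.exp (C * ‖y‖) * ‖v‖ :=
          mul_le_mul_of_nonneg_right (hg2 y) (norm_nonneg _)
      _ = _ := by ring
  have i3 : Integrable (fun y => ⟪v, y⟫ * g y) (gam d) := by
    refine IBP.integrable_of_growth hCM (by fun_prop) (‖v‖ * C) (C + 1) fun y => ?_
    rw [norm_mul, Real.norm_eq_abs, Real.norm_eq_abs]
    have h1 := abs_real_inner_le_norm v y
    have h2 : ‖y‖ ≤ Real.exp ‖y‖ := by
      have := Real.add_one_le_exp ‖y‖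
      linarith
    calc |⟪v, y⟫| * |g y| ≤ (‖v‖ * ‖y‖) * (C * Real.exp (C * ‖y‖)) :=
          mul_le_mul h1 (hg1 y) (abs_nonneg _) (by positivity)
      _ ≤ (‖v‖ * Real.exp ‖y‖) * (C * Real.exp (C * ‖y‖)) := by gcongr
      _ = ‖v‖ * C * Real.exp ((C + 1) * ‖y‖) := by
          rw [show (C + 1) * ‖y‖ = C * ‖y‖ + ‖y‖ by ring, Real.exp_add]
          ring
  have j1 := (IBP.integrable_gam_iff hCM).mp i1
  have j2 := (IBP.integrable_gam_iff hCM).mp i2
  have j3 := (IBP.integrable_gam_iff hCM).mp i3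
  have hd : ∀ x : E d, fderiv ℝ (IBP.dens : E d → ℝ) x v = -(IBP.dens x * ⟪v, x⟫) := by
    intro x
    rw [(IBP.hasFDerivAt_dens x).fderiv]
    simp [real_inner_comm]
  rw [IBP.integral_gam hCM, IBP.integral_gam hCM]
  congr 1
  have key := integral_mul_fderiv_eq_neg_fderiv_mul_of_integrable (μ := (volume : Measure (E d)))
    (f := (IBP.dens : E d → ℝ)) (g := g) (v := v)
    (by
      refine (j3.neg).congr (Eventually.of_forall fun x => ?_)
      simp only [hd, Pi.neg_apply, smul_eq_mul]
      ring)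
    (by simpa [smul_eq_mul] using j2) (by simpa [smul_eq_mul] using j1)
    (fun x _ => (IBP.hasFDerivAt_dens x).differentiableAt)
    (fun x _ => (hg.differentiable one_ne_zero).differentiableAt)
  simp only [smul_eq_mul]
  rw [key, ← integral_neg]
  refine integral_congr_ae (Eventually.of_forall fun x => ?_)
  simp only [hd]
  ring

end LCS
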