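import Vale.Agent.P347.Base
import Vale.Agent.P347.Ibp

/-!
# P347, module BOCH: Bochner's formula for the Gaussian measure
-/

namespace LCS

open MeasureTheory ProbabilityTheory Set Filter
open scoped ENNReal NNReal Topology RealInnerProductSpace BigOperators ContDiff

namespace BOCH

/-- basis vector -/
noncomputable abbrev e {d : ℕ} (i : Fin d) : E d := EuclideanSpace.single i 1

theorem norm_e {d : ℕ} (i : Fin d) : ‖e i‖ = 1 := by simp

/-- exponential growth class -/
structure PG {d : ℕ} (g : E d → ℝ) : Prop where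
  smooth : ContDiff ℝ 1 g
  growth : ∃ A B : ℝ, 0 ≤ A ∧ 0 ≤ B ∧ ∀ y, |g y| + ‖fderiv ℝ g y‖ ≤ A * Real.exp (B * ‖y‖)

variable {d : ℕ}

theorem PG.diff {g : E d → ℝ} (h : PG g) (y : E d) : DifferentiableAt ℝ g y :=
  (h.smooth.differentiable one_ne_zero).differentiableAt

theorem PG.mul {g h : E d → ℝ} (hg : PG g) (hh : PG h) : PG (fun y => g y * h y) := by
  obtain ⟨A, B, hA, hB, h1⟩ := hg.growth
  obtain ⟨A', B', hA', hB', h2⟩ := hh.growth
  refine ⟨hg.smooth.mul hh.smooth, A * A', B + B', by positivity, by positivity, fun y => ?_⟩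
  rw [fderiv_fun_mul (hg.diff y) (hh.diff y)]
  have e1 : ‖g y • fderiv ℝ h y + h y • fderiv ℝ g y‖
      ≤ |g y| * ‖fderiv ℝ h y‖ + |h y| * ‖fderiv ℝ g y‖ := by
    refine (norm_add_le _ _).trans (le_of_eq ?_)
    rw [norm_smul, norm_smul, Real.norm_eq_abs, Real.norm_eq_abs]
  rw [abs_mul]
  calc |g y| * |h y| + ‖g y • fderiv ℝ h y + h y • fderiv ℝ g y‖
      ≤ (|g y| + ‖fderiv ℝ g y‖) * (|h y| + ‖fderiv ℝ h y‖) := by
        have := mul_nonneg (norm_nonneg (fderiv ℝ g y)) (norm_nonneg (fderiv ℝ h y))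
        nlinarith
    _ ≤ (A * Real.exp (B * ‖y‖)) * (A' * Real.exp (B' * ‖y‖)) :=
        mul_le_mul (h1 y) (h2 y) (by positivity) (by positivity)
    _ = A * A' * Real.exp ((B + B') * ‖y‖) := by
        rw [add_mul, Real.exp_add]; ring

theorem PG.add {g h : E d → ℝ} (hg : PG g) (hh : PG h) : PG (fun y => g y + h y) := by
  obtain ⟨A, B, hA, hB, h1⟩ := hg.growth
  obtain ⟨A', B', hA', hB', h2⟩ := hh.growth
  refine ⟨hg.smooth.add hh.smooth, A + A', B + B', by positivity, by positivity, fun y => ?_⟩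
  rw [fderiv_fun_add (hg.diff y) (hh.diff y)]
  have e1 := norm_add_le (fderiv ℝ g y) (fderiv ℝ h y)
  have e2 := abs_add_le (g y) (h y)
  have e3 : Real.exp (B * ‖y‖) ≤ Real.exp ((B + B') * ‖y‖) :=
    Real.exp_le_exp.mpr (by have := norm_nonneg y; nlinarith)
  have e4 : Real.exp (B' * ‖y‖) ≤ Real.exp ((B + B') * ‖y‖) :=
    Real.exp_le_exp.mpr (by have := norm_nonneg y; nlinarith)
  have e5 := mul_le_mul_of_nonneg_left e3 hA
  have e6 := mul_le_mul_of_nonneg_left e4 hA'
  have := h1 y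
  have := h2 y
  linarith

theorem PG.const (c : ℝ) : PG (fun _ : E d => c) := by
  refine ⟨contDiff_const, |c|, 0, abs_nonneg _, le_rfl, fun y => ?_⟩
  simp

theorem PG.neg {g : E d → ℝ} (hg : PG g) : PG (fun y => - g y) := by
  have := (PG.const (d := d) (-1)).mul hg
  simpa using this

theorem PG.sub {g h : E d → ℝ} (hg : PG g) (hh : PG h) : PG (fun y => g y - h y) := by
  simpa [sub_eq_add_neg] using hg.add hh.neg

theorem PG.sum {ι : Type*} (s : Finset ι) {g : ι → E d → ℝ} (hg : ∀ i, PG (g i)) :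
    PG (fun y => ∑ i ∈ s, g i y) := by
  classical
  induction s using Finset.induction_on with
  | empty => simpa using PG.const (d := d) 0
  | insert a s ha ih =>
    simp only [Finset.sum_insert ha]
    exact (hg a).add ih

theorem PG.coord (i : Fin d) : PG (fun y : E d => y i) := by
  have hd : ∀ y : E d, HasFDerivAt (fun y : E d => y i)
      (EuclideanSpace.proj i : E d →L[ℝ] ℝ) y := fun y =>
    (EuclideanSpace.proj i : E d →L[ℝ] ℝ).hasFDerivAt
  have hn : ‖(EuclideanSpace.proj i : E d →L[ℝ] ℝ)‖ ≤ 1 := by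
    refine ContinuousLinearMap.opNorm_le_bound _ zero_le_one fun y => ?_
    rw [one_mul]
    exact PiLp.norm_apply_le y i
  refine ⟨(EuclideanSpace.proj i : E d →L[ℝ] ℝ).contDiff, 1, 1, zero_le_one, zero_le_one,
    fun y => ?_⟩
  rw [(hd y).fderiv, one_mul, one_mul]
  have h1 : |y i| ≤ ‖y‖ := PiLp.norm_apply_le y i
  have h2 := Real.add_one_le_exp ‖y‖
  linarith

theorem PG.integrable (hCM : S_CM) {g : E d → ℝ} (hg : PG g) : Integrable g (gam d) := by
  obtain ⟨A, B, hA, hB, h1⟩ := hg.growth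
  refine IBP.integrable_of_growth hCM hg.smooth.continuous.aestronglyMeasurable A B fun y => ?_
  exact (le_add_of_nonneg_right (norm_nonneg _)).trans (h1 y)

theorem PG.ibp (hCM : S_CM) {g : E d → ℝ} (hg : PG g) (i : Fin d) :
    ∫ y, y i * g y ∂(gam d) = ∫ y, fderiv ℝ g y (e i) ∂(gam d) := by
  obtain ⟨A, B, hA, hB, h1⟩ := hg.growth
  have h2 := LCS.ibp hCM d g (max A B) hg.smooth (fun y => by
    refine (h1 y).trans ?_
    refine mul_le_mul (le_max_left _ _) (Real.exp_le_exp.mpr ?_) (Real.exp_nonneg _)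
      (hA.trans (le_max_left _ _))
    exact mul_le_mul_of_nonneg_right (le_max_right _ _) (norm_nonneg _)) (e i)
  rw [← h2]
  refine integral_congr_ae (Eventually.of_forall fun y => ?_)
  simp [EuclideanSpace.inner_single_left]

/-- the smooth class with bounded derivatives of order at least `k0` -/
structure BD (k0 : ℕ) (g : E d → ℝ) : Prop where
  smooth : ContDiff ℝ ∞ g
  bdd : ∀ k : ℕ, k0 ≤ k → ∃ C : ℝ, ∀ x, ‖iteratedFDeriv ℝ k g x‖ ≤ C

/-- directional derivative -/
noncomputable def P (i : Fin d) (g : E d → ℝ) (y : E d) : ℝ := fderiv ℝ g y (e i)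

theorem BD.P {k0 : ℕ} {g : E d → ℝ} (h : BD (k0 + 1) g) (i : Fin d) : BD k0 (P i g) := by
  have h1 : ContDiff ℝ ∞ (fderiv ℝ g) := h.smooth.fderiv_right (by norm_num)
  refine ⟨h1.clm_apply contDiff_const, fun k hk => ?_⟩
  obtain ⟨C, hC⟩ := h.bdd (k + 1) (by omega)
  refine ⟨C, fun x => ?_⟩
  have h2 := norm_iteratedFDeriv_clm_apply_const (𝕜 := ℝ) (f := fderiv ℝ g) (c := e i) (x := x)
    (N := ∞) (n := k) h1.contDiffAt (by exact_mod_cast le_top)
  rw [norm_e, one_mul, norm_iteratedFDeriv_fderiv] at h2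
  exact h2.trans (hC x)

theorem BD.mono {k0 k1 : ℕ} {g : E d → ℝ} (h : BD k0 g) (hk : k0 ≤ k1) : BD k1 g :=
  ⟨h.smooth, fun k hk' => h.bdd k (hk.trans hk')⟩

theorem BD.pg {g : E d → ℝ} (h : BD 1 g) : PG g := by
  obtain ⟨C, hC⟩ := h.bdd 1 le_rfl
  have hC0 : 0 ≤ C := (norm_nonneg _).trans (hC 0)
  have h1 : ∀ x, ‖fderiv ℝ g x‖ ≤ C := fun x => by
    rw [← norm_iteratedFDeriv_one]
    exact hC x
  refine ⟨h.smooth.of_le (by exact_mod_cast le_top), |g 0| + C, 1, by positivity, zero_le_one,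
    fun y => ?_⟩
  have h2 : ‖g y - g 0‖ ≤ C * ‖y - 0‖ :=
    Convex.norm_image_sub_le_of_norm_fderiv_le (s := Set.univ) (𝕜 := ℝ)
      (fun z _ => (h.smooth.differentiable (by norm_num)).differentiableAt)
      (fun z _ => h1 z) convex_univ (Set.mem_univ _) (Set.mem_univ _)
  rw [sub_zero, Real.norm_eq_abs] at h2
  have h3 : |g y| ≤ |g 0| + C * ‖y‖ := by
    have := abs_sub_abs_le_abs_sub (g y) (g 0)
    linarith
  have h4 := Real.add_one_le_exp ‖y‖
  rw [one_mul]
  have h5 : 1 ≤ Real.exp ‖y‖ := Real.one_le_exp (norm_nonneg _)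
  have h6 := h1 y
  calc |g y| + ‖fderiv ℝ g y‖ ≤ |g 0| + C * (‖y‖ + 1) := by linarith
    _ ≤ |g 0| * Real.exp ‖y‖ + C * Real.exp ‖y‖ := by
        have := le_mul_of_one_le_right (abs_nonneg (g 0)) h5
        have := mul_le_mul_of_nonneg_left h4 hC0
        linarith
    _ = _ := by ring

theorem P_symm {g : E d → ℝ} (hg : ContDiff ℝ 2 g) (i j : Fin d) : P i (P j g) = P j (P i g) := by
  funext y
  have h1 : ∀ (i : Fin d), HasFDerivAt (P i g)
      ((ContinuousLinearMap.apply ℝ ℝ (e i)).comp (fderiv ℝ (fderiv ℝ g) y)) y := by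
    intro i
    have h2 : HasFDerivAt (fderiv ℝ g) (fderiv ℝ (fderiv ℝ g) y) y :=
      ((contDiff_fderiv hg).differentiable one_ne_zero).differentiableAt.hasFDerivAt
    exact (ContinuousLinearMap.apply ℝ ℝ (e i)).hasFDerivAt.comp y h2
  rw [P, P, (h1 j).fderiv, (h1 i).fderiv]
  exact hess_symm hg y _ _

/-- Gaussian divergence -/
noncomputable def Dv (H : Fin d → E d → ℝ) (y : E d) : ℝ := ∑ j, (P j (H j) y - y j * H j y)

theorem PG.integrable_P (hCM : S_CM) {u H : E d → ℝ} (hu : PG u) (hH : PG H) (j : Fin d) :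
    Integrable (fun y => u y * P j H y) (gam d) := by
  obtain ⟨A, B, hA, hB, h1⟩ := hu.growth
  obtain ⟨A', B', hA', hB', h2⟩ := hH.growth
  have hc : Continuous (P j H) := (hH.smooth.continuous_fderiv one_ne_zero).clm_apply
    continuous_const
  refine IBP.integrable_of_growth hCM (hu.smooth.continuous.mul hc).aestronglyMeasurable
    (A * A') (B + B') fun y => ?_
  rw [norm_mul, Real.norm_eq_abs, Real.norm_eq_abs]
  have h3 : |P j H y| ≤ ‖fderiv ℝ H y‖ := by
    have := (fderiv ℝ H y).le_opNorm (e j)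
    rw [norm_e, mul_one, Real.norm_eq_abs] at this
    exact this
  calc |u y| * |P j H y| ≤ (A * Real.exp (B * ‖y‖)) * (A' * Real.exp (B' * ‖y‖)) := by
        refine mul_le_mul ((le_add_of_nonneg_right (norm_nonneg _)).trans (h1 y))
          (h3.trans ((le_add_of_nonneg_left (abs_nonneg _)).trans (h2 y))) (abs_nonneg _)
          (by positivity)
    _ = A * A' * Real.exp ((B + B') * ‖y‖) := by
        rw [add_mul, Real.exp_add]; ring

/-- Green's formula -/
theorem green (hCM : S_CM) {u : E d → ℝ} {H : Fin d → E d → ℝ} (hu : PG u) (hH : ∀ j, PG (H j)) :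
    ∫ y, u y * Dv H y ∂(gam d) = - ∑ j, ∫ y, P j u y * H j y ∂(gam d) := by
  have hi1 : ∀ j, Integrable (fun y => u y * P j (H j) y) (gam d) :=
    fun j => hu.integrable_P hCM (hH j) j
  have hi2 : ∀ j, Integrable (fun y => y j * (u y * H j y)) (gam d) :=
    fun j => ((PG.coord j).mul (hu.mul (hH j))).integrable hCM
  have hi3 : ∀ j, Integrable (fun y => P j u y * H j y) (gam d) := by
    intro j
    refine ((hH j).integrable_P hCM hu j).congr (Eventually.of_forall fun y => ?_)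
    simp only [mul_comm]
  have e1 : ∀ y, u y * Dv H y = ∑ j, (u y * P j (H j) y - y j * (u y * H j y)) := by
    intro y
    rw [Dv, Finset.mul_sum]
    exact Finset.sum_congr rfl fun j _ => by ring
  simp only [e1]
  have hi : ∀ j, Integrable (fun y => u y * P j (H j) y - y j * (u y * H j y)) (gam d) :=
    fun j => (hi1 j).sub (hi2 j)
  rw [integral_finsetSum _ fun j _ => hi j, ← Finset.sum_neg_distrib]
  refine Finset.sum_congr rfl fun j _ => ?_
  rw [integral_sub (hi1 j) (hi2 j), (hu.mul (hH j)).ibp hCM j]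
  have e2 : ∀ y, fderiv ℝ (fun y => u y * H j y) y (e j)
      = u y * P j (H j) y + P j u y * H j y := by
    intro y
    rw [fderiv_fun_mul (hu.diff y) ((hH j).diff y)]
    simp only [P, _root_.add_apply, _root_.smul_apply, smul_eq_mul]
    ring
  simp only [e2]
  rw [integral_add (hi1 j) (hi3 j)]
  ring

theorem Dv_pg {H : Fin d → E d → ℝ} (hH : ∀ j, PG (H j)) (hH2 : ∀ j, PG (P j (H j))) :
    PG (Dv H) :=
  PG.sum Finset.univ fun j => (hH2 j).sub ((PG.coord j).mul (hH j))

theorem sum_sq_dual (φ : E d →L[ℝ] ℝ) : ∑ j, (φ (e j)) ^ 2 = ‖φ‖ ^ 2 := by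
  set v := (InnerProductSpace.toDual ℝ (E d)).symm φ with hv
  have h1 : ‖v‖ = ‖φ‖ := LinearIsometryEquiv.norm_map _ _
  rw [← h1, EuclideanSpace.norm_sq_eq]
  refine Finset.sum_congr rfl fun j _ => ?_
  have h2 : φ (e j) = v j := by
    have h3 : ⟪v, e j⟫ = φ (e j) := InnerProductSpace.toDual_symm_apply
    rw [← h3, EuclideanSpace.inner_single_right]
    simp
  rw [h2, Real.norm_eq_abs, sq_abs]

theorem sum_coord (y : E d) : y = ∑ i, y i • e i := by
  ext j
  simp [Finset.sum_apply, Pi.single_apply]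

theorem integral_normsq (hCM : S_CM) :
    Integrable (fun y : E d => ‖y‖ ^ 2) (gam d) ∧ ∫ y, ‖y‖ ^ 2 ∂(gam d) = d := by
  have h1 : ∀ y : E d, ‖y‖ ^ 2 = ∑ i, y i * y i := by
    intro y
    rw [EuclideanSpace.norm_sq_eq]
    exact Finset.sum_congr rfl fun j _ => by rw [Real.norm_eq_abs, sq_abs, sq]
  have h2 : ∀ i : Fin d, Integrable (fun y : E d => y i * y i) (gam d) :=
    fun i => ((PG.coord i).mul (PG.coord i)).integrable hCM
  simp only [h1]
  refine ⟨integrable_finsetSum _ fun i _ => h2 i, ?_⟩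
  rw [integral_finsetSum _ fun i _ => h2 i]
  have h3 : ∀ i : Fin d, ∫ y : E d, y i * y i ∂(gam d) = 1 := by
    intro i
    rw [(PG.coord i).ibp hCM i]
    have h4 : ∀ y : E d, fderiv ℝ (fun y : E d => y i) y (e i) = 1 := by
      intro y
      have hd : HasFDerivAt (fun y : E d => y i) (EuclideanSpace.proj i : E d →L[ℝ] ℝ) y :=
        (EuclideanSpace.proj i : E d →L[ℝ] ℝ).hasFDerivAt
      rw [hd.fderiv]
      simp
    simp only [h4]
    simp
  simp [h3]

end BOCH

open BOCH in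
theorem boch (hCM : S_CM) : S_BOCH := by
  intro d s A f hd hpar hf
  have hs := hpar.s_pos
  have hB2 : BD 2 f := ⟨hf.csmooth, fun k hk => hf.bdd k hk⟩
  set h : Fin d → E d → ℝ := fun i => P i f with hh
  have h1 : ∀ i, BD 1 (h i) := fun i => hB2.P i
  have h2 : ∀ i j, BD 0 (P j (h i)) := fun i j => (h1 i).P j
  have h3 : ∀ i j k, BD 0 (P k (P j (h i))) := fun i j k => ((h2 i j).mono (Nat.zero_le 1)).P k
  have p1 : ∀ i, PG (h i) := fun i => (h1 i).pg
  have p2 : ∀ i j, PG (P j (h i)) := fun i j => ((h2 i j).mono (Nat.zero_le 1)).pg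
  have p3 : ∀ i j k, PG (P k (P j (h i))) := fun i j k => ((h3 i j k).mono (Nat.zero_le 1)).pg
  have hPf : ∀ i y, P i (P i f) y = fderiv ℝ (fderiv ℝ f) y (e i) (e i) := by
    intro i y
    have h4 : HasFDerivAt (fderiv ℝ f) (fderiv ℝ (fderiv ℝ f) y) y :=
      ((contDiff_fderiv hf.smooth).differentiable one_ne_zero).differentiableAt.hasFDerivAt
    have h5 : HasFDerivAt (P i f)
      ((ContinuousLinearMap.apply ℝ ℝ (e i)).comp (fderiv ℝ (fderiv ℝ f) y)) y :=
      (ContinuousLinearMap.apply ℝ ℝ (e i)).hasFDerivAt.comp y h4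
    rw [P, h5.fderiv]
    rfl
  have hPf2 : ∀ i j y, P j (h i) y = fderiv ℝ (fderiv ℝ f) y (e j) (e i) := by
    intro i j y
    have h4 : HasFDerivAt (fderiv ℝ f) (fderiv ℝ (fderiv ℝ f) y) y :=
      ((contDiff_fderiv hf.smooth).differentiable one_ne_zero).differentiableAt.hasFDerivAt
    have h5 : HasFDerivAt (P i f)
      ((ContinuousLinearMap.apply ℝ ℝ (e i)).comp (fderiv ℝ (fderiv ℝ f) y)) y :=
      (ContinuousLinearMap.apply ℝ ℝ (e i)).hasFDerivAt.comp y h4
    rw [P, h5.fderiv]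
    rfl
  have hL : ∀ y, lap f y - ⟪y, gradient f y⟫ = Dv h y := by
    intro y
    have e1 : ⟪y, gradient f y⟫ = ∑ i, y i * h i y := by
      rw [real_inner_comm, inner_gradient]
      conv_lhs => rw [sum_coord y]
      rw [map_sum]
      refine Finset.sum_congr rfl fun i _ => ?_
      rw [map_smul, smul_eq_mul, ← sum_coord y]
      rfl
    rw [e1, lap, Dv, ← Finset.sum_sub_distrib]
    refine Finset.sum_congr rfl fun i _ => ?_
    rw [← hPf i y]
  simp only [hL]
  have hu : PG (Dv h) := Dv_pg p1 fun j => p2 j j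
  have hPu : ∀ i y, P i (Dv h) y = Dv (fun j => P j (h i)) y - h i y := by
    intro i y
    have d1 : ∀ j, HasFDerivAt (fun y => P j (h j) y - y j * h j y)
        (fderiv ℝ (P j (h j)) y - (y j • fderiv ℝ (h j) y + h j y •
          (EuclideanSpace.proj j : E d →L[ℝ] ℝ))) y := by
      intro j
      have c1 : HasFDerivAt (fun y : E d => y j) (EuclideanSpace.proj j : E d →L[ℝ] ℝ) y :=
        (EuclideanSpace.proj j : E d →L[ℝ] ℝ).hasFDerivAt
      exact ((p2 j j).diff y).hasFDerivAt.sub (c1.mul ((p1 j).diff y).hasFDerivAt)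
    have d2 := HasFDerivAt.fun_sum (u := Finset.univ) fun j _ => d1 j
    have d3 : fderiv ℝ (Dv h) y = ∑ j, (fderiv ℝ (P j (h j)) y - (y j • fderiv ℝ (h j) y +
        h j y • (EuclideanSpace.proj j : E d →L[ℝ] ℝ))) := d2.fderiv
    rw [P, d3, Dv]
    simp only [_root_.sum_apply, _root_.sub_apply, _root_.add_apply,
      _root_.smul_apply, smul_eq_mul, Finset.sum_sub_distrib, Finset.sum_add_distrib]
    have e1 : ∑ j, h j y * (EuclideanSpace.proj j : E d →L[ℝ] ℝ) (e i) = h i y := by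
      rw [Finset.sum_eq_single i]
      · simp
      · intro j _ hji
        simp [hji]
      · simp
    have e2 : ∀ j, fderiv ℝ (P j (h j)) y (e i) = P j (P j (h i)) y := by
      intro j
      have s1 : P i (P j (h j)) = P j (P i (h j)) :=
        P_symm (contDiff_infty.mp (h1 j).smooth 2) i j
      have s2 : P i (h j) = P j (h i) := P_symm hf.smooth i j
      have : fderiv ℝ (P j (h j)) y (e i) = P i (P j (h j)) y := rfl
      rw [this, s1, s2]
    have e3 : ∀ j, fderiv ℝ (h j) y (e i) = P j (h i) y := by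
      intro j
      have s2 : P i (h j) = P j (h i) := P_symm hf.smooth i j
      have : fderiv ℝ (h j) y (e i) = P i (h j) y := rfl
      rw [this, s2]
    simp only [e1, e2, e3]
    ring
  have g1 := green hCM hu p1
  have g2 : ∀ i, ∫ y, h i y * Dv (fun j => P j (h i)) y ∂(gam d)
      = - ∑ j, ∫ y, P j (h i) y * P j (h i) y ∂(gam d) := fun i =>
    green hCM (p1 i) (fun j => p2 i j)
  have q1 : ∀ i, Integrable (fun y => h i y * Dv (fun j => P j (h i)) y) (gam d) := fun i =>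
    ((p1 i).mul (Dv_pg (fun j => p2 i j) fun j => p3 i j j)).integrable hCM
  have q2 : ∀ i, Integrable (fun y => h i y * h i y) (gam d) := fun i =>
    ((p1 i).mul (p1 i)).integrable hCM
  have q3 : ∀ i j, Integrable (fun y => P j (h i) y * P j (h i) y) (gam d) := fun i j =>
    ((p2 i j).mul (p2 i j)).integrable hCM
  have main : ∫ y, (Dv h y) ^ 2 ∂(gam d) = ∫ y, ∑ i, h i y * h i y ∂(gam d)
      + ∫ y, ∑ i, ∑ j, P j (h i) y * P j (h i) y ∂(gam d) := by
    have m0 : ∫ y, (Dv h y) ^ 2 ∂(gam d) = ∫ y, Dv h y * Dv h y ∂(gam d) := by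
      simp only [sq]
    rw [m0, g1, integral_finsetSum _ fun i _ => q2 i,
      integral_finsetSum _ fun i _ => integrable_finsetSum _ fun j _ => q3 i j,
      ← Finset.sum_neg_distrib, ← Finset.sum_add_distrib]
    refine Finset.sum_congr rfl fun i _ => ?_
    rw [integral_finsetSum _ fun j _ => q3 i j]
    have m1 : ∫ y, P i (Dv h) y * h i y ∂(gam d)
        = ∫ y, (h i y * Dv (fun j => P j (h i)) y - h i y * h i y) ∂(gam d) := by
      refine integral_congr_ae (Eventually.of_forall fun y => ?_)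
      simp only [hPu]
      ring
    rw [m1, integral_sub (q1 i) (q2 i), g2 i]
    ring
  rw [main]
  have hAd : (d : ℝ) ≤ A ^ 2 := by
    have h4 := hpar.dA
    have h5 : (0 : ℝ) ≤ √d := Real.sqrt_nonneg _
    calc (d : ℝ) = √d ^ 2 := (Real.sq_sqrt (Nat.cast_nonneg d)).symm
      _ ≤ A ^ 2 := pow_le_pow_left₀ h5 h4 2
  obtain ⟨n1, n2⟩ := integral_normsq (d := d) hCM
  have b1 : ∫ y, ∑ i, h i y * h i y ∂(gam d) ≤ 2 * (s * A) ^ 2 + 8 * s ^ 2 * d := by
    have c1 : ∀ y, ∑ i, h i y * h i y ≤ 2 * (s * A) ^ 2 + 8 * s ^ 2 * ‖y‖ ^ 2 := by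
      intro y
      have c2 : ∑ i, h i y * h i y = ‖fderiv ℝ f y‖ ^ 2 := by
        rw [← sum_sq_dual]
        exact Finset.sum_congr rfl fun i _ => (sq _).symm
      rw [c2, ← norm_gradient]
      have c3 := hf.toLoc.grad_le hs.le y
      have c4 := norm_nonneg (gradient f y)
      calc ‖gradient f y‖ ^ 2 ≤ (s * A + 2 * s * ‖y‖) ^ 2 := pow_le_pow_left₀ c4 c3 2
        _ ≤ _ := by nlinarith [sq_nonneg (s * A - 2 * s * ‖y‖)]
    calc ∫ y, ∑ i, h i y * h i y ∂(gam d)
        ≤ ∫ y, (2 * (s * A) ^ 2 + 8 * s ^ 2 * ‖y‖ ^ 2) ∂(gam d) :=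
          integral_mono (integrable_finsetSum _ fun i _ => q2 i)
            ((integrable_const _).add (n1.const_mul _)) c1
      _ = 2 * (s * A) ^ 2 + 8 * s ^ 2 * d := by
          rw [integral_add (integrable_const _) (n1.const_mul _),
            integral_const_mul (8 * s ^ 2) (fun y : E d => ‖y‖ ^ 2), n2]
          simp
  have b2 : ∫ y, ∑ i, ∑ j, P j (h i) y * P j (h i) y ∂(gam d) ≤ 4 * s ^ 2 * d := by
    have c1 : ∀ y, ∑ i, ∑ j, P j (h i) y * P j (h i) y ≤ 4 * s ^ 2 * d := by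
      intro y
      have c2 : ∀ i, ∑ j, P j (h i) y * P j (h i) y ≤ 4 * s ^ 2 := by
        intro i
        have c3 : ∑ j, P j (h i) y * P j (h i) y = ‖fderiv ℝ (fderiv ℝ f) y (e i)‖ ^ 2 := by
          rw [← sum_sq_dual]
          refine Finset.sum_congr rfl fun j _ => ?_
          rw [hPf2, hess_symm hf.smooth, sq]
        rw [c3]
        have c4 := hess_opnorm hf.smooth (K := 2 * s) (by positivity) y
          (fun v => hf.toLoc.abs_hess y v)
        have c5 := (fderiv ℝ (fderiv ℝ f) y).le_opNorm (e i)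
        rw [norm_e, mul_one] at c5
        calc ‖fderiv ℝ (fderiv ℝ f) y (e i)‖ ^ 2 ≤ (2 * s) ^ 2 :=
              pow_le_pow_left₀ (norm_nonneg _) (c5.trans c4) 2
          _ = 4 * s ^ 2 := by ring
      calc ∑ i, ∑ j, P j (h i) y * P j (h i) y ≤ ∑ _i : Fin d, 4 * s ^ 2 :=
            Finset.sum_le_sum fun i _ => c2 i
        _ = 4 * s ^ 2 * d := by simp [mul_comm]
    calc ∫ y, ∑ i, ∑ j, P j (h i) y * P j (h i) y ∂(gam d)
        ≤ ∫ _, 4 * s ^ 2 * d ∂(gam d) :=
          integral_mono (integrable_finsetSum _ fun i _ => integrable_finsetSum _ fun j _ => q3 i j)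
            (integrable_const _) c1
      _ = 4 * s ^ 2 * d := by simp
  have b3 : s ^ 2 * d ≤ (s * A) ^ 2 := by
    rw [mul_pow]
    exact mul_le_mul_of_nonneg_left hAd (by positivity)
  have b4 : 0 ≤ (s * A) ^ 2 := sq_nonneg _
  nlinarith

end LCS
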