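import Vale.Agent.P347.Defs

namespace LCS
namespace CM

open MeasureTheory ProbabilityTheory Set Filter
open scoped ENNReal NNReal Topology RealInnerProductSpace BigOperators ContDiff

variable {d : ℕ}

lemma finrankE : Module.finrank ℝ (E d) = d := by simp

lemma integrable_gauss (θ : ℝ) (hθ : 0 < θ) : Integrable (fun x : E d => Real.exp (-θ * ‖x‖ ^ 2)) := by
  have h := GaussianFourier.integrable_cexp_neg_mul_sq_norm_add (V := E d) (b := (θ : ℂ))
    (by simpa using hθ) 0 0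
  have h2 := h.norm
  refine h2.congr (ae_of_all _ fun x => ?_)
  simp only [inner_zero_left, Complex.ofReal_zero, mul_zero, add_zero]
  rw [Complex.norm_exp]
  congr 1
  have : (-(θ : ℂ) * (‖x‖ : ℂ) ^ 2) = ((-θ * ‖x‖ ^ 2 : ℝ) : ℂ) := by push_cast; ring
  rw [this, Complex.ofReal_re]

/-- the unnormalised density -/
noncomputable def dn (x : E d) : ℝ≥0∞ := ENNReal.ofReal (Real.exp (-‖x‖ ^ 2 / 2))

lemma meas_dn : Measurable (dn : E d → ℝ≥0∞) := by
  unfold dn; fun_prop

lemma integrable_half : Integrable (fun x : E d => Real.exp (-‖x‖ ^ 2 / 2)) := by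
  refine (integrable_gauss (1 / 2) (by norm_num)).congr (ae_of_all _ fun x => ?_)
  simp only
  congr 1; ring

lemma fin_dn : ∫⁻ x : E d, dn x < ⊤ := by
  unfold dn
  rw [← ofReal_integral_eq_lintegral_ofReal integrable_half (ae_of_all _ fun x => (Real.exp_pos _).le)]
  exact ENNReal.ofReal_lt_top

/-- the candidate -/
noncomputable def nu (d : ℕ) : Measure (E d) :=
  (ENNReal.ofReal ((2 * Real.pi) ^ (-(d : ℝ) / 2))) • volume.withDensity dn

instance : IsFiniteMeasure (nu d) := by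
  constructor
  unfold nu
  rw [Measure.smul_apply, withDensity_apply _ MeasurableSet.univ, Measure.restrict_univ, smul_eq_mul]
  exact ENNReal.mul_lt_top ENNReal.ofReal_lt_top fin_dn

lemma integral_nu {F : Type*} [NormedAddCommGroup F] [NormedSpace ℝ F] (g : E d → F) :
    ∫ x, g x ∂(nu d) = ((2 * Real.pi) ^ (-(d : ℝ) / 2)) •
      ∫ x, Real.exp (-‖x‖ ^ 2 / 2) • g x := by
  unfold nu
  rw [integral_smul_measure, ENNReal.toReal_ofReal (by positivity),
    integral_withDensity_eq_integral_toReal_smul meas_dn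
      (ae_of_all _ fun x => ENNReal.ofReal_lt_top)]
  congr 1
  refine integral_congr_ae (ae_of_all _ fun x => ?_)
  simp only [dn]
  rw [ENNReal.toReal_ofReal (Real.exp_pos _).le]

lemma gam_eq_nu : gam d = nu d := by
  refine Measure.ext_of_charFun (funext fun t => ?_)
  rw [charFun_stdGaussian, charFun_apply, integral_nu]
  have h := GaussianFourier.integral_cexp_neg_mul_sq_norm_add (V := E d) (b := ((1 / 2 : ℝ) : ℂ))
    (by simp) Complex.I t
  have h2 : (fun x : E d => Real.exp (-‖x‖ ^ 2 / 2) • Complex.exp ((⟪x, t⟫ : ℝ) * Complex.I))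
      = fun v : E d => Complex.exp (-((1 / 2 : ℝ) : ℂ) * ‖v‖ ^ 2 + Complex.I * (⟪t, v⟫ : ℝ)) := by
    funext x
    rw [Complex.real_smul, Complex.ofReal_exp, ← Complex.exp_add, real_inner_comm]
    congr 1
    push_cast
    ring
  rw [h2, h]
  rw [Complex.real_smul, finrankE]
  have h3 : ((Real.pi : ℂ) / ((1 / 2 : ℝ) : ℂ)) ^ ((d : ℂ) / 2)
      = (((2 * Real.pi) ^ ((d : ℝ) / 2) : ℝ) : ℂ) := by
    rw [Complex.ofReal_cpow (by positivity)]
    push_cast
    congr 1
    ring
  rw [h3, ← mul_assoc, ← Complex.ofReal_mul, ← Real.rpow_add (by positivity)]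
  have h4 : (-(d : ℝ) / 2 + (d : ℝ) / 2) = 0 := by ring
  rw [h4, Real.rpow_zero, Complex.ofReal_one, one_mul]
  congr 1
  rw [Complex.I_sq]
  push_cast
  ring

lemma lintegral_gam (g : E d → ℝ≥0∞) (hg : Measurable g) :
    ∫⁻ x, g x ∂(gam d) = ENNReal.ofReal ((2 * Real.pi) ^ (-(d : ℝ) / 2)) *
      ∫⁻ x, g x * dn x := by
  rw [gam_eq_nu, nu, lintegral_smul_measure, smul_eq_mul,
    lintegral_withDensity_eq_lintegral_mul _ meas_dn hg]
  congr 1
  refine lintegral_congr fun x => ?_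
  simp only [Pi.mul_apply]
  rw [mul_comm]

lemma transl (m : E d) (g : E d → ℝ≥0∞) (hg : Measurable g) :
    ∫⁻ x, g (x + m) ∂(gam d)
      = ∫⁻ x, g x * ENNReal.ofReal (Real.exp (⟪m, x⟫ - ‖m‖ ^ 2 / 2)) ∂(gam d) := by
  rw [lintegral_gam _ (by fun_prop), lintegral_gam _ (by fun_prop)]
  congr 1
  rw [← lintegral_add_right_eq_self _ (-m)]
  refine lintegral_congr fun x => ?_
  rw [neg_add_cancel_right, mul_assoc]
  congr 1
  unfold dn
  rw [← ENNReal.ofReal_mul (Real.exp_pos _).le, ← Real.exp_add]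
  congr 2
  rw [← sub_eq_add_neg, norm_sub_sq_real, real_inner_comm]
  ring

lemma expmom (θ : ℝ) (hθ : θ < 1 / 2) :
    Integrable (fun x => Real.exp (θ * ‖x‖ ^ 2)) (gam d) ∧
    ∫ x, Real.exp (θ * ‖x‖ ^ 2) ∂(gam d) = (1 - 2 * θ) ^ (-(d : ℝ) / 2) := by
  have hb : 0 < 1 / 2 - θ := by linarith
  constructor
  · refine ⟨by fun_prop, ?_⟩
    rw [hasFiniteIntegral_iff_enorm, lintegral_gam _ (by fun_prop)]
    refine ENNReal.mul_lt_top ENNReal.ofReal_lt_top ?_
    have h := (integrable_gauss (d := d) _ hb).hasFiniteIntegral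
    rw [hasFiniteIntegral_iff_enorm] at h
    refine lt_of_eq_of_lt (lintegral_congr fun x => ?_) h
    unfold dn
    rw [Real.enorm_eq_ofReal (Real.exp_pos _).le, Real.enorm_eq_ofReal (Real.exp_pos _).le,
      ← ENNReal.ofReal_mul (Real.exp_pos _).le, ← Real.exp_add]
    congr 2
    ring
  · rw [gam_eq_nu, integral_nu]
    have h2 : (fun x : E d => Real.exp (-‖x‖ ^ 2 / 2) • Real.exp (θ * ‖x‖ ^ 2))
        = fun x : E d => Real.exp (-(1 / 2 - θ) * ‖x‖ ^ 2) := by
      funext x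
      rw [smul_eq_mul, ← Real.exp_add]
      congr 1
      ring
    rw [h2, GaussianFourier.integral_rexp_neg_mul_sq_norm hb, finrankE, smul_eq_mul]
    have h5 : Real.pi / (1 / 2 - θ) = (2 * Real.pi) * (1 - 2 * θ)⁻¹ := by
      have h7 : (1 - 2 * θ) ≠ 0 := by linarith
      have h8 : (1 / 2 - θ) ≠ 0 := by linarith
      rw [← div_eq_mul_inv, div_eq_div_iff h8 h7]
      ring
    have h6 : (0 : ℝ) ≤ (1 - 2 * θ)⁻¹ := inv_nonneg.2 (by linarith)
    rw [h5, Real.mul_rpow (by positivity) h6, ← mul_assoc, ← Real.rpow_add (by positivity)]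
    have h4 : (-(d : ℝ) / 2 + (d : ℝ) / 2) = 0 := by ring
    rw [h4, Real.rpow_zero, one_mul, Real.inv_rpow (by linarith), ← Real.rpow_neg (by linarith)]
    congr 1
    ring

end CM

/-- CM -/
theorem cm : S_CM := fun _ => ⟨fun m g hg => CM.transl m g hg, CM.gam_eq_nu, fun θ hθ => CM.expmom θ hθ⟩

end LCS
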