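import Mathlib

/-!
# P347: query complexity of well-conditioned log-concave sampling: the model
-/

namespace LCS

open MeasureTheory ProbabilityTheory Set Filter
open scoped ENNReal NNReal Topology RealInnerProductSpace BigOperators ContDiff

/-- `ℝ^d` with the Euclidean norm -/
abbrev E (d : ℕ) : Type := EuclideanSpace ℝ (Fin d)

/-! ### The model -/

/-- The class `𝒱_d`: `V ∈ C²`, `V(0) = 0`, `∇V(0) = 0`, `I ≤ ∇²V ≤ 2I`. -/
structure Pot (d : ℕ) (V : E d → ℝ) : Prop where
  smooth : ContDiff ℝ 2 V
  zero : V 0 = 0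
  grad_zero : gradient V 0 = 0
  lower : ∀ x v, ‖v‖ ^ 2 ≤ fderiv ℝ (fderiv ℝ V) x v v
  upper : ∀ x v, fderiv ℝ (fderiv ℝ V) x v v ≤ 2 * ‖v‖ ^ 2

/-- The Gibbs law `Z⁻¹ exp(-V) dx`. -/
noncomputable def gibbs {d : ℕ} (V : E d → ℝ) : Measure (E d) :=
  (∫⁻ x, ENNReal.ofReal (Real.exp (-V x)))⁻¹ •
    volume.withDensity (fun x => ENNReal.ofReal (Real.exp (-V x)))

/-- Total variation distance at most `ε`. -/
def TV {X : Type*} [MeasurableSpace X] (μ ν : Measure X) (ε : ℝ) : Prop :=
  ∀ B, MeasurableSet B → |μ.real B - ν.real B| ≤ ε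

/-- A randomised adaptive algorithm with `q` first-order queries in dimension `d`: a random seed
(a random element of a standard Borel space, i.e. arbitrarily many random reals), the position of
query `k` as a measurable function of the seed and of the previous `k` answers, and the output
as a measurable function of the seed and of all answers. -/
structure Alg (d q : ℕ) where
  Ω : Type
  mΩ : MeasurableSpace Ω
  sb : StandardBorelSpace Ω
  seed : Measure Ω
  prob : IsProbabilityMeasure seed
  query : (k : Fin q) → Ω → (Fin k.val → ℝ × E d) → E d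
  query_meas : ∀ k, Measurable fun p : Ω × (Fin k.val → ℝ × E d) => query k p.1 p.2
  out : Ω → (Fin q → ℝ × E d) → E d
  out_meas : Measurable fun p : Ω × (Fin q → ℝ × E d) => out p.1 p.2

/-- The first `k` answers `(V(x), ∇V(x))` of the oracle. -/
noncomputable def Alg.ans {d q : ℕ} (A : Alg d q) (V : E d → ℝ) (r : A.Ω) :
    (k : ℕ) → k ≤ q → Fin k → ℝ × E d
  | 0, _ => fun i => i.elim0
  | k + 1, hk =>
    let prev := A.ans V r k (Nat.le_of_succ_le hk)
    let x := A.query ⟨k, hk⟩ r prev
    Fin.snoc (α := fun _ => ℝ × E d) prev (V x, gradient V x)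

/-- The law of the output. -/
noncomputable def Alg.law {d q : ℕ} (A : Alg d q) (V : E d → ℝ) : Measure (E d) :=
  letI := A.mΩ
  A.seed.map fun r => A.out r (A.ans V r q le_rfl)

/-- `q` queries suffice in dimension `d`. -/
def Suffices (d q : ℕ) : Prop := ∃ A : Alg d q, ∀ V, Pot d V → TV (A.law V) (gibbs V) (1 / 10)

/-- `Q(d)`. -/
noncomputable def Q (d : ℕ) : ℕ := sInf {q | Suffices d q}

end LCS
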