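import Mathlib
import Vale.Agent.P347.Model

/-!
# P347: the statements `S_*` of the modules. See `BLUEPRINT.md`.
-/

namespace LCS

open MeasureTheory ProbabilityTheory Set Filter
open scoped ENNReal NNReal Topology RealInnerProductSpace BigOperators ContDiff

/-! ### Gaussian objects -/

/-- standard Gaussian measure on `ℝ^d` -/
noncomputable abbrev gam (d : ℕ) : Measure (E d) := stdGaussian (E d)

/-- Mehler average `P_c g (y) = 𝔼 g(c y + √(1-c²) z)` -/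
noncomputable def Mh {d : ℕ} {F : Type*} [NormedAddCommGroup F] [NormedSpace ℝ F]
    (c : ℝ) (g : E d → F) (y : E d) : F :=
  ∫ z, g (c • y + √(1 - c ^ 2) • z) ∂(gam d)

/-- the probability measure `exp(-f) γ / Z` -/
noncomputable def loc {d : ℕ} (f : E d → ℝ) : Measure (E d) :=
  (∫⁻ y, ENNReal.ofReal (Real.exp (-f y)) ∂(gam d))⁻¹ •
    (gam d).withDensity (fun y => ENNReal.ofReal (Real.exp (-f y)))

/-- parameters of the local problem -/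
structure Par (d : ℕ) (s A : ℝ) : Prop where
  s_pos : 0 < s
  s_le : s ≤ 1 / 20
  dA : √d ≤ A
  sA : s * A ≤ 2

/-- the local potentials: `0 ≤ ∇²f ≤ 2s`, `|∇f(0)| ≤ sA` -/
structure Loc (d : ℕ) (s A : ℝ) (f : E d → ℝ) : Prop where
  smooth : ContDiff ℝ 2 f
  lower : ∀ x v, 0 ≤ fderiv ℝ (fderiv ℝ f) x v v
  upper : ∀ x v, fderiv ℝ (fderiv ℝ f) x v v ≤ 2 * s * ‖v‖ ^ 2
  grad0 : ‖gradient f 0‖ ≤ s * A

/-- smooth local potentials with bounded derivatives of order `≥ 2` -/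
structure LocS (d : ℕ) (s A : ℝ) (f : E d → ℝ) : Prop extends Loc d s A f where
  csmooth : ContDiff ℝ ∞ f
  bdd : ∀ k : ℕ, 2 ≤ k → ∃ C : ℝ, ∀ x, ‖iteratedFDeriv ℝ k f x‖ ≤ C

/-- A tower of iterated partial derivatives of at most linear growth: `G k α` is the derivative
`∂_{α 0} ⋯ ∂_{α (k-1)} g` of `g = G 0 _`. -/
structure Tower {d : ℕ} (G : (k : ℕ) → (Fin k → Fin d) → E d → ℝ) : Prop where
  deriv : ∀ (k : ℕ) (α : Fin k → Fin d) (y : E d), HasFDerivAt (G k α)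
    (∑ i : Fin d, G (k + 1) (Fin.cons i α) y • (EuclideanSpace.proj i : E d →L[ℝ] ℝ)) y
  growth : ∀ k : ℕ, ∃ C : ℝ, ∀ (α : Fin k → Fin d) (y : E d), |G k α y| ≤ C * (1 + ‖y‖)

/-- Laplacian -/
noncomputable def lap {d : ℕ} (f : E d → ℝ) (y : E d) : ℝ :=
  ∑ i : Fin d, fderiv ℝ (fderiv ℝ f) y (EuclideanSpace.single i 1) (EuclideanSpace.single i 1)

/-- A positive quadrature rule on `[-1,1]` with precision `η` for functions whose `k`-th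
derivative is bounded by `k! M (1-|x|)^{-k}`. -/
structure Rule (J : ℕ) (η : ℝ) (c w : Fin J → ℝ) : Prop where
  mem : ∀ j, c j ∈ Ioo (-1 : ℝ) 1
  pos : ∀ j, 0 < w j
  sum : ∑ j, w j = 2
  err : ∀ (M : ℝ) (ψ : ℕ → ℝ → ℝ),
    (∀ k, ∀ x ∈ Ioo (-1 : ℝ) 1, HasDerivAt (ψ k) (ψ (k + 1) x) x ∧
      |ψ k x| ≤ (k.factorial : ℝ) * M / (1 - |x|) ^ k) →
    |(∫ x in (-1 : ℝ)..1, ψ 0 x) - ∑ j, w j * ψ 0 (c j)| ≤ η * M

/-! ### Module statements: Gaussian analysis -/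

/-- TVB: from sets to `[0,1]`-valued functions. -/
def S_TVB : Prop := ∀ (X : Type) [MeasurableSpace X] (μ ν : Measure X) [IsProbabilityMeasure μ]
  [IsProbabilityMeasure ν] (ε : ℝ), TV μ ν ε → ∀ g : X → ℝ, Measurable g → (∀ x, 0 ≤ g x) →
  (∀ x, g x ≤ 1) → |(∫ x, g x ∂μ) - ∫ x, g x ∂ν| ≤ ε

/-- TVP: total variation of mixtures, from pointwise bounds. -/
def S_TVP : Prop := ∀ (X Y Y' Z : Type) [MeasurableSpace X] [MeasurableSpace Y]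
  [MeasurableSpace Y'] [MeasurableSpace Z] (μ : Measure X) (Γ : Measure Y) (Γ' : Measure Y')
  [IsProbabilityMeasure μ] [IsProbabilityMeasure Γ] [IsProbabilityMeasure Γ']
  (F : X × Y → Z) (F' : X × Y' → Z) (ε : X → ℝ), Measurable F → Measurable F' →
  Integrable ε μ → (∀ x, TV (Γ.map fun y => F (x, y)) (Γ'.map fun y => F' (x, y)) (ε x)) →
  TV ((μ.prod Γ).map F) ((μ.prod Γ').map F') (∫ x, ε x ∂μ)

/-- TVL: total variation does not increase under a random map. -/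
def S_TVL : Prop := ∀ (X Y Z : Type) [MeasurableSpace X] [MeasurableSpace Y]
  [MeasurableSpace Z] (μ μ' : Measure X) (Γ : Measure Y)
  [IsProbabilityMeasure μ] [IsProbabilityMeasure μ'] [IsProbabilityMeasure Γ]
  (F : X × Y → Z) (ε : ℝ), Measurable F → TV μ μ' ε →
  TV ((μ.prod Γ).map F) ((μ'.prod Γ).map F) ε

/-- CM: density, translation formula, exponential moment of the norm. -/
def S_CM : Prop := ∀ (d : ℕ),
  (∀ (m : E d) (g : E d → ℝ≥0∞), Measurable g →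
    ∫⁻ x, g (x + m) ∂(gam d) = ∫⁻ x, g x * ENNReal.ofReal (Real.exp (⟪m, x⟫ - ‖m‖ ^ 2 / 2)) ∂(gam d)) ∧
  gam d = (ENNReal.ofReal ((2 * Real.pi) ^ (-(d : ℝ) / 2))) •
    volume.withDensity (fun x => ENNReal.ofReal (Real.exp (-‖x‖ ^ 2 / 2))) ∧
  (∀ θ : ℝ, θ < 1 / 2 → Integrable (fun x => Real.exp (θ * ‖x‖ ^ 2)) (gam d) ∧
    ∫ x, Real.exp (θ * ‖x‖ ^ 2) ∂(gam d) = (1 - 2 * θ) ^ (-(d : ℝ) / 2))

/-- MP: Maurey-Pisier. -/
def S_MP : Prop := ∀ (G : Type) [NormedAddCommGroup G] [InnerProductSpace ℝ G]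
  [FiniteDimensional ℝ G] [MeasurableSpace G] [BorelSpace G] (F : G → ℝ), ContDiff ℝ 1 F →
  ∫⁻ y, ∫⁻ z, ENNReal.ofReal (Real.exp (F y - F z)) ∂(stdGaussian G) ∂(stdGaussian G) ≤
    ∫⁻ y, ENNReal.ofReal (Real.exp (Real.pi ^ 2 / 8 * ‖fderiv ℝ F y‖ ^ 2)) ∂(stdGaussian G)

/-- NOISE: small Lipschitz noise is absorbed by Gaussian noise. -/
def S_NOISE : Prop := ∀ (G : Type) [NormedAddCommGroup G] [InnerProductSpace ℝ G]
  [FiniteDimensional ℝ G] [MeasurableSpace G] [BorelSpace G] (d : ℕ) (F : G → E d) (L σ : ℝ),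
  1 ≤ d → ContDiff ℝ 1 F → 0 ≤ L → (∀ x, ‖fderiv ℝ F x‖ ≤ L) → 0 < σ →
  TV (((stdGaussian G).prod (gam d)).map fun q => F q.1 + σ • q.2)
    ((gam d).map fun z => (∫ x, F x ∂(stdGaussian G)) + σ • z) (4 * √d * L ^ 2 / σ ^ 2)

/-- SHIFT: absorption of a shift. -/
def S_SHIFT : Prop := ∀ (X : Type) [MeasurableSpace X] (μ : Measure X) [IsProbabilityMeasure μ]
  (d : ℕ) (F F' : X → E d) (σ : ℝ), Measurable F → Measurable F' → 0 < σ →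
  Integrable (fun x => ‖F x - F' x‖) μ →
  TV ((μ.prod (gam d)).map fun q => F q.1 + σ • q.2) ((μ.prod (gam d)).map fun q => F' q.1 + σ • q.2)
    ((∫ x, ‖F x - F' x‖ ∂μ) / σ)

/-- DENS: the local density is bounded in `L²(γ)`. -/
def S_DENS : Prop := ∃ C : ℝ, 0 < C ∧ ∀ (d : ℕ) (s A : ℝ) (f : E d → ℝ), 1 ≤ d → Par d s A →
  Loc d s A f → Integrable (fun y => Real.exp (-f y)) (gam d) ∧
    Integrable (fun y => Real.exp (-2 * f y)) (gam d) ∧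
    ∫ y, Real.exp (-2 * f y) ∂(gam d) ≤ C * (∫ y, Real.exp (-f y) ∂(gam d)) ^ 2

/-- IBP: Gaussian integration by parts. -/
def S_IBP : Prop := ∀ (d : ℕ) (g : E d → ℝ) (C : ℝ), ContDiff ℝ 1 g →
  (∀ y, |g y| + ‖fderiv ℝ g y‖ ≤ C * Real.exp (C * ‖y‖)) → ∀ v : E d,
  ∫ y, ⟪v, y⟫ * g y ∂(gam d) = ∫ y, fderiv ℝ g y v ∂(gam d)

/-- BOCH: Bochner's formula for the Gaussian measure (with the bounds inserted). -/
def S_BOCH : Prop := ∀ (d : ℕ) (s A : ℝ) (f : E d → ℝ), 1 ≤ d → Par d s A → LocS d s A f →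
  ∫ y, (lap f y - ⟪y, gradient f y⟫) ^ 2 ∂(gam d) ≤ 20 * (s * A) ^ 2

/-- OUL: the Ornstein-Uhlenbeck semigroup in `L¹(γ)`. -/
def S_OUL : Prop := ∀ (d : ℕ) (r : E d → ℝ) (C : ℝ), ContDiff ℝ 2 r →
  (∀ y, |r y| + ‖fderiv ℝ r y‖ + ‖fderiv ℝ (fderiv ℝ r) y‖ ≤ C * Real.exp (C * ‖y‖)) →
  ∀ (β : ℝ) (φ : E d → ℝ), 0 < β → β < 1 → Measurable φ → (∀ y, |φ y| ≤ 1) →
  |∫ y, r y * (Mh β φ y - φ y) ∂(gam d)| ≤
    (-Real.log β) * ∫ y, |lap r y - ⟪y, gradient r y⟫| ∂(gam d)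

/-- OU: defect of the Ornstein-Uhlenbeck kernel. -/
def S_OU : Prop := ∃ C : ℝ, 0 < C ∧ ∀ (d : ℕ) (s A β : ℝ) (f : E d → ℝ), 1 ≤ d → Par d s A →
  LocS d s A f → 1 / 2 ≤ β → β < 1 →
  TV (((loc f).prod (gam d)).map fun q => β • q.1 + √(1 - β ^ 2) • q.2) (loc f)
    (C * (1 - β) * (s * A))

/-- one rotation-kick step -/
noncomputable def kick {d : ℕ} (f : E d → ℝ) (τ : ℝ) (q : E d × E d) : E d × E d :=
  (Real.cos τ • q.1 + Real.sin τ • (q.2 - τ • gradient f q.1),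
    -Real.sin τ • q.1 + Real.cos τ • (q.2 - τ • gradient f q.1))

/-- ROT: asymptotic invariance. -/
def S_ROT : Prop := ∀ (d : ℕ) (s A : ℝ) (f : E d → ℝ), 1 ≤ d → Par d s A → Loc d s A f →
  ∀ δ : ℝ, 0 < δ → ∀ᶠ J : ℕ in atTop,
    TV (((loc f).prod (gam d)).map fun q => (((kick f (Real.pi / J))^[J]) q).1) (loc f) δ

/-- the free path version of the half turn -/
noncomputable def freeD {d : ℕ} (f : E d → ℝ) (J : ℕ) (y z : E d) : E d :=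
  (Real.pi / J) • ∑ i ∈ Finset.range J, Real.sin (i * (Real.pi / J)) •
    gradient f (Real.cos (i * (Real.pi / J)) • y + Real.sin (i * (Real.pi / J)) • z)

/-- PATH: pathwise comparison with the free path. -/
def S_PATH : Prop := ∃ C : ℝ, 0 < C ∧ ∀ (d : ℕ) (s A : ℝ) (f : E d → ℝ), 1 ≤ d → Par d s A →
  Loc d s A f → ∀ (J : ℕ), 1 ≤ J → ∀ y z : E d,
    ‖(((kick f (Real.pi / J))^[J]) (y, z)).1 - (-y - freeD f J y z)‖ ≤ C * s ^ 2 * (A + ‖y‖ + ‖z‖)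

/-- RIEM: the Riemann sums converge. -/
def S_RIEM : Prop := ∀ (d : ℕ) (s A : ℝ) (f : E d → ℝ), 1 ≤ d → Par d s A → Loc d s A f →
  ∀ y : E d, Tendsto (fun J : ℕ => ∫ z, freeD f J y z ∂(gam d)) atTop
    (𝓝 (∫ c in (-1 : ℝ)..1, Mh c (gradient f) y))

/-- QUAD: existence of quadrature rules. -/
def S_QUAD : Prop := ∀ ε : ℝ, 0 < ε → ∃ C : ℝ, ∀ η : ℝ, 0 < η → η < 1 →
  ∃ (J : ℕ) (c w : Fin J → ℝ), (J : ℝ) ≤ C * η ^ (-ε) ∧ Rule J η c w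

/-- TOW: the components of the gradient of a smooth local potential have towers. -/
def S_TOW : Prop := ∀ (d : ℕ) (s A : ℝ) (f : E d → ℝ), LocS d s A f → ∀ i : Fin d,
  ∃ G : (k : ℕ) → (Fin k → Fin d) → E d → ℝ, Tower G ∧ ∀ α, G 0 α = fun y => gradient f y i

/-- DERIV: `c ↦ ⟨g, P_c g⟩`. -/
def S_DERIV : Prop := ∀ (d : ℕ) (G : (k : ℕ) → (Fin k → Fin d) → E d → ℝ) (g : E d → ℝ),
  Tower G → (∀ α, G 0 α = g) → ∃ ψ : ℕ → ℝ → ℝ,
  (∀ x ∈ Ioo (-1 : ℝ) 1, ψ 0 x = ∫ y, g y * Mh x g y ∂(gam d)) ∧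
  ∀ k, ∀ x ∈ Ioo (-1 : ℝ) 1, HasDerivAt (ψ k) (ψ (k + 1) x) x ∧
    |ψ k x| ≤ (k.factorial : ℝ) * (∫ y, g y ^ 2 ∂(gam d)) / (1 - |x|) ^ k

/-- MQ: quadrature for the Mehler averages in `L²(γ)`. -/
def S_MQ : Prop := ∀ (d J : ℕ) (η : ℝ) (c w : Fin J → ℝ), 0 ≤ η → Rule J η c w →
  ∀ (G : (k : ℕ) → (Fin k → Fin d) → E d → ℝ) (g : E d → ℝ), Tower G → (∀ α, G 0 α = g) →
  ∫ y, ((∫ x in (-1 : ℝ)..1, Mh x g y) - ∑ j, w j * Mh (c j) g y) ^ 2 ∂(gam d) ≤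
    η ^ 2 * ∫ y, g y ^ 2 ∂(gam d)

/-- the mean of the local kernel -/
noncomputable def meanY {d J : ℕ} (β : ℝ) (c w : Fin J → ℝ) (f : E d → ℝ) (y : E d) : E d :=
  -(β • (y + ∑ j, w j • Mh (c j) (gradient f) y))

/-- the one-step error -/
noncomputable def err (d : ℕ) (s A β η : ℝ) : ℝ :=
  (1 - β) * (s * A) + s ^ 2 * A / √(1 - β ^ 2) + √d * s ^ 2 / (1 - β ^ 2)
    + η * (s * A) / √(1 - β ^ 2)

/-- LOCS: the local theorem, smooth potentials. -/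
def S_LOCS : Prop := ∃ C : ℝ, 0 < C ∧ ∀ (d J : ℕ) (s A β η : ℝ) (c w : Fin J → ℝ) (f : E d → ℝ),
  1 ≤ d → Par d s A → LocS d s A f → 1 / 2 ≤ β → β < 1 → 0 ≤ η → Rule J η c w →
  TV (((loc f).prod (gam d)).map fun q => meanY β c w f q.1 + √(1 - β ^ 2) • q.2) (loc f)
    (C * err d s A β η)

/-- LOC: the same for `C²` potentials. -/
def S_LOC : Prop := ∃ C : ℝ, 0 < C ∧ ∀ (d J : ℕ) (s A β η : ℝ) (c w : Fin J → ℝ) (f : E d → ℝ),
  1 ≤ d → Par d s A → s * A ≤ 1 → Loc d s A f → 1 / 2 ≤ β → β < 1 → 0 ≤ η → Rule J η c w →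
  TV (((loc f).prod (gam d)).map fun q => meanY β c w f q.1 + √(1 - β ^ 2) • q.2) (loc f)
    (C * err d s A β η)

/-- MOLL: mollification. -/
def S_MOLL : Prop := ∀ (d : ℕ) (s A : ℝ) (f : E d → ℝ), 0 < s → Loc d s A f → ∀ δ : ℝ, 0 < δ →
  ∃ g : E d → ℝ, LocS d s (A + δ) g ∧ ∀ x, |g x - f x| ≤ δ * (1 + ‖x‖) ∧
    ‖gradient g x - gradient f x‖ ≤ δ

/-! ### Module statements: the chain -/

/-- the stationary law of `(p, a)`: `x ~ π_V`, `a ~ γ`, `p = x + √s a` -/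
noncomputable def Pt {d : ℕ} (V : E d → ℝ) (s : ℝ) : Measure (E d × E d) :=
  ((gibbs V).prod (gam d)).map fun q => (q.1 + √s • q.2, q.2)

/-- the points where the gradient is averaged -/
noncomputable def node {d : ℕ} (V : E d → ℝ) (s c : ℝ) (p v z : E d) : E d :=
  p - √s • ((1 - c) • (√s • gradient V p) + c • v + √(1 - c ^ 2) • z)

/-- the mean of the new velocity -/
noncomputable def mean {d J : ℕ} (V : E d → ℝ) (s β : ℝ) (c w : Fin J → ℝ) (q : E d × E d) : E d :=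
  β • q.2 - √s • ((1 - β) • gradient V q.1 +
    β • ∑ j, w j • ∫ z, gradient V (node V s (c j) q.1 q.2 z) ∂(gam d))

/-- the ideal step -/
noncomputable def nstep {d J : ℕ} (V : E d → ℝ) (s β : ℝ) (c w : Fin J → ℝ)
    (q : (E d × E d) × E d) : E d × E d :=
  (q.1.1 + (2 * √s) • (mean V s β c w q.1 + √(1 - β ^ 2) • q.2),
    mean V s β c w q.1 + √(1 - β ^ 2) • q.2)

/-- the new velocity of the algorithm, with auxiliary Gaussians `ξ` -/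
noncomputable def rmean {d J : ℕ} (V : E d → ℝ) (s β : ℝ) (c w : Fin J → ℝ) (q : E d × E d)
    (ξ : Fin J → E d) : E d :=
  β • q.2 - √s • ((1 - β) • gradient V q.1 +
    β • ∑ j, w j • gradient V (node V s (c j) q.1 q.2 (ξ j)))

/-- the step of the algorithm -/
noncomputable def pstep {d J : ℕ} (V : E d → ℝ) (s β : ℝ) (c w : Fin J → ℝ)
    (q : (E d × E d) × ((Fin J → E d) × E d)) : E d × E d :=
  (q.1.1 + (2 * √s) • (rmean V s β c w q.1 q.2.1 + √(1 - β ^ 2) • q.2.2),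
    rmean V s β c w q.1 q.2.1 + √(1 - β ^ 2) • q.2.2)

/-- law of the auxiliary variables of one step -/
noncomputable def aux (d J : ℕ) : Measure ((Fin J → E d) × E d) :=
  (Measure.pi fun _ : Fin J => gam d).prod (gam d)

/-- the law of the algorithm's chain, started at `(0,0)` -/
noncomputable def chain {d J : ℕ} (V : E d → ℝ) (s β : ℝ) (c w : Fin J → ℝ) :
    ℕ → Measure (E d × E d)
  | 0 => Measure.dirac (0, 0)
  | n + 1 => ((chain V s β c w n).prod (aux d J)).map (pstep V s β c w)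

/-- LIP: Lipschitz properties of the gradient. -/
def S_LIP : Prop := ∀ (d : ℕ) (V : E d → ℝ), Pot d V →
  (∀ x y, ‖gradient V x - gradient V y‖ ≤ 2 * ‖x - y‖) ∧
  (∀ x y, ‖((2 : ℝ) • x - gradient V x) - ((2 : ℝ) • y - gradient V y)‖ ≤ ‖x - y‖) ∧
  (∀ x, ‖x‖ ^ 2 / 2 ≤ V x ∧ V x ≤ ‖x‖ ^ 2) ∧ ContDiff ℝ 1 (gradient V) ∧
  IsProbabilityMeasure (gibbs V)

/-- MOM: moments and tails of `π_V`. -/
def S_MOM : Prop := ∀ (d : ℕ) (V : E d → ℝ), 1 ≤ d → Pot d V →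
  Integrable (fun x => ‖x‖ ^ 2) (gibbs V) ∧ ∫ x, ‖x‖ ^ 2 ∂(gibbs V) ≤ 4 * d ∧
  (gibbs V).real {x | 4 * √d < ‖x‖} ≤ Real.exp (-d) ∧ (gam d).real {x | 4 * √d < ‖x‖} ≤ Real.exp (-d)

/-- INV: approximate invariance of `Pt` under the ideal step. -/
def S_INV : Prop := ∃ C : ℝ, 0 < C ∧ ∀ (d J : ℕ) (V : E d → ℝ) (s β η : ℝ) (c w : Fin J → ℝ),
  1 ≤ d → Pot d V → 0 < s → s ≤ 1 / 1000 → 100 * s * √d ≤ 1 → 1 / 2 ≤ β → β < 1 → 0 ≤ η →
  Rule J η c w →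
  TV (((Pt V s).prod (gam d)).map (nstep V s β c w)) (Pt V s)
    (C * err d s (√d) β η + 2 * Real.exp (-d))

/-- PHAT: one step of the algorithm against the ideal step, uniformly in the state. -/
def S_PHAT : Prop := ∀ (d J : ℕ) (V : E d → ℝ) (s β : ℝ) (c w : Fin J → ℝ) (q : E d × E d),
  1 ≤ d → Pot d V → 0 < s → 0 ≤ β → β < 1 → (∀ j, c j ∈ Ioo (-1 : ℝ) 1) → (∀ j, 0 < w j) →
  ∑ j, w j = 2 →
  TV ((aux d J).map fun r => pstep V s β c w (q, r)) ((gam d).map fun z => nstep V s β c w (q, z))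
    (64 * √d * s ^ 2 / (1 - β ^ 2))

/-- the twisted norm -/
noncomputable def Phi {d : ℕ} (a b : E d) : ℝ := ‖a‖ ^ 2 + ‖a + b‖ ^ 2

/-- CONTR: contraction of the ideal step, `h = 2√s`, `β = 1 - 2h`. -/
def S_CONTR : Prop := ∀ (d J : ℕ) (V : E d → ℝ) (h : ℝ) (c w : Fin J → ℝ), Pot d V → 0 < h →
  h ≤ 1 / 1000 → (∀ j, c j ∈ Ioo (-1 : ℝ) 1) → (∀ j, 0 < w j) → ∑ j, w j = 2 →
  ∀ (q q' : E d × E d) (z : E d),
    let a := nstep V (h ^ 2 / 4) (1 - 2 * h) c w (q, z)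
    let b := nstep V (h ^ 2 / 4) (1 - 2 * h) c w (q', z)
    Phi (a.1 - b.1) (a.2 - b.2) ≤ (1 - h / 2) * Phi (q.1 - q'.1) (q.2 - q'.2)

/-- REG: two ideal steps regularise. -/
def S_REG : Prop := ∃ C : ℝ, 0 < C ∧ ∀ (d J : ℕ) (V : E d → ℝ) (h : ℝ) (c w : Fin J → ℝ),
  Pot d V → 0 < h → h ≤ 1 / 1000 → (∀ j, c j ∈ Ioo (-1 : ℝ) 1) → (∀ j, 0 < w j) →
  ∑ j, w j = 2 → ∀ (q q' : E d × E d),
  TV (((gam d).prod (gam d)).map fun z => nstep V (h ^ 2 / 4) (1 - 2 * h) c w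
      (nstep V (h ^ 2 / 4) (1 - 2 * h) c w (q, z.1), z.2))
    (((gam d).prod (gam d)).map fun z => nstep V (h ^ 2 / 4) (1 - 2 * h) c w
      (nstep V (h ^ 2 / 4) (1 - 2 * h) c w (q', z.1), z.2))
    (C * (‖q.1 - q'.1‖ + ‖q.2 - q'.2‖) / h ^ 2)

/-- SUM: the law of the output of the chain. -/
def S_SUM : Prop := ∃ C : ℝ, 0 < C ∧ ∀ (d J N : ℕ) (V : E d → ℝ) (h η : ℝ) (c w : Fin J → ℝ),
  1 ≤ d → Pot d V → 0 < h → h ≤ 1 / 1000 → 100 * h ^ 2 * √d ≤ 1 → 0 ≤ η → Rule J η c w →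
  TV ((chain V (h ^ 2 / 4) (1 - 2 * h) c w (N + 2)).map fun q => q.1 - (h / 2) • q.2) (gibbs V)
    (C * ((N + 2) * (h ^ 3 * √d + η * h * √d + Real.exp (-d)) +
      √d * (1 - h / 4) ^ N / h ^ 2))

/-- ALG: the chain is an algorithm with `N (J + 1)` queries. -/
def S_ALG : Prop := ∀ (d J N : ℕ) (s β : ℝ) (c w : Fin J → ℝ), ∃ A : Alg d (N * (J + 1)),
  ∀ V, Pot d V → A.law V = (chain V s β c w N).map fun q => q.1 - √s • q.2

/-- the final theorem: `Q(d) ≤ d^{1/4+ε}` for large `d`, and `limsup log Q(d) / log d ≤ 1/4` -/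
def S_FINAL : Prop := (∀ ε : ℝ, 0 < ε → ∀ᶠ d : ℕ in atTop,
    Suffices d (Q d) ∧ (Q d : ℝ) ≤ (d : ℝ) ^ (1 / 4 + ε)) ∧
  Filter.limsup (fun d : ℕ => Real.log (Q d) / Real.log d) atTop ≤ 1 / 4

end LCS
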