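import Mathlib
import Vale.Agent.P347.Defs

/-!
# P347: basic facts on functions with bounded Hessian
-/

namespace LCS

open MeasureTheory ProbabilityTheory Set Filter
open scoped ENNReal NNReal Topology RealInnerProductSpace BigOperators ContDiff

/-- operator norm of a symmetric bilinear form -/
theorem opnorm_symm {F : Type*} [NormedAddCommGroup F] [NormedSpace ℝ F]
    (hpar : ∀ x y : F, ‖x + y‖ ^ 2 + ‖x - y‖ ^ 2 = 2 * (‖x‖ ^ 2 + ‖y‖ ^ 2))
    {B : F →L[ℝ] F →L[ℝ] ℝ} (hs : ∀ v w, B v w = B w v) {K : ℝ} (hK : 0 ≤ K)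
    (h : ∀ v, |B v v| ≤ K * ‖v‖ ^ 2) : ‖B‖ ≤ K := by
  have key : ∀ x y : F, 2 * |B x y| ≤ K * (‖x‖ ^ 2 + ‖y‖ ^ 2) := by
    intro x y
    have e : 4 * B x y = B (x + y) (x + y) - B (x - y) (x - y) := by
      simp only [map_add, map_sub, _root_.add_apply, _root_.sub_apply]
      rw [hs y x]; ring
    have h1 := h (x + y)
    have h2 := h (x - y)
    have h3 := hpar x y
    have h4 : |4 * B x y| ≤ K * ‖x + y‖ ^ 2 + K * ‖x - y‖ ^ 2 := by
      rw [e]; exact (abs_sub _ _).trans (add_le_add h1 h2)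
    rw [abs_mul, abs_of_pos (by norm_num : (0 : ℝ) < 4)] at h4
    have h5 : K * ‖x + y‖ ^ 2 + K * ‖x - y‖ ^ 2 = K * (2 * (‖x‖ ^ 2 + ‖y‖ ^ 2)) := by
      rw [← h3]; ring
    linarith
  refine ContinuousLinearMap.opNorm_le_bound₂ _ hK fun x y => ?_
  rw [Real.norm_eq_abs]
  rcases eq_or_ne x 0 with rfl | hx
  · simp
  rcases eq_or_ne y 0 with rfl | hy
  · simp
  have ha : 0 < ‖x‖ := norm_pos_iff.mpr hx
  have hb : 0 < ‖y‖ := norm_pos_iff.mpr hy
  have h1 := key ((‖x‖)⁻¹ • x) ((‖y‖)⁻¹ • y)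
  rw [norm_smul, norm_smul, norm_inv, norm_inv, norm_norm, norm_norm,
    inv_mul_cancel₀ ha.ne', inv_mul_cancel₀ hb.ne', map_smul, map_smul,
    _root_.smul_apply, smul_eq_mul, smul_eq_mul, abs_mul, abs_mul, abs_inv, abs_inv,
    abs_norm, abs_norm] at h1
  have h2 : (‖x‖)⁻¹ * ((‖y‖)⁻¹ * |B x y|) ≤ K := by nlinarith
  calc |B x y| = ‖x‖ * ‖y‖ * ((‖x‖)⁻¹ * ((‖y‖)⁻¹ * |B x y|)) := by field_simp
    _ ≤ ‖x‖ * ‖y‖ * K := mul_le_mul_of_nonneg_left h2 (by positivity)
    _ = K * ‖x‖ * ‖y‖ := by ring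

theorem hess_symm {d : ℕ} {f : E d → ℝ} (hf : ContDiff ℝ 2 f) (x v w : E d) :
    fderiv ℝ (fderiv ℝ f) x v w = fderiv ℝ (fderiv ℝ f) x w v :=
  (hf.contDiffAt (x := x)).isSymmSndFDerivAt (by simp) v w

theorem hess_opnorm {d : ℕ} {f : E d → ℝ} (hf : ContDiff ℝ 2 f) {K : ℝ} (hK : 0 ≤ K)
    (x : E d) (h : ∀ v, |fderiv ℝ (fderiv ℝ f) x v v| ≤ K * ‖v‖ ^ 2) :
    ‖fderiv ℝ (fderiv ℝ f) x‖ ≤ K := by
  refine opnorm_symm (fun x y => ?_) (hess_symm hf x) hK h
  have := parallelogram_law_with_norm ℝ x y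
  nlinarith [this]

theorem norm_gradient_sub {d : ℕ} (f : E d → ℝ) (x y : E d) :
    ‖gradient f x - gradient f y‖ = ‖fderiv ℝ f x - fderiv ℝ f y‖ := by
  rw [gradient, gradient, ← map_sub, LinearIsometryEquiv.norm_map]

theorem norm_gradient {d : ℕ} (f : E d → ℝ) (x : E d) : ‖gradient f x‖ = ‖fderiv ℝ f x‖ := by
  rw [gradient, LinearIsometryEquiv.norm_map]

theorem inner_gradient {d : ℕ} (f : E d → ℝ) (x v : E d) : ⟪gradient f x, v⟫ = fderiv ℝ f x v := by
  rw [gradient, InnerProductSpace.toDual_symm_apply]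

theorem contDiff_fderiv {d : ℕ} {f : E d → ℝ} (hf : ContDiff ℝ 2 f) : ContDiff ℝ 1 (fderiv ℝ f) :=
  hf.fderiv_right (by norm_num)

theorem contDiff_gradient {d : ℕ} {f : E d → ℝ} (hf : ContDiff ℝ 2 f) :
    ContDiff ℝ 1 (gradient f) :=
  (InnerProductSpace.toDual ℝ (E d)).symm.toContinuousLinearEquiv.contDiff.comp
    (contDiff_fderiv hf)

theorem grad_lip {d : ℕ} {f : E d → ℝ} (hf : ContDiff ℝ 2 f) {K : ℝ} (hK : 0 ≤ K)
    (h : ∀ x v, |fderiv ℝ (fderiv ℝ f) x v v| ≤ K * ‖v‖ ^ 2) (x y : E d) :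
    ‖gradient f x - gradient f y‖ ≤ K * ‖x - y‖ := by
  rw [norm_gradient_sub]
  refine Convex.norm_image_sub_le_of_norm_fderiv_le (s := Set.univ) (𝕜 := ℝ)
    (fun z _ => ((contDiff_fderiv hf).differentiable (by norm_num)).differentiableAt)
    (fun z _ => hess_opnorm hf hK z (h z)) convex_univ (Set.mem_univ y) (Set.mem_univ x)

/-- second-order lower bound along a segment -/
theorem taylor_lower {d : ℕ} {f : E d → ℝ} (hf : ContDiff ℝ 2 f) {m : ℝ}
    (h : ∀ x v, m * ‖v‖ ^ 2 ≤ fderiv ℝ (fderiv ℝ f) x v v) (x y : E d) :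
    f x + ⟪gradient f x, y - x⟫ + m / 2 * ‖y - x‖ ^ 2 ≤ f y := by
  set v := y - x with hv
  have hd1 : ∀ t : ℝ, HasDerivAt (fun t : ℝ => f (x + t • v)) (fderiv ℝ f (x + t • v) v) t := by
    intro t
    have h1 : HasFDerivAt f (fderiv ℝ f (x + t • v)) (x + t • v) :=
      (hf.differentiable (by norm_num)).differentiableAt.hasFDerivAt
    have h2 : HasDerivAt (fun t : ℝ => x + t • v) v t := by
      simpa using ((hasDerivAt_id t).smul_const v).const_add x
    exact h1.comp_hasDerivAt t h2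
  have hd2 : ∀ t : ℝ, HasDerivAt (fun t : ℝ => fderiv ℝ f (x + t • v) v)
      (fderiv ℝ (fderiv ℝ f) (x + t • v) v v) t := by
    intro t
    have h1 : HasFDerivAt (fderiv ℝ f) (fderiv ℝ (fderiv ℝ f) (x + t • v)) (x + t • v) :=
      ((contDiff_fderiv hf).differentiable (by norm_num)).differentiableAt.hasFDerivAt
    have h2 : HasDerivAt (fun t : ℝ => x + t • v) v t := by
      simpa using ((hasDerivAt_id t).smul_const v).const_add x
    have h3 := h1.comp_hasDerivAt t h2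
    exact ((ContinuousLinearMap.apply ℝ ℝ v).hasFDerivAt.comp_hasDerivAt t h3)
  -- monotonicity of the derivative minus linear part
  have m1 : ∀ t ∈ Icc (0 : ℝ) 1, fderiv ℝ f x v + m * ‖v‖ ^ 2 * t ≤ fderiv ℝ f (x + t • v) v := by
    intro t ht
    have hd : ∀ t : ℝ, HasDerivAt (fun t : ℝ => fderiv ℝ f (x + t • v) v - m * ‖v‖ ^ 2 * t)
        (fderiv ℝ (fderiv ℝ f) (x + t • v) v v - m * ‖v‖ ^ 2 * 1) t :=
      fun t => (hd2 t).sub ((hasDerivAt_id t).const_mul (m * ‖v‖ ^ 2))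
    have hmono : MonotoneOn (fun t : ℝ => fderiv ℝ f (x + t • v) v - m * ‖v‖ ^ 2 * t) (Icc 0 1) := by
      refine monotoneOn_of_deriv_nonneg (convex_Icc 0 1) ?_ ?_ ?_
      · exact fun t _ => (hd t).continuousAt.continuousWithinAt
      · exact fun t _ => (hd t).differentiableAt.differentiableWithinAt
      · intro t _
        rw [(hd t).deriv]
        have := h (x + t • v) v
        linarith
    have := hmono (left_mem_Icc.mpr zero_le_one) ht ht.1
    simp only [zero_smul, add_zero, mul_zero, sub_zero] at this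
    linarith
  have hmono2 : MonotoneOn (fun t : ℝ => f (x + t • v) - (fderiv ℝ f x v * t + m / 2 * ‖v‖ ^ 2 * t ^ 2))
      (Icc 0 1) := by
    have hd : ∀ t : ℝ, HasDerivAt (fun t : ℝ => f (x + t • v) -
        (fderiv ℝ f x v * t + m / 2 * ‖v‖ ^ 2 * t ^ 2))
        (fderiv ℝ f (x + t • v) v - (fderiv ℝ f x v * 1 + m / 2 * ‖v‖ ^ 2 * (2 * t))) t := by
      intro t
      refine (hd1 t).sub (((hasDerivAt_id t).const_mul _).add ?_)
      have := (hasDerivAt_pow 2 t).const_mul (m / 2 * ‖v‖ ^ 2)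
      simpa using this
    refine monotoneOn_of_deriv_nonneg (convex_Icc 0 1) ?_ ?_ ?_
    · exact fun t _ => (hd t).continuousAt.continuousWithinAt
    · exact fun t _ => (hd t).differentiableAt.differentiableWithinAt
    · intro t ht
      rw [interior_Icc] at ht
      rw [(hd t).deriv]
      have := m1 t ⟨ht.1.le, ht.2.le⟩
      nlinarith
  have := hmono2 (left_mem_Icc.mpr zero_le_one) (right_mem_Icc.mpr zero_le_one) zero_le_one
  simp only [zero_smul, add_zero, mul_zero, one_smul, mul_one, ne_eq, OfNat.ofNat_ne_zero,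
    not_false_eq_true, zero_pow, one_pow, sub_zero] at this
  have e : x + v = y := by rw [hv]; abel
  rw [e] at this
  rw [inner_gradient]
  linarith

theorem taylor_upper {d : ℕ} {f : E d → ℝ} (hf : ContDiff ℝ 2 f) {m : ℝ}
    (h : ∀ x v, fderiv ℝ (fderiv ℝ f) x v v ≤ m * ‖v‖ ^ 2) (x y : E d) :
    f y ≤ f x + ⟪gradient f x, y - x⟫ + m / 2 * ‖y - x‖ ^ 2 := by
  have hg : ContDiff ℝ 2 (fun z => - f z) := hf.neg
  have e1 : fderiv ℝ (fun z => - f z) = fun z => - fderiv ℝ f z := by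
    funext z; exact fderiv_fun_neg
  have e2 : ∀ z, fderiv ℝ (fderiv ℝ (fun z => - f z)) z = - fderiv ℝ (fderiv ℝ f) z := by
    intro z; rw [e1]; exact fderiv_fun_neg
  have := taylor_lower hg (m := -m) (fun z v => by
    rw [e2]
    simp only [_root_.neg_apply]
    have := h z v
    linarith) x y
  have e3 : ⟪gradient (fun z => - f z) x, y - x⟫ = - ⟪gradient f x, y - x⟫ := by
    rw [inner_gradient, inner_gradient, e1]; rfl
  rw [e3] at this
  linarith

section Local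

variable {d : ℕ} {s A : ℝ} {f : E d → ℝ}

theorem Loc.abs_hess (h : Loc d s A f) (x v : E d) :
    |fderiv ℝ (fderiv ℝ f) x v v| ≤ 2 * s * ‖v‖ ^ 2 := by
  rw [abs_of_nonneg (h.lower x v)]; exact h.upper x v

theorem Loc.grad_lip (h : Loc d s A f) (hs : 0 ≤ s) (x y : E d) :
    ‖gradient f x - gradient f y‖ ≤ 2 * s * ‖x - y‖ :=
  LCS.grad_lip h.smooth (by positivity) h.abs_hess x y

theorem Loc.grad_le (h : Loc d s A f) (hs : 0 ≤ s) (x : E d) :
    ‖gradient f x‖ ≤ s * A + 2 * s * ‖x‖ := by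
  have h1 := h.grad_lip hs x 0
  rw [sub_zero] at h1
  have h2 : ‖gradient f x‖ ≤ ‖gradient f x - gradient f 0‖ + ‖gradient f 0‖ := by
    calc ‖gradient f x‖ = ‖(gradient f x - gradient f 0) + gradient f 0‖ := by rw [sub_add_cancel]
      _ ≤ _ := norm_add_le _ _
  linarith [h.grad0]

theorem Loc.contDiff_grad (h : Loc d s A f) : ContDiff ℝ 1 (gradient f) :=
  contDiff_gradient h.smooth

theorem Loc.continuous_grad (h : Loc d s A f) : Continuous (gradient f) :=
  h.contDiff_grad.continuous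

theorem Loc.lower_le (h : Loc d s A f) (y : E d) : f 0 - s * A * ‖y‖ ≤ f y := by
  have h1 := taylor_lower h.smooth (m := 0) (fun x v => by rw [zero_mul]; exact h.lower x v) 0 y
  rw [sub_zero] at h1
  have h2 := abs_real_inner_le_norm (gradient f 0) y
  have h3 := (abs_le.mp h2).1
  have h4 : ‖gradient f 0‖ * ‖y‖ ≤ s * A * ‖y‖ :=
    mul_le_mul_of_nonneg_right h.grad0 (norm_nonneg _)
  linarith

theorem Loc.le_upper (h : Loc d s A f) (y : E d) : f y ≤ f 0 + s * A * ‖y‖ + s * ‖y‖ ^ 2 := by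
  have h1 := taylor_upper h.smooth (m := 2 * s) h.upper 0 y
  rw [sub_zero] at h1
  have h2 := abs_real_inner_le_norm (gradient f 0) y
  have h3 := (abs_le.mp h2).2
  have h4 : ‖gradient f 0‖ * ‖y‖ ≤ s * A * ‖y‖ :=
    mul_le_mul_of_nonneg_right h.grad0 (norm_nonneg _)
  linarith

end Local

end LCS
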