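import Mathlib
import Vale.Agent.P347.Defs
import Vale.Agent.P347.Base

/-!
# P347, module DENS: the local density is bounded in `L²(γ)`
-/

namespace LCS

namespace DENS

open MeasureTheory ProbabilityTheory Set Filter
open scoped ENNReal NNReal Topology RealInnerProductSpace BigOperators ContDiff

/-- `(1-x)^{-d/2} ≤ exp(5 x d / 8)` for `0 ≤ x ≤ 1/5`. -/
theorem rpow_bound {x : ℝ} (hx0 : 0 ≤ x) (hx : x ≤ 1 / 5) (d : ℕ) :
    (1 - x) ^ (-(d : ℝ) / 2) ≤ Real.exp (5 / 8 * x * d) := by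
  have hpos : 0 < 1 - x := by linarith
  rw [Real.rpow_def_of_pos hpos]
  apply Real.exp_le_exp.mpr
  have h1 : -(5 / 4 * x) ≤ Real.log (1 - x) := by
    have h2 := Real.one_sub_inv_le_log_of_pos hpos
    have h3 : -(5 / 4 * x) ≤ 1 - (1 - x)⁻¹ := by
      have h4 : (1 - x)⁻¹ ≤ 1 + 5 / 4 * x := by
        rw [inv_le_comm₀ hpos (by positivity)]
        rw [inv_le_iff_one_le_mul₀ (by positivity)]
        nlinarith
      linarith
    linarith
  have hd : (0 : ℝ) ≤ d := Nat.cast_nonneg d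
  nlinarith

theorem main (hCM : S_CM) (hMP : S_MP) (d : ℕ) (s A : ℝ) (f : E d → ℝ) (hP : Par d s A)
    (hf : Loc d s A f) :
    Integrable (fun y => Real.exp (-f y)) (gam d) ∧
    Integrable (fun y => Real.exp (-2 * f y)) (gam d) ∧
    ∫ y, Real.exp (-2 * f y) ∂(gam d) ≤ Real.exp 240 * (∫ y, Real.exp (-f y) ∂(gam d)) ^ 2 := by
  obtain ⟨-, -, hexp⟩ := hCM d
  have hs := hP.s_pos
  have hs' := hP.s_le
  have hA0 : 0 ≤ A := (Real.sqrt_nonneg _).trans hP.dA
  have hcont : Continuous f := hf.smooth.continuous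
  have hc1 : Continuous fun y => Real.exp (-f y) := Real.continuous_exp.comp hcont.neg
  have hc2 : Continuous fun y => Real.exp (-2 * f y) :=
    Real.continuous_exp.comp (continuous_const.mul hcont)
  have hc3 : Continuous fun y => Real.exp (2 * f y) :=
    Real.continuous_exp.comp (continuous_const.mul hcont)
  -- integrability of `exp (-f)`
  have hI1 : Integrable (fun y => Real.exp (-f y)) (gam d) := by
    have h1 := (hexp (1 / 4) (by norm_num)).1
    refine (h1.const_mul (Real.exp (-f 0 + (s * A) ^ 2))).mono' hc1.aestronglyMeasurable ?_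
    refine Eventually.of_forall fun y => ?_
    rw [Real.norm_eq_abs, abs_of_pos (Real.exp_pos _), ← Real.exp_add]
    apply Real.exp_le_exp.mpr
    have h2 := hf.lower_le y
    nlinarith [sq_nonneg (s * A - ‖y‖ / 2)]
  -- ENNReal versions
  set X : ℝ≥0∞ := ∫⁻ y, ENNReal.ofReal (Real.exp (-f y)) ∂(gam d) with hX
  set Y : ℝ≥0∞ := ∫⁻ y, ENNReal.ofReal (Real.exp (2 * f y)) ∂(gam d) with hY
  set W : ℝ≥0∞ := ∫⁻ y, ENNReal.ofReal (Real.exp (-2 * f y)) ∂(gam d) with hW
  -- Hoelder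
  have hH : 1 ≤ X ^ 2 * Y := by
    have hpq : Real.HolderConjugate (3 / 2) 3 := by
      rw [Real.holderConjugate_iff]; constructor <;> norm_num
    have h1 := ENNReal.lintegral_mul_le_Lp_mul_Lq (gam d) hpq
      (f := fun y => ENNReal.ofReal (Real.exp (-(2 / 3) * f y)))
      (g := fun y => ENNReal.ofReal (Real.exp (2 / 3 * f y)))
      (by fun_prop) (by fun_prop)
    have e1 : ∫⁻ y, ((fun y => ENNReal.ofReal (Real.exp (-(2 / 3) * f y))) *
        fun y => ENNReal.ofReal (Real.exp (2 / 3 * f y))) y ∂(gam d) = 1 := by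
      have : ∀ y, ((fun y => ENNReal.ofReal (Real.exp (-(2 / 3) * f y))) *
        fun y => ENNReal.ofReal (Real.exp (2 / 3 * f y))) y = 1 := by
        intro y
        simp only [Pi.mul_apply]
        rw [← ENNReal.ofReal_mul (Real.exp_pos _).le, ← Real.exp_add]
        have : -(2 / 3) * f y + 2 / 3 * f y = 0 := by ring
        rw [this, Real.exp_zero, ENNReal.ofReal_one]
      simp only [this, lintegral_one, measure_univ]
    have e2 : ∫⁻ y, ENNReal.ofReal (Real.exp (-(2 / 3) * f y)) ^ (3 / 2 : ℝ) ∂(gam d) = X := by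
      refine lintegral_congr fun y => ?_
      rw [ENNReal.ofReal_rpow_of_pos (Real.exp_pos _), ← Real.exp_mul]
      congr 2; ring
    have e3 : ∫⁻ y, ENNReal.ofReal (Real.exp (2 / 3 * f y)) ^ (3 : ℝ) ∂(gam d) = Y := by
      refine lintegral_congr fun y => ?_
      rw [ENNReal.ofReal_rpow_of_pos (Real.exp_pos _), ← Real.exp_mul]
      congr 2; ring
    rw [e1, e2, e3] at h1
    have h2 : (1 : ℝ≥0∞) ^ (3 : ℝ) ≤ (X ^ (1 / (3 / 2) : ℝ) * Y ^ (1 / 3 : ℝ)) ^ (3 : ℝ) :=
      ENNReal.rpow_le_rpow h1 (by norm_num)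
    rw [ENNReal.one_rpow, ENNReal.mul_rpow_of_nonneg _ _ (by norm_num), ← ENNReal.rpow_mul,
      ← ENNReal.rpow_mul] at h2
    have e4 : (1 / (3 / 2) * 3 : ℝ) = 2 := by norm_num
    have e5 : (1 / 3 * 3 : ℝ) = 1 := by norm_num
    rw [e4, e5, ENNReal.rpow_one, ENNReal.rpow_two] at h2
    exact h2
  -- Maurey-Pisier
  have hK : W * Y ≤ ENNReal.ofReal (Real.exp 240) := by
    have h1 := hMP (E d) (fun y => -2 * f y) (contDiff_const.mul (hf.smooth.of_le (by norm_num)))
    have e1 : ∫⁻ y, ∫⁻ z, ENNReal.ofReal (Real.exp (-2 * f y - -2 * f z)) ∂(stdGaussian (E d))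
        ∂(stdGaussian (E d)) = W * Y := by
      have : ∀ y, ∫⁻ z, ENNReal.ofReal (Real.exp (-2 * f y - -2 * f z)) ∂(stdGaussian (E d)) =
          ENNReal.ofReal (Real.exp (-2 * f y)) * Y := by
        intro y
        rw [hY, ← lintegral_const_mul _ (by fun_prop)]
        refine lintegral_congr fun z => ?_
        rw [← ENNReal.ofReal_mul (Real.exp_pos _).le, ← Real.exp_add]
        congr 2; ring
      simp only [this]
      rw [lintegral_mul_const _ (by fun_prop)]
    rw [e1] at h1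
    refine h1.trans ?_
    have hpi : Real.pi ^ 2 < 10 := by
      have := Real.pi_lt_d2
      have h0 := Real.pi_pos
      nlinarith
    have hpi0 : 0 < Real.pi ^ 2 := by positivity
    set θ : ℝ := 4 * Real.pi ^ 2 * s ^ 2 with hθ
    have hs2 : s ^ 2 ≤ 1 / 400 := by nlinarith
    have hθ0 : 0 ≤ θ := by positivity
    have hθ1 : θ ≤ 1 / 10 := by
      rw [hθ]; nlinarith [sq_nonneg s]
    have hsA0 : 0 ≤ s * A := by positivity
    have hsA2 : (s * A) ^ 2 ≤ 4 := by nlinarith [hP.sA]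
    have hpt : ∀ y : E d, Real.pi ^ 2 / 8 * ‖fderiv ℝ (fun y => -2 * f y) y‖ ^ 2 ≤
        40 + θ * ‖y‖ ^ 2 := by
      intro y
      have e2 : ‖fderiv ℝ (fun y => -2 * f y) y‖ = 2 * ‖gradient f y‖ := by
        rw [fderiv_const_mul (hf.smooth.differentiable (by norm_num) y), norm_smul, norm_gradient]
        norm_num
      rw [e2]
      have h2 := hf.grad_le hs.le y
      have h3 : (2 * ‖gradient f y‖) ^ 2 ≤ 8 * (s * A) ^ 2 + 32 * s ^ 2 * ‖y‖ ^ 2 := by
        have h4 : ‖gradient f y‖ ^ 2 ≤ (s * A + 2 * s * ‖y‖) ^ 2 :=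
          pow_le_pow_left₀ (norm_nonneg _) h2 2
        nlinarith [sq_nonneg (s * A - 2 * s * ‖y‖)]
      have h5 : Real.pi ^ 2 / 8 * (2 * ‖gradient f y‖) ^ 2 ≤
          Real.pi ^ 2 / 8 * (8 * (s * A) ^ 2 + 32 * s ^ 2 * ‖y‖ ^ 2) :=
        mul_le_mul_of_nonneg_left h3 (by positivity)
      have h6 : Real.pi ^ 2 / 8 * (8 * (s * A) ^ 2 + 32 * s ^ 2 * ‖y‖ ^ 2) =
          Real.pi ^ 2 * (s * A) ^ 2 + θ * ‖y‖ ^ 2 := by
        rw [hθ]; ring
      rw [h6] at h5
      have h7 : Real.pi ^ 2 * (s * A) ^ 2 ≤ 40 := by nlinarith [sq_nonneg (s * A)]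
      linarith
    have h3 := hexp θ (by linarith)
    calc ∫⁻ y, ENNReal.ofReal (Real.exp (Real.pi ^ 2 / 8 * ‖fderiv ℝ (fun y => -2 * f y) y‖ ^ 2))
          ∂(stdGaussian (E d))
        ≤ ∫⁻ y, ENNReal.ofReal (Real.exp 40 * Real.exp (θ * ‖y‖ ^ 2)) ∂(gam d) := by
          refine lintegral_mono fun y => ?_
          apply ENNReal.ofReal_le_ofReal
          rw [← Real.exp_add]
          exact Real.exp_le_exp.mpr (hpt y)
      _ = ENNReal.ofReal (∫ y, Real.exp 40 * Real.exp (θ * ‖y‖ ^ 2) ∂(gam d)) := by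
          rw [ofReal_integral_eq_lintegral_ofReal (h3.1.const_mul _)]
          exact Eventually.of_forall fun y => by positivity
      _ ≤ ENNReal.ofReal (Real.exp 240) := by
          apply ENNReal.ofReal_le_ofReal
          rw [integral_const_mul, h3.2]
          have h4 := rpow_bound (x := 2 * θ) (by positivity) (by linarith) d
          have h5 : 5 / 8 * (2 * θ) * d ≤ 200 := by
            have h6 : s ^ 2 * d ≤ 4 := by
              have h7 : (d : ℝ) ≤ A ^ 2 := by
                have := hP.dA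
                rw [← Real.sqrt_le_left hA0]
                exact this
              have : s ^ 2 * d ≤ s ^ 2 * A ^ 2 := mul_le_mul_of_nonneg_left h7 (by positivity)
              nlinarith
            have h8 : 5 / 8 * (2 * θ) * d = 5 * Real.pi ^ 2 * (s ^ 2 * d) := by rw [hθ]; ring
            rw [h8]
            have h9 : 0 ≤ s ^ 2 * (d : ℝ) := by positivity
            nlinarith
          calc Real.exp 40 * (1 - 2 * θ) ^ (-(d : ℝ) / 2)
              ≤ Real.exp 40 * Real.exp (5 / 8 * (2 * θ) * d) :=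
                mul_le_mul_of_nonneg_left h4 (Real.exp_pos _).le
            _ = Real.exp (40 + 5 / 8 * (2 * θ) * d) := by rw [← Real.exp_add]
            _ ≤ Real.exp 240 := Real.exp_le_exp.mpr (by linarith)
  -- conclusion
  have hWX : W ≤ ENNReal.ofReal (Real.exp 240) * X ^ 2 := by
    calc W = W * 1 := (mul_one _).symm
      _ ≤ W * (X ^ 2 * Y) := by gcongr
      _ = (W * Y) * X ^ 2 := by ring
      _ ≤ _ := by gcongr
  have hXe : X = ENNReal.ofReal (∫ y, Real.exp (-f y) ∂(gam d)) := by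
    rw [hX, ofReal_integral_eq_lintegral_ofReal hI1]
    exact Eventually.of_forall fun y => (Real.exp_pos _).le
  have hXfin : X ≠ ⊤ := by rw [hXe]; exact ENNReal.ofReal_ne_top
  have hWfin : W ≠ ⊤ := by
    refine (lt_of_le_of_lt hWX ?_).ne
    exact ENNReal.mul_lt_top ENNReal.ofReal_lt_top (ENNReal.pow_lt_top hXfin.lt_top)
  have hI2 : Integrable (fun y => Real.exp (-2 * f y)) (gam d) := by
    refine ⟨hc2.aestronglyMeasurable, ?_⟩
    rw [hasFiniteIntegral_iff_ofReal (Eventually.of_forall fun y => (Real.exp_pos _).le)]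
    exact hWfin.lt_top
  refine ⟨hI1, hI2, ?_⟩
  have hWe : W = ENNReal.ofReal (∫ y, Real.exp (-2 * f y) ∂(gam d)) := by
    rw [hW, ofReal_integral_eq_lintegral_ofReal hI2]
    exact Eventually.of_forall fun y => (Real.exp_pos _).le
  have hnn : 0 ≤ ∫ y, Real.exp (-f y) ∂(gam d) := integral_nonneg fun y => (Real.exp_pos _).le
  rw [hWe, hXe, ← ENNReal.ofReal_pow hnn, ← ENNReal.ofReal_mul (Real.exp_pos _).le] at hWX
  exact (ENNReal.ofReal_le_ofReal_iff (by positivity)).mp hWX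

end DENS

open DENS in
theorem dens (hCM : S_CM) (hMP : S_MP) : S_DENS :=
  ⟨Real.exp 240, Real.exp_pos _, fun d s A f _ hP hf => DENS.main hCM hMP d s A f hP hf⟩

end LCS
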