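import Mathlib
import Vale.Agent.P347.Defs

/-!
# P347: module DERIV
-/

namespace LCS.DERIV

open MeasureTheory ProbabilityTheory Set Filter
open scoped ENNReal NNReal Topology RealInnerProductSpace BigOperators ContDiff

/-! ### Integrability under Gaussian measures -/

section Growth

variable {G : Type*} [NormedAddCommGroup G] [NormedSpace ℝ G] [MeasurableSpace G] [BorelSpace G]
  [SecondCountableTopology G] [CompleteSpace G]

theorem int_pow (μ : Measure G) [IsGaussian μ] (k : ℕ) :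
    Integrable (fun q => (1 + ‖q‖) ^ k) μ := by
  have h : ∀ m : ℕ, Integrable (fun q : G => ‖q‖ ^ m) μ := fun m =>
    (IsGaussian.memLp_id μ (m : ℝ≥0∞) (by simp)).integrable_norm_pow'
  have h2 : (fun q : G => (1 + ‖q‖) ^ k) = fun q => ∑ m ∈ Finset.range (k + 1),
      (1 : ℝ) ^ m * ‖q‖ ^ (k - m) * (k.choose m : ℝ) := by
    funext q
    rw [add_pow]
  rw [h2]
  refine integrable_finsetSum _ fun m _ => ?_
  exact ((h (k - m)).const_mul _).mul_const _

theorem int_growth (μ : Measure G) [IsGaussian μ] {F : G → ℝ} (hF : AEStronglyMeasurable F μ)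
    (C : ℝ) (k : ℕ) (h : ∀ q, |F q| ≤ C * (1 + ‖q‖) ^ k) : Integrable F μ := by
  refine Integrable.mono' ((int_pow μ k).const_mul C) hF ?_
  exact Eventually.of_forall fun q => by simpa using h q

end Growth

variable {d : ℕ}

/-- product Gaussian measure -/
noncomputable abbrev gg (d : ℕ) : Measure (E d × E d) := (gam d).prod (gam d)

theorem rot_map (θ : ℝ) :
    (gg d).map (ContinuousLinearMap.rotation θ) = gg d :=
  IsGaussian.map_rotation_eq_self integral_id_stdGaussian θ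

theorem rot_int (θ : ℝ) (F : E d × E d → ℝ) (hF : Measurable F) :
    ∫ q, F (ContinuousLinearMap.rotation θ q) ∂(gg d) = ∫ q, F q ∂(gg d) := by
  conv_rhs => rw [← rot_map θ]
  rw [integral_map (by fun_prop) (by rw [rot_map]; exact hF.aestronglyMeasurable)]

theorem neg_map : (gam d).map (fun y => -y) = gam d :=
  stdGaussian_map (LinearIsometryEquiv.neg ℝ)

theorem neg_int (F : E d → ℝ) : ∫ y, F (-y) ∂(gam d) = ∫ y, F y ∂(gam d) := by
  have h : MeasurePreserving (fun y : E d => -y) (gam d) (gam d) := ⟨by fun_prop, neg_map⟩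
  exact h.integral_comp (MeasurableEquiv.neg (E d)).measurableEmbedding F

/-- measurable of at most linear growth -/
def Nice (g : E d → ℝ) (C : ℝ) : Prop := Measurable g ∧ 0 ≤ C ∧ ∀ y, |g y| ≤ C * (1 + ‖y‖)

theorem Nice.exists_of {g : E d → ℝ} (hg : Continuous g) {C : ℝ} (h : ∀ y, |g y| ≤ C * (1 + ‖y‖)) :
    Nice g C := by
  refine ⟨hg.measurable, ?_, h⟩
  have := h 0
  simp only [norm_zero, add_zero, mul_one] at this
  exact le_trans (abs_nonneg _) this

theorem norm_pt_le (θ : ℝ) (q : E d × E d) :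
    ‖Real.cos θ • q.1 + Real.sin θ • q.2‖ ≤ 2 * ‖q‖ := by
  have h1 : ‖q.1‖ ≤ ‖q‖ := norm_fst_le q
  have h2 : ‖q.2‖ ≤ ‖q‖ := norm_snd_le q
  have h3 := Real.abs_cos_le_one θ
  have h4 := Real.abs_sin_le_one θ
  calc ‖Real.cos θ • q.1 + Real.sin θ • q.2‖ ≤ |Real.cos θ| * ‖q.1‖ + |Real.sin θ| * ‖q.2‖ := by
        refine (norm_add_le _ _).trans ?_
        rw [norm_smul, norm_smul, Real.norm_eq_abs, Real.norm_eq_abs]
    _ ≤ 1 * ‖q‖ + 1 * ‖q‖ := by gcongr
    _ = 2 * ‖q‖ := by ring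

/-- the two point function -/
noncomputable def B (θ : ℝ) (g h : E d → ℝ) : ℝ :=
  ∫ q, g q.1 * h (Real.cos θ • q.1 + Real.sin θ • q.2) ∂(gg d)

theorem nice_pt {h : E d → ℝ} {C : ℝ} (hh : Nice h C) (θ : ℝ) (q : E d × E d) :
    |h (Real.cos θ • q.1 + Real.sin θ • q.2)| ≤ 2 * C * (1 + ‖q‖) := by
  have h1 := hh.2.2 (Real.cos θ • q.1 + Real.sin θ • q.2)
  have h2 := norm_pt_le θ q
  have h3 := hh.2.1
  have h4 := norm_nonneg q
  nlinarith

theorem nice_fst {h : E d → ℝ} {C : ℝ} (hh : Nice h C) (q : E d × E d) :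
    |h q.1| ≤ C * (1 + ‖q‖) := by
  have h1 := hh.2.2 q.1
  have h2 : ‖q.1‖ ≤ ‖q‖ := norm_fst_le q
  have h3 := hh.2.1
  nlinarith

theorem int_B {g h : E d → ℝ} {C D : ℝ} (hg : Nice g C) (hh : Nice h D) (θ : ℝ) :
    Integrable (fun q : E d × E d => g q.1 * h (Real.cos θ • q.1 + Real.sin θ • q.2)) (gg d) := by
  have m1 := hg.1
  have m2 := hh.1
  refine int_growth _ (Measurable.aestronglyMeasurable (by fun_prop)) (2 * C * D) 2 fun q => ?_
  rw [abs_mul]
  calc |g q.1| * |h (Real.cos θ • q.1 + Real.sin θ • q.2)|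
      ≤ (C * (1 + ‖q‖)) * (2 * D * (1 + ‖q‖)) := by
        have := hg.2.1
        gcongr
        · exact nice_fst hg q
        · exact nice_pt hh θ q
    _ = 2 * C * D * (1 + ‖q‖) ^ 2 := by ring

theorem B_eq_Mh {g h : E d → ℝ} {C D : ℝ} (hg : Nice g C) (hh : Nice h D) (x : ℝ)
    (hx : x ∈ Icc (-1 : ℝ) 1) :
    B (Real.arccos x) g h = ∫ y, g y * Mh x h y ∂(gam d) := by
  rw [B, integral_prod _ (int_B hg hh _)]
  refine integral_congr_ae (Eventually.of_forall fun y => ?_)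
  simp only [Mh]
  rw [← integral_const_mul]
  rw [Real.cos_arccos hx.1 hx.2, Real.sin_arccos]

/-! ### The derivative -/

/-- `g` with partial derivatives `gi` -/
structure D1 (g : E d → ℝ) (gi : Fin d → E d → ℝ) (C : ℝ) : Prop where
  deriv : ∀ y, HasFDerivAt g (∑ i, gi i y • (EuclideanSpace.proj i : E d →L[ℝ] ℝ)) y
  nice : Nice g C
  cont : ∀ i, Continuous (gi i)
  nicei : ∀ i, Nice (gi i) C

theorem D1.contDiff {g : E d → ℝ} {gi : Fin d → E d → ℝ} {C : ℝ} (h : D1 g gi C) :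
    ContDiff ℝ 1 g := by
  rw [contDiff_one_iff_fderiv]
  refine ⟨fun y => (h.deriv y).differentiableAt, ?_⟩
  have : fderiv ℝ g = fun y => ∑ i, gi i y • (EuclideanSpace.proj i : E d →L[ℝ] ℝ) := by
    funext y
    exact (h.deriv y).fderiv
  rw [this]
  have hc := h.cont
  fun_prop

theorem rotInv_eq (θ : ℝ) (q : E d × E d) :
    Real.cos θ • (ContinuousLinearMap.rotation θ q).1 - Real.sin θ • (ContinuousLinearMap.rotation θ q).2
      = q.1 := by
  rw [ContinuousLinearMap.rotation_apply]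
  have h := Real.cos_sq_add_sin_sq θ
  ext i
  simp only [PiLp.sub_apply, PiLp.smul_apply, PiLp.add_apply, smul_eq_mul]
  linear_combination (q.1 i) * h

theorem norm_pt'_le (θ : ℝ) (p w : E d) :
    ‖Real.cos θ • p - Real.sin θ • w‖ ≤ ‖p‖ + ‖w‖ := by
  have h3 := Real.abs_cos_le_one θ
  have h4 := Real.abs_sin_le_one θ
  calc ‖Real.cos θ • p - Real.sin θ • w‖ ≤ |Real.cos θ| * ‖p‖ + |Real.sin θ| * ‖w‖ := by
        refine (norm_sub_le _ _).trans ?_
        rw [norm_smul, norm_smul, Real.norm_eq_abs, Real.norm_eq_abs]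
    _ ≤ 1 * ‖p‖ + 1 * ‖w‖ := by gcongr
    _ = ‖p‖ + ‖w‖ := by ring

theorem one_add_le_exp {t : ℝ} : 1 + t ≤ Real.exp t := by
  have := Real.add_one_le_exp t
  linarith

theorem norm_proj_le (i : Fin d) : ‖(EuclideanSpace.proj i : E d →L[ℝ] ℝ)‖ ≤ 1 := by
  refine ContinuousLinearMap.opNorm_le_bound _ zero_le_one fun x => ?_
  rw [one_mul]
  exact PiLp.norm_apply_le x i

theorem ibp_w (hI : S_IBP) {g : E d → ℝ} {gi : Fin d → E d → ℝ} {C : ℝ} (hg : D1 g gi C)
    (θ : ℝ) (p v : E d) :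
    ∫ w, g (Real.cos θ • p - Real.sin θ • w) * (∑ i, v i * w i) ∂(gam d) =
      ∫ w, -Real.sin θ * ∑ i, v i * gi i (Real.cos θ • p - Real.sin θ • w) ∂(gam d) := by
  set G : E d → ℝ := fun w => g (Real.cos θ • p - Real.sin θ • w) with hG
  have hGd : ∀ w, HasFDerivAt G ((∑ i, gi i (Real.cos θ • p - Real.sin θ • w) •
      (EuclideanSpace.proj i : E d →L[ℝ] ℝ)).comp (-(Real.sin θ • ContinuousLinearMap.id ℝ (E d)))) w := by
    intro w
    have h1 : HasFDerivAt (fun w : E d => Real.cos θ • p - Real.sin θ • w)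
        (-(Real.sin θ • ContinuousLinearMap.id ℝ (E d))) w :=
      ((hasFDerivAt_id (𝕜 := ℝ) w).fun_const_smul (Real.sin θ)).const_sub (Real.cos θ • p)
    exact (hg.deriv _).comp w h1
  have hGc : ContDiff ℝ 1 G := by
    have := hg.contDiff
    fun_prop
  have hC := hg.nice.2.1
  set K : ℝ := (d + 1) * C * (1 + ‖p‖) with hK
  have hK0 : 0 ≤ K := by positivity
  have hle : ∀ w : E d, 1 + ‖Real.cos θ • p - Real.sin θ • w‖ ≤ (1 + ‖p‖) * (1 + ‖w‖) := by
    intro w
    have := norm_pt'_le θ p w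
    nlinarith [norm_nonneg p, norm_nonneg w, mul_nonneg (norm_nonneg p) (norm_nonneg w)]
  have hbd : ∀ w, |G w| + ‖fderiv ℝ G w‖ ≤ (K + 1) * Real.exp ((K + 1) * ‖w‖) := by
    intro w
    have e1 : |G w| ≤ C * ((1 + ‖p‖) * (1 + ‖w‖)) := by
      refine (hg.nice.2.2 _).trans ?_
      have := hle w
      gcongr
    have e2 : ‖fderiv ℝ G w‖ ≤ d * (C * ((1 + ‖p‖) * (1 + ‖w‖))) := by
      rw [(hGd w).fderiv]
      have hA : ‖-(Real.sin θ • ContinuousLinearMap.id ℝ (E d))‖ ≤ 1 := by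
        rw [norm_neg, norm_smul, Real.norm_eq_abs]
        have h4 := Real.abs_sin_le_one θ
        have h5 := ContinuousLinearMap.norm_id_le (𝕜 := ℝ) (E := E d)
        calc |Real.sin θ| * ‖ContinuousLinearMap.id ℝ (E d)‖ ≤ 1 * 1 := by gcongr
          _ = 1 := by ring
      have hL : ‖∑ i, gi i (Real.cos θ • p - Real.sin θ • w) •
          (EuclideanSpace.proj i : E d →L[ℝ] ℝ)‖ ≤ d * (C * ((1 + ‖p‖) * (1 + ‖w‖))) := by
        refine (norm_sum_le _ _).trans ?_
        calc ∑ i : Fin d, ‖gi i (Real.cos θ • p - Real.sin θ • w) •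
              (EuclideanSpace.proj i : E d →L[ℝ] ℝ)‖ ≤ ∑ i : Fin d, (C * ((1 + ‖p‖) * (1 + ‖w‖))) := by
              refine Finset.sum_le_sum fun i _ => ?_
              rw [norm_smul, Real.norm_eq_abs]
              have h1 := (hg.nicei i).2.2 (Real.cos θ • p - Real.sin θ • w)
              have h2 := norm_proj_le i
              have h3 := hle w
              calc |gi i (Real.cos θ • p - Real.sin θ • w)| *
                    ‖(EuclideanSpace.proj i : E d →L[ℝ] ℝ)‖
                  ≤ |gi i (Real.cos θ • p - Real.sin θ • w)| * 1 := by gcongr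
                _ ≤ C * (1 + ‖Real.cos θ • p - Real.sin θ • w‖) := by rw [mul_one]; exact h1
                _ ≤ C * ((1 + ‖p‖) * (1 + ‖w‖)) := by gcongr
          _ = d * (C * ((1 + ‖p‖) * (1 + ‖w‖))) := by simp
      refine (ContinuousLinearMap.opNorm_comp_le _ _).trans ?_
      calc _ ≤ (d * (C * ((1 + ‖p‖) * (1 + ‖w‖)))) * 1 := by gcongr
        _ = _ := by ring
    calc |G w| + ‖fderiv ℝ G w‖ ≤ C * ((1 + ‖p‖) * (1 + ‖w‖)) + d * (C * ((1 + ‖p‖) * (1 + ‖w‖))) :=
          add_le_add e1 e2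
      _ = K * (1 + ‖w‖) := by rw [hK]; ring
      _ ≤ (K + 1) * Real.exp ((K + 1) * ‖w‖) := by
          have h5 : 1 + ‖w‖ ≤ Real.exp ((K + 1) * ‖w‖) := by
            refine one_add_le_exp.trans (Real.exp_le_exp.2 ?_)
            nlinarith [norm_nonneg w]
          gcongr
          linarith
  have h := hI d G (K + 1) hGc hbd v
  have l1 : ∀ w : E d, g (Real.cos θ • p - Real.sin θ • w) * (∑ i, v i * w i) = ⟪v, w⟫ * G w := by
    intro w
    rw [PiLp.inner_apply, mul_comm]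
    congr 1
    refine Finset.sum_congr rfl fun i _ => ?_
    simp [mul_comm]
  have l2 : ∀ w : E d, -Real.sin θ * ∑ i, v i * gi i (Real.cos θ • p - Real.sin θ • w)
      = fderiv ℝ G w v := by
    intro w
    rw [(hGd w).fderiv]
    simp only [ContinuousLinearMap.comp_apply, neg_apply, smul_apply,
        ContinuousLinearMap.id_apply, map_neg, map_smul, sum_apply, smul_eq_mul]
    rw [← neg_mul]
    congr 1
    refine Finset.sum_congr rfl fun i _ => ?_
    rw [mul_comm]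
    rfl
  simp_rw [l1, l2]
  exact h

theorem norm_rot2_le (θ : ℝ) (q : E d × E d) :
    ‖(ContinuousLinearMap.rotation θ q).2‖ ≤ 2 * ‖q‖ := by
  rw [ContinuousLinearMap.rotation_apply]
  have h1 : ‖q.1‖ ≤ ‖q‖ := norm_fst_le q
  have h2 : ‖q.2‖ ≤ ‖q‖ := norm_snd_le q
  have h3 := Real.abs_cos_le_one θ
  have h4 := Real.abs_sin_le_one θ
  calc ‖-Real.sin θ • q.1 + Real.cos θ • q.2‖ ≤ |Real.sin θ| * ‖q.1‖ + |Real.cos θ| * ‖q.2‖ := by
        refine (norm_add_le _ _).trans ?_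
        rw [norm_smul, norm_smul, Real.norm_eq_abs, Real.norm_eq_abs, abs_neg]
    _ ≤ 1 * ‖q‖ + 1 * ‖q‖ := by gcongr
    _ = 2 * ‖q‖ := by ring

theorem nice_pt' {h : E d → ℝ} {C : ℝ} (hh : Nice h C) (θ : ℝ) (q : E d × E d) :
    |h (Real.cos θ • q.1 - Real.sin θ • q.2)| ≤ 2 * C * (1 + ‖q‖) := by
  have h1 := hh.2.2 (Real.cos θ • q.1 - Real.sin θ • q.2)
  have h2 := norm_pt'_le θ q.1 q.2
  have h3 := hh.2.1
  have h5 : ‖q.1‖ ≤ ‖q‖ := norm_fst_le q
  have h6 : ‖q.2‖ ≤ ‖q‖ := norm_snd_le q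
  have h7 : 1 + ‖Real.cos θ • q.1 - Real.sin θ • q.2‖ ≤ 2 * (1 + ‖q‖) := by linarith [norm_nonneg q]
  calc _ ≤ C * (1 + ‖Real.cos θ • q.1 - Real.sin θ • q.2‖) := h1
    _ ≤ C * (2 * (1 + ‖q‖)) := by gcongr
    _ = _ := by ring

/-- integral of the rotated integrand -/
theorem H_int (hI : S_IBP) {g : E d → ℝ} {gi hi : Fin d → E d → ℝ} {C D : ℝ}
    (hg : D1 g gi C) (hh : ∀ i, Nice (hi i) D) (hD : 0 ≤ D) (θ : ℝ) :
    ∫ q, g (Real.cos θ • q.1 - Real.sin θ • q.2) * ∑ i, hi i q.1 * q.2 i ∂(gg d) =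
      -Real.sin θ * ∑ i, B θ (gi i) (hi i) := by
  have hgm := hg.nice.1
  have hgim : ∀ i, Measurable (gi i) := fun i => (hg.nicei i).1
  have hhim : ∀ i, Measurable (hi i) := fun i => (hh i).1
  have hC := hg.nice.2.1
  have hi1 : Integrable (fun q : E d × E d => g (Real.cos θ • q.1 - Real.sin θ • q.2) *
      ∑ i, hi i q.1 * q.2 i) (gg d) := by
    refine int_growth _ (Measurable.aestronglyMeasurable (by fun_prop)) (2 * C * (d * D)) 3
      fun q => ?_
    rw [abs_mul]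
    have e1 := nice_pt' hg.nice θ q
    have e2 : |∑ i, hi i q.1 * q.2 i| ≤ d * D * (1 + ‖q‖) ^ 2 := by
      refine (Finset.abs_sum_le_sum_abs _ _).trans ?_
      calc ∑ i, |hi i q.1 * q.2 i| ≤ ∑ i : Fin d, D * (1 + ‖q‖) ^ 2 := by
            refine Finset.sum_le_sum fun i _ => ?_
            rw [abs_mul]
            have e3 := nice_fst (hh i) q
            have e4 : |q.2 i| ≤ 1 + ‖q‖ := by
              have e5 : |q.2 i| ≤ ‖q.2‖ := PiLp.norm_apply_le q.2 i
              have e6 : ‖q.2‖ ≤ ‖q‖ := norm_snd_le q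
              linarith
            calc |hi i q.1| * |q.2 i| ≤ (D * (1 + ‖q‖)) * (1 + ‖q‖) := by gcongr
              _ = _ := by ring
        _ = d * D * (1 + ‖q‖) ^ 2 := by simp; ring
    calc _ ≤ (2 * C * (1 + ‖q‖)) * (d * D * (1 + ‖q‖) ^ 2) := by gcongr
      _ = _ := by ring
  have hi2 : ∀ i, Integrable (fun q : E d × E d => hi i q.1 *
      gi i (Real.cos θ • q.1 - Real.sin θ • q.2)) (gg d) := by
    intro i
    have h1 := hhim i
    have h2 := hgim i
    refine int_growth _ (Measurable.aestronglyMeasurable (by fun_prop)) (2 * C * D) 2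
      fun q => ?_
    rw [abs_mul]
    have e1 := nice_pt' (hg.nicei i) θ q
    have e3 := nice_fst (hh i) q
    calc _ ≤ (D * (1 + ‖q‖)) * (2 * C * (1 + ‖q‖)) := by gcongr
      _ = _ := by ring
  have hi3 : Integrable (fun q : E d × E d => -Real.sin θ * ∑ i, hi i q.1 *
      gi i (Real.cos θ • q.1 - Real.sin θ • q.2)) (gg d) :=
    (integrable_finsetSum _ fun i _ => hi2 i).const_mul _
  rw [integral_prod _ hi1]
  have e1 : ∀ p : E d, ∫ w, g (Real.cos θ • p - Real.sin θ • w) * ∑ i, hi i p * w i ∂(gam d) =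
      ∫ w, -Real.sin θ * ∑ i, hi i p * gi i (Real.cos θ • p - Real.sin θ • w) ∂(gam d) := by
    intro p
    exact ibp_w hI hg θ p (WithLp.toLp 2 (fun i => hi i p))
  rw [integral_congr_ae (Eventually.of_forall e1)]
  have e2 := integral_prod _ hi3
  simp only at e2
  rw [← e2, integral_const_mul, integral_finsetSum _ fun i _ => hi2 i]
  congr 1
  refine Finset.sum_congr rfl fun i _ => ?_
  have h1 := hhim i
  have h2 := hgim i
  have e3 := rot_int θ (fun q : E d × E d => hi i q.1 *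
      gi i (Real.cos θ • q.1 - Real.sin θ • q.2)) (by fun_prop)
  rw [← e3, B]
  refine integral_congr_ae (Eventually.of_forall fun q => ?_)
  simp only
  rw [rotInv_eq, mul_comm]
  rfl

theorem B_deriv (hI : S_IBP) {g h : E d → ℝ} {gi hi : Fin d → E d → ℝ} {C D : ℝ}
    (hg : D1 g gi C) (hh : D1 h hi D) (θ : ℝ) :
    HasDerivAt (fun θ => B θ g h) (-Real.sin θ * ∑ i, B θ (gi i) (hi i)) θ := by
  have hgm := hg.nice.1
  have hhm := hh.nice.1
  have hgim : ∀ i, Measurable (gi i) := fun i => (hg.nicei i).1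
  have hhim : ∀ i, Measurable (hi i) := fun i => (hh.nicei i).1
  have hC := hg.nice.2.1
  have hD := hh.nice.2.1
  set F' : ℝ → E d × E d → ℝ := fun θ q => g q.1 * ∑ i, hi i (Real.cos θ • q.1 + Real.sin θ • q.2) *
    (ContinuousLinearMap.rotation θ q).2 i with hF'
  have key := hasDerivAt_integral_of_dominated_loc_of_deriv_le (μ := gg d) (x₀ := θ) (s := univ)
    (F := fun θ q => g q.1 * h (Real.cos θ • q.1 + Real.sin θ • q.2)) (F' := F')
    (bound := fun q => 4 * C * D * d * (1 + ‖q‖) ^ 3) univ_mem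
    (Eventually.of_forall fun θ => (int_B hg.nice hh.nice θ).aestronglyMeasurable)
    (int_B hg.nice hh.nice θ) ?_ ?_ ((int_pow _ 3).const_mul _) ?_
  · have h1 := key.2
    have e : ∫ q, F' θ q ∂(gg d) = -Real.sin θ * ∑ i, B θ (gi i) (hi i) := by
      set H : E d × E d → ℝ := fun q => g (Real.cos θ • q.1 - Real.sin θ • q.2) *
        ∑ i, hi i q.1 * q.2 i with hH
      have e1 : ∀ q, F' θ q = H (ContinuousLinearMap.rotation θ q) := by
        intro q
        simp only [hF', hH]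
        rw [rotInv_eq]
        rfl
      have hHm : Measurable H := by
        simp only [hH]
        fun_prop
      rw [integral_congr_ae (Eventually.of_forall e1), rot_int θ H hHm]
      exact H_int hI hg hh.nicei hD θ
    rw [e] at h1
    exact h1
  · refine Measurable.aestronglyMeasurable ?_
    simp only [hF']
    fun_prop
  · refine Eventually.of_forall fun q θ _ => ?_
    simp only [hF']
    rw [Real.norm_eq_abs, abs_mul]
    have e1 := nice_fst hg.nice q
    have e2 : |∑ i, hi i (Real.cos θ • q.1 + Real.sin θ • q.2) *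
        (ContinuousLinearMap.rotation θ q).2 i| ≤ d * (4 * D * (1 + ‖q‖) ^ 2) := by
      refine (Finset.abs_sum_le_sum_abs _ _).trans ?_
      calc _ ≤ ∑ i : Fin d, 4 * D * (1 + ‖q‖) ^ 2 := by
            refine Finset.sum_le_sum fun i _ => ?_
            rw [abs_mul]
            have e3 := nice_pt (hh.nicei i) θ q
            have e4 : |(ContinuousLinearMap.rotation θ q).2 i| ≤ 2 * (1 + ‖q‖) := by
              have e5 : |(ContinuousLinearMap.rotation θ q).2 i| ≤
                  ‖(ContinuousLinearMap.rotation θ q).2‖ := by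
                rw [← Real.norm_eq_abs]
                exact PiLp.norm_apply_le (ContinuousLinearMap.rotation θ q).2 i
              have e6 := norm_rot2_le θ q
              linarith
            calc _ ≤ (2 * D * (1 + ‖q‖)) * (2 * (1 + ‖q‖)) := by gcongr
              _ = _ := by ring
        _ = d * (4 * D * (1 + ‖q‖) ^ 2) := by simp
    calc _ ≤ (C * (1 + ‖q‖)) * (d * (4 * D * (1 + ‖q‖) ^ 2)) := by gcongr
      _ = _ := by ring
  · refine Eventually.of_forall fun q θ _ => ?_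
    have h1 : HasDerivAt (fun θ : ℝ => Real.cos θ • q.1 + Real.sin θ • q.2)
        (-Real.sin θ • q.1 + Real.cos θ • q.2) θ :=
      ((Real.hasDerivAt_cos θ).smul_const q.1).add ((Real.hasDerivAt_sin θ).smul_const q.2)
    have h2 := (hh.deriv (Real.cos θ • q.1 + Real.sin θ • q.2)).comp_hasDerivAt θ h1
    have h3 := h2.const_mul (g q.1)
    refine h3.congr_deriv ?_
    simp only [hF']
    congr 1
    simp only [sum_apply, smul_apply, smul_eq_mul]
    rfl

/-- the derivative in the variable `x = cos θ` -/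
theorem B_deriv' (hI : S_IBP) {g h : E d → ℝ} {gi hi : Fin d → E d → ℝ} {C D : ℝ}
    (hg : D1 g gi C) (hh : D1 h hi D) {x : ℝ} (hx : x ∈ Ioo (-1 : ℝ) 1) :
    HasDerivAt (fun x => B (Real.arccos x) g h) (∑ i, B (Real.arccos x) (gi i) (hi i)) x := by
  have h1 := (B_deriv hI hg hh (Real.arccos x)).comp x
    (Real.hasDerivAt_arccos (ne_of_gt hx.1) (ne_of_lt hx.2))
  refine h1.congr_deriv ?_
  have hs : (0 : ℝ) < √(1 - x ^ 2) := by
    apply Real.sqrt_pos.2
    nlinarith [hx.1, hx.2]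
  rw [Real.sin_arccos]
  field_simp

/-! ### Positivity -/

theorem nice_line {g : E d → ℝ} {C : ℝ} (hg : Nice g C) (u y : E d) {a b : ℝ} (ha : |a| ≤ 1)
    (hb : |b| ≤ 1) : |g (a • u + b • y)| ≤ C * (1 + ‖u‖) * (1 + ‖y‖) := by
  have h1 := hg.2.2 (a • u + b • y)
  have h2 : ‖a • u + b • y‖ ≤ ‖u‖ + ‖y‖ := by
    calc ‖a • u + b • y‖ ≤ |a| * ‖u‖ + |b| * ‖y‖ := by
          refine (norm_add_le _ _).trans ?_
          rw [norm_smul, norm_smul, Real.norm_eq_abs, Real.norm_eq_abs]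
      _ ≤ 1 * ‖u‖ + 1 * ‖y‖ := by gcongr
      _ = _ := by ring
  have h3 := hg.2.1
  have h4 : 1 + ‖a • u + b • y‖ ≤ (1 + ‖u‖) * (1 + ‖y‖) := by
    nlinarith [mul_nonneg (norm_nonneg u) (norm_nonneg y)]
  calc _ ≤ C * (1 + ‖a • u + b • y‖) := h1
    _ ≤ C * ((1 + ‖u‖) * (1 + ‖y‖)) := by gcongr
    _ = _ := by ring

theorem abs_sqrt_le {a : ℝ} : |√(1 - a ^ 2)| ≤ 1 := by
  rw [abs_of_nonneg (Real.sqrt_nonneg _)]
  exact Real.sqrt_le_one.2 (by nlinarith [sq_nonneg a])

theorem nice_Mh {g : E d → ℝ} {C : ℝ} (hg : Nice g C) {a : ℝ} (ha : |a| ≤ 1) :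
    Nice (Mh a g) (C * ∫ z : E d, (1 + ‖z‖) ∂(gam d)) := by
  have hm := hg.1
  have hint : Integrable (fun z : E d => 1 + ‖z‖) (gam d) := by
    have := int_pow (gam d) 1
    simpa using this
  have hpos : 0 ≤ ∫ z : E d, (1 + ‖z‖) ∂(gam d) := integral_nonneg fun z => by positivity
  refine ⟨?_, mul_nonneg hg.2.1 hpos, fun y => ?_⟩
  · have h1 : Measurable (fun q : E d × E d => g (a • q.1 + √(1 - a ^ 2) • q.2)) := by fun_prop
    exact (h1.stronglyMeasurable.integral_prod_right' (ν := gam d)).measurable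
  · rw [Mh]
    have h2 : ∀ z : E d, ‖g (a • y + √(1 - a ^ 2) • z)‖ ≤ (C * (1 + ‖y‖)) * (1 + ‖z‖) := by
      intro z
      exact nice_line hg y z ha abs_sqrt_le
    have h3 := norm_integral_le_of_norm_le (hint.const_mul (C * (1 + ‖y‖)))
      (Eventually.of_forall h2)
    rw [Real.norm_eq_abs, integral_const_mul] at h3
    linarith

theorem Mh_neg (a : ℝ) (g : E d → ℝ) (y : E d) : Mh (-a) g y = Mh a (fun u => g (-u)) y := by
  simp only [Mh, neg_sq]
  rw [← neg_int]
  refine integral_congr_ae (Eventually.of_forall fun z => ?_)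
  simp only
  congr 1
  rw [neg_add, smul_neg, neg_smul]

theorem Mh_refl (a : ℝ) (g : E d → ℝ) (y : E d) : Mh a (fun u => g (-u)) y = Mh a g (-y) := by
  simp only [Mh]
  rw [← neg_int]
  refine integral_congr_ae (Eventually.of_forall fun z => ?_)
  simp only
  congr 1
  rw [neg_add, smul_neg, smul_neg, neg_neg]

theorem B_symm {g h : E d → ℝ} {C D : ℝ} (hg : Nice g C) (hh : Nice h D) (θ : ℝ) :
    B θ g h = B θ h g := by
  have m1 := hg.1
  have m2 := hh.1
  have i1 : Integrable (fun q : E d × E d => h q.1 * g (Real.cos θ • q.1 - Real.sin θ • q.2))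
      (gg d) := by
    refine int_growth _ (Measurable.aestronglyMeasurable (by fun_prop)) (2 * C * D) 2
      fun q => ?_
    rw [abs_mul]
    have e1 := nice_pt' hg θ q
    have e3 := nice_fst hh q
    have := hh.2.1
    calc _ ≤ (D * (1 + ‖q‖)) * (2 * C * (1 + ‖q‖)) := by gcongr
      _ = _ := by ring
  have e1 : B θ g h = ∫ q, h q.1 * g (Real.cos θ • q.1 - Real.sin θ • q.2) ∂(gg d) := by
    rw [← rot_int θ _ (by fun_prop), B]
    refine integral_congr_ae (Eventually.of_forall fun q => ?_)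
    simp only
    rw [rotInv_eq, mul_comm]
    rfl
  rw [e1, integral_prod _ i1, B, integral_prod _ (int_B hh hg θ)]
  refine integral_congr_ae (Eventually.of_forall fun p => ?_)
  simp only
  rw [← neg_int]
  refine integral_congr_ae (Eventually.of_forall fun z => ?_)
  simp only
  rw [smul_neg, sub_neg_eq_add]

theorem Mh_symm {g h : E d → ℝ} {C D : ℝ} (hg : Nice g C) (hh : Nice h D) {a : ℝ}
    (ha : a ∈ Icc (-1 : ℝ) 1) :
    ∫ y, g y * Mh a h y ∂(gam d) = ∫ y, h y * Mh a g y ∂(gam d) := by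
  rw [← B_eq_Mh hg hh a ha, ← B_eq_Mh hh hg a ha, B_symm hg hh]

theorem Mh_Mh {h : E d → ℝ} {D : ℝ} (hh : Nice h D) {a : ℝ} (ha : a ∈ Icc (0 : ℝ) 1) (y : E d) :
    Mh a (Mh a h) y = Mh (a ^ 2) h y := by
  have m := hh.1
  have ha1 : |a| ≤ 1 := by rw [abs_of_nonneg ha.1]; exact ha.2
  have ha2 : |a ^ 2| ≤ 1 := by
    rw [abs_of_nonneg (by positivity)]
    exact pow_le_one₀ ha.1 ha.2
  set b := √(1 - a ^ 2) with hb
  set s := √(1 - (a ^ 2) ^ 2) with hs
  have hr : s = b * √(1 + a ^ 2) := by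
    rw [hs, hb, ← Real.sqrt_mul (by nlinarith [ha.1, ha.2])]
    congr 1
    ring
  have hpos : 0 < √(1 + a ^ 2) := Real.sqrt_pos.2 (by positivity)
  set φ := Real.arctan a with hφ
  have hc : s * Real.cos φ = b := by
    rw [hφ, Real.cos_arctan, hr]
    field_simp
  have hsn : s * Real.sin φ = a * b := by
    rw [hφ, Real.sin_arctan, hr]
    field_simp
  have e1 : ∀ q : E d × E d, h (a • (a • y + b • q.1) + b • q.2) =
      (fun q : E d × E d => h ((a ^ 2) • y + s • q.2)) (ContinuousLinearMap.rotation (-φ) q) := by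
    intro q
    simp only [ContinuousLinearMap.rotation_apply, Real.sin_neg, Real.cos_neg, neg_neg]
    congr 1
    rw [smul_add s, smul_smul s, smul_smul s, hc, hsn, smul_add, smul_smul, smul_smul, add_assoc]
    congr 2
    ring
  have i1 : Integrable (fun q : E d × E d => h (a • (a • y + b • q.1) + b • q.2)) (gg d) := by
    refine int_growth _ (Measurable.aestronglyMeasurable (by fun_prop)) (D * (1 + ‖y‖)) 2
      fun q => ?_
    have n1 := nice_line hh (a • y + b • q.1) q.2 ha1 (abs_sqrt_le (a := a))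
    have n2 : ‖a • y + b • q.1‖ ≤ ‖y‖ + ‖q‖ := by
      have h5 : ‖q.1‖ ≤ ‖q‖ := norm_fst_le q
      have h6 : |b| ≤ 1 := abs_sqrt_le
      calc ‖a • y + b • q.1‖ ≤ |a| * ‖y‖ + |b| * ‖q.1‖ := by
            refine (norm_add_le _ _).trans ?_
            rw [norm_smul, norm_smul, Real.norm_eq_abs, Real.norm_eq_abs]
        _ ≤ 1 * ‖y‖ + 1 * ‖q‖ := by gcongr
        _ = _ := by ring
    have n3 : ‖q.2‖ ≤ ‖q‖ := norm_snd_le q
    have n4 := hh.2.1
    calc _ ≤ D * (1 + ‖a • y + b • q.1‖) * (1 + ‖q.2‖) := n1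
      _ ≤ D * ((1 + ‖y‖) * (1 + ‖q‖)) * (1 + ‖q‖) := by
          have : 1 + ‖a • y + b • q.1‖ ≤ (1 + ‖y‖) * (1 + ‖q‖) := by
            nlinarith [mul_nonneg (norm_nonneg y) (norm_nonneg q)]
          gcongr
      _ = _ := by ring
  have e2 : Mh a (Mh a h) y = ∫ q, h (a • (a • y + b • q.1) + b • q.2) ∂(gg d) := by
    rw [integral_prod _ i1]
    rfl
  rw [e2, integral_congr_ae (Eventually.of_forall e1), rot_int (-φ) (fun q : E d × E d => h ((a ^ 2) • y + s • q.2)) (by fun_prop),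
    integral_fun_snd (fun z : E d => h ((a ^ 2) • y + s • z))]
  simp [Mh, hs]

/-- the positivity identity -/
theorem B_eq_sq {g h : E d → ℝ} {C D : ℝ} (hg : Nice g C) (hh : Nice h D) {x : ℝ}
    (hx : x ∈ Icc (0 : ℝ) 1) :
    ∫ y, g y * Mh x h y ∂(gam d) = ∫ y, Mh (√x) h y * Mh (√x) g y ∂(gam d) := by
  have ha : √x ∈ Icc (0 : ℝ) 1 := ⟨Real.sqrt_nonneg _, Real.sqrt_le_one.2 hx.2⟩
  have ha1 : |√x| ≤ 1 := by rw [abs_of_nonneg ha.1]; exact ha.2
  have e : ∀ y, g y * Mh x h y = g y * Mh (√x) (Mh (√x) h) y := by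
    intro y
    rw [Mh_Mh hh ha, Real.sq_sqrt hx.1]
  rw [integral_congr_ae (Eventually.of_forall e)]
  exact Mh_symm hg (nice_Mh hh ha1) ⟨by linarith [ha.1], ha.2⟩

theorem nice_mul_int {g h : E d → ℝ} {C D : ℝ} (hg : Nice g C) (hh : Nice h D) :
    Integrable (fun y => g y * h y) (gam d) := by
  have m1 := hg.1
  have m2 := hh.1
  refine int_growth _ (Measurable.aestronglyMeasurable (by fun_prop)) (C * D) 2 fun q => ?_
  rw [abs_mul]
  have h1 := hg.2.2 q
  have h2 := hh.2.2 q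
  have h3 := hg.2.1
  calc _ ≤ (C * (1 + ‖q‖)) * (D * (1 + ‖q‖)) := by gcongr
    _ = _ := by ring

theorem B_nonneg {g : E d → ℝ} {C : ℝ} (hg : Nice g C) {x : ℝ} (hx : x ∈ Icc (0 : ℝ) 1) :
    0 ≤ B (Real.arccos x) g g := by
  rw [B_eq_Mh hg hg x ⟨by linarith [hx.1], hx.2⟩, B_eq_sq hg hg hx]
  exact integral_nonneg fun y => mul_self_nonneg _

theorem Nice.neg {g : E d → ℝ} {C : ℝ} (hg : Nice g C) : Nice (fun u => g (-u)) C := by
  have m1 := hg.1
  exact ⟨by fun_prop, hg.2.1, fun y => by simpa using hg.2.2 (-y)⟩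

theorem B_neg_le {g : E d → ℝ} {C : ℝ} (hg : Nice g C) {x : ℝ} (hx : x ∈ Icc (0 : ℝ) 1) :
    |B (Real.arccos (-x)) g g| ≤ B (Real.arccos x) g g := by
  rw [B_eq_Mh hg hg x ⟨by linarith [hx.1], hx.2⟩, B_eq_Mh hg hg (-x) ⟨by linarith [hx.2], by linarith [hx.1]⟩]
  have e1 : ∀ y, g y * Mh (-x) g y = g y * Mh x (fun u => g (-u)) y := fun y => by rw [Mh_neg]
  rw [integral_congr_ae (Eventually.of_forall e1), B_eq_sq hg hg.neg hx, B_eq_sq hg hg hx]
  have ha1 : |√x| ≤ 1 := by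
    rw [abs_of_nonneg (Real.sqrt_nonneg _)]
    exact Real.sqrt_le_one.2 hx.2
  have n1 := nice_Mh hg ha1
  have n2 := nice_Mh hg.neg ha1
  set u : E d → ℝ := Mh (√x) g with hu
  have e2 : ∀ y, Mh (√x) (fun u => g (-u)) y = u (-y) := fun y => Mh_refl _ _ _
  have e3 : Mh (√x) (fun u => g (-u)) = fun y => u (-y) := funext e2
  rw [e3] at n2 ⊢
  have i1 := nice_mul_int n1 n1
  have i2 := nice_mul_int n2 n2
  have i3 := nice_mul_int n2 n1
  have h1 : |∫ y, u (-y) * u y ∂(gam d)| ≤ ∫ y, (1 / 2) * (u (-y) * u (-y)) + (1 / 2) * (u y * u y) ∂(gam d) := by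
    rw [← Real.norm_eq_abs]
    refine norm_integral_le_of_norm_le ((i2.const_mul _).add (i1.const_mul _)) ?_
    refine Eventually.of_forall fun y => ?_
    rw [Real.norm_eq_abs, abs_le]
    constructor <;> nlinarith [sq_nonneg (u (-y) - u y), sq_nonneg (u (-y) + u y)]
  refine h1.trans (le_of_eq ?_)
  rw [integral_add (i2.const_mul _) (i1.const_mul _), integral_const_mul, integral_const_mul,
    neg_int (fun y => u y * u y)]
  ring

theorem B_le {g : E d → ℝ} {C : ℝ} (hg : Nice g C) (θ : ℝ) :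
    B θ g g ≤ ∫ y, g y ^ 2 ∂(gam d) := by
  have m1 := hg.1
  have hC := hg.2.1
  have i1 : Integrable (fun q : E d × E d => g q.1 ^ 2) (gg d) := by
    refine int_growth _ (Measurable.aestronglyMeasurable (by fun_prop)) (C ^ 2) 2 fun q => ?_
    rw [abs_of_nonneg (by positivity), ← sq_abs, ← mul_pow]
    have := nice_fst hg q
    gcongr
  have i2 : Integrable (fun q : E d × E d => g (Real.cos θ • q.1 + Real.sin θ • q.2) ^ 2) (gg d) := by
    refine int_growth _ (Measurable.aestronglyMeasurable (by fun_prop)) ((2 * C) ^ 2) 2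
      fun q => ?_
    rw [abs_of_nonneg (by positivity), ← sq_abs, ← mul_pow]
    have := nice_pt hg θ q
    gcongr
  have e1 : ∫ q, g (Real.cos θ • q.1 + Real.sin θ • q.2) ^ 2 ∂(gg d) = ∫ q, g q.1 ^ 2 ∂(gg d) := by
    rw [← rot_int θ (fun q : E d × E d => g q.1 ^ 2) (by fun_prop)]
    rfl
  have e2 : ∫ q, g q.1 ^ 2 ∂(gg d) = ∫ y, g y ^ 2 ∂(gam d) := by
    rw [integral_fun_fst (fun y : E d => g y ^ 2)]
    simp
  calc B θ g g ≤ ∫ q, (1 / 2) * g q.1 ^ 2 +
        (1 / 2) * g (Real.cos θ • q.1 + Real.sin θ • q.2) ^ 2 ∂(gg d) := by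
        refine integral_mono (int_B hg hg θ) ((i1.const_mul _).add (i2.const_mul _)) fun q => ?_
        simp only
        nlinarith [sq_nonneg (g q.1 - g (Real.cos θ • q.1 + Real.sin θ • q.2))]
    _ = _ := by
        rw [integral_add (i1.const_mul _) (i2.const_mul _), integral_const_mul,
          integral_const_mul, e1, e2]
        ring

/-! ### Absolutely monotone functions -/

theorem taylor_le (ψ : ℕ → ℝ → ℝ)
    (hd : ∀ k, ∀ x ∈ Ioo (-1 : ℝ) 1, HasDerivAt (ψ k) (ψ (k + 1) x) x)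
    (hp : ∀ k, ∀ x ∈ Ico (0 : ℝ) 1, 0 ≤ ψ k x) (k : ℕ) :
    ∀ (j : ℕ) (x y : ℝ), 0 ≤ x → x ≤ y → y < 1 →
      ψ (j + k) x * (y - x) ^ k / (k.factorial : ℝ) ≤ ψ j y := by
  have mono : ∀ (F F' : ℝ → ℝ) (x y : ℝ), 0 ≤ x → x ≤ y → y < 1 →
      (∀ t ∈ Ico (0 : ℝ) 1, HasDerivAt F (F' t) t) → (∀ t, x ≤ t → t < 1 → 0 ≤ F' t) →
      F x ≤ F y := by
    intro F F' x y hx hxy hy h1 h2
    have hm : MonotoneOn F (Icc x y) := by
      refine monotoneOn_of_deriv_nonneg (convex_Icc x y) ?_ ?_ ?_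
      · intro t ht
        exact (h1 t ⟨by linarith [ht.1], by linarith [ht.2]⟩).continuousAt.continuousWithinAt
      · intro t ht
        rw [interior_Icc] at ht
        exact (h1 t ⟨by linarith [ht.1], by linarith [ht.2]⟩).differentiableAt.differentiableWithinAt
      · intro t ht
        rw [interior_Icc] at ht
        rw [(h1 t ⟨by linarith [ht.1], by linarith [ht.2]⟩).deriv]
        exact h2 t (by linarith [ht.1]) (by linarith [ht.2])
    exact hm (left_mem_Icc.2 hxy) (right_mem_Icc.2 hxy) hxy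
  induction k with
  | zero =>
    intro j x y hx hxy hy
    simp only [add_zero, pow_zero, mul_one, Nat.factorial_zero, Nat.cast_one, div_one]
    exact mono (ψ j) (ψ (j + 1)) x y hx hxy hy
      (fun t ht => hd j t ⟨by linarith [ht.1], ht.2⟩)
      (fun t h1 h2 => hp _ t ⟨by linarith, h2⟩)
  | succ k ih =>
    intro j x y hx hxy hy
    set c := ψ (j + (k + 1)) x with hc
    have hf : ((k + 1).factorial : ℝ) = (k + 1 : ℝ) * (k.factorial : ℝ) := by
      rw [Nat.factorial_succ]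
      push_cast
      ring
    have hfp : (0 : ℝ) < (k.factorial : ℝ) := by positivity
    have h := mono (fun t => ψ j t - c * (t - x) ^ (k + 1) / ((k + 1).factorial : ℝ))
      (fun t => ψ (j + 1) t - c * (t - x) ^ k / (k.factorial : ℝ)) x y hx hxy hy ?_ ?_
    · simp only [sub_self, ne_eq, Nat.add_eq_zero_iff, one_ne_zero, and_false, not_false_eq_true,
        zero_pow, mul_zero, zero_div, sub_zero] at h
      have h0 := hp j x ⟨hx, lt_of_le_of_lt hxy hy⟩
      linarith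
    · intro t ht
      have h1 := hd j t ⟨by linarith [ht.1], ht.2⟩
      have h2 : HasDerivAt (fun t : ℝ => c * (t - x) ^ (k + 1) / ((k + 1).factorial : ℝ))
          (c * (t - x) ^ k / (k.factorial : ℝ)) t := by
        have h3 := ((((hasDerivAt_id t).sub_const x).pow (k + 1)).const_mul c).div_const
          ((k + 1).factorial : ℝ)
        refine h3.congr_deriv ?_
        simp only [id, Nat.add_sub_cancel]
        rw [hf]
        push_cast
        field_simp
      exact h1.sub h2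
    · intro t ht1 ht2
      have h1 := ih (j + 1) x t hx ht1 ht2
      have h2 : j + 1 + k = j + (k + 1) := by ring
      rw [h2] at h1
      linarith

theorem taylor_bound (ψ : ℕ → ℝ → ℝ) (A : ℝ)
    (hd : ∀ k, ∀ x ∈ Ioo (-1 : ℝ) 1, HasDerivAt (ψ k) (ψ (k + 1) x) x)
    (hp : ∀ k, ∀ x ∈ Ico (0 : ℝ) 1, 0 ≤ ψ k x) (hA : ∀ x ∈ Ico (0 : ℝ) 1, ψ 0 x ≤ A) (k : ℕ)
    (x : ℝ) (hx : x ∈ Ico (0 : ℝ) 1) : ψ k x ≤ (k.factorial : ℝ) * A / (1 - x) ^ k := by
  have h1 : ∀ y ∈ Ioo x 1, ψ k x * (y - x) ^ k / (k.factorial : ℝ) ≤ A := by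
    intro y hy
    have h2 := taylor_le ψ hd hp k 0 x y hx.1 hy.1.le hy.2
    rw [zero_add] at h2
    exact h2.trans (hA y ⟨by linarith [hx.1, hy.1], hy.2⟩)
  have h3 : Tendsto (fun y : ℝ => ψ k x * (y - x) ^ k / (k.factorial : ℝ)) (𝓝[<] 1)
      (𝓝 (ψ k x * (1 - x) ^ k / (k.factorial : ℝ))) := by
    have hc : Continuous (fun y : ℝ => ψ k x * (y - x) ^ k / (k.factorial : ℝ)) := by fun_prop
    exact (hc.tendsto 1).mono_left nhdsWithin_le_nhds
  have h4 : ψ k x * (1 - x) ^ k / (k.factorial : ℝ) ≤ A := by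
    refine le_of_tendsto h3 ?_
    filter_upwards [Ioo_mem_nhdsLT hx.2] with y hy
    exact h1 y hy
  have hfp : (0 : ℝ) < (k.factorial : ℝ) := by positivity
  have hxp : (0 : ℝ) < (1 - x) ^ k := by
    have : 0 < 1 - x := by linarith [hx.2]
    positivity
  rw [le_div_iff₀ hxp]
  rw [div_le_iff₀ hfp] at h4
  linarith

/-! ### Assembly -/

theorem Nice.mono {g : E d → ℝ} {C D : ℝ} (hg : Nice g C) (h : C ≤ D) : Nice g D :=
  ⟨hg.1, hg.2.1.trans h, fun y => (hg.2.2 y).trans (by gcongr)⟩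

end LCS.DERIV

namespace LCS

open MeasureTheory ProbabilityTheory Set Filter DERIV

theorem deriv (hI : S_IBP) : S_DERIV := by
  intro d G g hG hg
  choose C hC using hG.growth
  have hcont : ∀ k α, Continuous (G k α) := fun k α =>
    continuous_iff_continuousAt.2 fun y => (hG.deriv k α y).continuousAt
  have hn : ∀ k α, Nice (G k α) (C k) := fun k α => Nice.exists_of (hcont k α) (hC k α)
  have hD : ∀ k α, D1 (G k α) (fun i => G (k + 1) (Fin.cons i α)) (max (C k) (C (k + 1))) :=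
    fun k α => ⟨hG.deriv k α, (hn k α).mono (le_max_left _ _), fun i => hcont _ _,
      fun i => (hn _ _).mono (le_max_right _ _)⟩
  have hg0 : Nice g (C 0) := by
    have := hn 0 Fin.elim0
    rwa [hg] at this
  set ψ : ℕ → ℝ → ℝ := fun k x => ∑ α : Fin k → Fin d, B (Real.arccos x) (G k α) (G k α) with hψ
  have hd : ∀ k, ∀ x ∈ Ioo (-1 : ℝ) 1, HasDerivAt (ψ k) (ψ (k + 1) x) x := by
    intro k x hx
    have h1 : HasDerivAt (ψ k) (∑ α : Fin k → Fin d, ∑ i, B (Real.arccos x)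
        (G (k + 1) (Fin.cons i α)) (G (k + 1) (Fin.cons i α))) x :=
      HasDerivAt.fun_sum fun α _ => B_deriv' hI (hD k α) (hD k α) hx
    refine h1.congr_deriv ?_
    rw [Finset.sum_comm]
    simp only [hψ]
    rw [← (Fin.consEquiv (fun _ => Fin d)).sum_comp, Fintype.sum_prod_type]
    rfl
  have hp : ∀ k, ∀ x ∈ Ico (0 : ℝ) 1, 0 ≤ ψ k x := fun k x hx =>
    Finset.sum_nonneg fun α _ => B_nonneg (hn k α) ⟨hx.1, hx.2.le⟩
  have h0 : ∀ x, ψ 0 x = B (Real.arccos x) g g := by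
    intro x
    simp only [hψ, Fintype.sum_unique, hg]
  refine ⟨ψ, fun x hx => ?_, fun k x hx => ⟨hd k x hx, ?_⟩⟩
  · rw [h0, B_eq_Mh hg0 hg0 x ⟨hx.1.le, hx.2.le⟩]
  · have hb : ∀ x ∈ Ico (0 : ℝ) 1, ψ k x ≤
        (k.factorial : ℝ) * (∫ y, g y ^ 2 ∂(gam d)) / (1 - x) ^ k :=
      fun x hx => taylor_bound ψ _ hd hp (fun x hx => by rw [h0]; exact B_le hg0 _) k x hx
    rcases le_or_gt 0 x with h | h
    · rw [abs_of_nonneg (hp k x ⟨h, hx.2⟩), abs_of_nonneg h]
      exact hb x ⟨h, hx.2⟩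
    · rw [abs_of_neg h]
      refine le_trans ?_ (hb (-x) ⟨by linarith, by linarith [hx.1]⟩)
      simp only [hψ]
      refine (Finset.abs_sum_le_sum_abs _ _).trans (Finset.sum_le_sum fun α _ => ?_)
      have := B_neg_le (hn k α) (x := -x) ⟨by linarith, by linarith [hx.1]⟩
      rwa [neg_neg] at this

end LCS
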