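import Vale.Agent.P347.TVBasic

/-!
# P347, module FINAL: `γ_* ≤ 1/4`
-/

namespace LCS

open MeasureTheory ProbabilityTheory Set Filter
open scoped ENNReal NNReal Topology RealInnerProductSpace BigOperators

namespace FINAL

/-- `x^{-y} → 0` along the naturals -/
lemma tend (y : ℝ) (hy : 0 < y) (K : ℝ) :
    Tendsto (fun d : ℕ => K * (d : ℝ) ^ (-y)) atTop (𝓝 0) := by
  have h := ((tendsto_rpow_neg_atTop hy).comp tendsto_natCast_atTop_atTop).const_mul K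
  rw [mul_zero] at h
  exact h

lemma pow_bound {h L : ℝ} (hh : 0 < h) (hh4 : h ≤ 4) (N : ℕ) (hN : 16 * L / h ≤ N) :
    (1 - h / 4) ^ N ≤ Real.exp (-(4 * L)) := by
  have h1 : (1 - h / 4) ≤ Real.exp (-(h / 4)) := by
    have := Real.add_one_le_exp (-(h / 4))
    linarith
  have h2 : (1 - h / 4) ^ N ≤ Real.exp (-(h / 4)) ^ N := pow_le_pow_left₀ (by linarith) h1 N
  refine h2.trans ?_
  rw [← Real.exp_nat_mul]
  apply Real.exp_le_exp.2
  rw [div_le_iff₀ hh] at hN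
  nlinarith

lemma exp_neg_le {x : ℝ} (hx : 0 < x) : Real.exp (-x) ≤ 2 * x ^ (-(2 : ℝ)) := by
  have h1 := Real.quadratic_le_exp_of_nonneg hx.le
  rw [Real.exp_neg, Real.rpow_neg hx.le]
  have h2 : x ^ (2 : ℝ) = x ^ 2 := by norm_cast
  rw [h2]
  have h3 : (Real.exp x)⁻¹ ≤ (x ^ 2 / 2)⁻¹ := by
    apply inv_anti₀ (by positivity)
    nlinarith
  refine h3.trans (le_of_eq ?_)
  field_simp

/-- error bound -/
lemma err_bound (ε : ℝ) (hε : 0 < ε) (hε1 : ε ≤ 1) (C : ℝ) (hC : 0 < C) :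
    ∀ᶠ d : ℕ in atTop, ∀ N : ℕ,
      (N : ℝ) ≤ 16 * Real.log d / (d : ℝ) ^ (-(1 / 4 + ε / 4)) + 1 →
      16 * Real.log d / (d : ℝ) ^ (-(1 / 4 + ε / 4)) ≤ N →
      C * (((N : ℝ) + 2) * (((d : ℝ) ^ (-(1 / 4 + ε / 4))) ^ 3 * √d
          + (1 / (d : ℝ)) * (d : ℝ) ^ (-(1 / 4 + ε / 4)) * √d + Real.exp (-d))
        + √d * (1 - (d : ℝ) ^ (-(1 / 4 + ε / 4)) / 4) ^ N / ((d : ℝ) ^ (-(1 / 4 + ε / 4))) ^ 2)
        ≤ 1 / 10 := by
  set M : ℝ := 128 / ε + 3 with hM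
  have hM0 : 0 < M := by positivity
  have t1 := tend (3 * ε / 8) (by positivity) (C * M)
  have t2 := tend (1 / 2 - ε / 8) (by linarith) (C * M)
  have t3 := tend (2 - (1 / 4 + 3 * ε / 8)) (by linarith) (C * M * 2)
  have t4 := tend (3 - ε / 2) (by linarith) C
  have t := ((t1.add t2).add t3).add t4
  simp only [add_zero] at t
  have ev := t.eventually (ge_mem_nhds (show (0 : ℝ) < 1 / 10 by norm_num))
  filter_upwards [ev, eventually_ge_atTop 1] with d hd hd1 N hN1 hN2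
  refine le_trans ?_ hd
  have hx1 : (1 : ℝ) ≤ (d : ℝ) := by exact_mod_cast hd1
  set x : ℝ := (d : ℝ) with hx
  have hx0 : 0 < x := by linarith
  set h : ℝ := x ^ (-(1 / 4 + ε / 4)) with hh
  have hh0 : 0 < h := Real.rpow_pos_of_pos hx0 _
  have hh1 : h ≤ 1 := Real.rpow_le_one_of_one_le_of_nonpos hx1 (by linarith)
  have hs : √x = x ^ (1 / 2 : ℝ) := Real.sqrt_eq_rpow x
  have hL : 16 * Real.log x / h ≤ 128 / ε * x ^ (1 / 4 + 3 * ε / 8) := by
    have h1 : Real.log x ≤ x ^ (ε / 8) / (ε / 8) := Real.log_le_rpow_div hx0.le (by positivity)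
    have h2 : 16 * Real.log x / h ≤ 16 * (x ^ (ε / 8) / (ε / 8)) / h := by
      apply div_le_div_of_nonneg_right _ hh0.le
      linarith
    refine h2.trans (le_of_eq ?_)
    have h3 : x ^ (1 / 4 + 3 * ε / 8) = x ^ (ε / 8) * x ^ (1 / 4 + ε / 4) := by
      rw [← Real.rpow_add hx0]
      congr 1
      ring
    rw [hh, Real.rpow_neg hx0.le, h3]
    field_simp
    ring
  have hNb : (N : ℝ) + 2 ≤ M * x ^ (1 / 4 + 3 * ε / 8) := by
    have h1 : (1 : ℝ) ≤ x ^ (1 / 4 + 3 * ε / 8) := Real.one_le_rpow hx1 (by positivity)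
    rw [hM]
    nlinarith
  have e1 : h ^ 3 * √x = x ^ (-(1 / 4 + 3 * ε / 4)) := by
    rw [hh, hs, ← Real.rpow_natCast, ← Real.rpow_mul hx0.le, ← Real.rpow_add hx0]
    congr 1
    push_cast
    ring
  have e2 : 1 / x * h * √x = x ^ (-(3 / 4 + ε / 4)) := by
    rw [hh, hs, one_div, ← Real.rpow_neg_one, ← Real.rpow_add hx0, ← Real.rpow_add hx0]
    congr 1
    ring
  have e3 : Real.exp (-x) ≤ 2 * x ^ (-(2 : ℝ)) := exp_neg_le hx0
  have e4 : √x * (1 - h / 4) ^ N / h ^ 2 ≤ x ^ (-(3 - ε / 2)) := by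
    have h1 := pow_bound hh0 (by linarith) N hN2
    have h2 : Real.exp (-(4 * Real.log x)) = x ^ (-(4 : ℝ)) := by
      rw [Real.rpow_def_of_pos hx0]
      congr 1
      ring
    rw [h2] at h1
    have h3 : √x * (1 - h / 4) ^ N / h ^ 2 ≤ √x * x ^ (-(4 : ℝ)) / h ^ 2 := by
      apply div_le_div_of_nonneg_right _ (by positivity)
      exact mul_le_mul_of_nonneg_left h1 (Real.sqrt_nonneg x)
    refine h3.trans (le_of_eq ?_)
    rw [div_eq_iff (by positivity), hh, hs, ← Real.rpow_natCast, ← Real.rpow_mul hx0.le,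
      ← Real.rpow_add hx0, ← Real.rpow_add hx0]
    congr 1
    push_cast
    ring
  have hA : 0 ≤ x ^ (1 / 4 + 3 * ε / 8) := by positivity
  have k : ((N : ℝ) + 2) * (h ^ 3 * √x + 1 / x * h * √x + Real.exp (-x))
      ≤ (M * x ^ (1 / 4 + 3 * ε / 8)) * (x ^ (-(1 / 4 + 3 * ε / 4)) + x ^ (-(3 / 4 + ε / 4))
        + 2 * x ^ (-(2 : ℝ))) := by
    rw [e1, e2]
    apply mul_le_mul hNb _ (by positivity) (by positivity)
    linarith
  have k2 : (M * x ^ (1 / 4 + 3 * ε / 8)) * (x ^ (-(1 / 4 + 3 * ε / 4)) + x ^ (-(3 / 4 + ε / 4))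
        + 2 * x ^ (-(2 : ℝ)))
      = M * x ^ (-(3 * ε / 8)) + M * x ^ (-(1 / 2 - ε / 8))
        + M * 2 * x ^ (-(2 - (1 / 4 + 3 * ε / 8))) := by
    have f1 : x ^ (-(3 * ε / 8)) = x ^ (1 / 4 + 3 * ε / 8) * x ^ (-(1 / 4 + 3 * ε / 4)) := by
      rw [← Real.rpow_add hx0]; congr 1; ring
    have f2 : x ^ (-(1 / 2 - ε / 8)) = x ^ (1 / 4 + 3 * ε / 8) * x ^ (-(3 / 4 + ε / 4)) := by
      rw [← Real.rpow_add hx0]; congr 1; ring
    have f3 : x ^ (-(2 - (1 / 4 + 3 * ε / 8))) = x ^ (1 / 4 + 3 * ε / 8) * x ^ (-(2 : ℝ)) := by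
      rw [← Real.rpow_add hx0]; congr 1; ring
    rw [f1, f2, f3]
    ring
  rw [k2] at k
  have := mul_le_mul_of_nonneg_left (add_le_add k e4) hC.le
  refine this.trans (le_of_eq ?_)
  ring

/-- count of the queries -/
lemma count (ε : ℝ) (hε : 0 < ε) (C : ℝ) :
    ∀ᶠ d : ℕ in atTop, ∀ N J : ℕ,
      (N : ℝ) ≤ 16 * Real.log d / (d : ℝ) ^ (-(1 / 4 + ε / 4)) + 1 →
      (J : ℝ) ≤ C * (1 / (d : ℝ)) ^ (-(ε / 4)) →
      (((N + 2) * (J + 1) : ℕ) : ℝ) ≤ (d : ℝ) ^ (1 / 4 + ε) := by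
  set M : ℝ := 128 / ε + 3 with hM
  have hM0 : 0 < M := by positivity
  have t : Tendsto (fun d : ℕ => (d : ℝ) ^ (3 * ε / 8)) atTop atTop :=
    (tendsto_rpow_atTop (by positivity)).comp tendsto_natCast_atTop_atTop
  filter_upwards [t.eventually_ge_atTop (M * (|C| + 1)), eventually_ge_atTop 1] with d hd hd1 N J hN1 hJ
  have hx1 : (1 : ℝ) ≤ (d : ℝ) := by exact_mod_cast hd1
  set x : ℝ := (d : ℝ) with hx
  have hx0 : 0 < x := by linarith
  set h : ℝ := x ^ (-(1 / 4 + ε / 4)) with hh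
  have hh0 : 0 < h := Real.rpow_pos_of_pos hx0 _
  have hL : 16 * Real.log x / h ≤ 128 / ε * x ^ (1 / 4 + 3 * ε / 8) := by
    have h1 : Real.log x ≤ x ^ (ε / 8) / (ε / 8) := Real.log_le_rpow_div hx0.le (by positivity)
    have h2 : 16 * Real.log x / h ≤ 16 * (x ^ (ε / 8) / (ε / 8)) / h := by
      apply div_le_div_of_nonneg_right _ hh0.le
      linarith
    refine h2.trans (le_of_eq ?_)
    have h3 : x ^ (1 / 4 + 3 * ε / 8) = x ^ (ε / 8) * x ^ (1 / 4 + ε / 4) := by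
      rw [← Real.rpow_add hx0]
      congr 1
      ring
    rw [hh, Real.rpow_neg hx0.le, h3]
    field_simp
    ring
  have hNb : (N : ℝ) + 2 ≤ M * x ^ (1 / 4 + 3 * ε / 8) := by
    have h1 : (1 : ℝ) ≤ x ^ (1 / 4 + 3 * ε / 8) := Real.one_le_rpow hx1 (by positivity)
    rw [hM]
    nlinarith
  have hJb : (J : ℝ) + 1 ≤ (|C| + 1) * x ^ (ε / 4) := by
    have h1 : (1 / x) ^ (-(ε / 4)) = x ^ (ε / 4) := by
      rw [one_div, Real.inv_rpow hx0.le, Real.rpow_neg hx0.le, inv_inv]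
    rw [h1] at hJ
    have h2 : (1 : ℝ) ≤ x ^ (ε / 4) := Real.one_le_rpow hx1 (by positivity)
    have h3 : C * x ^ (ε / 4) ≤ |C| * x ^ (ε / 4) :=
      mul_le_mul_of_nonneg_right (le_abs_self C) (by positivity)
    linarith
  push_cast
  calc ((N : ℝ) + 2) * ((J : ℝ) + 1) ≤ (M * x ^ (1 / 4 + 3 * ε / 8)) * ((|C| + 1) * x ^ (ε / 4)) :=
        mul_le_mul hNb hJb (by positivity) (by positivity)
    _ = (M * (|C| + 1)) * x ^ (1 / 4 + 5 * ε / 8) := by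
        have : x ^ (1 / 4 + 5 * ε / 8) = x ^ (1 / 4 + 3 * ε / 8) * x ^ (ε / 4) := by
          rw [← Real.rpow_add hx0]; congr 1; ring
        rw [this]; ring
    _ ≤ x ^ (3 * ε / 8) * x ^ (1 / 4 + 5 * ε / 8) :=
        mul_le_mul_of_nonneg_right hd (by positivity)
    _ = x ^ (1 / 4 + ε) := by
        rw [← Real.rpow_add hx0]; congr 1; ring

lemma h_small (ε : ℝ) (hε : 0 < ε) :
    ∀ᶠ d : ℕ in atTop, (d : ℝ) ^ (-(1 / 4 + ε / 4)) ≤ 1 / 1000 ∧
      100 * ((d : ℝ) ^ (-(1 / 4 + ε / 4))) ^ 2 * √d ≤ 1 := by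
  have t1 := tend (1 / 4 + ε / 4) (by positivity) 1
  have t2 := tend (ε / 2) (by positivity) 100
  simp only [one_mul] at t1
  filter_upwards [t1.eventually (ge_mem_nhds (show (0 : ℝ) < 1 / 1000 by norm_num)),
    t2.eventually (ge_mem_nhds (show (0 : ℝ) < 1 by norm_num)), eventually_ge_atTop 1]
    with d h1 h2 hd1
  refine ⟨h1, ?_⟩
  have hx0 : (0 : ℝ) < (d : ℝ) := by exact_mod_cast hd1
  refine le_trans (le_of_eq ?_) h2
  rw [Real.sqrt_eq_rpow, ← Real.rpow_natCast, ← Real.rpow_mul hx0.le, mul_assoc,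
    ← Real.rpow_add hx0]
  congr 2
  push_cast
  ring

lemma main (hSUM : S_SUM) (hALG : S_ALG) (hQUAD : S_QUAD) (ε : ℝ) (hε : 0 < ε) (hε1 : ε ≤ 1) :
    ∀ᶠ d : ℕ in atTop, ∃ q : ℕ, Suffices d q ∧ (q : ℝ) ≤ (d : ℝ) ^ (1 / 4 + ε) := by
  obtain ⟨C, hC, hsum⟩ := hSUM
  obtain ⟨C', hq⟩ := hQUAD (ε / 4) (by positivity)
  filter_upwards [err_bound ε hε hε1 C hC, count ε hε C', h_small ε hε, eventually_ge_atTop 2]
    with d h1 h2 h3 hd2
  have hx2 : (2 : ℝ) ≤ (d : ℝ) := by exact_mod_cast hd2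
  have hx0 : (0 : ℝ) < (d : ℝ) := by linarith
  set h : ℝ := (d : ℝ) ^ (-(1 / 4 + ε / 4)) with hh
  have hh0 : 0 < h := Real.rpow_pos_of_pos hx0 _
  obtain ⟨J, c, w, hJ, hR⟩ := hq (1 / (d : ℝ)) (by positivity)
    (by rw [div_lt_one hx0]; linarith)
  set N : ℕ := ⌈16 * Real.log d / h⌉₊ with hN
  have hlog : 0 ≤ Real.log d := Real.log_nonneg (by linarith)
  have hN1 : (N : ℝ) ≤ 16 * Real.log d / h + 1 := (Nat.ceil_lt_add_one (by positivity)).le
  have hN2 : 16 * Real.log d / h ≤ N := Nat.le_ceil _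
  refine ⟨(N + 2) * (J + 1), ?_, h2 N J hN1 hJ⟩
  obtain ⟨A, hA⟩ := hALG d J (N + 2) (h ^ 2 / 4) (1 - 2 * h) c w
  refine ⟨A, fun V hV => ?_⟩
  rw [hA V hV]
  have hsq : √(h ^ 2 / 4) = h / 2 := by
    rw [show h ^ 2 / 4 = (h / 2) ^ 2 by ring]
    exact Real.sqrt_sq (by positivity)
  rw [hsq]
  exact (hsum d J N V h (1 / (d : ℝ)) c w (by omega) hV hh0 h3.1 h3.2 (by positivity) hR).mono
    (h1 N hN1 hN2)

end FINAL

open FINAL in
theorem final (hSUM : S_SUM) (hALG : S_ALG) (hQUAD : S_QUAD) : S_FINAL := by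
  have key : ∀ ε : ℝ, 0 < ε → ∀ᶠ d : ℕ in atTop,
      Suffices d (Q d) ∧ (Q d : ℝ) ≤ (d : ℝ) ^ (1 / 4 + ε) := by
    intro ε hε
    filter_upwards [main hSUM hALG hQUAD (min ε 1) (by positivity) (min_le_right _ _),
      eventually_ge_atTop 1] with d hd hd1
    obtain ⟨q, hq1, hq2⟩ := hd
    have hx1 : (1 : ℝ) ≤ (d : ℝ) := by exact_mod_cast hd1
    refine ⟨Nat.sInf_mem (s := {q | Suffices d q}) ⟨q, hq1⟩, ?_⟩
    have h1 : (Q d : ℝ) ≤ (q : ℝ) := by exact_mod_cast Nat.sInf_le hq1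
    refine h1.trans (hq2.trans ?_)
    apply Real.rpow_le_rpow_of_exponent_le hx1
    have := min_le_left ε 1
    linarith
  refine ⟨key, ?_⟩
  apply le_of_forall_pos_le_add
  intro ε hε
  apply limsup_le_of_le
  · exact isCoboundedUnder_le_of_le atTop (x := 0) fun d => by
      apply div_nonneg
      · exact Real.log_natCast_nonneg _
      · exact Real.log_natCast_nonneg _
  · filter_upwards [key ε hε, eventually_ge_atTop 2] with d hd hd2
    have hx2 : (2 : ℝ) ≤ (d : ℝ) := by exact_mod_cast hd2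
    have hlog : 0 < Real.log d := Real.log_pos (by linarith)
    rw [div_le_iff₀ hlog]
    by_cases h0 : Q d = 0
    · rw [h0]
      simp only [Nat.cast_zero, Real.log_zero]
      positivity
    · have h1 : (0 : ℝ) < (Q d : ℝ) := by exact_mod_cast Nat.pos_of_ne_zero h0
      have h2 := Real.log_le_log h1 hd.2
      rwa [Real.log_rpow (by linarith)] at h2

end LCS
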