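import Vale.Agent.P347.Defs

/-!
# P347, module INV: approximate invariance of `Pt` under the ideal step
-/

namespace LCS
namespace INV

open MeasureTheory ProbabilityTheory Set Filter
open scoped ENNReal NNReal Topology RealInnerProductSpace BigOperators ContDiff

variable {d : ℕ} {V : E d → ℝ}

/-! ### The local potential at `p` -/

/-- centre of the local problem -/
noncomputable def c0 (V : E d → ℝ) (s : ℝ) (p : E d) : E d := √s • gradient V p

/-- the local potential -/
noncomputable def fp (V : E d → ℝ) (s : ℝ) (p : E d) (y : E d) : ℝ :=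
  V (p - √s • (c0 V s p + y)) + √s * ⟪gradient V p, c0 V s p + y⟫

lemma fp_smooth (hV : Pot d V) (s : ℝ) (p : E d) : ContDiff ℝ 2 (fp V s p) := by
  unfold fp
  have h1 : ContDiff ℝ 2 (fun y : E d => p - √s • (c0 V s p + y)) := by fun_prop
  have h2 : ContDiff ℝ 2 (fun y : E d => √s * innerSL ℝ (gradient V p) (c0 V s p + y)) := by
    fun_prop
  exact (hV.smooth.comp h1).add h2

lemma hasFDerivAt_V (hV : Pot d V) (x : E d) : HasFDerivAt V (fderiv ℝ V x) x :=
  ((hV.smooth.differentiable (by norm_num)) x).hasFDerivAt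

lemma hasFDerivAt_L (V : E d → ℝ) (s : ℝ) (p y : E d) :
    HasFDerivAt (fun y : E d => p - √s • (c0 V s p + y))
      ((-√s) • ContinuousLinearMap.id ℝ (E d)) y := by
  have h : HasFDerivAt (fun y : E d => p - √s • (c0 V s p + y))
      (-(√s • ContinuousLinearMap.id ℝ (E d))) y :=
    (((hasFDerivAt_id y).const_add (c0 V s p)).const_smul (√s)).const_sub p
  refine h.congr_fderiv ?_
  ext v
  simp

lemma hasFDerivAt_fp (hV : Pot d V) (s : ℝ) (p y : E d) :
    HasFDerivAt (fp V s p) ((-√s) • fderiv ℝ V (p - √s • (c0 V s p + y)) +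
      √s • innerSL ℝ (gradient V p)) y := by
  have h2 : HasFDerivAt (fun y : E d => V (p - √s • (c0 V s p + y)))
      ((fderiv ℝ V (p - √s • (c0 V s p + y))).comp ((-√s) • ContinuousLinearMap.id ℝ (E d))) y :=
    (hasFDerivAt_V hV (p - √s • (c0 V s p + y))).comp y (hasFDerivAt_L V s p y)
  have h3 : HasFDerivAt (fun y : E d => √s * innerSL ℝ (gradient V p) (c0 V s p + y))
      (√s • ((innerSL ℝ (gradient V p)).comp (ContinuousLinearMap.id ℝ (E d)))) y :=
    (((innerSL ℝ (gradient V p)).hasFDerivAt (x := c0 V s p + y)).comp y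
      ((hasFDerivAt_id y).const_add (c0 V s p))).const_mul (√s)
  have h4 : HasFDerivAt (fp V s p) _ y := h2.add h3
  refine h4.congr_fderiv ?_
  ext v
  simp

lemma fderiv_fp (hV : Pot d V) (s : ℝ) (p : E d) :
    fderiv ℝ (fp V s p) = fun y => (-√s) • fderiv ℝ V (p - √s • (c0 V s p + y)) +
      √s • innerSL ℝ (gradient V p) := by
  funext y
  exact (hasFDerivAt_fp hV s p y).fderiv

lemma hess_fp (hV : Pot d V) {s : ℝ} (hs : 0 ≤ s) (p x v : E d) :
    fderiv ℝ (fderiv ℝ (fp V s p)) x v v =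
      s * fderiv ℝ (fderiv ℝ V) (p - √s • (c0 V s p + x)) v v := by
  rw [fderiv_fp hV s p]
  have h1 := hasFDerivAt_L V s p x
  have hd : Differentiable ℝ (fderiv ℝ V) :=
    (hV.smooth.fderiv_right (m := 1) (by norm_num)).differentiable (by norm_num)
  have h2 := ((hd (p - √s • (c0 V s p + x))).hasFDerivAt.comp x h1).const_smul (-√s)
  have h3 := h2.add_const (√s • innerSL ℝ (gradient V p))
  rw [Function.comp_def] at h3
  have h4 := h3.fderiv
  have h5 : fderiv ℝ (fun y => (-√s) • fderiv ℝ V (p - √s • (c0 V s p + y)) +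
      √s • innerSL ℝ (gradient V p)) x = (-√s) • ((fderiv ℝ (fderiv ℝ V)
        (p - √s • (c0 V s p + x))).comp ((-√s) • ContinuousLinearMap.id ℝ (E d))) := h4
  rw [h5]
  simp only [smul_apply, ContinuousLinearMap.comp_apply,
    ContinuousLinearMap.id_apply, map_smul, smul_eq_mul]
  have := Real.mul_self_sqrt hs
  linear_combination (fderiv ℝ (fderiv ℝ V) (p - √s • (c0 V s p + x)) v v) * this

lemma grad_fp (hV : Pot d V) (s : ℝ) (p y : E d) :
    gradient (fp V s p) y = √s • (gradient V p - gradient V (p - √s • (c0 V s p + y))) := by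
  refine ext_inner_right ℝ fun v => ?_
  have h1 : ∀ (g : E d → ℝ) (x v : E d), ⟪gradient g x, v⟫ = fderiv ℝ g x v := by
    intro g x v
    simp [gradient]
  rw [h1, fderiv_fp hV s p]
  simp only [add_apply, smul_apply, smul_eq_mul,
    innerSL_apply_apply, inner_smul_left, inner_sub_left, h1]
  simp
  ring

lemma loc_fp (hLIP : S_LIP) (hV : Pot d V) {s : ℝ} (hs : 0 < s) (hs1 : s ≤ 1 / 1000) {p : E d}
    (hp : ‖p‖ ≤ 8 * √d) : Loc d s (2 * √d) (fp V s p) := by
  obtain ⟨l1, -, -, -, -⟩ := hLIP d V hV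
  refine ⟨fp_smooth hV s p, fun x v => ?_, fun x v => ?_, ?_⟩
  · rw [hess_fp hV hs.le]
    have := hV.lower (p - √s • (c0 V s p + x)) v
    have h2 := sq_nonneg ‖v‖
    exact mul_nonneg hs.le (h2.trans this)
  · rw [hess_fp hV hs.le]
    have := hV.upper (p - √s • (c0 V s p + x)) v
    nlinarith
  · rw [grad_fp hV, norm_smul, Real.norm_of_nonneg (Real.sqrt_nonneg s), add_zero]
    have h1 := l1 p (p - √s • c0 V s p)
    rw [sub_sub_cancel, norm_smul, Real.norm_of_nonneg (Real.sqrt_nonneg s)] at h1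
    have h2 : ‖c0 V s p‖ ≤ √s * (2 * ‖p‖) := by
      unfold c0
      rw [norm_smul, Real.norm_of_nonneg (Real.sqrt_nonneg s)]
      have h3 := l1 p 0
      rw [hV.grad_zero, sub_zero, sub_zero] at h3
      gcongr
    have hss : √s * √s = s := Real.mul_self_sqrt hs.le
    have hs0 : 0 ≤ √s := Real.sqrt_nonneg s
    have hsq : √s ≤ 1 / 30 := by
      rw [show (1 / 30 : ℝ) = √(1 / 900) by
        rw [show (1 / 900 : ℝ) = (1 / 30) ^ 2 by norm_num, Real.sqrt_sq (by norm_num)]]
      exact Real.sqrt_le_sqrt (by linarith)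
    have hd0 : 0 ≤ √(d : ℝ) := Real.sqrt_nonneg _
    calc √s * ‖gradient V p - gradient V (p - √s • c0 V s p)‖
        ≤ √s * (2 * (√s * (√s * (2 * (8 * √d))))) := by
          gcongr
          refine h1.trans ?_
          gcongr
          refine h2.trans ?_
          gcongr
      _ = 32 * s * √s * √d := by rw [← hss]; ring_nf; rw [Real.sqrt_sq_eq_abs, abs_of_nonneg hs0]; ring
      _ ≤ s * (2 * √d) := by nlinarith [mul_nonneg hs.le hd0]

/-! ### Integrals against `gibbs`, `Pt` -/

lemma measurable_V (hV : Pot d V) : Measurable V := hV.smooth.continuous.measurable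

lemma measurable_w (hV : Pot d V) (s : ℝ) :
    Measurable fun q : E d × E d => ENNReal.ofReal (Real.exp (-V (q.1 - √s • q.2))) := by
  have h := measurable_V hV
  fun_prop

lemma lintegral_gibbs (hV : Pot d V) (G : E d → ℝ≥0∞) (hG : Measurable G) :
    ∫⁻ x, G x ∂(gibbs V) = (∫⁻ x, ENNReal.ofReal (Real.exp (-V x)))⁻¹ *
      ∫⁻ x, ENNReal.ofReal (Real.exp (-V x)) * G x := by
  have h := measurable_V hV
  unfold gibbs
  rw [lintegral_smul_measure, lintegral_withDensity_eq_lintegral_mul _ (by fun_prop) hG]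
  rfl

lemma lintegral_Pt (hV : Pot d V) [IsProbabilityMeasure (gibbs V)] (s : ℝ) (G : E d × E d → ℝ≥0∞)
    (hG : Measurable G) :
    ∫⁻ q, G q ∂(Pt V s) = (∫⁻ x, ENNReal.ofReal (Real.exp (-V x)))⁻¹ *
      ∫⁻ p, ∫⁻ a, G (p, a) * ENNReal.ofReal (Real.exp (-V (p - √s • a))) ∂(gam d) := by
  have hVm := measurable_V hV
  have hT : Measurable fun q : E d × E d => (q.1 + √s • q.2, q.2) := by fun_prop
  have hGT : Measurable fun q : E d × E d => G (q.1 + √s • q.2, q.2) := hG.comp hT
  unfold Pt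
  rw [lintegral_map hG hT, lintegral_prod _ hGT.aemeasurable]
  have hm1 : Measurable fun x : E d => ∫⁻ a, G (x + √s • a, a) ∂(gam d) :=
    hGT.lintegral_prod_right
  rw [lintegral_gibbs hV _ hm1]
  congr 1
  have e1 : ∀ x : E d, ENNReal.ofReal (Real.exp (-V x)) * ∫⁻ a, G (x + √s • a, a) ∂(gam d) =
      ∫⁻ a, ENNReal.ofReal (Real.exp (-V x)) * G (x + √s • a, a) ∂(gam d) := by
    intro x
    rw [lintegral_const_mul]
    exact hGT.comp measurable_prodMk_left
  simp_rw [e1]
  have hm2 : Measurable fun q : E d × E d => ENNReal.ofReal (Real.exp (-V q.1)) *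
      G (q.1 + √s • q.2, q.2) := (by fun_prop : Measurable fun q : E d × E d =>
        ENNReal.ofReal (Real.exp (-V q.1))).mul hGT
  have hL : ∫⁻ x, ∫⁻ a, ENNReal.ofReal (Real.exp (-V x)) * G (x + √s • a, a) ∂(gam d) =
      ∫⁻ a, ∫⁻ x, ENNReal.ofReal (Real.exp (-V x)) * G (x + √s • a, a) ∂volume ∂(gam d) :=
    lintegral_lintegral_swap hm2.aemeasurable
  have hR : ∫⁻ p, ∫⁻ a, G (p, a) * ENNReal.ofReal (Real.exp (-V (p - √s • a))) ∂(gam d) =
      ∫⁻ a, ∫⁻ p, G (p, a) * ENNReal.ofReal (Real.exp (-V (p - √s • a))) ∂volume ∂(gam d) :=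
    lintegral_lintegral_swap (hG.mul (measurable_w hV s)).aemeasurable
  rw [hL, hR]
  refine lintegral_congr fun a => ?_
  have := lintegral_add_right_eq_self (μ := (volume : Measure (E d)))
    (fun p => G (p, a) * ENNReal.ofReal (Real.exp (-V (p - √s • a)))) (√s • a)
  rw [← this]
  refine lintegral_congr fun x => ?_
  rw [add_sub_cancel_right, mul_comm]

/-- translation of the Gaussian measure -/
lemma lintegral_shift (hCM : S_CM) (m : E d) (G : E d → ℝ≥0∞) (hG : Measurable G) :
    ∫⁻ a, G a ∂(gam d) =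
      ∫⁻ y, G (m + y) * ENNReal.ofReal (Real.exp (-⟪m, y⟫ - ‖m‖ ^ 2 / 2)) ∂(gam d) := by
  have hin : Measurable fun x : E d => innerSL ℝ m x := by fun_prop
  have hin' : Measurable fun x : E d => ⟪m, x⟫ := hin
  have h := (hCM d).1 m (fun x => G x * ENNReal.ofReal (Real.exp (-⟪m, x⟫ + ‖m‖ ^ 2 / 2)))
    (by fun_prop)
  symm
  calc ∫⁻ y, G (m + y) * ENNReal.ofReal (Real.exp (-⟪m, y⟫ - ‖m‖ ^ 2 / 2)) ∂(gam d)
      = ∫⁻ y, G (y + m) * ENNReal.ofReal (Real.exp (-⟪m, y + m⟫ + ‖m‖ ^ 2 / 2)) ∂(gam d) := by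
        refine lintegral_congr fun y => ?_
        rw [add_comm m y]
        congr 3
        rw [inner_add_right, real_inner_self_eq_norm_sq]
        ring
    _ = _ := h
    _ = ∫⁻ a, G a ∂(gam d) := by
        refine lintegral_congr fun a => ?_
        rw [mul_assoc, ← ENNReal.ofReal_mul (Real.exp_nonneg _), ← Real.exp_add]
        have : -⟪m, a⟫ + ‖m‖ ^ 2 / 2 + (⟪m, a⟫ - ‖m‖ ^ 2 / 2) = 0 := by ring
        rw [this]
        simp

lemma lintegral_local (hCM : S_CM) (hV : Pot d V) {s : ℝ} (p : E d) (H : E d → ℝ≥0∞)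
    (hH : Measurable H) :
    ∫⁻ a, H a * ENNReal.ofReal (Real.exp (-V (p - √s • a))) ∂(gam d) =
      ENNReal.ofReal (Real.exp (‖c0 V s p‖ ^ 2 / 2)) *
        ∫⁻ y, H (c0 V s p + y) * ENNReal.ofReal (Real.exp (-fp V s p y)) ∂(gam d) := by
  have hVm := measurable_V hV
  have hfm : Measurable (fp V s p) := (fp_smooth hV s p).continuous.measurable
  rw [lintegral_shift hCM (c0 V s p) _ (by fun_prop), ← lintegral_const_mul _ (by fun_prop)]
  refine lintegral_congr fun y => ?_
  rw [mul_assoc, ← ENNReal.ofReal_mul (Real.exp_nonneg _), ← Real.exp_add, mul_left_comm,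
    ← ENNReal.ofReal_mul (Real.exp_nonneg _), ← Real.exp_add]
  congr 3
  unfold fp
  have h1 : √s * ⟪gradient V p, c0 V s p + y⟫ = ‖c0 V s p‖ ^ 2 + ⟪c0 V s p, y⟫ := by
    rw [← real_inner_self_eq_norm_sq, ← inner_add_right]
    conv_rhs => rw [show c0 V s p = √s • gradient V p from rfl]
    rw [real_inner_smul_left]
    rfl
  rw [h1]
  ring

/-! ### The mass of the local problem -/

/-- local partition function -/
noncomputable def W (V : E d → ℝ) (s : ℝ) (p : E d) : ℝ≥0∞ :=
  ∫⁻ y, ENNReal.ofReal (Real.exp (-fp V s p y)) ∂(gam d)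

/-- total mass of the fibre -/
noncomputable def M (V : E d → ℝ) (s : ℝ) (p : E d) : ℝ≥0∞ :=
  ∫⁻ a, ENNReal.ofReal (Real.exp (-V (p - √s • a))) ∂(gam d)

lemma M_eq (hCM : S_CM) (hV : Pot d V) (s : ℝ) (p : E d) :
    M V s p = ENNReal.ofReal (Real.exp (‖c0 V s p‖ ^ 2 / 2)) * W V s p := by
  have h := lintegral_local hCM hV (s := s) p (fun _ => 1) measurable_const
  simpa [M, W] using h

lemma M_le_one (hLIP : S_LIP) (hV : Pot d V) (s : ℝ) (p : E d) : M V s p ≤ 1 := by
  obtain ⟨-, -, l3, -, -⟩ := hLIP d V hV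
  calc M V s p ≤ ∫⁻ _, 1 ∂(gam d) := by
        refine lintegral_mono fun a => ?_
        rw [← ENNReal.ofReal_one]
        refine ENNReal.ofReal_le_ofReal ?_
        rw [Real.exp_le_one_iff]
        have := (l3 (p - √s • a)).1
        have h2 : 0 ≤ ‖p - √s • a‖ ^ 2 / 2 := by positivity
        linarith
    _ = 1 := by simp

lemma W_ne_top (hLIP : S_LIP) (hCM : S_CM) (hV : Pot d V) (s : ℝ) (p : E d) : W V s p ≠ ⊤ := by
  intro h
  have h1 := M_le_one hLIP hV s p
  rw [M_eq hCM hV, h, ENNReal.mul_top] at h1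
  · exact absurd h1 (by simp)
  · simp [Real.exp_pos]

lemma W_ne_zero (hV : Pot d V) (s : ℝ) (p : E d) : W V s p ≠ 0 := by
  intro h
  have hfm : Measurable (fp V s p) := (fp_smooth hV s p).continuous.measurable
  unfold W at h
  rw [lintegral_eq_zero_iff (by fun_prop)] at h
  have h2 : ∀ᵐ y ∂(gam d), False := by
    filter_upwards [h] with y hy
    simp only [Pi.zero_apply, ENNReal.ofReal_eq_zero] at hy
    exact absurd hy (not_le.mpr (Real.exp_pos _))
  rw [ae_iff] at h2
  simp at h2

lemma lintegral_loc {f : E d → ℝ} (hf : Measurable f) (G : E d → ℝ≥0∞) (hG : Measurable G) :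
    ∫⁻ x, G x ∂(loc f) = (∫⁻ y, ENNReal.ofReal (Real.exp (-f y)) ∂(gam d))⁻¹ *
      ∫⁻ x, G x * ENNReal.ofReal (Real.exp (-f x)) ∂(gam d) := by
  unfold loc
  rw [lintegral_smul_measure, lintegral_withDensity_eq_lintegral_mul _ (by fun_prop) hG]
  simp only [Pi.mul_apply, smul_eq_mul, mul_comm]

lemma isProb_loc (hLIP : S_LIP) (hCM : S_CM) (hV : Pot d V) (s : ℝ) (p : E d) :
    IsProbabilityMeasure (loc (fp V s p)) := by
  constructor
  have hfm : Measurable (fp V s p) := (fp_smooth hV s p).continuous.measurable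
  have h := lintegral_loc hfm (fun _ => 1) measurable_const
  simp only [lintegral_const, one_mul] at h
  rw [h]
  exact ENNReal.inv_mul_cancel (W_ne_zero hV s p) (W_ne_top hLIP hCM hV s p)

lemma lintegral_fibre (hLIP : S_LIP) (hCM : S_CM) (hV : Pot d V) {s : ℝ} (p : E d)
    (H : E d → ℝ≥0∞) (hH : Measurable H) :
    ∫⁻ a, H a * ENNReal.ofReal (Real.exp (-V (p - √s • a))) ∂(gam d) =
      M V s p * ∫⁻ y, H (c0 V s p + y) ∂(loc (fp V s p)) := by
  have hfm : Measurable (fp V s p) := (fp_smooth hV s p).continuous.measurable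
  rw [lintegral_local hCM hV p H hH, M_eq hCM hV, lintegral_loc hfm _ (by fun_prop)]
  have : W V s p * ((∫⁻ y, ENNReal.ofReal (Real.exp (-fp V s p y)) ∂(gam d))⁻¹ *
      ∫⁻ y, H (c0 V s p + y) * ENNReal.ofReal (Real.exp (-fp V s p y)) ∂(gam d)) =
      ∫⁻ y, H (c0 V s p + y) * ENNReal.ofReal (Real.exp (-fp V s p y)) ∂(gam d) := by
    rw [← mul_assoc]
    have h1 : W V s p * (∫⁻ y, ENNReal.ofReal (Real.exp (-fp V s p y)) ∂(gam d))⁻¹ = 1 :=
      ENNReal.mul_inv_cancel (W_ne_zero hV s p) (W_ne_top hLIP hCM hV s p)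
    rw [h1, one_mul]
  rw [mul_assoc, this]

/-! ### The means -/

lemma cont_grad (hLIP : S_LIP) (hV : Pot d V) : Continuous (gradient V) :=
  (hLIP d V hV).2.2.2.1.continuous

lemma norm_grad_le (hLIP : S_LIP) (hV : Pot d V) (x : E d) : ‖gradient V x‖ ≤ 2 * ‖x‖ := by
  have h := (hLIP d V hV).1 x 0
  rwa [hV.grad_zero, sub_zero, sub_zero] at h

lemma integrable_grad (hLIP : S_LIP) (hV : Pot d V) (A : E d) (b : ℝ) :
    Integrable (fun z => gradient V (A + b • z)) (gam d) := by
  have hid : Integrable (fun z : E d => z) (gam d) := IsGaussian.integrable_id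
  have hg : Integrable (fun z : E d => 2 * ‖A‖ + 2 * |b| * ‖z‖) (gam d) :=
    (integrable_const _).add (hid.norm.const_mul _)
  refine hg.mono' ?_ ?_
  · exact ((cont_grad hLIP hV).comp (by fun_prop)).aestronglyMeasurable
  · refine Eventually.of_forall fun z => ?_
    refine (norm_grad_le hLIP hV _).trans ?_
    have := norm_add_le A (b • z)
    rw [norm_smul, Real.norm_eq_abs] at this
    linarith

lemma measurable_mean (hLIP : S_LIP) (hV : Pot d V) {J : ℕ} (s β : ℝ) (c w : Fin J → ℝ) :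
    Measurable (mean V s β c w : E d × E d → E d) := by
  have hg := cont_grad hLIP hV
  have h1 : ∀ j, Measurable fun q : E d × E d => ∫ z, gradient V (node V s (c j) q.1 q.2 z) ∂(gam d) := by
    intro j
    have hc : Continuous fun r : (E d × E d) × E d => gradient V (node V s (c j) r.1.1 r.1.2 r.2) := by
      unfold node
      fun_prop
    exact (hc.stronglyMeasurable.integral_prod_right' (ν := gam d)).measurable
  unfold mean
  have hgm : Measurable (gradient V) := hg.measurable
  fun_prop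

lemma mean_eq (hLIP : S_LIP) (hV : Pot d V) {J : ℕ} (s β : ℝ) (c w : Fin J → ℝ)
    (hw : ∑ j, w j = 2) (p y : E d) :
    c0 V s p + meanY β c w (fp V s p) y = -mean V s β c w (p, c0 V s p + y) := by
  have h1 : ∀ j, Mh (c j) (gradient (fp V s p)) y = c0 V s p -
      √s • ∫ z, gradient V (node V s (c j) p (c0 V s p + y) z) ∂(gam d) := by
    intro j
    unfold Mh
    have e : ∀ z : E d, gradient (fp V s p) (c j • y + √(1 - c j ^ 2) • z) =
        √s • (gradient V p - gradient V (node V s (c j) p (c0 V s p + y) z)) := by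
      intro z
      rw [grad_fp hV]
      congr 3
      unfold node
      congr 2
      change _ = (1 - c j) • c0 V s p + c j • (c0 V s p + y) + √(1 - c j ^ 2) • z
      module
    simp_rw [e]
    have e2 : ∀ z : E d, node V s (c j) p (c0 V s p + y) z =
        (p - √s • ((1 - c j) • (√s • gradient V p) + c j • (c0 V s p + y))) +
          (-(√s * √(1 - c j ^ 2))) • z := by
      intro z
      unfold node
      module
    have hint : Integrable (fun z => gradient V (node V s (c j) p (c0 V s p + y) z)) (gam d) := by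
      simp_rw [e2]
      exact integrable_grad hLIP hV _ _
    rw [integral_smul, integral_sub (integrable_const _) hint, integral_const]
    simp [c0, smul_sub]
  unfold meanY mean
  simp_rw [h1, smul_sub, Finset.sum_sub_distrib, ← Finset.sum_smul, hw]
  simp_rw [smul_comm (w _) (√s), ← Finset.smul_sum]
  change _ = -(β • (c0 V s p + y) - √s • ((1 - β) • gradient V p + β • ∑ j, w j •
    ∫ z, gradient V (node V s (c j) p (c0 V s p + y) z) ∂(gam d)))
  generalize ∑ j, w j • ∫ z, gradient V (node V s (c j) p (c0 V s p + y) z) ∂(gam d) = S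
  have e3 : √s • ((1 - β) • gradient V p + β • S) = (1 - β) • c0 V s p + (β * √s) • S := by
    unfold c0
    module
  rw [e3]
  module

/-! ### The fibrewise comparison -/

lemma tv_le {X : Type*} [MeasurableSpace X] {μ ν : Measure X} [IsFiniteMeasure μ]
    [IsFiniteMeasure ν] {ε : ℝ} (h : TV μ ν ε) {B : Set X} (hB : MeasurableSet B) :
    μ B ≤ ν B + ENNReal.ofReal ε := by
  have h1 := (abs_le.mp (h B hB)).2
  have h2 : μ.real B ≤ ν.real B + ε := by linarith
  calc μ B = ENNReal.ofReal (μ.real B) := by rw [ofReal_measureReal]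
    _ ≤ ENNReal.ofReal (ν.real B + ε) := ENNReal.ofReal_le_ofReal h2
    _ ≤ ENNReal.ofReal (ν.real B) + ENNReal.ofReal ε := ENNReal.ofReal_add_le
    _ = ν B + ENNReal.ofReal ε := by rw [ofReal_measureReal]

lemma tv_symm {X : Type*} [MeasurableSpace X] {μ ν : Measure X} {ε : ℝ} (h : TV μ ν ε) :
    TV ν μ ε := fun B hB => by rw [abs_sub_comm]; exact h B hB

/-- the kernel before the involution -/
noncomputable def ker {J : ℕ} (V : E d → ℝ) (s β : ℝ) (c w : Fin J → ℝ)
    (q : (E d × E d) × E d) : E d × E d :=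
  (q.1.1, -mean V s β c w q.1 + √(1 - β ^ 2) • q.2)

lemma measurable_ker (hLIP : S_LIP) (hV : Pot d V) {J : ℕ} (s β : ℝ) (c w : Fin J → ℝ) :
    Measurable (ker V s β c w : (E d × E d) × E d → E d × E d) := by
  have h := measurable_mean hLIP hV s β c w
  unfold ker
  fun_prop

/-- `H1 (p,a) = ℙ(ker (p,a,z) ∈ B)` -/
noncomputable def H1 {J : ℕ} (V : E d → ℝ) (s β : ℝ) (c w : Fin J → ℝ) (B : Set (E d × E d))
    (q : E d × E d) : ℝ≥0∞ :=
  gam d {z | ker V s β c w (q, z) ∈ B}

lemma measurable_H1 (hLIP : S_LIP) (hV : Pot d V) {J : ℕ} (s β : ℝ) (c w : Fin J → ℝ)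
    {B : Set (E d × E d)} (hB : MeasurableSet B) : Measurable (H1 V s β c w B) := by
  have h := measurable_ker hLIP hV s β c w hB
  exact measurable_measure_prodMk_left h

lemma H1_le_one {J : ℕ} (s β : ℝ) (c w : Fin J → ℝ) (B : Set (E d × E d)) (q : E d × E d) :
    H1 V s β c w B q ≤ 1 := prob_le_one

/-- the fibre integral of `H1` -/
noncomputable def T1 {J : ℕ} (V : E d → ℝ) (s β : ℝ) (c w : Fin J → ℝ) (B : Set (E d × E d))
    (p : E d) : ℝ≥0∞ :=
  ∫⁻ a, H1 V s β c w B (p, a) * ENNReal.ofReal (Real.exp (-V (p - √s • a))) ∂(gam d)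

/-- the fibre integral of the indicator -/
noncomputable def T2 (V : E d → ℝ) (s : ℝ) (B : Set (E d × E d)) (p : E d) : ℝ≥0∞ :=
  ∫⁻ a, B.indicator 1 (p, a) * ENNReal.ofReal (Real.exp (-V (p - √s • a))) ∂(gam d)

lemma T1_le_M {J : ℕ} (s β : ℝ) (c w : Fin J → ℝ) (B : Set (E d × E d)) (p : E d) :
    T1 V s β c w B p ≤ M V s p :=
  lintegral_mono fun _ => mul_le_of_le_one_left' (H1_le_one s β c w B _)

lemma T2_le_M (s : ℝ) (B : Set (E d × E d)) (p : E d) : T2 V s B p ≤ M V s p := by
  refine lintegral_mono fun a => mul_le_of_le_one_left' ?_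
  by_cases h : (p, a) ∈ B <;> simp [h]

lemma fibre_compare (hLIP : S_LIP) (hCM : S_CM) (hV : Pot d V) {J : ℕ} {s β δ : ℝ}
    {c w : Fin J → ℝ} (hw : ∑ j, w j = 2) (p : E d)
    (hTV : TV (((loc (fp V s p)).prod (gam d)).map
      fun q => meanY β c w (fp V s p) q.1 + √(1 - β ^ 2) • q.2) (loc (fp V s p)) δ)
    {B : Set (E d × E d)} (hB : MeasurableSet B) :
    T1 V s β c w B p ≤ T2 V s B p + ENNReal.ofReal δ * M V s p ∧
    T2 V s B p ≤ T1 V s β c w B p + ENNReal.ofReal δ * M V s p := by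
  have hP := isProb_loc hLIP hCM hV s p
  have hm := measurable_mean hLIP hV s β c w
  set f := fp V s p with hf
  set B'' : Set (E d) := {u | (p, c0 V s p + u) ∈ B} with hB''
  have hB''m : MeasurableSet B'' := by
    have : Measurable fun u : E d => (p, c0 V s p + u) := by fun_prop
    exact this hB
  have hmeanY : Measurable (meanY β c w f) := by
    have e : meanY β c w f = fun y => -mean V s β c w (p, c0 V s p + y) - c0 V s p := by
      funext y
      rw [← mean_eq hLIP hV s β c w hw p y]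
      abel
    rw [e]
    fun_prop
  have hmap : Measurable fun q : E d × E d => meanY β c w f q.1 + √(1 - β ^ 2) • q.2 := by
    fun_prop
  have e1 : T1 V s β c w B p = M V s p * (((loc f).prod (gam d)).map
      fun q => meanY β c w f q.1 + √(1 - β ^ 2) • q.2) B'' := by
    unfold T1
    rw [lintegral_fibre hLIP hCM hV p (fun a => H1 V s β c w B (p, a))
      ((measurable_H1 hLIP hV s β c w hB).comp measurable_prodMk_left),
      Measure.map_apply hmap hB''m, Measure.prod_apply (hmap hB''m)]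
    congr 1
    refine lintegral_congr fun y => ?_
    unfold H1 ker
    congr 1
    ext z
    simp only [mem_ofPred_eq, mem_preimage, hB'']
    rw [← add_assoc, mean_eq hLIP hV s β c w hw p y]
  have e2 : T2 V s B p = M V s p * (loc f) B'' := by
    unfold T2
    rw [lintegral_fibre hLIP hCM hV p (fun a => B.indicator 1 (p, a))
      ((measurable_one.indicator hB).comp measurable_prodMk_left)]
    congr 1
    rw [← lintegral_indicator_one hB''m]
    rfl
  have : IsProbabilityMeasure (((loc f).prod (gam d)).map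
      fun q => meanY β c w f q.1 + √(1 - β ^ 2) • q.2) :=
    Measure.isProbabilityMeasure_map hmap.aemeasurable
  rw [e1, e2, mul_comm (ENNReal.ofReal δ), ← mul_add, ← mul_add]
  exact ⟨mul_le_mul_right (tv_le hTV hB''m) _, mul_le_mul_right (tv_le (tv_symm hTV) hB''m) _⟩

/-! ### Symmetries -/

lemma gam_neg (d : ℕ) : (gam d).map (fun z => -z) = gam d :=
  stdGaussian_map (LinearIsometryEquiv.neg ℝ (E := E d))

/-- the involution -/
noncomputable def inv2 (s : ℝ) (q : E d × E d) : E d × E d := (q.1 - (2 * √s) • q.2, -q.2)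

lemma measurable_inv2 (s : ℝ) : Measurable (inv2 s : E d × E d → E d × E d) := by
  unfold inv2; fun_prop

lemma Pt_inv [IsProbabilityMeasure (gibbs V)] (s : ℝ) : (Pt V s).map (inv2 s) = Pt V s := by
  have hT : Measurable fun q : E d × E d => (q.1 + √s • q.2, q.2) := by fun_prop
  unfold Pt
  rw [Measure.map_map (measurable_inv2 s) hT]
  have e : (inv2 s ∘ fun q : E d × E d => (q.1 + √s • q.2, q.2)) =
      (fun q : E d × E d => (q.1 + √s • q.2, q.2)) ∘ Prod.map id (fun z => -z) := by
    funext q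
    simp only [Function.comp_apply, inv2, Prod.map, id]
    ext1
    · simp only
      module
    · rfl
  rw [e, ← Measure.map_map hT (by fun_prop), ← Measure.map_prod_map _ _ measurable_id (by fun_prop),
    gam_neg, Measure.map_id]

lemma nstep_apply (hLIP : S_LIP) (hV : Pot d V) {J : ℕ} (s β : ℝ) (c w : Fin J → ℝ)
    (_ : IsProbabilityMeasure (gibbs V)) {B : Set (E d × E d)} (hB : MeasurableSet B) :
    (((Pt V s).prod (gam d)).map (nstep V s β c w)) B =
      ∫⁻ q, H1 V s β c w (inv2 s ⁻¹' B) q ∂(Pt V s) := by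
  have hm := measurable_mean hLIP hV s β c w
  have hn : Measurable (nstep V s β c w : (E d × E d) × E d → E d × E d) := by
    unfold nstep
    fun_prop
  rw [Measure.map_apply hn hB, Measure.prod_apply (hn hB)]
  refine lintegral_congr fun q => ?_
  unfold H1
  have hneg : MeasurePreserving (fun z : E d => -z) (gam d) (gam d) := ⟨measurable_neg, gam_neg d⟩
  have hs : MeasurableSet {z | ker V s β c w (q, z) ∈ inv2 s ⁻¹' B} :=
    (measurable_ker hLIP hV s β c w).comp measurable_prodMk_left (measurable_inv2 s hB)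
  rw [← hneg.measure_preimage hs.nullMeasurableSet]
  congr 1
  ext z
  simp only [mem_preimage, mem_ofPred_eq]
  have e : inv2 s (ker V s β c w (q, -z)) = nstep V s β c w (q, z) := by
    unfold inv2 ker nstep
    ext1
    · simp only
      module
    · simp only
      module
  rw [e]

/-! ### Integration over `p` -/

lemma Pt_tail (hMOM : S_MOM) (hd : 1 ≤ d) (hV : Pot d V) [IsProbabilityMeasure (gibbs V)] {s : ℝ}
    (hs : s ≤ 1) :
    (Pt V s) {q | 8 * √d < ‖q.1‖} ≤ ENNReal.ofReal (2 * Real.exp (-d)) := by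
  obtain ⟨-, -, h1, h2⟩ := hMOM d V hd hV
  have hT : Measurable fun q : E d × E d => (q.1 + √s • q.2, q.2) := by fun_prop
  have hS : MeasurableSet {q : E d × E d | 8 * √d < ‖q.1‖} :=
    measurableSet_lt measurable_const (by fun_prop)
  have hs1 : √s ≤ 1 := Real.sqrt_le_one.mpr hs
  unfold Pt
  rw [Measure.map_apply hT hS]
  have hsub : (fun q : E d × E d => (q.1 + √s • q.2, q.2)) ⁻¹' {q | 8 * √d < ‖q.1‖} ⊆
      ({x : E d | 4 * √d < ‖x‖} ×ˢ univ) ∪ (univ ×ˢ {a : E d | 4 * √d < ‖a‖}) := by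
    rintro ⟨x, a⟩ h
    simp only [mem_preimage, mem_ofPred_eq] at h
    by_contra hc
    simp only [mem_union, mem_prod, mem_ofPred_eq, mem_univ, and_true, true_and, not_or,
      not_lt] at hc
    have h3 := norm_add_le x (√s • a)
    rw [norm_smul, Real.norm_of_nonneg (Real.sqrt_nonneg s)] at h3
    have h4 : √s * ‖a‖ ≤ 1 * ‖a‖ := by gcongr
    linarith [hc.1, hc.2]
  refine (measure_mono hsub).trans ((measure_union_le _ _).trans ?_)
  rw [Measure.prod_prod, Measure.prod_prod, measure_univ, measure_univ, mul_one, one_mul,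
    two_mul, ENNReal.ofReal_add (Real.exp_nonneg _) (Real.exp_nonneg _)]
  refine add_le_add ?_ ?_
  · rw [← ofReal_measureReal]
    exact ENNReal.ofReal_le_ofReal h1
  · rw [← ofReal_measureReal]
    exact ENNReal.ofReal_le_ofReal h2

lemma err_two {s A β η : ℝ} (hβ : 0 ≤ β) (hβ1 : β < 1) :
    err d s (2 * A) β η ≤ 2 * err d s A β η := by
  unfold err
  have h1 : s ^ 2 * (2 * A) / √(1 - β ^ 2) = 2 * (s ^ 2 * A / √(1 - β ^ 2)) := by ring
  have h2 : η * (s * (2 * A)) / √(1 - β ^ 2) = 2 * (η * (s * A) / √(1 - β ^ 2)) := by ring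
  have h3 : (1 - β) * (s * (2 * A)) = 2 * ((1 - β) * (s * A)) := by ring
  have h4 : 0 ≤ 1 - β ^ 2 := by nlinarith
  have h5 : 0 ≤ √(d : ℝ) * s ^ 2 / (1 - β ^ 2) := by positivity
  rw [h1, h2, h3]
  linarith

/-- from fibrewise bounds to the bound for `Pt` -/
lemma glob (hV : Pot d V) [IsProbabilityMeasure (gibbs V)] {s : ℝ}
    {G1 G2 : E d × E d → ℝ≥0∞} (hG1 : Measurable G1) (hG2 : Measurable G2) {ε : E d → ℝ≥0∞}
    (hε : Measurable ε)
    (h : ∀ p, ∫⁻ a, G1 (p, a) * ENNReal.ofReal (Real.exp (-V (p - √s • a))) ∂(gam d) ≤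
      (∫⁻ a, G2 (p, a) * ENNReal.ofReal (Real.exp (-V (p - √s • a))) ∂(gam d)) + ε p * M V s p) :
    ∫⁻ q, G1 q ∂(Pt V s) ≤ (∫⁻ q, G2 q ∂(Pt V s)) + ∫⁻ q, ε q.1 ∂(Pt V s) := by
  have hw := measurable_w hV s
  have hwp : ∀ p : E d, Measurable fun a : E d => ENNReal.ofReal (Real.exp (-V (p - √s • a))) :=
    fun p => hw.comp measurable_prodMk_left
  rw [lintegral_Pt hV s G1 hG1, lintegral_Pt hV s G2 hG2, lintegral_Pt hV s (fun q => ε q.1)
    (hε.comp measurable_fst), ← mul_add]
  refine mul_le_mul_right ?_ _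
  have e : ∀ p : E d, ∫⁻ a, ε (p, a).1 * ENNReal.ofReal (Real.exp (-V (p - √s • a))) ∂(gam d) =
      ε p * M V s p := by
    intro p
    unfold M
    exact lintegral_const_mul (ε p) (hwp p)
  rw [← lintegral_add_left]
  · refine lintegral_mono fun p => ?_
    rw [e p]
    exact h p
  · have hm : Measurable fun q : E d × E d => G2 q *
      ENNReal.ofReal (Real.exp (-V (q.1 - √s • q.2))) := hG2.mul hw
    exact hm.lintegral_prod_right'

end INV

open MeasureTheory ProbabilityTheory Set Filter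
open scoped ENNReal NNReal Topology RealInnerProductSpace BigOperators ContDiff

theorem inv (hLOC : S_LOC) (hMOM : S_MOM) (hLIP : S_LIP) (_hTVP : S_TVP) (hCM : S_CM) : S_INV := by
  obtain ⟨C, hC, hloc⟩ := hLOC
  refine ⟨2 * C, by positivity, ?_⟩
  intro d J V s β η c w hd hV hs hs1 hsd hβ hβ1 hη hR
  have hP : IsProbabilityMeasure (gibbs V) := (hLIP d V hV).2.2.2.2
  have hT : Measurable fun q : E d × E d => (q.1 + √s • q.2, q.2) := by fun_prop
  have hPt : IsProbabilityMeasure (Pt V s) := Measure.isProbabilityMeasure_map hT.aemeasurable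
  have hn : Measurable (nstep V s β c w : (E d × E d) × E d → E d × E d) := by
    have hm := INV.measurable_mean hLIP hV s β c w
    unfold nstep
    fun_prop
  have hPn : IsProbabilityMeasure (((Pt V s).prod (gam d)).map (nstep V s β c w)) :=
    Measure.isProbabilityMeasure_map hn.aemeasurable
  set δ : ℝ := C * err d s (2 * √d) β η with hδ
  have hd0 : (0 : ℝ) ≤ √d := Real.sqrt_nonneg _
  have hδ2 : δ ≤ 2 * C * err d s (√d) β η := by
    have := INV.err_two (d := d) (s := s) (A := √d) (η := η) (by linarith : (0:ℝ) ≤ β) hβ1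
    rw [hδ]
    nlinarith
  have hPar : Par d s (2 * √d) := ⟨hs, by linarith, by linarith, by nlinarith⟩
  have hsA : s * (2 * √d) ≤ 1 := by nlinarith
  -- the error function
  set S : Set (E d) := {p | 8 * √d < ‖p‖} with hS
  have hSm : MeasurableSet S := measurableSet_lt measurable_const measurable_norm
  set ε : E d → ℝ≥0∞ := fun p => ENNReal.ofReal δ + S.indicator 1 p with hε
  have hεm : Measurable ε := by
    have h1 : Measurable (S.indicator (1 : E d → ℝ≥0∞)) := measurable_one.indicator hSm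
    exact h1.const_add _
  have hεint : ∫⁻ q, ε q.1 ∂(Pt V s) ≤ ENNReal.ofReal δ + ENNReal.ofReal (2 * Real.exp (-d)) := by
    rw [hε]
    simp only
    rw [lintegral_add_left measurable_const, lintegral_const, measure_univ, mul_one]
    refine add_le_add le_rfl ?_
    have e : ∫⁻ q, S.indicator 1 q.1 ∂(Pt V s) = Pt V s {q | 8 * √d < ‖q.1‖} := by
      have hS2 : MeasurableSet {q : E d × E d | 8 * √d < ‖q.1‖} :=
        measurableSet_lt measurable_const (by fun_prop)
      rw [← lintegral_indicator_one hS2]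
      rfl
    rw [e]
    exact INV.Pt_tail hMOM hd hV (by linarith)
  -- fibrewise comparison
  have hfib : ∀ (B : Set (E d × E d)), MeasurableSet B → ∀ p,
      INV.T1 V s β c w B p ≤ INV.T2 V s B p + ε p * INV.M V s p ∧
      INV.T2 V s B p ≤ INV.T1 V s β c w B p + ε p * INV.M V s p := by
    intro B hB p
    by_cases hp : ‖p‖ ≤ 8 * √d
    · have h := INV.fibre_compare hLIP hCM hV hR.sum p
        (hloc d J s (2 * √d) β η c w (INV.fp V s p) hd hPar hsA
          (INV.loc_fp hLIP hV hs hs1 hp) hβ hβ1 hη hR) hB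
      have h0 : S.indicator (1 : E d → ℝ≥0∞) p = 0 := by
        rw [indicator_of_notMem]
        exact not_lt.mpr hp
      have e : ε p = ENNReal.ofReal δ := by rw [hε]; simp only [h0, add_zero]
      rw [e]
      exact h
    · have h0 : S.indicator (1 : E d → ℝ≥0∞) p = 1 := by
        rw [indicator_of_mem (by exact not_le.mp hp)]
        rfl
      have e : 1 ≤ ε p := by rw [hε]; simp only [h0]; exact le_add_self
      have h1 : INV.M V s p ≤ ε p * INV.M V s p := le_mul_of_one_le_left' e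
      exact ⟨((INV.T1_le_M s β c w B p).trans h1).trans le_add_self,
        ((INV.T2_le_M s B p).trans h1).trans le_add_self⟩
  intro B hB
  have hB' : MeasurableSet (INV.inv2 s ⁻¹' B) := INV.measurable_inv2 s hB
  have hPtB : Pt V s B = Pt V s (INV.inv2 s ⁻¹' B) := by
    conv_lhs => rw [← INV.Pt_inv (V := V) s]
    rw [Measure.map_apply (INV.measurable_inv2 s) hB]
  have e1 := INV.nstep_apply hLIP hV s β c w hP hB
  have e2 : Pt V s (INV.inv2 s ⁻¹' B) = ∫⁻ q, (INV.inv2 s ⁻¹' B).indicator 1 q ∂(Pt V s) :=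
    (lintegral_indicator_one hB').symm
  have hH1 := INV.measurable_H1 hLIP hV s β c w hB'
  have hH2 : Measurable ((INV.inv2 s ⁻¹' B).indicator (1 : E d × E d → ℝ≥0∞)) :=
    measurable_one.indicator hB'
  have k1 := INV.glob hV (s := s) hH1 hH2 hεm fun p => (hfib _ hB' p).1
  have k2 := INV.glob hV (s := s) hH2 hH1 hεm fun p => (hfib _ hB' p).2
  rw [← e1, ← e2, ← hPtB] at k1 k2
  -- back to the reals
  have hb : ENNReal.ofReal δ + ENNReal.ofReal (2 * Real.exp (-d)) ≤
      ENNReal.ofReal (max δ 0 + 2 * Real.exp (-d)) := by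
    rw [ENNReal.ofReal_add (le_max_right _ _) (by positivity)]
    exact add_le_add (ENNReal.ofReal_le_ofReal (le_max_left _ _)) le_rfl
  have hmax : max δ 0 ≤ 2 * C * err d s (√d) β η := by
    refine max_le hδ2 ?_
    have h4 : 0 < 1 - β ^ 2 := by nlinarith
    have : 0 ≤ err d s (√d) β η := by
      unfold err
      have : 0 ≤ 1 - β := by linarith
      positivity
    positivity
  have hfin : ∀ μ ν : Measure (E d × E d), IsProbabilityMeasure μ → IsProbabilityMeasure ν →
      μ B ≤ ν B + ∫⁻ q, ε q.1 ∂(Pt V s) →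
      μ.real B ≤ ν.real B + (2 * C * err d s (√d) β η + 2 * Real.exp (-d)) := by
    intro μ ν _ _ h
    have h1 : μ B ≤ ν B + ENNReal.ofReal (max δ 0 + 2 * Real.exp (-d)) :=
      h.trans (add_le_add le_rfl (hεint.trans hb))
    have h2 : 0 ≤ max δ 0 + 2 * Real.exp (-d) := by positivity
    have h3 : μ.real B ≤ ν.real B + (max δ 0 + 2 * Real.exp (-d)) := by
      unfold Measure.real
      have h5 := ENNReal.toReal_mono (by simp [measure_ne_top]) h1
      rwa [ENNReal.toReal_add (measure_ne_top _ _) ENNReal.ofReal_ne_top,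
        ENNReal.toReal_ofReal h2] at h5
    linarith
  rw [abs_le]
  constructor
  · have := hfin _ _ hPt hPn k2
    linarith
  · have := hfin _ _ hPn hPt k1
    linarith

end LCS
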