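import Vale.Agent.P347.Defs

/-!
# P347 module LIP (helper15)
-/

namespace LCS.LIP

open MeasureTheory ProbabilityTheory Set Filter InnerProductSpace
open scoped ENNReal NNReal Topology RealInnerProductSpace ContDiff

variable {d : ℕ}

/-- a symmetric form with `0 ≤ B(v,v) ≤ c |v|²` has norm at most `c`. -/
theorem form_bound {E : Type*} [NormedAddCommGroup E] [NormedSpace ℝ E] (B : E → E → ℝ)
    (c : ℝ) (hexp : ∀ v w (t : ℝ), B (v + t • w) (v + t • w) = B v v + 2 * t * B v w + t ^ 2 * B w w)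
    (h0 : ∀ v, 0 ≤ B v v) (h1 : ∀ v, B v v ≤ c * ‖v‖ ^ 2) (v w : E) :
    |B v w| ≤ c * ‖v‖ * ‖w‖ := by
  have hd : discrim (B w w) (2 * B v w) (B v v) ≤ 0 := by
    apply discrim_le_zero
    intro t
    have := h0 (v + t • w)
    rw [hexp] at this
    nlinarith
  rw [discrim] at hd
  have h2 : (B v w) ^ 2 ≤ B v v * B w w := by nlinarith
  have h3 : B v v * B w w ≤ (c * ‖v‖ * ‖w‖) ^ 2 := by
    calc B v v * B w w ≤ (c * ‖v‖ ^ 2) * (c * ‖w‖ ^ 2) :=
          mul_le_mul (h1 v) (h1 w) (h0 w) ((h0 v).trans (h1 v))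
      _ = _ := by ring
  have hcv : 0 ≤ c * ‖v‖ * ‖w‖ := by
    rcases eq_or_ne v 0 with hv | hv
    · simp [hv]
    · have hv' : 0 < ‖v‖ := norm_pos_iff.2 hv
      have : 0 ≤ c * ‖v‖ ^ 2 := (h0 v).trans (h1 v)
      have hc : 0 ≤ c := by
        by_contra hc
        push Not at hc
        nlinarith [mul_pos hv' hv', mul_neg_of_neg_of_pos hc (mul_pos hv' hv')]
      positivity
  exact abs_le_of_sq_le_sq' (h2.trans h3) hcv |> abs_le.2

theorem expand {E : Type*} [NormedAddCommGroup E] [NormedSpace ℝ E] (B : E →L[ℝ] E →L[ℝ] ℝ)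
    (hs : ∀ v w, B v w = B w v) (v w : E) (t : ℝ) :
    B (v + t • w) (v + t • w) = B v v + 2 * t * B v w + t ^ 2 * B w w := by
  simp only [map_add, map_smul, add_apply, smul_apply, smul_eq_mul]
  rw [hs w v]
  ring

/-- the Riesz map as a real linear map -/
noncomputable def riesz (d : ℕ) : (E d →L[ℝ] ℝ) →L[ℝ] E d :=
  LinearMap.mkContinuous
    { toFun := fun L => (toDual ℝ (E d)).symm L
      map_add' := fun L L' => map_add _ L L'
      map_smul' := fun c L => by simp [map_smulₛₗ] } 1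
    (fun L => by simp)

theorem riesz_apply (L : E d →L[ℝ] ℝ) : riesz d L = (toDual ℝ (E d)).symm L := rfl

theorem norm_riesz (L : E d →L[ℝ] ℝ) : ‖riesz d L‖ = ‖L‖ := by
  rw [riesz_apply, LinearIsometryEquiv.norm_map]

theorem inner_riesz (L : E d →L[ℝ] ℝ) (w : E d) : ⟪riesz d L, w⟫ = L w := by
  rw [riesz_apply, toDual_symm_apply]

theorem grad_hasFDerivAt {V : E d → ℝ} (hV : ContDiff ℝ 2 V) (x : E d) :
    HasFDerivAt (gradient V) ((riesz d).comp (fderiv ℝ (fderiv ℝ V) x)) x := by
  have h1 : Differentiable ℝ (fderiv ℝ V) :=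
    (hV.fderiv_right (m := 1) (by norm_num)).differentiable (by norm_num)
  have h2 := (h1 x).hasFDerivAt
  exact ((riesz d).hasFDerivAt).comp x h2

theorem symm_snd {V : E d → ℝ} (hV : ContDiff ℝ 2 V) (x v w : E d) :
    fderiv ℝ (fderiv ℝ V) x v w = fderiv ℝ (fderiv ℝ V) x w v := by
  have := (hV.contDiffAt (x := x)).isSymmSndFDerivAt (by simp)
  exact this v w

theorem lip1 {V : E d → ℝ} (hV : Pot d V) (x y : E d) :
    ‖gradient V x - gradient V y‖ ≤ 2 * ‖x - y‖ := by
  have hd : ∀ z, HasFDerivAt (gradient V) _ z := grad_hasFDerivAt hV.smooth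
  refine (convex_univ : Convex ℝ (univ : Set (E d))).norm_image_sub_le_of_norm_hasFDerivWithin_le
    (fun z _ => (hd z).hasFDerivWithinAt) (fun z _ => ?_) (mem_univ _) (mem_univ _)
  refine ContinuousLinearMap.opNorm_le_bound _ (by norm_num) (fun v => ?_)
  rw [ContinuousLinearMap.comp_apply, norm_riesz]
  refine ContinuousLinearMap.opNorm_le_bound _ (by positivity) (fun w => ?_)
  exact form_bound (fun v w => fderiv ℝ (fderiv ℝ V) z v w) 2
    (expand _ (symm_snd hV.smooth z))
    (fun v => (sq_nonneg _).trans (hV.lower z v)) (hV.upper z) v w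

theorem lip2 {V : E d → ℝ} (hV : Pot d V) (x y : E d) :
    ‖((2 : ℝ) • x - gradient V x) - ((2 : ℝ) • y - gradient V y)‖ ≤ ‖x - y‖ := by
  have hd : ∀ z, HasFDerivAt (fun z : E d => (2 : ℝ) • z - gradient V z)
      ((2 : ℝ) • ContinuousLinearMap.id ℝ (E d) -
        (riesz d).comp (fderiv ℝ (fderiv ℝ V) z)) z := fun z =>
    ((hasFDerivAt_id z).const_smul (2 : ℝ)).sub (grad_hasFDerivAt hV.smooth z)
  rw [← one_mul ‖x - y‖]
  refine (convex_univ : Convex ℝ (univ : Set (E d))).norm_image_sub_le_of_norm_hasFDerivWithin_le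
    (f := fun z : E d => (2 : ℝ) • z - gradient V z)
    (fun z _ => (hd z).hasFDerivWithinAt) (fun z _ => ?_) (mem_univ _) (mem_univ _)
  refine ContinuousLinearMap.opNorm_le_bound _ (by norm_num) (fun v => ?_)
  -- the form 2<v,w> - B(v,w)
  have key := form_bound (fun v w : E d => 2 * ⟪v, w⟫ - fderiv ℝ (fderiv ℝ V) z v w) 1
    (fun v w t => by
      rw [expand _ (symm_snd hV.smooth z) v w t, inner_add_left, inner_add_right, inner_add_right,
        inner_smul_left, inner_smul_right, inner_smul_left, inner_smul_right, real_inner_comm v w]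
      simp only [conj_trivial]
      ring)
    (fun v => by
      simp only [real_inner_self_eq_norm_sq]
      linarith [hV.upper z v])
    (fun v => by
      simp only [real_inner_self_eq_norm_sq]
      linarith [hV.lower z v])
  set u : E d := ((2 : ℝ) • ContinuousLinearMap.id ℝ (E d) -
        (riesz d).comp (fderiv ℝ (fderiv ℝ V) z)) v with hu
  have hinner : ∀ w, ⟪u, w⟫ = 2 * ⟪v, w⟫ - fderiv ℝ (fderiv ℝ V) z v w := by
    intro w
    rw [hu]
    simp only [sub_apply, smul_apply,
      ContinuousLinearMap.comp_apply, ContinuousLinearMap.id_apply]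
    rw [inner_sub_left, inner_smul_left, inner_riesz]
    simp
  have h1 : ‖u‖ ^ 2 ≤ ‖v‖ * ‖u‖ := by
    have := key v u
    rw [← hinner u, real_inner_self_eq_norm_sq] at this
    calc ‖u‖ ^ 2 ≤ |‖u‖ ^ 2| := le_abs_self _
      _ ≤ 1 * ‖v‖ * ‖u‖ := this
      _ = ‖v‖ * ‖u‖ := by ring
  rcases eq_or_lt_of_le (norm_nonneg u) with h | h
  · rw [← h, one_mul]; exact norm_nonneg _
  · rw [one_mul]
    nlinarith

theorem bounds {V : E d → ℝ} (hV : Pot d V) (x : E d) : ‖x‖ ^ 2 / 2 ≤ V x ∧ V x ≤ ‖x‖ ^ 2 := by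
  have hdV : Differentiable ℝ V := hV.smooth.differentiable (by norm_num)
  have hdV2 : Differentiable ℝ (fderiv ℝ V) :=
    (hV.smooth.fderiv_right (m := 1) (by norm_num)).differentiable (by norm_num)
  have hline : ∀ t : ℝ, HasDerivAt (fun t : ℝ => t • x) x t := fun t => by
    simpa using (hasDerivAt_id t).smul_const x
  have hphi : ∀ t : ℝ, HasDerivAt (fun t : ℝ => fderiv ℝ V (t • x) x)
      (fderiv ℝ (fderiv ℝ V) (t • x) x x) t := by
    intro t
    have h1 := (hdV2 (t • x)).hasFDerivAt.comp_hasDerivAt t (hline t)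
    exact h1.clm_apply (hasDerivAt_const t x) |>.congr_deriv (by simp)
  have hg : ∀ t : ℝ, HasDerivAt (fun t : ℝ => V (t • x)) (fderiv ℝ V (t • x) x) t := by
    intro t
    exact (hdV (t • x)).hasFDerivAt.comp_hasDerivAt t (hline t)
  have hphi0 : fderiv ℝ V ((0 : ℝ) • x) x = 0 := by
    rw [zero_smul]
    have h := hV.grad_zero
    rw [gradient, map_eq_zero_iff _ (LinearIsometryEquiv.injective _)] at h
    rw [h]; rfl
  have hlow : ∀ t : ℝ, 0 ≤ t → ‖x‖ ^ 2 * t ≤ fderiv ℝ V (t • x) x := by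
    intro t ht
    have := mul_sub_le_image_sub_of_le_deriv (f := fun t : ℝ => fderiv ℝ V (t • x) x)
      (fun t => (hphi t).differentiableAt) (C := ‖x‖ ^ 2)
      (fun t => by rw [(hphi t).deriv]; exact hV.lower _ _) ht
    simp only [hphi0, sub_zero] at this
    exact this
  have hup : ∀ t : ℝ, 0 ≤ t → fderiv ℝ V (t • x) x ≤ 2 * ‖x‖ ^ 2 * t := by
    intro t ht
    have := image_sub_le_mul_sub_of_deriv_le (f := fun t : ℝ => fderiv ℝ V (t • x) x)
      (fun t => (hphi t).differentiableAt) (C := 2 * ‖x‖ ^ 2)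
      (fun t => by rw [(hphi t).deriv]; exact hV.upper _ _) ht
    simp only [hphi0, sub_zero] at this
    exact this
  have hsq : ∀ t : ℝ, HasDerivAt (fun t : ℝ => t ^ 2) (2 * t) t := fun t => by
    simpa using hasDerivAt_pow 2 t
  constructor
  · have hm : MonotoneOn (fun t : ℝ => V (t • x) - ‖x‖ ^ 2 / 2 * t ^ 2) (Ici 0) := by
      apply monotoneOn_of_deriv_nonneg (convex_Ici 0)
      · exact fun t _ => ((hg t).sub ((hsq t).const_mul _)).continuousAt.continuousWithinAt
      · exact fun t _ => ((hg t).sub ((hsq t).const_mul _)).differentiableAt.differentiableWithinAt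
      · intro t ht
        rw [interior_Ici, mem_Ioi] at ht
        have e : deriv (fun t : ℝ => V (t • x) - ‖x‖ ^ 2 / 2 * t ^ 2) t
            = fderiv ℝ V (t • x) x - ‖x‖ ^ 2 / 2 * (2 * t) :=
          ((hg t).sub ((hsq t).const_mul (‖x‖ ^ 2 / 2))).deriv
        rw [e]
        have := hlow t ht.le
        linarith
    have := hm (mem_Ici.2 le_rfl) (mem_Ici.2 zero_le_one) zero_le_one
    simp only [zero_smul, hV.zero, one_smul] at this
    linarith
  · have hm : AntitoneOn (fun t : ℝ => V (t • x) - ‖x‖ ^ 2 * t ^ 2) (Ici 0) := by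
      apply antitoneOn_of_deriv_nonpos (convex_Ici 0)
      · exact fun t _ => ((hg t).sub ((hsq t).const_mul _)).continuousAt.continuousWithinAt
      · exact fun t _ => ((hg t).sub ((hsq t).const_mul _)).differentiableAt.differentiableWithinAt
      · intro t ht
        rw [interior_Ici, mem_Ioi] at ht
        have e : deriv (fun t : ℝ => V (t • x) - ‖x‖ ^ 2 * t ^ 2) t
            = fderiv ℝ V (t • x) x - ‖x‖ ^ 2 * (2 * t) :=
          ((hg t).sub ((hsq t).const_mul (‖x‖ ^ 2))).deriv
        rw [e]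
        have := hup t ht.le
        linarith
    have := hm (mem_Ici.2 le_rfl) (mem_Ici.2 zero_le_one) zero_le_one
    simp only [zero_smul, hV.zero, one_smul] at this
    linarith

theorem contDiff_grad {V : E d → ℝ} (hV : ContDiff ℝ 2 V) : ContDiff ℝ 1 (gradient V) := by
  have h1 : ContDiff ℝ 1 (fderiv ℝ V) := hV.fderiv_right (m := 1) (by norm_num)
  exact ((toDual ℝ (E d)).symm.toContinuousLinearEquiv.contDiff).comp h1

theorem integrable_gauss {b : ℝ} (hb : 0 < b) :
    Integrable (fun x : E d => Real.exp (-b * ‖x‖ ^ 2)) := by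
  by_contra h
  have := GaussianFourier.integral_rexp_neg_mul_sq_norm (V := E d) hb
  rw [integral_undef h] at this
  have hpos : 0 < (Real.pi / b) ^ (Module.finrank ℝ (E d) / 2 : ℝ) :=
    Real.rpow_pos_of_pos (div_pos Real.pi_pos hb) _
  linarith

theorem isProb {V : E d → ℝ} (hV : Pot d V) : IsProbabilityMeasure (gibbs V) := by
  constructor
  have hmeas : Measurable (fun x => ENNReal.ofReal (Real.exp (-V x))) :=
    (Real.measurable_exp.comp (hV.smooth.continuous.measurable.neg)).ennreal_ofReal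
  rw [gibbs, Measure.smul_apply, withDensity_apply _ MeasurableSet.univ, Measure.restrict_univ,
    smul_eq_mul]
  apply ENNReal.inv_mul_cancel
  · have : 0 < ∫⁻ x, ENNReal.ofReal (Real.exp (-V x)) := by
      rw [lintegral_pos_iff_support hmeas]
      have : Function.support (fun x => ENNReal.ofReal (Real.exp (-V x))) = univ := by
        ext x
        simp [Real.exp_pos]
      rw [this]
      exact Measure.measure_univ_pos.2 (NeZero.ne _)
    exact this.ne'
  · have h1 : ∫⁻ x, ENNReal.ofReal (Real.exp (-V x))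
        ≤ ∫⁻ x : E d, ENNReal.ofReal (Real.exp (-(1 / 2) * ‖x‖ ^ 2)) := by
      apply lintegral_mono
      intro x
      apply ENNReal.ofReal_le_ofReal
      apply Real.exp_le_exp.2
      have := (bounds hV x).1
      linarith
    exact (h1.trans_lt ((integrable_gauss (by norm_num)).lintegral_lt_top)).ne

end LCS.LIP

namespace LCS

theorem lip : S_LIP := fun _ _ hV =>
  ⟨LIP.lip1 hV, LIP.lip2 hV, LIP.bounds hV, LIP.contDiff_grad hV.smooth, LIP.isProb hV⟩

end LCS
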