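import Mathlib
import Vale.Agent.P347.Defs

/-!
# P347, modules TVB, TVP, TVL: total variation
-/

namespace LCS

namespace TV3

open MeasureTheory ProbabilityTheory Set Filter
open scoped ENNReal NNReal Topology RealInnerProductSpace BigOperators ContDiff

theorem real_map_prod {X Y Z : Type} [MeasurableSpace X] [MeasurableSpace Y]
    [MeasurableSpace Z] (μ : Measure X) (Γ : Measure Y)
    [IsProbabilityMeasure μ] [IsProbabilityMeasure Γ]
    {F : X × Y → Z} (hF : Measurable F) {B : Set Z} (hB : MeasurableSet B) :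
    Measurable (fun x => (Γ.map fun y => F (x, y)).real B) ∧
    (∀ x, 0 ≤ (Γ.map fun y => F (x, y)).real B) ∧
    (∀ x, (Γ.map fun y => F (x, y)).real B ≤ 1) ∧
    ((μ.prod Γ).map F).real B = ∫ x, (Γ.map fun y => F (x, y)).real B ∂μ := by
  have hFx : ∀ x, Measurable fun y => F (x, y) := fun x => hF.comp measurable_prodMk_left
  have h1 : ∀ x, (Γ.map fun y => F (x, y)).real B = (Γ (Prod.mk x ⁻¹' (F ⁻¹' B))).toReal := by
    intro x
    rw [measureReal_def, Measure.map_apply (hFx x) hB]
    rfl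
  have hm : Measurable fun x => Γ (Prod.mk x ⁻¹' (F ⁻¹' B)) := measurable_measure_prodMk_left (hF hB)
  refine ⟨?_, fun x => measureReal_nonneg, fun x => ?_, ?_⟩
  · simp only [h1]
    exact hm.ennreal_toReal
  · have : IsProbabilityMeasure (Γ.map fun y => F (x, y)) :=
      Measure.isProbabilityMeasure_map (hFx x).aemeasurable
    exact measureReal_le_one
  · rw [measureReal_def, Measure.map_apply hF hB, Measure.prod_apply (hF hB),
      ← integral_toReal hm.aemeasurable (Eventually.of_forall fun x => measure_lt_top _ _)]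
    exact integral_congr_ae (Eventually.of_forall fun x => (h1 x).symm)

end TV3

open TV3 MeasureTheory Set Filter

theorem tvb : S_TVB := by
  intro X _ μ ν _ _ ε h g hg h0 h1
  have hint : ∀ (ρ : Measure X) [IsProbabilityMeasure ρ], Integrable g ρ := fun ρ _ =>
    (integrable_const (1 : ℝ)).mono' hg.aestronglyMeasurable (Eventually.of_forall fun x => by
      rw [Real.norm_eq_abs, abs_of_nonneg (h0 x)]; exact h1 x)
  have key : ∀ (ρ : Measure X) [IsProbabilityMeasure ρ],
      ∫ x, g x ∂ρ = ∫ t in Ioc (0 : ℝ) 1, ρ.real {a | t ≤ g a} := fun ρ _ =>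
    (hint ρ).integral_eq_integral_Ioc_meas_le (Eventually.of_forall h0) (Eventually.of_forall h1)
  have hant : ∀ (ρ : Measure X) [IsProbabilityMeasure ρ],
      IntegrableOn (fun t : ℝ => ρ.real {a | t ≤ g a}) (Ioc 0 1) volume := by
    intro ρ _
    have ha : Antitone fun t : ℝ => ρ.real {a | t ≤ g a} := fun s t hst =>
      measureReal_mono (fun a (ha : t ≤ g a) => hst.trans ha)
    have := ha.intervalIntegrable (μ := volume) (a := 0) (b := 1)
    rwa [intervalIntegrable_iff_integrableOn_Ioc_of_le zero_le_one] at this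
  rw [key μ, key ν, ← integral_sub (hant μ) (hant ν)]
  have h2 := norm_setIntegral_le_of_norm_le_const (μ := volume) (s := Ioc (0 : ℝ) 1)
    (f := fun t : ℝ => μ.real {a | t ≤ g a} - ν.real {a | t ≤ g a}) (C := ε)
    (by simp) (fun t _ => h _ (measurableSet_le measurable_const hg))
  simpa using h2

theorem tvp : S_TVP := by
  intro X Y Y' Z _ _ _ _ μ Γ Γ' _ _ _ F F' ε hF hF' hε h B hB
  obtain ⟨m1, p1, q1, e1⟩ := real_map_prod μ Γ hF hB
  obtain ⟨m2, p2, q2, e2⟩ := real_map_prod μ Γ' hF' hB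
  have i1 : Integrable (fun x => (Γ.map fun y => F (x, y)).real B) μ :=
    (integrable_const (1 : ℝ)).mono' m1.aestronglyMeasurable (Eventually.of_forall fun x => by
      rw [Real.norm_eq_abs, abs_of_nonneg (p1 x)]; exact q1 x)
  have i2 : Integrable (fun x => (Γ'.map fun y => F' (x, y)).real B) μ :=
    (integrable_const (1 : ℝ)).mono' m2.aestronglyMeasurable (Eventually.of_forall fun x => by
      rw [Real.norm_eq_abs, abs_of_nonneg (p2 x)]; exact q2 x)
  rw [e1, e2, ← integral_sub i1 i2]
  calc |∫ x, ((Γ.map fun y => F (x, y)).real B - (Γ'.map fun y => F' (x, y)).real B) ∂μ|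
      ≤ ∫ x, |(Γ.map fun y => F (x, y)).real B - (Γ'.map fun y => F' (x, y)).real B| ∂μ :=
        abs_integral_le_integral_abs
    _ ≤ ∫ x, ε x ∂μ := integral_mono (i1.sub i2).abs hε fun x => h x B hB

theorem tvl : S_TVL := by
  intro X Y Z _ _ _ μ μ' Γ _ _ _ F ε hF h B hB
  obtain ⟨m1, p1, q1, e1⟩ := real_map_prod μ Γ hF hB
  obtain ⟨_, _, _, e2⟩ := real_map_prod μ' Γ hF hB
  rw [e1, e2]
  exact tvb X μ μ' ε h _ m1 p1 q1

end LCS
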