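import Vale.Agent.P347.LocBasic
import Vale.Agent.P347.TV3
import Vale.Agent.P347.Ibp

/-! # P347, module LOC: from smooth local potentials to `C²` ones -/

namespace LCS.LOCM

open MeasureTheory ProbabilityTheory Set Filter
open scoped ENNReal NNReal Topology RealInnerProductSpace BigOperators ContDiff

variable {d : ℕ}

/-- linear growth implies integrability -/
theorem integrable_of_linear (hCM : S_CM) {F : Type*} [NormedAddCommGroup F] {G : E d → F}
    (hG : Continuous G) {a b : ℝ} (hab : ∀ x, ‖G x‖ ≤ a + b * ‖x‖) (hb : 0 ≤ b) (c t : ℝ)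
    (y : E d) : Integrable (fun z => G (c • y + t • z)) (gam d) := by
  have ha : 0 ≤ a := by
    have := (norm_nonneg _).trans (hab 0)
    simpa using this
  refine IBP.integrable_of_growth hCM (Continuous.aestronglyMeasurable (by fun_prop))
    (a + b * (|c| * ‖y‖ + |t|)) 1 fun z => ?_
  have h1 : ‖c • y + t • z‖ ≤ |c| * ‖y‖ + |t| * ‖z‖ := by
    refine (norm_add_le _ _).trans ?_
    rw [norm_smul, norm_smul, Real.norm_eq_abs, Real.norm_eq_abs]
  have h2 : 1 + ‖z‖ ≤ Real.exp (1 * ‖z‖) := by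
    rw [one_mul, add_comm]
    exact Real.add_one_le_exp _
  have h3 : 0 ≤ b * (|c| * ‖y‖) := by positivity
  have h4 : 0 ≤ b * |t| := by positivity
  have h5 : 0 ≤ ‖z‖ := norm_nonneg z
  calc ‖G (c • y + t • z)‖ ≤ a + b * ‖c • y + t • z‖ := hab _
    _ ≤ a + b * (|c| * ‖y‖ + |t| * ‖z‖) := by
        have := mul_le_mul_of_nonneg_left h1 hb
        linarith
    _ ≤ (a + b * (|c| * ‖y‖ + |t|)) * (1 + ‖z‖) := by
        have e : (a + b * (|c| * ‖y‖ + |t|)) * (1 + ‖z‖)
          = a + b * (|c| * ‖y‖ + |t| * ‖z‖) + (b * |t| + a * ‖z‖ + b * (|c| * ‖y‖) * ‖z‖) := by ring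
        rw [e]
        have : 0 ≤ b * |t| + a * ‖z‖ + b * (|c| * ‖y‖) * ‖z‖ := by positivity
        linarith
    _ ≤ _ := mul_le_mul_of_nonneg_left h2 (by positivity)

theorem measurable_Mh {F : Type*} [NormedAddCommGroup F] [NormedSpace ℝ F] {G : E d → F}
    (hG : Continuous G) (c : ℝ) : StronglyMeasurable (fun y => Mh c G y) := by
  unfold Mh
  have : Continuous fun p : E d × E d => G (c • p.1 + √(1 - c ^ 2) • p.2) := by fun_prop
  exact (this.stronglyMeasurable).integral_prod_right'

theorem measurable_meanY {J : ℕ} {β : ℝ} {c w : Fin J → ℝ} {f : E d → ℝ}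
    (hf : Continuous (gradient f)) : Measurable (meanY β c w f) := by
  unfold meanY
  have h : ∀ j, Measurable fun y => Mh (c j) (gradient f) y :=
    fun j => (measurable_Mh hf (c j)).measurable
  have h2 : Measurable fun y => ∑ j, w j • Mh (c j) (gradient f) y :=
    Finset.measurable_sum _ fun j _ => (h j).const_smul (w j)
  exact ((measurable_id.add h2).const_smul β).neg

theorem Mh_sub_le (hCM : S_CM) {G H : E d → E d} (hG : Continuous G) (hH : Continuous H)
    {a b a' b' : ℝ} (hb : 0 ≤ b) (hb' : 0 ≤ b') (h1 : ∀ x, ‖G x‖ ≤ a + b * ‖x‖)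
    (h2 : ∀ x, ‖H x‖ ≤ a' + b' * ‖x‖) {δ : ℝ} (h : ∀ x, ‖G x - H x‖ ≤ δ) (c : ℝ) (y : E d) :
    ‖Mh c G y - Mh c H y‖ ≤ δ := by
  unfold Mh
  rw [← integral_sub (integrable_of_linear hCM hG h1 hb _ _ _)
    (integrable_of_linear hCM hH h2 hb' _ _ _)]
  have := norm_integral_le_of_norm_le (μ := gam d) (integrable_const δ)
    (Eventually.of_forall fun z => h (c • y + √(1 - c ^ 2) • z))
  simpa using this

theorem meanY_sub_le (hCM : S_CM) {J : ℕ} {β η : ℝ} {c w : Fin J → ℝ} (hR : Rule J η c w)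
    (hβ : 0 ≤ β) (hβ1 : β ≤ 1) {f g : E d → ℝ} {s A A' : ℝ} (hs : 0 ≤ s) (hf : Loc d s A f)
    (hg : Loc d s A' g) {δ : ℝ} (h : ∀ x, ‖gradient g x - gradient f x‖ ≤ δ)
    (y : E d) : ‖meanY β c w g y - meanY β c w f y‖ ≤ 2 * δ := by
  have e : meanY β c w g y - meanY β c w f y
      = -(β • ∑ j, w j • (Mh (c j) (gradient g) y - Mh (c j) (gradient f) y)) := by
    unfold meanY
    simp only [smul_sub, Finset.sum_sub_distrib, smul_add]
    abel
  rw [e, norm_neg, norm_smul, Real.norm_eq_abs, abs_of_nonneg hβ]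
  have h1 : ‖∑ j, w j • (Mh (c j) (gradient g) y - Mh (c j) (gradient f) y)‖ ≤ 2 * δ := by
    calc _ ≤ ∑ j, ‖w j • (Mh (c j) (gradient g) y - Mh (c j) (gradient f) y)‖ :=
          norm_sum_le _ _
      _ ≤ ∑ j, w j * δ := by
          apply Finset.sum_le_sum
          intro j _
          rw [norm_smul, Real.norm_eq_abs, abs_of_pos (hR.pos j)]
          exact mul_le_mul_of_nonneg_left (Mh_sub_le hCM hg.continuous_grad hf.continuous_grad
            (by positivity) (by positivity) (hg.grad_le hs) (hf.grad_le hs) h _ _) (hR.pos j).le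
      _ = 2 * δ := by rw [← Finset.sum_mul, hR.sum]
  calc β * _ ≤ 1 * (2 * δ) := mul_le_mul hβ1 h1 (norm_nonneg _) zero_le_one
    _ = _ := one_mul _

theorem integrable_exp (hCM : S_CM) {f : E d → ℝ} {s A : ℝ} (hf : Loc d s A f) (b : ℝ) :
    Integrable (fun y => Real.exp (-f y + b * ‖y‖)) (gam d) := by
  have hc : Continuous f := hf.smooth.continuous
  refine IBP.integrable_of_growth hCM (Continuous.aestronglyMeasurable (by fun_prop))
    (Real.exp (-f 0)) (s * A + b) fun y => ?_
  rw [Real.norm_eq_abs, abs_of_pos (Real.exp_pos _), ← Real.exp_add]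
  apply Real.exp_le_exp.2
  have := hf.lower_le y
  nlinarith

/-- weak (indeed setwise) convergence of the local measures -/
theorem tendsto_loc (hCM : S_CM) {f : E d → ℝ} {s A : ℝ} (hf : Loc d s A f) {g : ℕ → E d → ℝ}
    {δ A' : ℕ → ℝ} (hδ1 : ∀ n, δ n ≤ 1) (hδlim : Tendsto δ atTop (𝓝 0))
    (hgl : ∀ n, Loc d s (A' n) (g n)) (hgf : ∀ n x, |g n x - f x| ≤ δ n * (1 + ‖x‖))
    {h : E d → ℝ} (hh : Measurable h) (hh1 : ∀ y, |h y| ≤ 1) :
    Tendsto (fun n => ∫ y, h y ∂(loc (g n))) atTop (𝓝 (∫ y, h y ∂(loc f))) := by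
  have hif : Integrable (fun y => Real.exp (-f y)) (gam d) := by
    simpa using integrable_exp hCM hf 0
  have hig : ∀ n, Integrable (fun y => Real.exp (-g n y)) (gam d) := fun n => by
    simpa using integrable_exp hCM (hgl n) 0
  have hfm : Measurable f := hf.smooth.continuous.measurable
  have hgm : ∀ n, Measurable (g n) := fun n => (hgl n).smooth.continuous.measurable
  have hlim0 : ∀ h : E d → ℝ, Measurable h → (∀ y, |h y| ≤ 1) →
      Tendsto (fun n => ∫ y, Real.exp (-g n y) * h y ∂(gam d)) atTop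
        (𝓝 (∫ y, Real.exp (-f y) * h y ∂(gam d))) := by
    intro h hh hh1
    have hb : Integrable (fun y => Real.exp 1 * Real.exp (-f y + 1 * ‖y‖)) (gam d) :=
      (integrable_exp hCM hf 1).const_mul _
    refine tendsto_integral_of_dominated_convergence _ (fun n => ?_) hb (fun n => ?_) ?_
    · exact (((hgm n).neg.exp).mul hh).aestronglyMeasurable
    · refine Eventually.of_forall fun y => ?_
      rw [Real.norm_eq_abs, abs_mul, abs_of_pos (Real.exp_pos _), ← Real.exp_add]
      have h1 := hgf n y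
      rw [abs_le] at h1
      have h2 : δ n * (1 + ‖y‖) ≤ 1 * (1 + ‖y‖) :=
        mul_le_mul_of_nonneg_right (hδ1 n) (by positivity)
      calc Real.exp (-g n y) * |h y| ≤ Real.exp (-g n y) * 1 :=
            mul_le_mul_of_nonneg_left (hh1 y) (Real.exp_pos _).le
        _ ≤ _ := by
            rw [mul_one]
            apply Real.exp_le_exp.2
            linarith [h1.1]
    · refine Eventually.of_forall fun y => ?_
      have h1 : Tendsto (fun n => g n y) atTop (𝓝 (f y)) := by
        rw [tendsto_iff_norm_sub_tendsto_zero]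
        have h2 : Tendsto (fun n => δ n * (1 + ‖y‖)) atTop (𝓝 0) := by
          simpa using hδlim.mul_const (1 + ‖y‖)
        exact squeeze_zero (fun n => norm_nonneg _) (fun n => hgf n y) h2
      exact ((Real.continuous_exp.tendsto _).comp h1.neg).mul_const _
  have hZlim : Tendsto (fun n => Zf (g n)) atTop (𝓝 (Zf f)) := by
    have := hlim0 (fun _ => 1) measurable_const (fun _ => by simp)
    simpa [Zf] using this
  have hint : ∀ (k : E d → ℝ) (hk : Measurable k) (hki : Integrable (fun y => Real.exp (-k y))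
      (gam d)) (h : E d → ℝ), ∫ y, h y ∂(loc k) = (Zf k)⁻¹ * ∫ y, Real.exp (-k y) * h y ∂(gam d) := by
    intro k hk hki h
    rw [integral_loc hk hki, ← integral_const_mul]
    refine integral_congr_ae (Eventually.of_forall fun y => ?_)
    simp only [smul_eq_mul]
    ring
  rw [hint f hfm hif]
  simp only [fun n => hint (g n) (hgm n) (hig n) h]
  exact (hZlim.inv₀ (Zf_pos hif).ne').mul (hlim0 h hh hh1)

theorem limit_step (hCM : S_CM) (hSHIFT : S_SHIFT) {J : ℕ} {s A β η σ : ℝ} {c w : Fin J → ℝ}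
    {f : E d → ℝ} (hs : 0 < s) (hf : Loc d s A f) (hβ : 1 / 2 ≤ β) (hβ1 : β < 1) (hσ : 0 < σ)
    (hR : Rule J η c w) {B : Set (E d)} (hB : MeasurableSet B) {g : ℕ → E d → ℝ}
    {δ A' b : ℕ → ℝ} {b0 : ℝ} (hδ1 : ∀ n, δ n ≤ 1)
    (hδlim : Tendsto δ atTop (𝓝 0))
    (hgl : ∀ n, Loc d s (A' n) (g n)) (hgf : ∀ n x, |g n x - f x| ≤ δ n * (1 + ‖x‖))
    (hgf' : ∀ n x, ‖gradient (g n) x - gradient f x‖ ≤ δ n)
    (hmain : ∀ n, TV (((loc (g n)).prod (gam d)).map fun q => meanY β c w (g n) q.1 + σ • q.2)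
      (loc (g n)) (b n)) (hb : Tendsto b atTop (𝓝 b0)) :
    |(((loc f).prod (gam d)).map fun q => meanY β c w f q.1 + σ • q.2).real B - (loc f).real B|
      ≤ b0 := by
  have hif : Integrable (fun y => Real.exp (-f y)) (gam d) := by
    simpa using integrable_exp hCM hf 0
  have hig : ∀ n, Integrable (fun y => Real.exp (-g n y)) (gam d) := fun n => by
    simpa using integrable_exp hCM (hgl n) 0
  have hpf : IsProbabilityMeasure (loc f) := loc_prob hif
  have hpg : ∀ n, IsProbabilityMeasure (loc (g n)) := fun n => loc_prob (hig n)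
  have hmf : Measurable (meanY β c w f) := measurable_meanY hf.continuous_grad
  have hmg : ∀ n, Measurable (meanY β c w (g n)) := fun n => measurable_meanY (hgl n).continuous_grad
  have hFm : Measurable fun q : E d × E d => meanY β c w f q.1 + σ • q.2 :=
    (hmf.comp measurable_fst).add (measurable_snd.const_smul σ)
  have hKf := TV3.real_map_prod (loc f) (gam d) hFm hB
  have hKg := fun n => (TV3.real_map_prod (loc (g n)) (gam d) hFm hB).2.2.2
  have hK1 : ∀ y, |((gam d).map fun z => meanY β c w f y + σ • z).real B| ≤ 1 := fun y => by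
    rw [abs_of_nonneg (hKf.2.1 y)]
    exact hKf.2.2.1 y
  have hind : ∀ (μ : Measure (E d)) [IsProbabilityMeasure μ],
      μ.real B = ∫ y, B.indicator (fun _ => (1 : ℝ)) y ∂μ := by
    intro μ _
    rw [integral_indicator hB]
    simp
  have hindm : Measurable (B.indicator (fun _ => (1 : ℝ)) : E d → ℝ) := measurable_const.indicator hB
  have hind1 : ∀ y : E d, |B.indicator (fun _ => (1 : ℝ)) y| ≤ 1 := by
    intro y
    by_cases hy : y ∈ B <;> simp [hy]
  have L1 : Tendsto (fun n => (((loc (g n)).prod (gam d)).map fun q => meanY β c w f q.1 + σ • q.2).real B)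
      atTop (𝓝 ((((loc f).prod (gam d)).map fun q => meanY β c w f q.1 + σ • q.2).real B)) := by
    rw [hKf.2.2.2]
    simp only [hKg]
    exact tendsto_loc hCM hf hδ1 hδlim hgl hgf hKf.1 hK1
  have L2 : Tendsto (fun n => (loc (g n)).real B) atTop (𝓝 ((loc f).real B)) := by
    rw [hind (loc f)]
    simp only [fun n => hind (loc (g n))]
    exact tendsto_loc hCM hf hδ1 hδlim hgl hgf hindm hind1
  have hbound : ∀ n, |(((loc (g n)).prod (gam d)).map fun q => meanY β c w f q.1 + σ • q.2).real B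
      - (loc (g n)).real B| ≤ b n + 2 * δ n / σ := by
    intro n
    have h1 := hmain n B hB
    have hdiff : ∀ y, ‖meanY β c w (g n) y - meanY β c w f y‖ ≤ 2 * δ n :=
      meanY_sub_le hCM hR (by linarith) hβ1.le hs.le hf (hgl n) (hgf' n)
    have hi : Integrable (fun y => ‖meanY β c w (g n) y - meanY β c w f y‖) (loc (g n)) := by
      refine (integrable_const (2 * δ n)).mono' ?_ (Eventually.of_forall fun y => ?_)
      · exact (((hmg n).sub hmf).norm).aestronglyMeasurable
      · rw [norm_norm]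
        exact hdiff y
    have h2 := hSHIFT (E d) (loc (g n)) d (meanY β c w (g n)) (meanY β c w f) σ (hmg n) hmf hσ hi B hB
    have h3 : (∫ y, ‖meanY β c w (g n) y - meanY β c w f y‖ ∂(loc (g n))) / σ ≤ 2 * δ n / σ := by
      apply div_le_div_of_nonneg_right _ hσ.le
      have := integral_mono hi (integrable_const (2 * δ n)) hdiff
      simpa using this
    have h4 := h2.trans h3
    rw [abs_le] at h1 h4 ⊢
    constructor <;> linarith [h1.1, h1.2, h4.1, h4.2]
  have L3 := (L1.sub L2).abs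
  have L4 : Tendsto (fun n => b n + 2 * δ n / σ) atTop (𝓝 b0) := by
    have := hb.add ((hδlim.const_mul 2).div_const σ)
    simpa using this
  exact le_of_tendsto_of_tendsto' L3 L4 hbound

end LCS.LOCM

namespace LCS

open LOCM MeasureTheory ProbabilityTheory Set Filter
open scoped ENNReal NNReal Topology RealInnerProductSpace BigOperators ContDiff

theorem locC2 (hCM : S_CM) (hLOCS : S_LOCS) (hMOLL : S_MOLL) (hSHIFT : S_SHIFT) : S_LOC := by
  obtain ⟨C, hC, hmain⟩ := hLOCS
  refine ⟨C, hC, ?_⟩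
  intro d J s A β η c w f hd hPar hsA hf hβ hβ1 hη hR B hB
  have hs := hPar.s_pos
  have hσ : 0 < √(1 - β ^ 2) := by
    apply Real.sqrt_pos.2
    nlinarith
  set δ : ℕ → ℝ := fun n => 1 / ((n : ℝ) + 1) with hδ
  have hδpos : ∀ n, 0 < δ n := fun n => by simp only [hδ]; positivity
  have hδ1 : ∀ n, δ n ≤ 1 := fun n => by
    simp only [hδ]
    rw [div_le_one (by positivity)]
    have : (0 : ℝ) ≤ n := Nat.cast_nonneg n
    linarith
  have hδlim : Tendsto δ atTop (𝓝 0) := tendsto_one_div_add_atTop_nhds_zero_nat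
  choose g hg hgf using fun n => hMOLL d s A f hs hf (δ n) (hδpos n)
  have hgl : ∀ n, Loc d s (A + δ n) (g n) := fun n => (hg n).toLoc
  have hPar' : ∀ n, Par d s (A + δ n) := fun n =>
    ⟨hs, hPar.s_le, hPar.dA.trans (by linarith [hδpos n]), by
      have h1 := hPar.s_le
      have h2 := mul_le_mul_of_nonneg_left (hδ1 n) hs.le
      nlinarith⟩
  refine limit_step hCM hSHIFT hs hf hβ hβ1 hσ hR hB hδ1 hδlim hgl
    (fun n x => (hgf n x).1) (fun n x => (hgf n x).2)
    (fun n => hmain d J s (A + δ n) β η c w (g n) hd (hPar' n) (hg n) hβ hβ1 hη hR) ?_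
  have hcont : Continuous fun x : ℝ => C * err d s (A + x) β η := by
    unfold err
    fun_prop
  have := (hcont.tendsto 0).comp hδlim
  simp only [add_zero] at this
  exact this

end LCS
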