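import Mathlib
import Vale.Agent.P347.Defs

/-! # P347: elementary properties of `TV` -/

namespace LCS

open MeasureTheory ProbabilityTheory Set Filter
open scoped ENNReal NNReal Topology RealInnerProductSpace BigOperators ContDiff

variable {X Y : Type*} [MeasurableSpace X] [MeasurableSpace Y] {μ ν ρ : Measure X} {ε δ : ℝ}

theorem TV.symm (h : TV μ ν ε) : TV ν μ ε := fun B hB => by
  rw [abs_sub_comm]; exact h B hB

theorem TV.mono (h : TV μ ν ε) (he : ε ≤ δ) : TV μ ν δ := fun B hB => (h B hB).trans he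

theorem TV.trans (h : TV μ ν ε) (h' : TV ν ρ δ) : TV μ ρ (ε + δ) := fun B hB => by
  have := abs_sub_le (μ.real B) (ν.real B) (ρ.real B)
  linarith [h B hB, h' B hB]

theorem TV.refl (μ : Measure X) : TV μ μ 0 := fun B _ => by simp

theorem TV.map (h : TV μ ν ε) {f : X → Y} (hf : Measurable f) : TV (μ.map f) (ν.map f) ε := by
  intro B hB
  rw [map_measureReal_apply hf hB, map_measureReal_apply hf hB]
  exact h _ (hf hB)

theorem TV.le_one [IsProbabilityMeasure μ] [IsProbabilityMeasure ν] (h : 1 ≤ ε) : TV μ ν ε := by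
  intro B _
  have h1 : μ.real B ≤ 1 := measureReal_le_one
  have h2 : ν.real B ≤ 1 := measureReal_le_one
  have h3 : 0 ≤ μ.real B := measureReal_nonneg
  have h4 : 0 ≤ ν.real B := measureReal_nonneg
  rw [abs_le]; constructor <;> linarith

theorem TV.nonneg (h : TV μ ν ε) : 0 ≤ ε := by
  have := h ∅ MeasurableSet.empty
  exact (abs_nonneg _).trans this

end LCS
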