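import Mathlib
import Vale.Agent.P347.Base
import Vale.Agent.P347.TVBasic

/-! # P347: the measure `loc f`, moments of the standard Gaussian measure -/

namespace LCS

open MeasureTheory ProbabilityTheory Set Filter
open scoped ENNReal NNReal Topology RealInnerProductSpace BigOperators ContDiff

variable {d : ℕ} {f : E d → ℝ}

/-- the normalisation -/
noncomputable def Zf (f : E d → ℝ) : ℝ := ∫ y, Real.exp (-f y) ∂(gam d)

theorem Zf_pos (hi : Integrable (fun y => Real.exp (-f y)) (gam d)) : 0 < Zf f := by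
  rw [Zf]
  rw [integral_pos_iff_support_of_nonneg (fun y => (Real.exp_pos _).le) hi]
  have : Function.support (fun y : E d => Real.exp (-f y)) = Set.univ := by
    ext y; simp [Function.mem_support, (Real.exp_pos _).ne']
  rw [this]
  simp

theorem lintegral_Zf (hi : Integrable (fun y => Real.exp (-f y)) (gam d)) :
    ∫⁻ y, ENNReal.ofReal (Real.exp (-f y)) ∂(gam d) = ENNReal.ofReal (Zf f) := by
  rw [Zf, ofReal_integral_eq_lintegral_ofReal hi (ae_of_all _ fun y => (Real.exp_pos _).le)]

theorem loc_prob (hi : Integrable (fun y => Real.exp (-f y)) (gam d)) :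
    IsProbabilityMeasure (loc f) := by
  refine ⟨?_⟩
  rw [loc, Measure.smul_apply, withDensity_apply _ MeasurableSet.univ, Measure.restrict_univ,
    smul_eq_mul, lintegral_Zf hi]
  exact ENNReal.inv_mul_cancel (by simpa using Zf_pos hi) ENNReal.ofReal_ne_top

theorem loc_eq (hf : Measurable f) (hi : Integrable (fun y => Real.exp (-f y)) (gam d)) :
    loc f = (gam d).withDensity (fun y => ENNReal.ofReal (Real.exp (-f y) / Zf f)) := by
  rw [loc, lintegral_Zf hi, ← withDensity_smul _ (by fun_prop)]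
  congr 1
  funext y
  rw [Pi.smul_apply, smul_eq_mul, ← ENNReal.ofReal_inv_of_pos (Zf_pos hi),
    ← ENNReal.ofReal_mul (inv_nonneg.mpr (Zf_pos hi).le)]
  congr 1
  rw [div_eq_inv_mul]

theorem integral_loc (hf : Measurable f) (hi : Integrable (fun y => Real.exp (-f y)) (gam d))
    {F : Type*} [NormedAddCommGroup F] [NormedSpace ℝ F] (g : E d → F) :
    ∫ y, g y ∂(loc f) = ∫ y, (Real.exp (-f y) / Zf f) • g y ∂(gam d) := by
  rw [loc_eq hf hi, integral_withDensity_eq_integral_toReal_smul (by fun_prop)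
    (ae_of_all _ fun y => ENNReal.ofReal_lt_top)]
  refine integral_congr_ae (ae_of_all _ fun y => ?_)
  simp only
  rw [ENNReal.toReal_ofReal (div_nonneg (Real.exp_pos _).le (Zf_pos hi).le)]

theorem integrable_loc (hf : Measurable f) (hi : Integrable (fun y => Real.exp (-f y)) (gam d))
    {F : Type*} [NormedAddCommGroup F] [NormedSpace ℝ F] {g : E d → F} :
    Integrable g (loc f) ↔ Integrable (fun y => (Real.exp (-f y) / Zf f) • g y) (gam d) := by
  rw [loc_eq hf hi, integrable_withDensity_iff_integrable_smul' (by fun_prop)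
    (ae_of_all _ fun y => ENNReal.ofReal_lt_top)]
  refine integrable_congr (ae_of_all _ fun y => ?_)
  simp only
  rw [ENNReal.toReal_ofReal (div_nonneg (Real.exp_pos _).le (Zf_pos hi).le)]

/-- Cauchy-Schwarz for `loc f` -/
theorem loc_cs (hf : Measurable f) (hi : Integrable (fun y => Real.exp (-f y)) (gam d))
    (hi2 : Integrable (fun y => Real.exp (-2 * f y)) (gam d)) {C : ℝ} (hC : 0 ≤ C)
    (h : ∫ y, Real.exp (-2 * f y) ∂(gam d) ≤ C * (∫ y, Real.exp (-f y) ∂(gam d)) ^ 2)
    {g : E d → ℝ} (hg : AEStronglyMeasurable g (gam d)) (hg2 : Integrable (fun y => g y ^ 2) (gam d)) :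
    Integrable g (loc f) ∧ ∫ y, |g y| ∂(loc f) ≤ √C * √(∫ y, g y ^ 2 ∂(gam d)) := by
  have hZ := Zf_pos hi
  have hm1 : MemLp g 2 (gam d) := (memLp_two_iff_integrable_sq hg).mpr hg2
  have hexp : ∀ y, Real.exp (-f y) ^ 2 = Real.exp (-2 * f y) := fun y => by
    rw [← Real.exp_nat_mul]; congr 1; push_cast; ring
  have hm2 : MemLp (fun y => Real.exp (-f y)) 2 (gam d) := by
    rw [memLp_two_iff_integrable_sq hi.aestronglyMeasurable]
    simpa only [hexp] using hi2
  have hint : Integrable (fun y => Real.exp (-f y) * g y) (gam d) := hm2.integrable_mul hm1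
  refine ⟨?_, ?_⟩
  · rw [integrable_loc hf hi]
    have := hint.const_mul (Zf f)⁻¹
    refine this.congr (ae_of_all _ fun y => ?_)
    simp only [smul_eq_mul]
    ring
  · rw [integral_loc hf hi]
    have h1 : ∫ y, Real.exp (-f y) * |g y| ∂(gam d) ≤
        √(∫ y, Real.exp (-2 * f y) ∂(gam d)) * √(∫ y, g y ^ 2 ∂(gam d)) := by
      have := integral_mul_le_Lp_mul_Lq_of_nonneg (μ := gam d) (p := 2) (q := 2)
        Real.HolderConjugate.two_two (f := fun y => Real.exp (-f y)) (g := fun y => |g y|)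
        (ae_of_all _ fun y => (Real.exp_pos _).le) (ae_of_all _ fun y => abs_nonneg _)
        (by simpa using hm2) (by simpa using hm1.norm)
      refine this.trans (le_of_eq ?_)
      rw [Real.sqrt_eq_rpow, Real.sqrt_eq_rpow]
      congr 2
      · refine integral_congr_ae (ae_of_all _ fun y => ?_)
        simp only
        rw [← hexp]; norm_cast
      · refine integral_congr_ae (ae_of_all _ fun y => ?_)
        simp only
        rw [← sq_abs (g y)]; norm_cast
    have h2 : √(∫ y, Real.exp (-2 * f y) ∂(gam d)) ≤ √C * Zf f := by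
      refine (Real.sqrt_le_sqrt h).trans (le_of_eq ?_)
      rw [Real.sqrt_mul hC, ← Zf, Real.sqrt_sq hZ.le]
    have e : ∫ y, (Real.exp (-f y) / Zf f) • |g y| ∂(gam d)
        = (Zf f)⁻¹ * ∫ y, Real.exp (-f y) * |g y| ∂(gam d) := by
      rw [← integral_const_mul]
      refine integral_congr_ae (ae_of_all _ fun y => ?_)
      simp only [smul_eq_mul]
      ring
    rw [e]
    have h3 := mul_le_mul_of_nonneg_right h2 (Real.sqrt_nonneg (∫ y, g y ^ 2 ∂(gam d)))
    calc (Zf f)⁻¹ * ∫ y, Real.exp (-f y) * |g y| ∂(gam d)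
        ≤ (Zf f)⁻¹ * (√C * Zf f * √(∫ y, g y ^ 2 ∂(gam d))) :=
          mul_le_mul_of_nonneg_left (h1.trans h3) (inv_nonneg.mpr hZ.le)
      _ = √C * √(∫ y, g y ^ 2 ∂(gam d)) := by field_simp

/-! ### moments of the standard Gaussian -/

theorem integrable_norm_sq_gam : Integrable (fun y : E d => ‖y‖ ^ 2) (gam d) :=
  (IsGaussian.memLp_two_id (μ := gam d)).integrable_norm_pow (by norm_num)

theorem integral_inner_sq_gam (v : E d) : ∫ y, ⟪v, y⟫ ^ 2 ∂(gam d) = ‖v‖ ^ 2 := by
  have h := variance_dual_stdGaussian (E := E d) (innerSL ℝ v)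
  rw [variance_of_integral_eq_zero] at h
  · rw [innerSL_apply_norm] at h
    rw [← h]
    rfl
  · fun_prop
  · exact integral_strongDual_stdGaussian _

theorem integral_norm_sq_gam : ∫ y : E d, ‖y‖ ^ 2 ∂(gam d) = d := by
  have e : ∀ y : E d, ‖y‖ ^ 2 = ∑ i, ⟪EuclideanSpace.single i (1 : ℝ), y⟫ ^ 2 := by
    intro y
    rw [EuclideanSpace.real_norm_sq_eq]
    refine Finset.sum_congr rfl fun i _ => ?_
    rw [EuclideanSpace.inner_single_left]
    simp
  simp_rw [e]
  rw [integral_finsetSum]
  · simp_rw [integral_inner_sq_gam]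
    simp
  · intro i _
    have : Integrable (fun y : E d => ‖y‖ ^ 2) (gam d) := integrable_norm_sq_gam
    refine this.mono' (by fun_prop) (ae_of_all _ fun y => ?_)
    rw [Real.norm_eq_abs, abs_of_nonneg (sq_nonneg _)]
    have := abs_real_inner_le_norm (EuclideanSpace.single i (1 : ℝ)) y
    rw [← sq_abs]
    have h1 : ‖(EuclideanSpace.single i (1 : ℝ) : E d)‖ = 1 := by simp
    rw [h1, one_mul] at this
    exact pow_le_pow_left₀ (abs_nonneg _) this 2

theorem integral_norm_gam_le : ∫ y : E d, ‖y‖ ∂(gam d) ≤ √d := by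
  have hm : MemLp (fun y : E d => ‖y‖) 2 (gam d) := (IsGaussian.memLp_two_id (μ := gam d)).norm
  have h := variance_nonneg (fun y : E d => ‖y‖) (gam d)
  rw [variance_eq_sub hm] at h
  have h2 : ∫ y : E d, ((fun y : E d => ‖y‖) ^ 2) y ∂(gam d) = d := by
    simpa using integral_norm_sq_gam (d := d)
  rw [h2] at h
  refine Real.le_sqrt_of_sq_le ?_
  linarith

end LCS
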