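import Vale.Agent.P347.Base
import Vale.Agent.P347.LocBasic

/-! # P347 module RIEM: the Riemann sums of the free path converge -/

namespace LCS

open MeasureTheory ProbabilityTheory Set Filter
open scoped ENNReal NNReal Topology RealInnerProductSpace BigOperators ContDiff

namespace RIEM

theorem riemann {F : Type*} [NormedAddCommGroup F] [NormedSpace ℝ F] [CompleteSpace F]
    {φ : ℝ → F} (hφ : Continuous φ) {b : ℝ} (hb : 0 < b) :
    Tendsto (fun J : ℕ => (b / J) • ∑ i ∈ Finset.range J, φ (i * (b / J))) atTop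
      (𝓝 (∫ t in (0 : ℝ)..b, φ t)) := by
  rw [Metric.tendsto_atTop]
  intro ε hε
  have huc : UniformContinuousOn φ (Icc 0 b) :=
    isCompact_Icc.uniformContinuousOn_of_continuous hφ.continuousOn
  rw [Metric.uniformContinuousOn_iff] at huc
  obtain ⟨δ, hδ, hδ'⟩ := huc (ε / (2 * b)) (by positivity)
  obtain ⟨J0, hJ0⟩ := exists_nat_gt (b / δ)
  refine ⟨J0 + 1, fun J hJ => ?_⟩
  have hJp : (0 : ℝ) < J := by
    have : 0 < J := by omega
    exact_mod_cast this
  set τ := b / J with hτ
  have hτ0 : 0 < τ := by positivity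
  have hτδ : τ < δ := by
    have h1 : (J0 : ℝ) < J := by exact_mod_cast (by omega : J0 < J)
    rw [hτ, div_lt_iff₀ hJp]
    rw [div_lt_iff₀ hδ] at hJ0
    nlinarith
  have hJτ : (J : ℝ) * τ = b := by rw [hτ]; field_simp
  have hsum : ∫ t in (0 : ℝ)..b, φ t =
      ∑ i ∈ Finset.range J, ∫ t in (i * τ)..((i + 1 : ℕ) * τ), φ t := by
    have := intervalIntegral.sum_integral_adjacent_intervals (f := φ) (μ := volume)
      (a := fun i : ℕ => (i : ℝ) * τ) (n := J) (fun k _ => hφ.intervalIntegrable _ _)
    simp only [Nat.cast_zero, zero_mul] at this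
    rw [hJτ] at this
    exact this.symm
  rw [dist_eq_norm, hsum, Finset.smul_sum, ← Finset.sum_sub_distrib]
  have hterm : ∀ i ∈ Finset.range J,
      ‖τ • φ (i * τ) - ∫ t in (i * τ)..((i + 1 : ℕ) * τ), φ t‖ ≤ ε / (2 * b) * τ := by
    intro i hi
    have hi' : (i : ℝ) + 1 ≤ J := by exact_mod_cast Finset.mem_range.mp hi
    have hlen : ((i + 1 : ℕ) : ℝ) * τ - i * τ = τ := by push_cast; ring
    have h1 : τ • φ (i * τ) = ∫ _t in (i * τ)..((i + 1 : ℕ) * τ), φ (i * τ) := by
      rw [intervalIntegral.integral_const, hlen]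
    rw [h1, ← intervalIntegral.integral_sub (by simp) (hφ.intervalIntegrable _ _)]
    have h2 := intervalIntegral.norm_integral_le_of_norm_le_const
      (a := (i : ℝ) * τ) (b := ((i + 1 : ℕ) : ℝ) * τ) (C := ε / (2 * b))
      (f := fun t => φ (i * τ) - φ t) (fun t ht => by
        rw [uIoc_of_le (by push_cast; nlinarith)] at ht
        have hi0 : (0 : ℝ) ≤ i := Nat.cast_nonneg _
        have h3 : (i : ℝ) * τ ∈ Icc 0 b := ⟨by positivity, by nlinarith⟩
        have h4 : t ∈ Icc 0 b := by
          refine ⟨by nlinarith [ht.1], ht.2.trans ?_⟩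
          push_cast
          nlinarith
        have h5 : dist ((i : ℝ) * τ) t < δ := by
          rw [dist_comm, Real.dist_eq, abs_of_nonneg (by linarith [ht.1])]
          have := ht.2
          push_cast at this
          nlinarith
        rw [← dist_eq_norm]
        exact (hδ' _ h3 _ h4 h5).le)
    rw [hlen, abs_of_pos hτ0] at h2
    exact h2
  refine (norm_sum_le_of_le _ hterm).trans_lt ?_
  rw [Finset.sum_const, Finset.card_range, nsmul_eq_mul]
  have : (J : ℝ) * (ε / (2 * b) * τ) = ε / 2 := by
    calc (J : ℝ) * (ε / (2 * b) * τ) = (J * τ) * (ε / (2 * b)) := by ring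
      _ = ε / 2 := by rw [hJτ]; field_simp
  rw [this]
  linarith

variable {d : ℕ} {s A : ℝ} {f : E d → ℝ}

theorem growth (hP : Par d s A) (hL : Loc d s A f) (a b R : ℝ) (ha : |a| ≤ R) (hb : |b| ≤ 1)
    (y z : E d) :
    ‖gradient f (a • y + b • z)‖ ≤ s * A + 2 * s * (R * ‖y‖ + ‖z‖) := by
  have hs := hP.s_pos
  refine (hL.grad_le hs.le _).trans ?_
  have h1 : ‖a • y + b • z‖ ≤ R * ‖y‖ + ‖z‖ := by
    refine (norm_add_le _ _).trans ?_
    rw [norm_smul, norm_smul, Real.norm_eq_abs, Real.norm_eq_abs]
    have h2 : |a| * ‖y‖ ≤ R * ‖y‖ := mul_le_mul_of_nonneg_right ha (norm_nonneg _)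
    have h3 : |b| * ‖z‖ ≤ 1 * ‖z‖ := mul_le_mul_of_nonneg_right hb (norm_nonneg _)
    linarith
  gcongr

theorem integrable_norm_gam' : Integrable (fun z : E d => ‖z‖) (gam d) := by
  have h : Integrable (fun z : E d => ‖z‖ ^ 2 + 1) (gam d) :=
    integrable_norm_sq_gam.add (integrable_const _)
  refine h.mono' (by fun_prop) (ae_of_all _ fun z => ?_)
  rw [Real.norm_eq_abs, abs_of_nonneg (norm_nonneg _)]
  nlinarith [norm_nonneg z, sq_nonneg (‖z‖ - 1)]

theorem integrable_bound (s A R : ℝ) (y : E d) :
    Integrable (fun z : E d => s * A + 2 * s * (R * ‖y‖ + ‖z‖)) (gam d) :=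
  (integrable_const _).add (((integrable_const _).add integrable_norm_gam').const_mul _)

theorem integrable_grad (hP : Par d s A) (hL : Loc d s A f) (a b : ℝ) (hb : |b| ≤ 1) (y : E d) :
    Integrable (fun z => gradient f (a • y + b • z)) (gam d) := by
  refine (integrable_bound s A |a| y).mono' ?_
    (ae_of_all _ fun z => growth hP hL a b |a| le_rfl hb y z)
  have := hL.continuous_grad
  exact (this.comp (by fun_prop)).aestronglyMeasurable

/-- continuity of averages along continuous paths -/
theorem cont (hP : Par d s A) (hL : Loc d s A f) (y : E d) (a b : ℝ → ℝ) (ha : Continuous a)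
    (hb : Continuous b) (hb1 : ∀ t, |b t| ≤ 1) :
    Continuous fun t => ∫ z, gradient f (a t • y + b t • z) ∂(gam d) := by
  rw [continuous_iff_continuousAt]
  intro t0
  have hg := hL.continuous_grad
  refine continuousAt_of_dominated
    (bound := fun z => s * A + 2 * s * ((|a t0| + 1) * ‖y‖ + ‖z‖))
    (Eventually.of_forall fun t => (hg.comp (by fun_prop)).aestronglyMeasurable) ?_
    (integrable_bound s A _ y) (ae_of_all _ fun z => ?_)
  · have h1 : ∀ᶠ t in 𝓝 t0, |a t| < |a t0| + 1 := by
      have : ContinuousAt (fun t => |a t|) t0 := ha.abs.continuousAt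
      exact this.eventually (gt_mem_nhds (by linarith))
    filter_upwards [h1] with t ht
    exact ae_of_all _ fun z => growth hP hL _ _ _ ht.le (hb1 t) y z
  · have : Continuous fun t => gradient f (a t • y + b t • z) := hg.comp (by fun_prop)
    exact this.continuousAt

theorem sqrt_le_one (c : ℝ) : |√(1 - c ^ 2)| ≤ 1 := by
  rw [abs_of_nonneg (Real.sqrt_nonneg _)]
  exact Real.sqrt_le_one.mpr (by nlinarith [sq_nonneg c])

theorem subst (hP : Par d s A) (hL : Loc d s A f) (y : E d) :
    ∫ c in (-1 : ℝ)..1, Mh c (gradient f) y =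
      ∫ t in (0 : ℝ)..Real.pi, Real.sin t •
        ∫ z, gradient f (Real.cos t • y + Real.sin t • z) ∂(gam d) := by
  have hcont : Continuous fun c : ℝ => Mh c (gradient f) y := by
    unfold Mh
    exact cont hP hL y (fun c => c) (fun c => √(1 - c ^ 2)) continuous_id
      (by fun_prop) sqrt_le_one
  have h1 := intervalIntegral.integral_deriv_smul_comp (a := 0) (b := Real.pi)
    (f := Real.cos) (f' := fun t => -Real.sin t) (g := fun c : ℝ => Mh c (gradient f) y)
    (fun t _ => Real.hasDerivAt_cos t) (by fun_prop) hcont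
  rw [Real.cos_zero, Real.cos_pi] at h1
  rw [intervalIntegral.integral_symm, ← h1, ← intervalIntegral.integral_neg]
  refine intervalIntegral.integral_congr fun t ht => ?_
  rw [uIcc_of_le Real.pi_pos.le] at ht
  have h2 : √(1 - Real.cos t ^ 2) = Real.sin t := by
    rw [← Real.sin_sq, Real.sqrt_sq (Real.sin_nonneg_of_mem_Icc ht)]
  simp only [Function.comp, Mh, h2, neg_smul, neg_neg]

end RIEM

open RIEM in
/-- the Riemann sums converge -/
theorem riem : S_RIEM := by
  intro d s A f _ hP hL y
  have hcont : Continuous fun t : ℝ => Real.sin t •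
      ∫ z, gradient f (Real.cos t • y + Real.sin t • z) ∂(gam d) :=
    Real.continuous_sin.smul (cont hP hL y Real.cos Real.sin Real.continuous_cos
      Real.continuous_sin Real.abs_sin_le_one)
  have h := riemann hcont Real.pi_pos
  rw [subst hP hL y]
  refine h.congr fun J => ?_
  unfold freeD
  have hint : ∀ i ∈ Finset.range J, Integrable (fun z : E d => Real.sin (i * (Real.pi / J)) •
      gradient f (Real.cos (i * (Real.pi / J)) • y + Real.sin (i * (Real.pi / J)) • z)) (gam d) :=
    fun i _ => (integrable_grad hP hL (Real.cos (i * (Real.pi / J))) (Real.sin (i * (Real.pi / J)))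
      (Real.abs_sin_le_one _) y).smul (Real.sin (i * (Real.pi / J)))
  rw [integral_smul, integral_finsetSum _ hint]
  congr 1
  refine Finset.sum_congr rfl fun i _ => ?_
  rw [integral_smul]

end LCS
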