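import Mathlib
import Vale.Agent.P347.LocBasic
import Vale.Agent.P347.Riem

/-! # P347, module LOCS: the local theorem for smooth potentials -/

namespace LCS

open MeasureTheory ProbabilityTheory Set Filter
open scoped ENNReal NNReal Topology RealInnerProductSpace BigOperators ContDiff

namespace LOCS

variable {d : ℕ} {s A : ℝ} {f : E d → ℝ}

theorem meas_grad (h : Loc d s A f) : Measurable (gradient f) := h.continuous_grad.measurable

theorem meas_kick (h : Loc d s A f) (τ : ℝ) : Measurable (kick f τ) := by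
  have := meas_grad h
  unfold kick
  fun_prop

theorem meas_kick_iter (h : Loc d s A f) (τ : ℝ) (J : ℕ) : Measurable ((kick f τ)^[J]) :=
  (meas_kick h τ).iterate J

theorem cont_freeD (h : Loc d s A f) (J : ℕ) :
    Continuous fun q : E d × E d => freeD f J q.1 q.2 := by
  have := h.continuous_grad
  unfold freeD
  fun_prop

/-- derivative of `freeD` in `z` -/
theorem contDiff_freeD (h : Loc d s A f) (J : ℕ) (y : E d) :
    ContDiff ℝ 1 fun z => freeD f J y z := by
  have := h.contDiff_grad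
  unfold freeD
  fun_prop

/-- `freeD` is Lipschitz in both variables -/
theorem freeD_lip (h : Loc d s A f) (hs : 0 ≤ s) (J : ℕ) (y z z' : E d) :
    ‖freeD f J y z - freeD f J y z'‖ ≤ 2 * Real.pi * s * ‖z - z'‖ := by
  unfold freeD
  rcases Nat.eq_zero_or_pos J with rfl | hJ
  · simp; positivity
  have hJ' : (0 : ℝ) < J := by exact_mod_cast hJ
  rw [← smul_sub, ← Finset.sum_sub_distrib, norm_smul, Real.norm_eq_abs,
    abs_of_nonneg (by positivity : (0 : ℝ) ≤ Real.pi / J)]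
  have h1 : ‖∑ i ∈ Finset.range J, (Real.sin (i * (Real.pi / J)) •
      gradient f (Real.cos (i * (Real.pi / J)) • y + Real.sin (i * (Real.pi / J)) • z) -
      Real.sin (i * (Real.pi / J)) •
      gradient f (Real.cos (i * (Real.pi / J)) • y + Real.sin (i * (Real.pi / J)) • z'))‖
      ≤ ∑ i ∈ Finset.range J, 2 * s * ‖z - z'‖ := by
    refine (norm_sum_le _ _).trans (Finset.sum_le_sum fun i _ => ?_)
    rw [← smul_sub, norm_smul, Real.norm_eq_abs]
    set a := Real.sin (i * (Real.pi / J)) with ha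
    have ha1 : |a| ≤ 1 := Real.abs_sin_le_one _
    refine (mul_le_mul_of_nonneg_left (h.grad_lip hs _ _) (abs_nonneg _)).trans ?_
    have e : Real.cos (i * (Real.pi / J)) • y + a • z - (Real.cos (i * (Real.pi / J)) • y + a • z')
        = a • (z - z') := by rw [smul_sub]; abel
    rw [e, norm_smul, Real.norm_eq_abs]
    have h3 : |a| * |a| ≤ 1 := by nlinarith [abs_nonneg a]
    have h4 : 0 ≤ 2 * s * ‖z - z'‖ := by positivity
    calc |a| * (2 * s * (|a| * ‖z - z'‖)) = (|a| * |a|) * (2 * s * ‖z - z'‖) := by ring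
      _ ≤ 1 * (2 * s * ‖z - z'‖) := mul_le_mul_of_nonneg_right h3 h4
      _ = _ := one_mul _
  calc Real.pi / J * _ ≤ Real.pi / J * ∑ i ∈ Finset.range J, 2 * s * ‖z - z'‖ :=
        mul_le_mul_of_nonneg_left h1 (by positivity)
    _ = 2 * Real.pi * s * ‖z - z'‖ := by
        rw [Finset.sum_const, Finset.card_range, nsmul_eq_mul]; field_simp

/-- growth of `freeD` -/
theorem freeD_le (h : Loc d s A f) (hs : 0 ≤ s) (hA : 0 ≤ A) (J : ℕ) (y z : E d) :
    ‖freeD f J y z‖ ≤ Real.pi * (s * A + 2 * s * (‖y‖ + ‖z‖)) := by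
  unfold freeD
  rcases Nat.eq_zero_or_pos J with rfl | hJ
  · simp; positivity
  have hJ' : (0 : ℝ) < J := by exact_mod_cast hJ
  rw [norm_smul, Real.norm_eq_abs, abs_of_nonneg (by positivity : (0 : ℝ) ≤ Real.pi / J)]
  have h1 : ‖∑ i ∈ Finset.range J, Real.sin (i * (Real.pi / J)) •
      gradient f (Real.cos (i * (Real.pi / J)) • y + Real.sin (i * (Real.pi / J)) • z)‖
      ≤ ∑ i ∈ Finset.range J, (s * A + 2 * s * (‖y‖ + ‖z‖)) := by
    refine (norm_sum_le _ _).trans (Finset.sum_le_sum fun i _ => ?_)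
    rw [norm_smul, Real.norm_eq_abs]
    have ha1 : |Real.sin (i * (Real.pi / J))| ≤ 1 := Real.abs_sin_le_one _
    have hb1 : |Real.cos (i * (Real.pi / J))| ≤ 1 := Real.abs_cos_le_one _
    have h2 : ‖Real.cos (i * (Real.pi / J)) • y + Real.sin (i * (Real.pi / J)) • z‖ ≤ ‖y‖ + ‖z‖ := by
      refine (norm_add_le _ _).trans ?_
      rw [norm_smul, norm_smul, Real.norm_eq_abs, Real.norm_eq_abs]
      have := mul_le_mul_of_nonneg_right ha1 (norm_nonneg z)
      have := mul_le_mul_of_nonneg_right hb1 (norm_nonneg y)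
      linarith
    have h3 := h.grad_le hs (Real.cos (i * (Real.pi / J)) • y + Real.sin (i * (Real.pi / J)) • z)
    have h4 : ‖gradient f (Real.cos (i * (Real.pi / J)) • y + Real.sin (i * (Real.pi / J)) • z)‖
        ≤ s * A + 2 * s * (‖y‖ + ‖z‖) := by nlinarith
    calc _ ≤ 1 * ‖gradient f (Real.cos (i * (Real.pi / J)) • y + Real.sin (i * (Real.pi / J)) • z)‖ :=
          mul_le_mul_of_nonneg_right ha1 (norm_nonneg _)
      _ ≤ _ := by rw [one_mul]; exact h4
  calc Real.pi / J * _ ≤ Real.pi / J * ∑ i ∈ Finset.range J, (s * A + 2 * s * (‖y‖ + ‖z‖)) :=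
        mul_le_mul_of_nonneg_left h1 (by positivity)
    _ = Real.pi * (s * A + 2 * s * (‖y‖ + ‖z‖)) := by
        rw [Finset.sum_const, Finset.card_range, nsmul_eq_mul]; field_simp

/-- mean of `freeD` -/
noncomputable def mJ (f : E d → ℝ) (J : ℕ) (y : E d) : E d := ∫ z, freeD f J y z ∂(gam d)

/-- limit mean -/
noncomputable def mI (f : E d → ℝ) (y : E d) : E d := ∫ c in (-1 : ℝ)..1, Mh c (gradient f) y

theorem integrable_norm_gam : Integrable (fun z : E d => ‖z‖) (gam d) :=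
  (IsGaussian.memLp_two_id (μ := gam d)).norm.integrable (by norm_num)

theorem integrable_freeD (h : Loc d s A f) (hs : 0 ≤ s) (hA : 0 ≤ A) (J : ℕ) (y : E d) :
    Integrable (fun z => freeD f J y z) (gam d) := by
  have h0 : Integrable (fun z : E d => Real.pi * (s * A + 2 * s * (‖y‖ + ‖z‖))) (gam d) := by
    have h1 : Integrable (fun z : E d => ‖z‖) (gam d) := integrable_norm_gam
    exact ((integrable_const (s * A)).add (((integrable_const ‖y‖).add h1).const_mul
      (2 * s))).const_mul Real.pi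
  refine h0.mono' (contDiff_freeD h J y).continuous.aestronglyMeasurable (ae_of_all _ fun z => ?_)
  exact freeD_le h hs hA J y z

theorem measurable_mJ (h : Loc d s A f) (J : ℕ) : Measurable (mJ f J) := by
  have h1 : StronglyMeasurable (Function.uncurry fun y z : E d => freeD f J y z) :=
    (cont_freeD h J).stronglyMeasurable
  exact (h1.integral_prod_right (ν := gam d)).measurable

theorem mJ_le (h : Loc d s A f) (hs : 0 ≤ s) (hA : 0 ≤ A) (J : ℕ) (y : E d) :
    ‖mJ f J y‖ ≤ Real.pi * (s * A + 2 * s * (‖y‖ + √d)) := by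
  unfold mJ
  have h1 : Integrable (fun z : E d => ‖z‖) (gam d) := integrable_norm_gam
  refine (norm_integral_le_integral_norm _).trans ?_
  refine (integral_mono (integrable_freeD h hs hA J y).norm (((integrable_const (s * A)).add
    (((integrable_const ‖y‖).add h1).const_mul (2 * s))).const_mul Real.pi)
    (fun z => freeD_le h hs hA J y z)).trans ?_
  simp only [Pi.add_apply]
  have e1 : ∫ a : E d, (‖y‖ + ‖a‖) ∂(gam d) = ‖y‖ + ∫ z : E d, ‖z‖ ∂(gam d) := by
    rw [integral_add (integrable_const _) h1]; simp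
  have e2 : ∫ a : E d, (s * A + 2 * s * (‖y‖ + ‖a‖)) ∂(gam d)
      = s * A + 2 * s * (‖y‖ + ∫ z : E d, ‖z‖ ∂(gam d)) := by
    have h2 : Integrable (fun a : E d => 2 * s * (‖y‖ + ‖a‖)) (gam d) :=
      ((integrable_const ‖y‖).add h1).const_mul (2 * s)
    have e3 : ∫ a : E d, (2 * s * (‖y‖ + ‖a‖)) ∂(gam d) = 2 * s * ∫ a : E d, (‖y‖ + ‖a‖) ∂(gam d) :=
      integral_const_mul _ _
    rw [integral_add (integrable_const _) h2, e3, e1]; simp
  rw [integral_const_mul, e2]
  have := integral_norm_gam_le (d := d)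
  have hp := Real.pi_pos
  have h2 : 2 * s * (‖y‖ + ∫ z : E d, ‖z‖ ∂(gam d)) ≤ 2 * s * (‖y‖ + √d) := by
    apply mul_le_mul_of_nonneg_left _ (by positivity)
    linarith
  nlinarith

theorem measurable_mI (hRIEM : S_RIEM) (hd : 1 ≤ d) (hP : Par d s A) (h : Loc d s A f) :
    Measurable (mI f) :=
  measurable_of_tendsto_metrizable (fun J => measurable_mJ h J)
    (tendsto_pi_nhds.mpr fun y => hRIEM d s A f hd hP h y)

theorem mI_le (hRIEM : S_RIEM) (hd : 1 ≤ d) (hP : Par d s A) (h : Loc d s A f) (y : E d) :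
    ‖mI f y‖ ≤ Real.pi * (s * A + 2 * s * (‖y‖ + √d)) := by
  have hA : 0 ≤ A := (Real.sqrt_nonneg _).trans hP.dA
  exact le_of_tendsto (hRIEM d s A f hd hP h y).norm
    (Eventually.of_forall fun J => mJ_le h hP.s_pos.le hA J y)

theorem measurable_Mh {c : ℝ} {F : Type*} [NormedAddCommGroup F] [NormedSpace ℝ F]
    [MeasurableSpace F] [BorelSpace F] {g : E d → F} (hg : Continuous g) [SecondCountableTopology F] :
    Measurable (Mh c g) := by
  have h1 : StronglyMeasurable (Function.uncurry fun y z : E d => g (c • y + √(1 - c ^ 2) • z)) := by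
    apply Continuous.stronglyMeasurable
    fun_prop
  exact (h1.integral_prod_right (ν := gam d)).measurable

theorem norm_loc (hf : Measurable f) {C : ℝ} (hC : 0 ≤ C)
    (hi : Integrable (fun y => Real.exp (-f y)) (gam d))
    (hi2 : Integrable (fun y => Real.exp (-2 * f y)) (gam d))
    (h : ∫ y, Real.exp (-2 * f y) ∂(gam d) ≤ C * (∫ y, Real.exp (-f y) ∂(gam d)) ^ 2) :
    Integrable (fun y : E d => ‖y‖) (loc f) ∧ ∫ y, ‖y‖ ∂(loc f) ≤ √C * √d := by
  have := loc_cs hf hi hi2 hC h (g := fun y : E d => ‖y‖) (by fun_prop) integrable_norm_sq_gam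
  rw [integral_norm_sq_gam] at this
  simpa using this

/-- step 1 -/
theorem step1 (hTVL : S_TVL) {C2 β e0 : ℝ} (hL : Loc d s A f)
    [IsProbabilityMeasure (loc f)] {K : ℕ}
    (hOU : TV (((loc f).prod (gam d)).map fun q => β • q.1 + √(1 - β ^ 2) • q.2) (loc f)
      (C2 * (1 - β) * (s * A)))
    (hKrot : TV (((loc f).prod (gam d)).map fun q => (((kick f (Real.pi / K))^[K]) q).1)
      (loc f) e0) :
    TV ((((loc f).prod (gam d)).prod (gam d)).map fun q =>
      β • (((kick f (Real.pi / K))^[K]) q.1).1 + √(1 - β ^ 2) • q.2) (loc f)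
      (e0 + C2 * (1 - β) * (s * A)) := by
  have hkm1 : Measurable fun q : E d × E d => (((kick f (Real.pi / K))^[K]) q).1 :=
    (meas_kick_iter hL (Real.pi / K) K).fst
  have e1 : (((loc f).prod (gam d)).prod (gam d)).map (fun q =>
      β • (((kick f (Real.pi / K))^[K]) q.1).1 + √(1 - β ^ 2) • q.2) =
      (((((loc f).prod (gam d)).map fun q => (((kick f (Real.pi / K))^[K]) q).1).prod (gam d)).map
        fun q => β • q.1 + √(1 - β ^ 2) • q.2) := by
    have := Measure.map_prod_map ((loc f).prod (gam d)) (gam d) hkm1 (measurable_id (α := E d))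
    rw [Measure.map_id] at this
    rw [this, Measure.map_map (by fun_prop) (hkm1.prodMap measurable_id)]
    rfl
  rw [e1]
  have : IsProbabilityMeasure (((loc f).prod (gam d)).map
      fun q => (((kick f (Real.pi / K))^[K]) q).1) :=
    Measure.isProbabilityMeasure_map hkm1.aemeasurable
  have h1 := hTVL (E d) (E d) (E d) _ (loc f) (gam d) (fun q => β • q.1 + √(1 - β ^ 2) • q.2) e0
    (by fun_prop) hKrot
  exact h1.trans hOU

/-- step 2 -/
theorem step2 (hSHIFT : S_SHIFT) {C1 C3 β σ : ℝ} (hC3 : 0 < C3) (hP : Par d s A)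
    (hL : Loc d s A f) (hA0 : 0 < A) (hβ : 1 / 2 ≤ β) (hβ1 : β < 1) (hσ : 0 < σ)
    [IsProbabilityMeasure (loc f)] {K : ℕ}
    (hPATH : ∀ y z : E d,
      ‖(((kick f (Real.pi / K))^[K]) (y, z)).1 - (-y - freeD f K y z)‖ ≤
        C3 * s ^ 2 * (A + ‖y‖ + ‖z‖))
    (hny : Integrable (fun y : E d => ‖y‖) (loc f)) (hny2 : ∫ y, ‖y‖ ∂(loc f) ≤ √C1 * √d) :
    TV ((((loc f).prod (gam d)).prod (gam d)).map fun q =>
      β • (((kick f (Real.pi / K))^[K]) q.1).1 + σ • q.2)
      ((((loc f).prod (gam d)).prod (gam d)).map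
        fun q => -(β • (q.1.1 + freeD f K q.1.1 q.1.2)) + σ • q.2)
      (C3 * (2 + √C1) * (s ^ 2 * A / σ)) := by
  have hkm1 : Measurable fun q : E d × E d => (((kick f (Real.pi / K))^[K]) q).1 :=
    (meas_kick_iter hL (Real.pi / K) K).fst
  have hfm : Measurable fun q : E d × E d => freeD f K q.1 q.2 := (cont_freeD hL K).measurable
  have hb : ∀ q : E d × E d, ‖β • (((kick f (Real.pi / K))^[K]) q).1 -
      -(β • (q.1 + freeD f K q.1 q.2))‖ ≤ C3 * s ^ 2 * (A + ‖q.1‖ + ‖q.2‖) := by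
    intro q
    have h1 := hPATH q.1 q.2
    have e : β • (((kick f (Real.pi / K))^[K]) q).1 - -(β • (q.1 + freeD f K q.1 q.2))
        = β • ((((kick f (Real.pi / K))^[K]) (q.1, q.2)).1 - (-q.1 - freeD f K q.1 q.2)) := by
      simp only [Prod.mk.eta]; module
    rw [e, norm_smul, Real.norm_eq_abs, abs_of_pos (by linarith)]
    have := norm_nonneg ((((kick f (Real.pi / K))^[K]) (q.1, q.2)).1 - (-q.1 - freeD f K q.1 q.2))
    nlinarith
  have hint1 : Integrable (fun q : E d × E d => ‖q.1‖) ((loc f).prod (gam d)) :=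
    hny.comp_fst (gam d)
  have hint2 : Integrable (fun q : E d × E d => ‖q.2‖) ((loc f).prod (gam d)) :=
    (integrable_norm_gam (d := d)).comp_snd (loc f)
  have hint12 : Integrable (fun q : E d × E d => A + ‖q.1‖) ((loc f).prod (gam d)) :=
    (integrable_const A).add hint1
  have hint : Integrable (fun q : E d × E d => C3 * s ^ 2 * (A + ‖q.1‖ + ‖q.2‖))
      ((loc f).prod (gam d)) := (hint12.add hint2).const_mul _
  have hint' : Integrable (fun q : E d × E d => ‖β • (((kick f (Real.pi / K))^[K]) q).1 -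
      -(β • (q.1 + freeD f K q.1 q.2))‖) ((loc f).prod (gam d)) := by
    refine hint.mono' (Measurable.aestronglyMeasurable (by fun_prop)) (ae_of_all _ fun q => ?_)
    rw [norm_norm]; exact hb q
  have h1 := hSHIFT (E d × E d) ((loc f).prod (gam d)) d
    (fun q => β • (((kick f (Real.pi / K))^[K]) q).1)
    (fun q => -(β • (q.1 + freeD f K q.1 q.2))) σ (by fun_prop) (by fun_prop) hσ hint'
  refine h1.mono ?_
  have h2 : ∫ q, ‖β • (((kick f (Real.pi / K))^[K]) q).1 - -(β • (q.1 + freeD f K q.1 q.2))‖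
      ∂((loc f).prod (gam d)) ≤ C3 * s ^ 2 * (A + √C1 * √d + √d) := by
    refine (integral_mono hint' hint hb).trans ?_
    have e1 : ∫ q : E d × E d, ‖q.1‖ ∂((loc f).prod (gam d)) = ∫ y, ‖y‖ ∂(loc f) := by
      rw [integral_fun_fst]; simp
    have e2 : ∫ q : E d × E d, ‖q.2‖ ∂((loc f).prod (gam d)) = ∫ y : E d, ‖y‖ ∂(gam d) := by
      rw [integral_fun_snd]; simp
    have e3 : ∫ q : E d × E d, (A + ‖q.1‖ + ‖q.2‖) ∂((loc f).prod (gam d))
        = A + (∫ y, ‖y‖ ∂(loc f)) + ∫ y : E d, ‖y‖ ∂(gam d) := by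
      rw [integral_add hint12 hint2, integral_add (integrable_const A) hint1, e1, e2]
      simp
    rw [integral_const_mul, e3]
    have := integral_norm_gam_le (d := d)
    apply mul_le_mul_of_nonneg_left _ (by positivity)
    linarith
  have h3 : C3 * s ^ 2 * (A + √C1 * √d + √d) ≤ C3 * s ^ 2 * ((2 + √C1) * A) := by
    apply mul_le_mul_of_nonneg_left _ (by positivity)
    have := hP.dA
    have := Real.sqrt_nonneg C1
    nlinarith
  calc _ ≤ (C3 * s ^ 2 * ((2 + √C1) * A)) / σ := by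
        apply div_le_div_of_nonneg_right (h2.trans h3) hσ.le
    _ = _ := by ring

/-- step 3, pointwise -/
theorem step3_pt (hNOISE : S_NOISE) {β : ℝ} (hd : 1 ≤ d) (hs : 0 < s)
    (hL : Loc d s A f) (hA0 : 0 < A) (hβ : 1 / 2 ≤ β) (hβ1 : β < 1) (K : ℕ) (y : E d) :
    TV (((gam d).prod (gam d)).map
        fun q => -(β • (y + freeD f K y q.1)) + √(1 - β ^ 2) • q.2)
      ((gam d).map fun z => -(β • (y + mJ f K y)) + √(1 - β ^ 2) • z)
      (160 * (√d * s ^ 2 / (1 - β ^ 2))) := by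
  have hβ2 : 0 < 1 - β ^ 2 := by nlinarith
  have hσ : 0 < √(1 - β ^ 2) := Real.sqrt_pos.mpr hβ2
  have hσ2 : √(1 - β ^ 2) ^ 2 = 1 - β ^ 2 := Real.sq_sqrt hβ2.le
  have hcd : ContDiff ℝ 1 fun z => -(β • (y + freeD f K y z)) := by
    have := contDiff_freeD hL K y
    fun_prop
  have hlip : ∀ z, ‖fderiv ℝ (fun z => -(β • (y + freeD f K y z))) z‖ ≤ 2 * Real.pi * s := by
    intro z
    refine norm_fderiv_le_of_lip' ℝ (by positivity) (Eventually.of_forall fun z' => ?_)
    have e : -(β • (y + freeD f K y z')) - -(β • (y + freeD f K y z))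
        = -(β • (freeD f K y z' - freeD f K y z)) := by module
    rw [e, norm_neg, norm_smul, Real.norm_eq_abs, abs_of_pos (by linarith)]
    have h2 := freeD_lip hL hs.le K y z' z
    have := norm_nonneg (freeD f K y z' - freeD f K y z)
    nlinarith
  have h2 := hNOISE (E d) d (fun z => -(β • (y + freeD f K y z))) (2 * Real.pi * s)
    (√(1 - β ^ 2)) hd hcd (by positivity) hlip hσ
  have e2 : ∫ z, -(β • (y + freeD f K y z)) ∂(stdGaussian (E d)) = -(β • (y + mJ f K y)) := by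
    rw [integral_neg, integral_smul, integral_add (integrable_const _)
      (integrable_freeD hL hs.le hA0.le K y)]
    simp [mJ]
  rw [e2] at h2
  refine h2.mono ?_
  rw [hσ2]
  have hpi : Real.pi ^ 2 ≤ 10 := by
    have := Real.pi_lt_d2
    have := Real.pi_pos
    nlinarith
  have : 4 * √d * (2 * Real.pi * s) ^ 2 / (1 - β ^ 2)
      = (16 * Real.pi ^ 2) * (√d * s ^ 2 / (1 - β ^ 2)) := by ring
  rw [this]
  apply mul_le_mul_of_nonneg_right (by linarith) (by positivity)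

theorem meas_freeD (h : Loc d s A f) (K : ℕ) :
    Measurable fun q : E d × E d => freeD f K q.1 q.2 := (cont_freeD h K).measurable

theorem meas_freeD3 (h : Loc d s A f) (K : ℕ) :
    Measurable fun q : E d × (E d × E d) => freeD f K q.1 q.2.1 := by
  have h2 : Measurable fun q : E d × (E d × E d) => (q.1, q.2.1) := by fun_prop
  have := (meas_freeD h K).comp h2
  simpa only [Function.comp_def] using this

theorem step3_assoc {β : ℝ} (hL : Loc d s A f) [IsProbabilityMeasure (loc f)] (K : ℕ) :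
    (((loc f).prod (gam d)).prod (gam d)).map
        (fun q => -(β • (q.1.1 + freeD f K q.1.1 q.1.2)) + √(1 - β ^ 2) • q.2)
      = ((loc f).prod ((gam d).prod (gam d))).map
        (fun q => -(β • (q.1 + freeD f K q.1 q.2.1)) + √(1 - β ^ 2) • q.2.2) := by
  have hm := meas_freeD3 hL K
  have hmF : Measurable fun q : E d × (E d × E d) =>
      -(β • (q.1 + freeD f K q.1 q.2.1)) + √(1 - β ^ 2) • q.2.2 := by
    fun_prop
  rw [← Measure.prodAssoc_prod, Measure.map_map hmF MeasurableEquiv.prodAssoc.measurable]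
  rfl

/-- step 3 -/
theorem step3 (hTVP : S_TVP) (hNOISE : S_NOISE) {β : ℝ} (hd : 1 ≤ d) (hP : Par d s A)
    (hL : Loc d s A f) (hA0 : 0 < A) (hβ : 1 / 2 ≤ β) (hβ1 : β < 1)
    [IsProbabilityMeasure (loc f)] (K : ℕ) :
    TV ((((loc f).prod (gam d)).prod (gam d)).map
        fun q => -(β • (q.1.1 + freeD f K q.1.1 q.1.2)) + √(1 - β ^ 2) • q.2)
      (((loc f).prod (gam d)).map fun q => -(β • (q.1 + mJ f K q.1)) + √(1 - β ^ 2) • q.2)
      (160 * (√d * s ^ 2 / (1 - β ^ 2))) := by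
  have hmJ := measurable_mJ hL K
  have hm := meas_freeD3 hL K
  have hmF : Measurable fun q : E d × (E d × E d) =>
      -(β • (q.1 + freeD f K q.1 q.2.1)) + √(1 - β ^ 2) • q.2.2 := by
    fun_prop
  have hmG : Measurable fun q : E d × E d =>
      -(β • (q.1 + mJ f K q.1)) + √(1 - β ^ 2) • q.2 := by
    fun_prop
  rw [step3_assoc hL K]
  have h1 := hTVP (E d) (E d × E d) (E d) (E d) (loc f) ((gam d).prod (gam d)) (gam d)
    (fun q => -(β • (q.1 + freeD f K q.1 q.2.1)) + √(1 - β ^ 2) • q.2.2)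
    (fun q => -(β • (q.1 + mJ f K q.1)) + √(1 - β ^ 2) • q.2)
    (fun _ => 160 * (√d * s ^ 2 / (1 - β ^ 2))) hmF hmG (integrable_const _)
    (fun y => step3_pt hNOISE hd hP.s_pos hL hA0 hβ hβ1 K y)
  rwa [integral_const, probReal_univ, one_smul] at h1

/-- bound for step 4 -/
theorem step4_bound (hRIEM : S_RIEM) {β : ℝ} (hd : 1 ≤ d) (hP : Par d s A)
    (hL : Loc d s A f) (hA0 : 0 < A) (hβ : 1 / 2 ≤ β) (hβ1 : β < 1) (K : ℕ) (y : E d) :
    ‖-(β • (y + mJ f K y)) - -(β • (y + mI f y))‖ ≤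
      2 * (Real.pi * (s * A + 2 * s * (‖y‖ + √d))) := by
  have hs : 0 < s := hP.s_pos
  have e : -(β • (y + mJ f K y)) - -(β • (y + mI f y)) = β • (mI f y - mJ f K y) := by
    module
  rw [e, norm_smul, Real.norm_eq_abs, abs_of_pos (by linarith)]
  have h1 := mJ_le hL hs.le hA0.le K y
  have h2 := mI_le hRIEM hd hP hL y
  have h3 := norm_sub_le (mI f y) (mJ f K y)
  have h4 : 0 ≤ ‖mI f y - mJ f K y‖ := norm_nonneg _
  nlinarith

theorem bound_int {μ : Measure (E d)} [IsProbabilityMeasure μ]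
    (hny : Integrable (fun y : E d => ‖y‖) μ) :
    Integrable (fun y : E d => 2 * (Real.pi * (s * A + 2 * s * (‖y‖ + √d)))) μ :=
  ((((integrable_const (s * A)).add ((hny.add (integrable_const (√d))).const_mul
          (2 * s))).const_mul Real.pi).const_mul 2)

theorem step4_lim (hRIEM : S_RIEM) {β σ : ℝ} (hd : 1 ≤ d) (hP : Par d s A)
    (hL : Loc d s A f) (hA0 : 0 < A) (hβ : 1 / 2 ≤ β) (hβ1 : β < 1)
    [IsProbabilityMeasure (loc f)]
    (hny : Integrable (fun y : E d => ‖y‖) (loc f)) :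
    Tendsto (fun K : ℕ => (∫ y, ‖-(β • (y + mJ f K y)) - -(β • (y + mI f y))‖ ∂(loc f)) / σ)
      atTop (𝓝 0) := by
  have hmI := measurable_mI hRIEM hd hP hL
  have h0 : Tendsto (fun K : ℕ => ∫ y, ‖-(β • (y + mJ f K y)) - -(β • (y + mI f y))‖ ∂(loc f))
      atTop (𝓝 (∫ _y, (0 : ℝ) ∂(loc f))) := by
    refine tendsto_integral_of_dominated_convergence
      (fun y => 2 * (Real.pi * (s * A + 2 * s * (‖y‖ + √d)))) ?_ (bound_int hny) ?_ ?_
    · intro K
      have := measurable_mJ hL K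
      exact Measurable.aestronglyMeasurable (by fun_prop)
    · intro K
      refine ae_of_all _ fun y => ?_
      rw [norm_norm]
      exact step4_bound hRIEM hd hP hL hA0 hβ hβ1 K y
    · refine ae_of_all _ fun y => ?_
      have h1 := hRIEM d s A f hd hP hL y
      have h2 : Tendsto (fun K : ℕ => ‖-(β • (y + mJ f K y)) - -(β • (y + mI f y))‖) atTop
          (𝓝 ‖-(β • (y + mI f y)) - -(β • (y + mI f y))‖) :=
        ((((tendsto_const_nhds (x := y)).add h1).const_smul β).neg.sub tendsto_const_nhds).norm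
      simpa using h2
  simpa using h0.div_const σ

theorem step4 (hSHIFT : S_SHIFT) (hRIEM : S_RIEM) {β σ : ℝ} (hd : 1 ≤ d) (hP : Par d s A)
    (hL : Loc d s A f) (hA0 : 0 < A) (hβ : 1 / 2 ≤ β) (hβ1 : β < 1) (hσ : 0 < σ)
    [IsProbabilityMeasure (loc f)]
    (hny : Integrable (fun y : E d => ‖y‖) (loc f)) (K : ℕ) :
    TV (((loc f).prod (gam d)).map fun q => -(β • (q.1 + mJ f K q.1)) + σ • q.2)
      (((loc f).prod (gam d)).map fun q => -(β • (q.1 + mI f q.1)) + σ • q.2)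
      ((∫ y, ‖-(β • (y + mJ f K y)) - -(β • (y + mI f y))‖ ∂(loc f)) / σ) := by
  have hmI := measurable_mI hRIEM hd hP hL
  have hmJ := measurable_mJ hL K
  have hint' : Integrable (fun y : E d => ‖-(β • (y + mJ f K y)) - -(β • (y + mI f y))‖)
      (loc f) := by
    refine (bound_int (s := s) (A := A) hny).mono' (Measurable.aestronglyMeasurable (by fun_prop))
      (ae_of_all _ fun y => ?_)
    rw [norm_norm]
    exact step4_bound hRIEM hd hP hL hA0 hβ hβ1 K y
  exact hSHIFT (E d) (loc f) d (fun y => -(β • (y + mJ f K y))) (fun y => -(β • (y + mI f y))) σ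
    (by fun_prop) (by fun_prop) hσ hint'

theorem norm_Mh_le (hP : Par d s A) (hL : Loc d s A f) {x : ℝ} (hx : |x| ≤ 1) (y : E d) :
    ‖Mh x (gradient f) y‖ ≤ s * A + 2 * s * (‖y‖ + √d) := by
  have hs := hP.s_pos
  have h1 : Integrable (fun z : E d => ‖z‖) (gam d) := integrable_norm_gam
  have h2 : Integrable (fun z : E d => s * A + 2 * s * (1 * ‖y‖ + ‖z‖)) (gam d) :=
    RIEM.integrable_bound s A 1 y
  unfold Mh
  refine (norm_integral_le_integral_norm _).trans ?_
  refine (integral_mono (RIEM.integrable_grad hP hL x _ (RIEM.sqrt_le_one x) y).norm h2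
    (fun z => RIEM.growth hP hL x _ 1 hx (RIEM.sqrt_le_one x) y z)).trans ?_
  have e2 : ∫ z : E d, (s * A + 2 * s * (1 * ‖y‖ + ‖z‖)) ∂(gam d)
      = s * A + 2 * s * (1 * ‖y‖ + ∫ z : E d, ‖z‖ ∂(gam d)) := by
    have h3 : Integrable (fun a : E d => 1 * ‖y‖ + ‖a‖) (gam d) := (integrable_const _).add h1
    have h4 : Integrable (fun a : E d => 2 * s * (1 * ‖y‖ + ‖a‖)) (gam d) := h3.const_mul _
    have e3 : ∫ a : E d, (2 * s * (1 * ‖y‖ + ‖a‖)) ∂(gam d)
        = 2 * s * ∫ a : E d, (1 * ‖y‖ + ‖a‖) ∂(gam d) := integral_const_mul _ _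
    rw [integral_add (integrable_const _) h4, e3, integral_add (integrable_const _) h1]; simp
  rw [e2, one_mul]
  have := integral_norm_gam_le (d := d)
  have h5 : 2 * s * (‖y‖ + ∫ z : E d, ‖z‖ ∂(gam d)) ≤ 2 * s * (‖y‖ + √d) :=
    mul_le_mul_of_nonneg_left (by linarith) (by positivity)
  linarith

/-- the quadrature defect -/
noncomputable def Dq {J : ℕ} (c w : Fin J → ℝ) (f : E d → ℝ) (y : E d) : E d :=
  mI f y - ∑ j, w j • Mh (c j) (gradient f) y

theorem Mh_comp (hP : Par d s A) (hL : Loc d s A f) (x : ℝ) (y : E d) (i : Fin d) :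
    Mh x (fun y => gradient f y i) y = Mh x (gradient f) y i := by
  have := (EuclideanSpace.proj i : E d →L[ℝ] ℝ).integral_comp_comm
    (RIEM.integrable_grad hP hL x _ (RIEM.sqrt_le_one x) y)
  unfold Mh
  simpa using this

theorem cont_Mh (hP : Par d s A) (hL : Loc d s A f) (y : E d) :
    Continuous fun x : ℝ => Mh x (gradient f) y := by
  unfold Mh
  exact RIEM.cont hP hL y (fun c => c) (fun c => √(1 - c ^ 2)) continuous_id
    (by fun_prop) RIEM.sqrt_le_one

theorem Dq_comp (hP : Par d s A) (hL : Loc d s A f) {J : ℕ} (c w : Fin J → ℝ) (y : E d)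
    (i : Fin d) : Dq c w f y i =
      (∫ x in (-1 : ℝ)..1, Mh x (fun y => gradient f y i) y) -
        ∑ j, w j * Mh (c j) (fun y => gradient f y i) y := by
  have h1 : ∫ x in (-1 : ℝ)..1, Mh x (gradient f) y i
      = (∫ x in (-1 : ℝ)..1, Mh x (gradient f) y) i :=
    (EuclideanSpace.proj i : E d →L[ℝ] ℝ).intervalIntegral_comp_comm
      ((cont_Mh hP hL y).intervalIntegrable (μ := volume) (-1) 1)
  simp only [Mh_comp hP hL]
  rw [h1, Dq, mI]
  simp

theorem Dq_growth (hRIEM : S_RIEM) (hd : 1 ≤ d) (hP : Par d s A) (hL : Loc d s A f) {J : ℕ}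
    {c w : Fin J → ℝ} {η : ℝ} (hR : Rule J η c w) (y : E d) :
    ‖Dq c w f y‖ ≤ 6 * (s * A + 2 * s * (‖y‖ + √d)) := by
  have hs := hP.s_pos
  have hA : 0 ≤ A := (Real.sqrt_nonneg _).trans hP.dA
  unfold Dq
  set B := s * A + 2 * s * (‖y‖ + √d) with hB
  have hB0 : 0 ≤ B := by positivity
  have h1 := mI_le hRIEM hd hP hL y
  rw [← hB] at h1
  have h2 : ‖∑ j, w j • Mh (c j) (gradient f) y‖ ≤ 2 * B := by
    refine (norm_sum_le _ _).trans ?_
    rw [← hR.sum, Finset.sum_mul]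
    refine Finset.sum_le_sum fun j _ => ?_
    rw [norm_smul, Real.norm_eq_abs, abs_of_pos (hR.pos j)]
    exact mul_le_mul_of_nonneg_left (norm_Mh_le hP hL
      (abs_le.mpr ⟨(hR.mem j).1.le, (hR.mem j).2.le⟩) y) (hR.pos j).le
  have h3 := norm_sub_le (mI f y) (∑ j, w j • Mh (c j) (gradient f) y)
  have h4 : Real.pi ≤ 4 := Real.pi_le_four
  nlinarith

theorem meas_Dq (hRIEM : S_RIEM) (hd : 1 ≤ d) (hP : Par d s A) (hL : Loc d s A f) {J : ℕ}
    (c w : Fin J → ℝ) : Measurable (Dq c w f) := by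
  have h1 := measurable_mI hRIEM hd hP hL
  have h2 : ∀ j, Measurable (Mh (c j) (gradient f)) := fun j => measurable_Mh hL.continuous_grad
  unfold Dq
  exact h1.sub (Finset.measurable_sum _ fun j _ => (h2 j).const_smul (w j))

theorem Dq_sq_int (hRIEM : S_RIEM) (hd : 1 ≤ d) (hP : Par d s A) (hL : Loc d s A f) {J : ℕ}
    {c w : Fin J → ℝ} {η : ℝ} (hR : Rule J η c w) :
    Integrable (fun y => ‖Dq c w f y‖ ^ 2) (gam d) := by
  have hs := hP.s_pos
  have hA : 0 ≤ A := (Real.sqrt_nonneg _).trans hP.dA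
  have h0 : Integrable (fun y : E d => 2 * (6 * (s * A + 2 * s * √d)) ^ 2 +
      2 * (12 * s) ^ 2 * ‖y‖ ^ 2) (gam d) :=
    (integrable_const _).add (integrable_norm_sq_gam.const_mul _)
  refine h0.mono' ((meas_Dq hRIEM hd hP hL c w).norm.pow_const 2).aestronglyMeasurable
    (ae_of_all _ fun y => ?_)
  rw [Real.norm_eq_abs, abs_of_nonneg (sq_nonneg _)]
  have h1 := Dq_growth hRIEM hd hP hL hR y
  have h2 : 0 ≤ ‖Dq c w f y‖ := norm_nonneg _
  have h3 : ‖Dq c w f y‖ ^ 2 ≤ (6 * (s * A + 2 * s * (‖y‖ + √d))) ^ 2 :=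
    pow_le_pow_left₀ h2 h1 2
  have e : 6 * (s * A + 2 * s * (‖y‖ + √d)) = 6 * (s * A + 2 * s * √d) + 12 * s * ‖y‖ := by ring
  rw [e] at h3
  nlinarith [sq_nonneg (6 * (s * A + 2 * s * √d) - 12 * s * ‖y‖)]

theorem grad_sq_int (hd : 1 ≤ d) (hP : Par d s A) (hL : Loc d s A f) :
    Integrable (fun y => ‖gradient f y‖ ^ 2) (gam d) ∧
      ∫ y, ‖gradient f y‖ ^ 2 ∂(gam d) ≤ 10 * (s * A) ^ 2 := by
  have hs := hP.s_pos
  have hA : 0 ≤ A := (Real.sqrt_nonneg _).trans hP.dA
  have hb : ∀ y, ‖gradient f y‖ ^ 2 ≤ 2 * (s * A) ^ 2 + 8 * s ^ 2 * ‖y‖ ^ 2 := by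
    intro y
    have h1 := hL.grad_le hs.le y
    have h3 := pow_le_pow_left₀ (norm_nonneg _) h1 2
    nlinarith [sq_nonneg (s * A - 2 * s * ‖y‖)]
  have h0 : Integrable (fun y : E d => 2 * (s * A) ^ 2 + 8 * s ^ 2 * ‖y‖ ^ 2) (gam d) :=
    (integrable_const _).add (integrable_norm_sq_gam.const_mul _)
  have hi : Integrable (fun y => ‖gradient f y‖ ^ 2) (gam d) := by
    refine h0.mono' (hL.continuous_grad.norm.pow 2).aestronglyMeasurable (ae_of_all _ fun y => ?_)
    rw [Real.norm_eq_abs, abs_of_nonneg (sq_nonneg _)]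
    exact hb y
  refine ⟨hi, (integral_mono hi h0 hb).trans ?_⟩
  have e5 : ∫ a : E d, (8 * s ^ 2 * ‖a‖ ^ 2) ∂(gam d) = 8 * s ^ 2 * ∫ a : E d, ‖a‖ ^ 2 ∂(gam d) :=
    integral_const_mul _ _
  rw [integral_add (integrable_const _) (integrable_norm_sq_gam.const_mul _), e5,
    integral_norm_sq_gam, integral_const, probReal_univ, smul_eq_mul, one_mul]
  have h1 : (d : ℝ) ≤ A ^ 2 := by
    have := Real.sq_sqrt (Nat.cast_nonneg d : (0 : ℝ) ≤ d)
    have h2 := pow_le_pow_left₀ (Real.sqrt_nonneg _) hP.dA 2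
    linarith
  nlinarith [mul_le_mul_of_nonneg_left h1 (sq_nonneg s)]

theorem Dq_sq_le (hRIEM : S_RIEM) (hMQ : S_MQ) (hTOW : S_TOW) (hd : 1 ≤ d) (hP : Par d s A)
    (hf : LocS d s A f) {J : ℕ} {c w : Fin J → ℝ} {η : ℝ} (hη : 0 ≤ η) (hR : Rule J η c w) :
    ∫ y, ‖Dq c w f y‖ ^ 2 ∂(gam d) ≤ η ^ 2 * (10 * (s * A) ^ 2) := by
  have hL : Loc d s A f := hf.toLoc
  have hsq := Dq_sq_int hRIEM hd hP hL hR
  obtain ⟨hgi, hgle⟩ := grad_sq_int hd hP hL
  have e1 : ∀ y, ‖Dq c w f y‖ ^ 2 = ∑ i, (Dq c w f y i) ^ 2 := fun y =>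
    EuclideanSpace.real_norm_sq_eq _
  have e2 : ∀ y, ‖gradient f y‖ ^ 2 = ∑ i, (gradient f y i) ^ 2 := fun y =>
    EuclideanSpace.real_norm_sq_eq _
  have hi1 : ∀ i, Integrable (fun y => (Dq c w f y i) ^ 2) (gam d) := by
    intro i
    have hm : Measurable fun y => Dq c w f y i :=
      (EuclideanSpace.proj i : E d →L[ℝ] ℝ).continuous.measurable.comp
        (meas_Dq hRIEM hd hP hL c w)
    refine hsq.mono' (hm.pow_const 2).aestronglyMeasurable (ae_of_all _ fun y => ?_)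
    rw [Real.norm_eq_abs, abs_of_nonneg (sq_nonneg _), e1]
    exact Finset.single_le_sum (f := fun i => (Dq c w f y i) ^ 2) (fun j _ => sq_nonneg _)
      (Finset.mem_univ i)
  have hi2 : ∀ i, Integrable (fun y => (gradient f y i) ^ 2) (gam d) := by
    intro i
    have hm : Continuous fun y => gradient f y i :=
      (EuclideanSpace.proj i : E d →L[ℝ] ℝ).continuous.comp hL.continuous_grad
    refine hgi.mono' (hm.pow 2).aestronglyMeasurable (ae_of_all _ fun y => ?_)
    rw [Real.norm_eq_abs, abs_of_nonneg (sq_nonneg _), e2]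
    exact Finset.single_le_sum (f := fun i => (gradient f y i) ^ 2) (fun j _ => sq_nonneg _)
      (Finset.mem_univ i)
  have h1 : ∫ y, ‖Dq c w f y‖ ^ 2 ∂(gam d) = ∑ i, ∫ y, (Dq c w f y i) ^ 2 ∂(gam d) := by
    simp_rw [e1]
    exact integral_finsetSum _ fun i _ => hi1 i
  have h2 : ∫ y, ‖gradient f y‖ ^ 2 ∂(gam d) = ∑ i, ∫ y, (gradient f y i) ^ 2 ∂(gam d) := by
    simp_rw [e2]
    exact integral_finsetSum _ fun i _ => hi2 i
  rw [h1]
  calc ∑ i, ∫ y, (Dq c w f y i) ^ 2 ∂(gam d)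
      ≤ ∑ i, η ^ 2 * ∫ y, (gradient f y i) ^ 2 ∂(gam d) := by
        refine Finset.sum_le_sum fun i _ => ?_
        obtain ⟨G, hG, hG0⟩ := hTOW d s A f hf i
        have := hMQ d J η c w hη hR G (fun y => gradient f y i) hG hG0
        simp only [Dq_comp hP hL]
        exact this
    _ = η ^ 2 * ∫ y, ‖gradient f y‖ ^ 2 ∂(gam d) := by rw [h2, Finset.mul_sum]
    _ ≤ _ := mul_le_mul_of_nonneg_left hgle (sq_nonneg _)

theorem step5 (hSHIFT : S_SHIFT) (hRIEM : S_RIEM) (hMQ : S_MQ) (hTOW : S_TOW) {β σ C1 : ℝ}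
    (hC1 : 0 < C1) (hd : 1 ≤ d) (hP : Par d s A) (hf : LocS d s A f) (hA0 : 0 < A)
    (hβ : 1 / 2 ≤ β) (hβ1 : β < 1) (hσ : 0 < σ) [IsProbabilityMeasure (loc f)]
    (hi : Integrable (fun y => Real.exp (-f y)) (gam d))
    (hi2 : Integrable (fun y => Real.exp (-2 * f y)) (gam d))
    (hle : ∫ y, Real.exp (-2 * f y) ∂(gam d) ≤ C1 * (∫ y, Real.exp (-f y) ∂(gam d)) ^ 2)
    {J : ℕ} {c w : Fin J → ℝ} {η : ℝ} (hη : 0 ≤ η) (hR : Rule J η c w) :
    TV (((loc f).prod (gam d)).map fun q => -(β • (q.1 + mI f q.1)) + σ • q.2)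
      (((loc f).prod (gam d)).map fun q => meanY β c w f q.1 + σ • q.2)
      (4 * √C1 * (η * (s * A) / σ)) := by
  have hL : Loc d s A f := hf.toLoc
  have hs := hP.s_pos
  have hmf : Measurable f := hL.smooth.continuous.measurable
  have hmI := measurable_mI hRIEM hd hP hL
  have hmD := meas_Dq hRIEM hd hP hL c w
  have hMh : ∀ j, Measurable (Mh (c j) (gradient f)) := fun j => measurable_Mh hL.continuous_grad
  have hmY : Measurable (meanY β c w f) := by
    unfold meanY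
    exact ((measurable_id.add (Finset.measurable_sum _
      fun j _ => (hMh j).const_smul (w j))).const_smul β).neg
  have e : ∀ y, -(β • (y + mI f y)) - meanY β c w f y = -(β • Dq c w f y) := by
    intro y; unfold meanY Dq; module
  obtain ⟨hDi, hDle⟩ := loc_cs hmf hi hi2 hC1.le hle (g := fun y => ‖Dq c w f y‖)
    hmD.norm.aestronglyMeasurable (Dq_sq_int hRIEM hd hP hL hR)
  have hnorm : ∀ y, ‖-(β • (y + mI f y)) - meanY β c w f y‖ ≤ ‖Dq c w f y‖ := by
    intro y
    rw [e, norm_neg, norm_smul, Real.norm_eq_abs, abs_of_pos (by linarith)]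
    have := norm_nonneg (Dq c w f y)
    nlinarith
  have hint : Integrable (fun y => ‖-(β • (y + mI f y)) - meanY β c w f y‖) (loc f) := by
    refine hDi.mono' (Measurable.aestronglyMeasurable (by fun_prop)) (ae_of_all _ fun y => ?_)
    rw [norm_norm]; exact hnorm y
  have h1 := hSHIFT (E d) (loc f) d (fun y => -(β • (y + mI f y))) (meanY β c w f) σ
    (by fun_prop) hmY hσ hint
  refine h1.mono ?_
  have h2 : ∫ y, ‖-(β • (y + mI f y)) - meanY β c w f y‖ ∂(loc f) ≤ √C1 * (4 * (η * (s * A))) := by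
    refine (integral_mono hint hDi hnorm).trans ?_
    have h3 : ∫ y, ‖Dq c w f y‖ ∂(loc f) = ∫ y, |‖Dq c w f y‖| ∂(loc f) := by simp
    rw [h3]
    refine hDle.trans (mul_le_mul_of_nonneg_left ?_ (Real.sqrt_nonneg _))
    refine Real.sqrt_le_iff.mpr ⟨by positivity, ?_⟩
    refine (Dq_sq_le hRIEM hMQ hTOW hd hP hf hη hR).trans ?_
    nlinarith [sq_nonneg (η * (s * A))]
  calc _ ≤ (√C1 * (4 * (η * (s * A)))) / σ := div_le_div_of_nonneg_right h2 hσ.le
    _ = _ := by ring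

end LOCS

open LOCS in
theorem locs (hTVP : S_TVP) (hTVL : S_TVL) (hNOISE : S_NOISE) (hSHIFT : S_SHIFT)
    (hDENS : S_DENS) (hOU : S_OU) (hROT : S_ROT) (hPATH : S_PATH) (hRIEM : S_RIEM)
    (hMQ : S_MQ) (hTOW : S_TOW) : S_LOCS := by
  obtain ⟨C1, hC1, hDENS⟩ := hDENS
  obtain ⟨C2, hC2, hOU⟩ := hOU
  obtain ⟨C3, hC3, hPATH⟩ := hPATH
  refine ⟨2 + C2 + C3 * (2 + √C1) + 160 + 4 * √C1, by positivity, ?_⟩
  intro d J s A β η c w f hd hP hf hβ hβ1 hη hR
  have hL : Loc d s A f := hf.toLoc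
  have hs : 0 < s := hP.s_pos
  have hd' : (1 : ℝ) ≤ √d := by
    rw [Real.one_le_sqrt]; exact_mod_cast hd
  have hA : 1 ≤ A := hd'.trans hP.dA
  have hA0 : 0 < A := by linarith
  have hmf : Measurable f := hL.smooth.continuous.measurable
  obtain ⟨hi, hi2, hle⟩ := hDENS d s A f hd hP hL
  have hprob : IsProbabilityMeasure (loc f) := loc_prob hi
  have hβ2 : 0 < 1 - β ^ 2 := by nlinarith
  set σ : ℝ := √(1 - β ^ 2) with hσdef
  have hσ : 0 < σ := Real.sqrt_pos.mpr hβ2
  have hσ2 : σ ^ 2 = 1 - β ^ 2 := Real.sq_sqrt hβ2.le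
  set e0 : ℝ := (1 - β) * (s * A) with he0def
  have he0 : 0 < e0 := mul_pos (by linarith) (mul_pos hs hA0)
  obtain ⟨hny, hny2⟩ := norm_loc hmf hC1.le hi hi2 hle
  obtain ⟨K, hKrot, hKlim, hK1⟩ := ((hROT d s A f hd hP hL e0 he0).and
    (((step4_lim (σ := σ) hRIEM hd hP hL hA0 hβ hβ1 hny).eventually_lt_const he0).and
      (eventually_ge_atTop 1))).exists
  have t1 := step1 hTVL hL (hOU d s A β f hd hP hf hβ hβ1) hKrot
  have t2 := step2 hSHIFT hC3 hP hL hA0 hβ hβ1 hσ (hPATH d s A f hd hP hL K hK1) hny hny2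
  have t3 := step3 hTVP hNOISE hd hP hL hA0 hβ hβ1 K
  have t4 := (step4 hSHIFT hRIEM hd hP hL hA0 hβ hβ1 hσ hny K).mono hKlim.le
  rw [← hσdef] at t1 t3
  have t5 : TV (((loc f).prod (gam d)).map fun q => -(β • (q.1 + mI f q.1)) + σ • q.2)
      (((loc f).prod (gam d)).map fun q => meanY β c w f q.1 + σ • q.2)
      (4 * √C1 * (η * (s * A) / σ)) :=
    step5 hSHIFT hRIEM hMQ hTOW hC1 hd hP hf hA0 hβ hβ1 hσ hi hi2 hle hη hR
  have t := t5.symm.trans (t4.symm.trans (t3.symm.trans (t2.symm.trans t1)))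
  refine t.mono ?_
  unfold err
  rw [← hσdef, ← he0def]
  have a1 : 0 ≤ s ^ 2 * A / σ := by positivity
  have a2 : 0 ≤ √d * s ^ 2 / (1 - β ^ 2) := by positivity
  have a3 : 0 ≤ η * (s * A) / σ := by positivity
  have a4 : 0 ≤ √C1 := Real.sqrt_nonneg _
  have a5 : 0 ≤ C3 * (2 + √C1) := by positivity
  have e : C2 * (1 - β) * (s * A) = C2 * e0 := by rw [he0def]; ring
  rw [e]
  set T := 2 + C2 + C3 * (2 + √C1) + 160 + 4 * √C1 with hT
  have b0 : (2 + C2) * e0 ≤ T * e0 := mul_le_mul_of_nonneg_right (by rw [hT]; linarith) he0.le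
  have b1 : C3 * (2 + √C1) * (s ^ 2 * A / σ) ≤ T * (s ^ 2 * A / σ) :=
    mul_le_mul_of_nonneg_right (by rw [hT]; linarith) a1
  have b2 : 160 * (√d * s ^ 2 / (1 - β ^ 2)) ≤ T * (√d * s ^ 2 / (1 - β ^ 2)) :=
    mul_le_mul_of_nonneg_right (by rw [hT]; linarith) a2
  have b3 : 4 * √C1 * (η * (s * A) / σ) ≤ T * (η * (s * A) / σ) :=
    mul_le_mul_of_nonneg_right (by rw [hT]; linarith) a3
  linarith

end LCS
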