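import Vale.Agent.P347.Defs

/-! # P347, module MOLL: mollification -/

namespace LCS.MOLL

open MeasureTheory Set Filter Metric
open scoped Topology BigOperators ContDiff Convolution RealInnerProductSpace

variable {d : ℕ}

/-- all derivatives of the convolution of a test function and a bounded function are bounded -/
theorem bdd_iter (j : ℕ) : ∀ (V W Z : Type) [NormedAddCommGroup V] [NormedSpace ℝ V]
    [NormedAddCommGroup W] [NormedSpace ℝ W] [NormedAddCommGroup Z] [NormedSpace ℝ Z]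
    (L : V →L[ℝ] W →L[ℝ] Z) (ρ : E d → V) (G : E d → W) (CG : ℝ), HasCompactSupport ρ →
    ContDiff ℝ ∞ ρ → Continuous G → (∀ x, ‖G x‖ ≤ CG) →
    ∃ C : ℝ, ∀ x, ‖iteratedFDeriv ℝ j (ρ ⋆[L, volume] G) x‖ ≤ C := by
  induction j with
  | zero =>
      intro V W Z _ _ _ _ _ _ L ρ G CG hs hρ hG hb
      refine ⟨∫ t, ‖L‖ * ‖ρ t‖ * CG, fun x => ?_⟩
      rw [norm_iteratedFDeriv_zero]
      unfold convolution
      refine norm_integral_le_of_norm_le ?_ (Eventually.of_forall fun t => ?_)
      · have h1 : Integrable (fun t => ‖ρ t‖) volume :=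
          (hρ.continuous.integrable_of_hasCompactSupport hs).norm
        exact (h1.const_mul _).mul_const _
      · calc ‖L (ρ t) (G (x - t))‖ ≤ ‖L‖ * ‖ρ t‖ * ‖G (x - t)‖ := L.le_opNorm₂ _ _
          _ ≤ _ := mul_le_mul_of_nonneg_left (hb _) (by positivity)
  | succ j ih =>
      intro V W Z _ _ _ _ _ _ L ρ G CG hs hρ hG hb
      obtain ⟨C, hC⟩ := ih (E d →L[ℝ] V) W (E d →L[ℝ] Z) (L.precompL (E d)) (fderiv ℝ ρ) G CG
        (hs.fderiv ℝ) (hρ.fderiv_right (by simp)) hG hb
      refine ⟨C, fun x => ?_⟩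
      rw [← norm_iteratedFDeriv_fderiv]
      have : fderiv ℝ (ρ ⋆[L, volume] G) = (fderiv ℝ ρ ⋆[L.precompL (E d), volume] G) := by
        funext y
        exact (hs.hasFDerivAt_convolution_left L (hρ.of_le (by simp)) hG.locallyIntegrable y).fderiv
      rw [this]
      exact hC x

/-- the average of `φ` -/
noncomputable def mo {W : Type} [NormedAddCommGroup W] [NormedSpace ℝ W] (ρ : E d → ℝ)
    (φ : E d → W) (x : E d) : W := ∫ t, ρ t • φ (x - t)

section

variable {W : Type} [NormedAddCommGroup W] [NormedSpace ℝ W] {ρ : E d → ℝ}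

theorem integrable_mo (hρ : Continuous ρ) (hs : HasCompactSupport ρ) {φ : E d → W}
    (hφ : Continuous φ) (x : E d) : Integrable (fun t => ρ t • φ (x - t)) volume := by
  apply Continuous.integrable_of_hasCompactSupport
  · fun_prop
  · exact hs.smul_right

theorem hasFDerivAt_mo (hρ : Continuous ρ) (hs : HasCompactSupport ρ) {φ : E d → W}
    (hφ : ContDiff ℝ 1 φ) (x : E d) : HasFDerivAt (mo ρ φ) (mo ρ (fderiv ℝ φ) x) x := by
  have hφ' : Continuous (fderiv ℝ φ) := hφ.continuous_fderiv one_ne_zero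
  have hK : IsCompact ((fun p : E d × E d => p.1 - p.2) '' (closedBall x 1 ×ˢ tsupport ρ)) :=
    ((isCompact_closedBall x 1).prod hs).image (by fun_prop)
  obtain ⟨C, hC⟩ := hK.exists_bound_of_continuousOn hφ'.continuousOn
  unfold mo
  apply hasFDerivAt_integral_of_dominated_of_fderiv_le (F := fun x t => ρ t • φ (x - t))
    (F' := fun x t => ρ t • fderiv ℝ φ (x - t)) (bound := fun t => ‖ρ t‖ * C)
    (ball_mem_nhds x one_pos)
  · exact Eventually.of_forall fun y => (integrable_mo hρ hs hφ.continuous y).aestronglyMeasurable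
  · exact integrable_mo hρ hs hφ.continuous x
  · exact (integrable_mo hρ hs hφ' x).aestronglyMeasurable
  · refine Eventually.of_forall fun t y hy => ?_
    rw [norm_smul]
    by_cases ht : ρ t = 0
    · simp [ht]
    · apply mul_le_mul_of_nonneg_left _ (norm_nonneg _)
      apply hC
      exact ⟨(y, t), ⟨ball_subset_closedBall hy, subset_tsupport _ ht⟩, rfl⟩
  · exact ((hρ.integrable_of_hasCompactSupport hs).norm).mul_const _
  · refine Eventually.of_forall fun t y hy => ?_
    have h1 : HasFDerivAt φ (fderiv ℝ φ (y - t)) (y - t) :=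
      (hφ.differentiable one_ne_zero _).hasFDerivAt
    have h2 : HasFDerivAt (fun z : E d => z - t) (ContinuousLinearMap.id ℝ (E d)) y :=
      (hasFDerivAt_id y).sub_const t
    have h3 := h1.comp y h2
    rw [ContinuousLinearMap.comp_id] at h3
    exact h3.const_smul (ρ t)

theorem mo_sub_le (hρ : Continuous ρ) (hs : HasCompactSupport ρ) (h0 : ∀ t, 0 ≤ ρ t)
    (h1 : ∫ t, ρ t = 1) {r : ℝ} (hr : ∀ t, ρ t ≠ 0 → ‖t‖ < r) {φ : E d → W} (hφ : Continuous φ)
    (x : E d) (c : W) {ε : ℝ} (hε : ∀ t, ‖t‖ < r → ‖φ (x - t) - c‖ ≤ ε) [CompleteSpace W] :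
    ‖mo ρ φ x - c‖ ≤ ε := by
  have hρi : Integrable ρ volume := hρ.integrable_of_hasCompactSupport hs
  have e1 : mo ρ φ x - c = ∫ t, ρ t • (φ (x - t) - c) := by
    simp only [smul_sub]
    rw [integral_sub (integrable_mo hρ hs hφ x) (hρi.smul_const c), integral_smul_const, h1,
      one_smul]
    rfl
  rw [e1]
  have e2 : ε = ∫ t, ρ t * ε := by rw [integral_mul_const, h1, one_mul]
  rw [e2]
  refine norm_integral_le_of_norm_le (hρi.mul_const ε) (Eventually.of_forall fun t => ?_)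
  rw [norm_smul, Real.norm_eq_abs, abs_of_nonneg (h0 t)]
  by_cases ht : ρ t = 0
  · simp [ht]
  · exact mul_le_mul_of_nonneg_left (hε t (hr t ht)) (h0 t)

end

theorem bdd_mo {W : Type} [NormedAddCommGroup W] [NormedSpace ℝ W] (j : ℕ) (ρ : E d → ℝ)
    (G : E d → W) (CG : ℝ) (hs : HasCompactSupport ρ) (hρ : ContDiff ℝ ∞ ρ) (hG : Continuous G)
    (hb : ∀ x, ‖G x‖ ≤ CG) : ∃ C : ℝ, ∀ x, ‖iteratedFDeriv ℝ j (mo ρ G) x‖ ≤ C :=
  bdd_iter j ℝ W W (ContinuousLinearMap.lsmul ℝ ℝ) ρ G CG hs hρ hG hb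

/-- norm of the Hessian -/
theorem norm_hess_le {f : E d → ℝ} {s : ℝ} (hf : ContDiff ℝ 2 f)
    (h0 : ∀ x v, 0 ≤ fderiv ℝ (fderiv ℝ f) x v v)
    (h1 : ∀ x v, fderiv ℝ (fderiv ℝ f) x v v ≤ 2 * s * ‖v‖ ^ 2) (hs : 0 ≤ s) (x : E d) :
    ‖fderiv ℝ (fderiv ℝ f) x‖ ≤ 2 * s := by
  set B := fderiv ℝ (fderiv ℝ f) x with hB
  have hsym : ∀ u v, B u v = B v u := by
    intro u v
    have := (hf.contDiffAt (x := x)).isSymmSndFDerivAt (by simp)
    exact this u v
  apply ContinuousLinearMap.opNorm_le_bound₂ _ (by positivity)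
  intro u v
  have hq : ∀ t : ℝ, 0 ≤ B v v * (t * t) + 2 * B u v * t + B u u := by
    intro t
    have := h0 x (u + t • v)
    rw [← hB] at this
    have e : B (u + t • v) (u + t • v) = B v v * (t * t) + 2 * B u v * t + B u u := by
      simp only [map_add, map_smul, add_apply, smul_apply, smul_eq_mul]
      rw [hsym v u]
      ring
    rwa [e] at this
  have hd := discrim_le_zero hq
  unfold discrim at hd
  have h2 : (B u v) ^ 2 ≤ (2 * s * ‖u‖ * ‖v‖) ^ 2 := by
    have a1 := h1 x u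
    have a2 := h1 x v
    have a3 := h0 x u
    have a4 := h0 x v
    rw [← hB] at a1 a2 a3 a4
    have : B u u * B v v ≤ (2 * s * ‖u‖ ^ 2) * (2 * s * ‖v‖ ^ 2) := mul_le_mul a1 a2 a4 (by positivity)
    nlinarith
  rw [Real.norm_eq_abs]
  exact abs_le_of_sq_le_sq h2 (by positivity)

theorem lip_fderiv {f : E d → ℝ} {s : ℝ} (hf : ContDiff ℝ 2 f)
    (h0 : ∀ x v, 0 ≤ fderiv ℝ (fderiv ℝ f) x v v)
    (h1 : ∀ x v, fderiv ℝ (fderiv ℝ f) x v v ≤ 2 * s * ‖v‖ ^ 2) (hs : 0 ≤ s) (x y : E d) :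
    ‖fderiv ℝ f x - fderiv ℝ f y‖ ≤ 2 * s * ‖x - y‖ := by
  have hd : Differentiable ℝ (fderiv ℝ f) :=
    (hf.fderiv_right (m := 1) (by norm_num)).differentiable one_ne_zero
  exact Convex.norm_image_sub_le_of_norm_fderiv_le (fun z _ => hd z)
    (fun z _ => norm_hess_le hf h0 h1 hs z) convex_univ (mem_univ y) (mem_univ x)

theorem norm_gradient_sub (f g : E d → ℝ) (x y : E d) :
    ‖gradient g x - gradient f y‖ = ‖fderiv ℝ g x - fderiv ℝ f y‖ := by
  unfold gradient
  rw [← map_sub, LinearIsometryEquiv.norm_map]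

theorem norm_gradient (f : E d → ℝ) (x : E d) : ‖gradient f x‖ = ‖fderiv ℝ f x‖ := by
  unfold gradient
  rw [LinearIsometryEquiv.norm_map]

end LCS.MOLL

namespace LCS

open MOLL MeasureTheory Set Filter Metric
open scoped Topology BigOperators ContDiff Convolution RealInnerProductSpace

theorem moll : S_MOLL := by
  intro d s A f hs hf δ hδ
  have hfd : ContDiff ℝ 1 (fderiv ℝ f) := hf.smooth.fderiv_right (by norm_num)
  have hf1 : ContDiff ℝ 1 f := hf.smooth.of_le (by norm_num)
  have hA : 0 ≤ A := by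
    have := (norm_nonneg _).trans hf.grad0
    exact nonneg_of_mul_nonneg_right this hs
  set r : ℝ := δ / (3 + δ + 4 * s + s * A) with hrdef
  have hden : 0 < 3 + δ + 4 * s + s * A := by positivity
  have hr : 0 < r := by positivity
  have hrd : r * (3 + δ + 4 * s + s * A) = δ := by rw [hrdef]; field_simp
  have hsr : 0 < s * r := by positivity
  have hAr : 0 ≤ s * A * r := by positivity
  have hr1 : r ≤ 1 := by
    rw [hrdef, div_le_one hden]
    nlinarith [mul_nonneg hs.le hA]
  have hr2 : 2 * r ≤ δ := by nlinarith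
  have hr3 : 2 * s * r ≤ δ := by nlinarith
  have hr4 : r * (s * A + 2 * s * r) ≤ δ := by nlinarith [mul_nonneg hsr.le (sub_nonneg.2 hr1)]
  let bump : ContDiffBump (0 : E d) := ⟨r / 2, r, by positivity, by linarith⟩
  set ρ : E d → ℝ := bump.normed volume with hρdef
  have hρ : ContDiff ℝ ∞ ρ := bump.contDiff_normed
  have hρs : HasCompactSupport ρ := bump.hasCompactSupport_normed
  have hρ0 : ∀ t, 0 ≤ ρ t := fun t => bump.nonneg_normed t
  have hρ1 : ∫ t, ρ t = 1 := bump.integral_normed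
  have hρr : ∀ t, ρ t ≠ 0 → ‖t‖ < r := by
    intro t ht
    have : t ∈ Function.support ρ := ht
    rw [hρdef, bump.support_normed_eq] at this
    simpa using this
  set g : E d → ℝ := mo ρ f with hg
  have hgc : g = (ρ ⋆[ContinuousLinearMap.lsmul ℝ ℝ, volume] f) := rfl
  have hgs : ContDiff ℝ ∞ g := by
    rw [hgc]
    exact hρs.contDiff_convolution_left _ hρ hf1.continuous.locallyIntegrable
  have hD1 : fderiv ℝ g = mo ρ (fderiv ℝ f) := by
    funext x
    exact (hasFDerivAt_mo hρ.continuous hρs hf1 x).fderiv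
  have hD2 : fderiv ℝ (fderiv ℝ g) = mo ρ (fderiv ℝ (fderiv ℝ f)) := by
    rw [hD1]
    funext x
    exact (hasFDerivAt_mo hρ.continuous hρs hfd x).fderiv
  have hc2 : Continuous (fderiv ℝ (fderiv ℝ f)) := hfd.continuous_fderiv one_ne_zero
  have happ : ∀ x v, fderiv ℝ (fderiv ℝ g) x v v
      = ∫ t, ρ t * fderiv ℝ (fderiv ℝ f) (x - t) v v := by
    intro x v
    rw [hD2]
    unfold mo
    have i1 := integrable_mo (W := E d →L[ℝ] E d →L[ℝ] ℝ) hρ.continuous hρs hc2 x
    rw [ContinuousLinearMap.integral_apply i1]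
    have i2 : Integrable (fun t => (ρ t • fderiv ℝ (fderiv ℝ f) (x - t)) v) volume :=
      i1.apply_continuousLinearMap v
    rw [ContinuousLinearMap.integral_apply i2]
    rfl
  have hlip := lip_fderiv hf.smooth hf.lower hf.upper hs.le
  have hgrad : ∀ x, ‖fderiv ℝ g x - fderiv ℝ f x‖ ≤ 2 * s * r := by
    intro x
    rw [hD1]
    apply mo_sub_le hρ.continuous hρs hρ0 hρ1 hρr hfd.continuous
    intro t ht
    refine (hlip _ _).trans ?_
    have : ‖x - t - x‖ = ‖t‖ := by
      rw [sub_sub_cancel_left, norm_neg]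
    rw [this]
    exact mul_le_mul_of_nonneg_left ht.le (by positivity)
  refine ⟨g, ⟨⟨contDiff_infty.1 hgs 2, ?_, ?_, ?_⟩, hgs, ?_⟩, ?_⟩
  · intro x v
    rw [happ]
    exact integral_nonneg fun t => mul_nonneg (hρ0 t) (hf.lower _ _)
  · intro x v
    rw [happ]
    have hi : Integrable (fun t => ρ t * (2 * s * ‖v‖ ^ 2)) volume :=
      (hρ.continuous.integrable_of_hasCompactSupport hρs).mul_const _
    have e : 2 * s * ‖v‖ ^ 2 = ∫ t, ρ t * (2 * s * ‖v‖ ^ 2) := by
      rw [integral_mul_const, hρ1, one_mul]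
    rw [e]
    apply integral_mono_of_nonneg (Eventually.of_forall fun t => mul_nonneg (hρ0 t) (hf.lower _ _))
      hi
    exact Eventually.of_forall fun t => mul_le_mul_of_nonneg_left (hf.upper _ _) (hρ0 t)
  · have h1 := hgrad 0
    have h2 := hf.grad0
    rw [norm_gradient] at h2 ⊢
    have h3 : ‖fderiv ℝ g 0‖ ≤ ‖fderiv ℝ g 0 - fderiv ℝ f 0‖ + ‖fderiv ℝ f 0‖ := by
      have := norm_add_le (fderiv ℝ g 0 - fderiv ℝ f 0) (fderiv ℝ f 0)
      rwa [sub_add_cancel] at this
    nlinarith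
  · intro k hk
    obtain ⟨j, rfl⟩ := Nat.exists_eq_add_of_le' hk
    obtain ⟨C, hC⟩ := bdd_mo (d := d) (W := E d →L[ℝ] E d →L[ℝ] ℝ) j
      ρ (fderiv ℝ (fderiv ℝ f)) (2 * s) hρs hρ hc2
      (norm_hess_le hf.smooth hf.lower hf.upper hs.le)
    refine ⟨C, fun x => ?_⟩
    have e : iteratedFDeriv ℝ (j + 2) g = iteratedFDeriv ℝ (j + 1 + 1) g := rfl
    rw [e, ← norm_iteratedFDeriv_fderiv, ← norm_iteratedFDeriv_fderiv, hD2]
    exact hC x
  · intro x
    constructor
    · have : ‖g x - f x‖ ≤ r * (s * A + 2 * s * (‖x‖ + r)) := by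
        rw [hg]
        apply mo_sub_le hρ.continuous hρs hρ0 hρ1 hρr hf1.continuous
        intro t ht
        have h2 := Convex.norm_image_sub_le_of_norm_fderiv_le (f := f) (s := closedBall x r)
          (C := s * A + 2 * s * (‖x‖ + r)) (x := x) (y := x - t)
          (fun z _ => hf1.differentiable one_ne_zero z) (by
            intro z hz
            have h3 := hlip z 0
            have h4 := hf.grad0
            rw [norm_gradient] at h4
            have h5 : ‖fderiv ℝ f z‖ ≤ ‖fderiv ℝ f z - fderiv ℝ f 0‖ + ‖fderiv ℝ f 0‖ := by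
              have := norm_add_le (fderiv ℝ f z - fderiv ℝ f 0) (fderiv ℝ f 0)
              rwa [sub_add_cancel] at this
            have h6 : ‖z‖ ≤ ‖x‖ + r := by
              have h7 : ‖z - x‖ ≤ r := by rwa [mem_closedBall, dist_eq_norm] at hz
              have := norm_add_le (z - x) x
              rw [sub_add_cancel] at this
              linarith
            rw [sub_zero] at h3
            have h8 : 2 * s * ‖z‖ ≤ 2 * s * (‖x‖ + r) := mul_le_mul_of_nonneg_left h6 (by positivity)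
            linarith) (convex_closedBall x r) (mem_closedBall_self hr.le) (by
              rw [mem_closedBall, dist_eq_norm, sub_sub_cancel_left, norm_neg]
              exact ht.le)
        refine h2.trans ?_
        rw [sub_sub_cancel_left, norm_neg, mul_comm]
        exact mul_le_mul_of_nonneg_right ht.le (by positivity)
      rw [Real.norm_eq_abs] at this
      have h9 : 2 * s * r * ‖x‖ ≤ δ * ‖x‖ := mul_le_mul_of_nonneg_right hr3 (norm_nonneg x)
      nlinarith
    · rw [norm_gradient_sub]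
      exact (hgrad x).trans hr3

end LCS
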