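import Mathlib
import Vale.Agent.P347.Defs

/-!
# P347: module MOM
-/

namespace LCS.MOM

open MeasureTheory ProbabilityTheory Set Filter
open scoped ENNReal NNReal Topology RealInnerProductSpace BigOperators ContDiff

variable {d : ℕ}

theorem general (μ : Measure (E d)) [IsProbabilityMeasure μ]
    (hI : Integrable (fun x => Real.exp (1 / 4 * ‖x‖ ^ 2)) μ)
    (hle : ∫ x, Real.exp (1 / 4 * ‖x‖ ^ 2) ∂μ ≤ 2 ^ d) :
    Integrable (fun x => ‖x‖ ^ 2) μ ∧ ∫ x, ‖x‖ ^ 2 ∂μ ≤ 4 * d ∧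
      μ.real {x | 4 * √d < ‖x‖} ≤ Real.exp (-d) := by
  have i1 : Integrable (fun x : E d => ‖x‖ ^ 2) μ := by
    refine Integrable.mono' (hI.const_mul 4) (by fun_prop) (Eventually.of_forall fun x => ?_)
    rw [Real.norm_of_nonneg (by positivity)]
    have := Real.add_one_le_exp (1 / 4 * ‖x‖ ^ 2)
    linarith
  refine ⟨i1, ?_, ?_⟩
  · have h1 : ∀ x : E d, ‖x‖ ^ 2 ≤
        4 * ((2 ^ d : ℝ)⁻¹ * Real.exp (1 / 4 * ‖x‖ ^ 2)) + 4 * (d * Real.log 2 - 1) := by
      intro x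
      have h2 := Real.add_one_le_exp (1 / 4 * ‖x‖ ^ 2 - d * Real.log 2)
      have h3 : Real.exp (1 / 4 * ‖x‖ ^ 2 - d * Real.log 2) =
          (2 ^ d : ℝ)⁻¹ * Real.exp (1 / 4 * ‖x‖ ^ 2) := by
        rw [Real.exp_sub, ← Real.log_pow, Real.exp_log (by positivity)]
        field_simp
      rw [h3] at h2
      linarith
    have h4 : ∫ x, ‖x‖ ^ 2 ∂μ ≤ ∫ x, 4 * ((2 ^ d : ℝ)⁻¹ * Real.exp (1 / 4 * ‖x‖ ^ 2)) +
        4 * (d * Real.log 2 - 1) ∂μ :=
      integral_mono i1 (((hI.const_mul _).const_mul _).add (integrable_const _)) h1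
    rw [integral_add ((hI.const_mul _).const_mul _) (integrable_const _), integral_const_mul,
      integral_const_mul, integral_const, probReal_univ, one_smul] at h4
    have h5 : (2 ^ d : ℝ)⁻¹ * ∫ x, Real.exp (1 / 4 * ‖x‖ ^ 2) ∂μ ≤ 1 := by
      have h6 : (0 : ℝ) < 2 ^ d := by positivity
      rw [inv_mul_le_iff₀ h6, mul_one]
      exact hle
    have h7 : Real.log 2 ≤ 1 := by
      have := Real.log_two_lt_d9
      linarith
    have h8 : (d : ℝ) * Real.log 2 ≤ d * 1 := by gcongr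
    linarith
  · have h1 := mul_meas_ge_le_integral_of_nonneg
      (Eventually.of_forall fun x => (Real.exp_pos (1 / 4 * ‖x‖ ^ 2)).le) hI (Real.exp (4 * d))
    have h2 : μ.real {x | 4 * √d < ‖x‖} ≤ μ.real {x | Real.exp (4 * d) ≤ Real.exp (1 / 4 * ‖x‖ ^ 2)} := by
      refine measureReal_mono ?_
      intro x hx
      simp only [mem_ofPred_eq] at hx ⊢
      rw [Real.exp_le_exp]
      have h3 : (4 * √(d : ℝ)) ^ 2 ≤ ‖x‖ ^ 2 := by gcongr
      rw [mul_pow, Real.sq_sqrt (by positivity)] at h3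
      linarith
    have h4 : Real.exp (4 * d) * μ.real {x | 4 * √d < ‖x‖} ≤ Real.exp (4 * d) * Real.exp (-d) := by
      calc _ ≤ Real.exp (4 * d) * μ.real {x | Real.exp (4 * d) ≤ Real.exp (1 / 4 * ‖x‖ ^ 2)} := by
            gcongr
        _ ≤ 2 ^ d := h1.trans hle
        _ ≤ Real.exp d := by
            have h5 : (2 : ℝ) ≤ Real.exp 1 := by
              have := Real.add_one_le_exp (1 : ℝ)
              linarith
            calc (2 : ℝ) ^ d ≤ Real.exp 1 ^ d := by gcongr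
              _ = Real.exp d := by rw [← Real.exp_nat_mul, mul_one]
        _ ≤ Real.exp (4 * d) * Real.exp (-d) := by
            rw [← Real.exp_add, Real.exp_le_exp]
            have : (0 : ℝ) ≤ d := by positivity
            linarith
    exact le_of_mul_le_mul_left h4 (Real.exp_pos _)

theorem gibbs_exp (hL : S_LIP) (V : E d → ℝ) (hV : Pot d V) :
    Integrable (fun x => Real.exp (1 / 4 * ‖x‖ ^ 2)) (gibbs V) ∧
      ∫ x, Real.exp (1 / 4 * ‖x‖ ^ 2) ∂(gibbs V) ≤ 2 ^ d := by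
  obtain ⟨-, -, hb, -, hp⟩ := hL d V hV
  have hVm : Measurable V := hV.smooth.continuous.measurable
  set Z := ∫⁻ x, ENNReal.ofReal (Real.exp (-V x)) with hZ
  have hgau : ∀ b : ℝ, 0 < b → ∫⁻ x : E d, ENNReal.ofReal (Real.exp (-b * ‖x‖ ^ 2)) =
      ENNReal.ofReal ((Real.pi / b) ^ ((d : ℝ) / 2)) := by
    intro b hb
    have h1 := GaussianFourier.integral_rexp_neg_mul_sq_norm (V := E d) hb
    have h2 : Integrable (fun x : E d => Real.exp (-b * ‖x‖ ^ 2)) := by
      by_contra h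
      rw [integral_undef h] at h1
      have : (0 : ℝ) < (Real.pi / b) ^ ((Module.finrank ℝ (E d) : ℝ) / 2) := by positivity
      linarith
    rw [← ofReal_integral_eq_lintegral_ofReal h2 (Eventually.of_forall fun x => (Real.exp_pos _).le),
      h1]
    simp
  have hZ1 : ENNReal.ofReal ((Real.pi / 1) ^ ((d : ℝ) / 2)) ≤ Z := by
    rw [← hgau 1 one_pos]
    refine lintegral_mono fun x => ?_
    refine ENNReal.ofReal_le_ofReal (Real.exp_le_exp.2 ?_)
    have := (hb x).2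
    linarith
  have key : ∫⁻ x, ENNReal.ofReal (Real.exp (1 / 4 * ‖x‖ ^ 2)) ∂(gibbs V) ≤ ENNReal.ofReal (2 ^ d) := by
    rw [gibbs, lintegral_smul_measure, lintegral_withDensity_eq_lintegral_mul _ (by fun_prop) (by fun_prop)]
    have h1 : ∫⁻ x, ((fun x : E d => ENNReal.ofReal (Real.exp (-V x))) *
        (fun x : E d => ENNReal.ofReal (Real.exp (1 / 4 * ‖x‖ ^ 2)))) x ≤
        ENNReal.ofReal ((Real.pi / (1 / 4)) ^ ((d : ℝ) / 2)) := by
      rw [← hgau (1 / 4) (by norm_num)]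
      refine lintegral_mono fun x => ?_
      simp only [Pi.mul_apply]
      rw [← ENNReal.ofReal_mul (Real.exp_pos _).le, ← Real.exp_add]
      refine ENNReal.ofReal_le_ofReal (Real.exp_le_exp.2 ?_)
      have := (hb x).1
      linarith
    have h2 : (Real.pi / (1 / 4)) ^ ((d : ℝ) / 2) = 2 ^ d * (Real.pi / 1) ^ ((d : ℝ) / 2) := by
      have h3 : (2 : ℝ) ^ d = (4 : ℝ) ^ ((d : ℝ) / 2) := by
        have h4 : (4 : ℝ) = 2 ^ (2 : ℝ) := by norm_num
        rw [h4, ← Real.rpow_mul (by norm_num), ← Real.rpow_natCast]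
        congr 1
        ring
      rw [h3, ← Real.mul_rpow (by norm_num) (by positivity)]
      congr 1
      ring
    rw [smul_eq_mul]
    rw [h2, ENNReal.ofReal_mul (by positivity)] at h1
    have hZ0 : Z ≠ 0 := by
      intro h0
      rw [h0] at hZ1
      have : (0 : ℝ) < (Real.pi / 1) ^ ((d : ℝ) / 2) := by positivity
      simp only [nonpos_iff_eq_zero, ENNReal.ofReal_eq_zero] at hZ1
      linarith
    have hZt : Z ≠ ⊤ := by
      intro h0
      have h5 := hp.measure_univ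
      rw [gibbs, ← hZ, h0] at h5
      simp at h5
    calc Z⁻¹ * _ ≤ Z⁻¹ * (ENNReal.ofReal (2 ^ d) * ENNReal.ofReal ((Real.pi / 1) ^ ((d : ℝ) / 2))) := by
          gcongr
      _ ≤ Z⁻¹ * (ENNReal.ofReal (2 ^ d) * Z) := by gcongr
      _ = ENNReal.ofReal (2 ^ d) := by
          rw [mul_comm, mul_assoc, ENNReal.mul_inv_cancel hZ0 hZt, mul_one]
  have hm : AEStronglyMeasurable (fun x : E d => Real.exp (1 / 4 * ‖x‖ ^ 2)) (gibbs V) := by
    fun_prop
  refine ⟨⟨hm, ?_⟩, ?_⟩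
  · rw [hasFiniteIntegral_iff_ofReal (Eventually.of_forall fun x => (Real.exp_pos _).le)]
    exact lt_of_le_of_lt key ENNReal.ofReal_lt_top
  · rw [integral_eq_lintegral_of_nonneg_ae (Eventually.of_forall fun x => (Real.exp_pos _).le) hm]
    exact ENNReal.toReal_le_of_le_ofReal (by positivity) key

end LCS.MOM

namespace LCS

open MeasureTheory ProbabilityTheory Set Filter

theorem mom (hL : S_LIP) (hC : S_CM) : S_MOM := by
  intro d V hd hV
  obtain ⟨-, -, -, -, hp⟩ := hL d V hV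
  obtain ⟨h1, h2⟩ := MOM.gibbs_exp hL V hV
  obtain ⟨a1, a2, a3⟩ := MOM.general (gibbs V) h1 h2
  obtain ⟨-, -, h3⟩ := hC d
  obtain ⟨h4, h5⟩ := h3 (1 / 4) (by norm_num)
  have h6 : ∫ x, Real.exp (1 / 4 * ‖x‖ ^ 2) ∂(gam d) ≤ 2 ^ d := by
    rw [h5]
    have h7 : (1 - 2 * (1 / 4) : ℝ) = 2⁻¹ := by norm_num
    rw [h7, Real.inv_rpow (by norm_num), ← Real.rpow_neg (by norm_num), ← Real.rpow_natCast]
    apply Real.rpow_le_rpow_of_exponent_le (by norm_num)
    have : (0 : ℝ) ≤ d := by positivity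
    linarith
  obtain ⟨-, -, b3⟩ := MOM.general (gam d) h4 h6
  exact ⟨a1, a2, a3, b3⟩

end LCS
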