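import Vale.Agent.P347.Defs

/-!
# P347 module MP: Maurey-Pisier (helper15)
-/

namespace LCS.MP

open MeasureTheory ProbabilityTheory Set Filter
open scoped ENNReal NNReal Topology RealInnerProductSpace ContDiff

variable {G : Type} [NormedAddCommGroup G] [InnerProductSpace ℝ G] [FiniteDimensional ℝ G]
  [MeasurableSpace G] [BorelSpace G]

theorem mgf_std (L : G →L[ℝ] ℝ) (c : ℝ) :
    ∫⁻ b, ENNReal.ofReal (Real.exp (c * L b)) ∂(stdGaussian G)
      = ENNReal.ofReal (Real.exp (c ^ 2 * ‖L‖ ^ 2 / 2)) := by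
  have hmap : (stdGaussian G).map L = gaussianReal 0 (‖L‖ ^ 2).toNNReal := by
    rw [IsGaussian.map_eq_gaussianReal, integral_strongDual_stdGaussian, variance_dual_stdGaussian]
  have h1 : ∫⁻ b, ENNReal.ofReal (Real.exp (c * L b)) ∂(stdGaussian G)
      = ∫⁻ x, ENNReal.ofReal (Real.exp (c * x)) ∂(gaussianReal 0 (‖L‖ ^ 2).toNNReal) := by
    rw [← hmap, lintegral_map (by fun_prop) L.continuous.measurable]
  rw [h1, ← ofReal_integral_eq_lintegral_ofReal (integrable_exp_mul_gaussianReal c)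
    (ae_of_all _ fun x => (Real.exp_pos _).le)]
  congr 1
  have h2 := mgf_gaussianReal (p := gaussianReal 0 (‖L‖ ^ 2).toNNReal) (X := id)
    (μ := 0) (v := (‖L‖ ^ 2).toNNReal) (by simp) c
  rw [mgf] at h2
  simp only [id] at h2
  rw [h2, Real.coe_toNNReal _ (sq_nonneg _)]
  congr 1
  ring

/-- the path -/
noncomputable def pth (p : G × G) (s : ℝ) : G :=
  Real.cos (Real.pi / 2 * s) • p.1 + Real.sin (Real.pi / 2 * s) • p.2

/-- its velocity divided by `π/2` -/
noncomputable def vel (p : G × G) (s : ℝ) : G :=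
  -Real.sin (Real.pi / 2 * s) • p.1 + Real.cos (Real.pi / 2 * s) • p.2

theorem hasDerivAt_pth (p : G × G) (s : ℝ) :
    HasDerivAt (pth p) ((Real.pi / 2) • vel p s) s := by
  have h1 : HasDerivAt (fun s : ℝ => Real.pi / 2 * s) (Real.pi / 2) s := by
    simpa using (hasDerivAt_id s).const_mul (Real.pi / 2)
  have h2 := ((Real.hasDerivAt_cos _).comp s h1).smul_const p.1
  have h3 := ((Real.hasDerivAt_sin _).comp s h1).smul_const p.2
  have := h2.add h3
  refine this.congr_deriv ?_
  unfold vel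
  module

theorem pointwise (F : G → ℝ) (hF : ContDiff ℝ 1 F) (p : G × G) :
    ENNReal.ofReal (Real.exp (F p.2 - F p.1)) ≤
      ∫⁻ s in Ioc (0 : ℝ) 1, ENNReal.ofReal (Real.exp
        ((Real.pi / 2) * fderiv ℝ F (pth p s) (vel p s))) := by
  have hdF : Differentiable ℝ F := hF.differentiable (by norm_num)
  have hcF : Continuous (fderiv ℝ F) := hF.continuous_fderiv (by norm_num)
  have hcp : Continuous (pth p) := by unfold pth; fun_prop
  have hcv : Continuous (vel p) := by unfold vel; fun_prop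
  have hder : ∀ s, HasDerivAt (fun s => F (pth p s))
      ((Real.pi / 2) * fderiv ℝ F (pth p s) (vel p s)) s := by
    intro s
    have := (hdF (pth p s)).hasFDerivAt.comp_hasDerivAt s (hasDerivAt_pth p s)
    refine this.congr_deriv ?_
    rw [map_smul, smul_eq_mul]
  have hcont : Continuous (fun s => (Real.pi / 2) * fderiv ℝ F (pth p s) (vel p s)) :=
    continuous_const.mul ((hcF.comp hcp).clm_apply hcv)
  have hftc : ∫ s in (0 : ℝ)..1, (Real.pi / 2) * fderiv ℝ F (pth p s) (vel p s)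
      = F p.2 - F p.1 := by
    rw [intervalIntegral.integral_eq_sub_of_hasDerivAt (fun s _ => hder s)
      (hcont.intervalIntegrable _ _)]
    simp [pth]
  rw [intervalIntegral.integral_of_le zero_le_one] at hftc
  haveI : IsProbabilityMeasure (volume.restrict (Ioc (0 : ℝ) 1)) := ⟨by simp⟩
  have hi1 : Integrable (fun s => (Real.pi / 2) * fderiv ℝ F (pth p s) (vel p s))
      (volume.restrict (Ioc (0 : ℝ) 1)) :=
    (hcont.integrableOn_Icc).mono_set Ioc_subset_Icc_self
  have hi2 : Integrable (fun s => Real.exp ((Real.pi / 2) * fderiv ℝ F (pth p s) (vel p s)))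
      (volume.restrict (Ioc (0 : ℝ) 1)) :=
    ((Real.continuous_exp.comp hcont).integrableOn_Icc).mono_set Ioc_subset_Icc_self
  have hj := convexOn_exp.map_integral_le (Real.continuous_exp.continuousOn) isClosed_univ
    (ae_of_all _ fun _ => mem_univ _) hi1 hi2
  rw [hftc] at hj
  rw [← ofReal_integral_eq_lintegral_ofReal hi2 (ae_of_all _ fun x => (Real.exp_pos _).le)]
  exact ENNReal.ofReal_le_ofReal hj

end LCS.MP

namespace LCS

open MeasureTheory ProbabilityTheory Set Filter MP
open scoped ENNReal NNReal Topology RealInnerProductSpace ContDiff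

theorem mp : S_MP := by
  intro G _ _ _ _ _ F hF
  have hcF : Continuous (fderiv ℝ F) := hF.continuous_fderiv (by norm_num)
  set γ := stdGaussian G with hγ
  have hPhi : Continuous (fun q : G × G => ENNReal.ofReal (Real.exp
      ((Real.pi / 2) * fderiv ℝ F q.1 q.2))) := by
    refine ENNReal.continuous_ofReal.comp (Real.continuous_exp.comp (continuous_const.mul ?_))
    exact (hcF.comp continuous_fst).clm_apply continuous_snd
  have h0 : ∫⁻ y, ∫⁻ z, ENNReal.ofReal (Real.exp (F y - F z)) ∂γ ∂γ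
      = ∫⁻ p, ENNReal.ofReal (Real.exp (F p.2 - F p.1)) ∂(γ.prod γ) := by
    have hm : Measurable (fun p : G × G => ENNReal.ofReal (Real.exp (F p.2 - F p.1))) :=
      (ENNReal.continuous_ofReal.comp (Real.continuous_exp.comp
        ((hF.continuous.comp continuous_snd).sub (hF.continuous.comp continuous_fst)))).measurable
    rw [lintegral_prod_symm _ hm.aemeasurable]
  rw [h0]
  have h1 : ∫⁻ p, ENNReal.ofReal (Real.exp (F p.2 - F p.1)) ∂(γ.prod γ)
      ≤ ∫⁻ p, (∫⁻ s in Ioc (0 : ℝ) 1, ENNReal.ofReal (Real.exp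
        ((Real.pi / 2) * fderiv ℝ F (pth p s) (vel p s)))) ∂(γ.prod γ) :=
    lintegral_mono fun p => pointwise F hF p
  have hjoint : Continuous (fun q : (G × G) × ℝ => ENNReal.ofReal (Real.exp
      ((Real.pi / 2) * fderiv ℝ F (pth q.1 q.2) (vel q.1 q.2)))) := by
    have c1 : Continuous (fun q : (G × G) × ℝ => pth q.1 q.2) := by unfold pth; fun_prop
    have c2 : Continuous (fun q : (G × G) × ℝ => vel q.1 q.2) := by unfold vel; fun_prop
    exact hPhi.comp (c1.prodMk c2)
  have h2 : ∫⁻ p, (∫⁻ s in Ioc (0 : ℝ) 1, ENNReal.ofReal (Real.exp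
        ((Real.pi / 2) * fderiv ℝ F (pth p s) (vel p s)))) ∂(γ.prod γ)
      = ∫⁻ s in Ioc (0 : ℝ) 1, ∫⁻ p, ENNReal.ofReal (Real.exp
        ((Real.pi / 2) * fderiv ℝ F (pth p s) (vel p s))) ∂(γ.prod γ) :=
    lintegral_lintegral_swap hjoint.measurable.aemeasurable
  have h3 : ∀ s : ℝ, ∫⁻ p, ENNReal.ofReal (Real.exp
        ((Real.pi / 2) * fderiv ℝ F (pth p s) (vel p s))) ∂(γ.prod γ)
      = ∫⁻ y, ENNReal.ofReal (Real.exp (Real.pi ^ 2 / 8 * ‖fderiv ℝ F y‖ ^ 2)) ∂γ := by
    intro s
    have hrot := IsGaussian.map_rotation_eq_self (μ := γ)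
      (show ∫ x, id x ∂(stdGaussian G) = 0 from integral_id_stdGaussian) (Real.pi / 2 * s)
    have e1 : ∫⁻ p, ENNReal.ofReal (Real.exp
        ((Real.pi / 2) * fderiv ℝ F (pth p s) (vel p s))) ∂(γ.prod γ)
        = ∫⁻ q, ENNReal.ofReal (Real.exp ((Real.pi / 2) * fderiv ℝ F q.1 q.2))
          ∂((γ.prod γ).map (ContinuousLinearMap.rotation (Real.pi / 2 * s))) := by
      rw [lintegral_map hPhi.measurable
        (ContinuousLinearMap.rotation (E := G) (Real.pi / 2 * s)).continuous.measurable]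
      rfl
    rw [e1, hrot, lintegral_prod _ hPhi.measurable.aemeasurable]
    refine lintegral_congr fun y => ?_
    have e2 := mgf_std (fderiv ℝ F y) (Real.pi / 2)
    refine e2.trans ?_
    congr 2
    ring
  refine h1.trans (le_of_eq ?_)
  rw [h2, lintegral_congr h3, lintegral_const]
  simp

end LCS
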