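import Mathlib
import Vale.Agent.P347.Defs

/-!
# P347, module MQ: quadrature for the Mehler averages in `L²(γ)`
-/

namespace LCS

open MeasureTheory ProbabilityTheory Set Filter
open scoped ENNReal NNReal Topology RealInnerProductSpace BigOperators ContDiff

namespace MQ

variable {d : ℕ}

/-- continuous and of at most linear growth -/
def LG (g : E d → ℝ) : Prop := Continuous g ∧ ∃ C : ℝ, 0 ≤ C ∧ ∀ y, |g y| ≤ C * (1 + ‖y‖)

theorem inorm2 : Integrable (fun y : E d => ‖y‖ ^ 2) (gam d) :=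
  (IsGaussian.memLp_two_id (μ := gam d)).integrable_norm_pow (by norm_num)

theorem inorm1 : Integrable (fun y : E d => ‖y‖) (gam d) :=
  (IsGaussian.integrable_id (μ := gam d)).norm

theorem LG.mul_integrable {g h : E d → ℝ} (hg : LG g) (hh : LG h) :
    Integrable (fun y => g y * h y) (gam d) := by
  obtain ⟨hgc, C, hC, hgC⟩ := hg
  obtain ⟨hhc, C', hC', hhC⟩ := hh
  have hb : Integrable (fun y : E d => C * C' * (2 + 2 * ‖y‖ ^ 2)) (gam d) :=
    (((integrable_const (2 : ℝ)).add ((inorm2 (d := d)).const_mul 2))).const_mul (C * C')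
  refine hb.mono' (hgc.mul hhc).aestronglyMeasurable (ae_of_all _ fun y => ?_)
  rw [Real.norm_eq_abs, abs_mul]
  have h1 := mul_le_mul (hgC y) (hhC y) (abs_nonneg _) (mul_nonneg hC (by positivity))
  refine h1.trans ?_
  have h2 : (1 + ‖y‖) ^ 2 ≤ 2 + 2 * ‖y‖ ^ 2 := by nlinarith [sq_nonneg (1 - ‖y‖)]
  have h3 := mul_le_mul_of_nonneg_left h2 (mul_nonneg hC hC')
  nlinarith

theorem LG.integrable {g : E d → ℝ} (hg : LG g) : Integrable g (gam d) := by
  have h1 : LG (fun _ : E d => (1 : ℝ)) := ⟨continuous_const, 1, zero_le_one, fun y => by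
    rw [abs_one, one_mul]; linarith [norm_nonneg y]⟩
  simpa using hg.mul_integrable h1

/-- the argument of the Mehler average -/
noncomputable def act (x : ℝ) (y z : E d) : E d := x • y + √(1 - x ^ 2) • z

theorem continuous_act3 :
    Continuous (fun q : E d × (ℝ × E d) => act q.2.1 q.1 q.2.2) := by
  unfold act
  fun_prop

theorem continuous_act2 (y : E d) : Continuous (fun q : ℝ × E d => act q.1 y q.2) := by
  unfold act
  fun_prop

theorem norm_act_le {x : ℝ} (hx : x ∈ Icc (-1 : ℝ) 1) (y z : E d) :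
    ‖act x y z‖ ≤ ‖y‖ + ‖z‖ := by
  unfold act
  refine (norm_add_le _ _).trans ?_
  rw [norm_smul, norm_smul, Real.norm_eq_abs, Real.norm_eq_abs]
  have h1 : |x| ≤ 1 := abs_le.mpr ⟨hx.1, hx.2⟩
  have h2 : |√(1 - x ^ 2)| ≤ 1 := by
    rw [abs_of_nonneg (Real.sqrt_nonneg _)]
    exact Real.sqrt_le_one.mpr (by nlinarith [sq_nonneg x])
  have := mul_le_mul_of_nonneg_right h1 (norm_nonneg y)
  have := mul_le_mul_of_nonneg_right h2 (norm_nonneg z)
  linarith

/-- finite measures concentrated on `[-1,1]` -/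
structure Conc (ν : Measure ℝ) : Prop where
  fin : IsFiniteMeasure ν
  ae : ∀ᵐ x ∂ν, x ∈ Icc (-1 : ℝ) 1

/-- the average of `x^k g(x y + √(1-x²) z)` -/
noncomputable def K (ν : Measure ℝ) (k : ℕ) (g : E d → ℝ) (y : E d) : ℝ :=
  ∫ p, p.1 ^ k * g (act p.1 y p.2) ∂(ν.prod (gam d))

theorem ae_prod {ν : Measure ℝ} (hν : Conc ν) :
    ∀ᵐ p ∂(ν.prod (gam d)), p.1 ∈ Icc (-1 : ℝ) 1 := by
  have := hν.fin
  have h := hν.ae
  exact (Measure.quasiMeasurePreserving_fst (μ := ν) (ν := gam d)).ae h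

theorem ae_prod3 {ν : Measure ℝ} (hν : Conc ν) :
    ∀ᵐ q ∂((gam d).prod (ν.prod (gam d))), q.2.1 ∈ Icc (-1 : ℝ) 1 := by
  have := hν.fin
  exact (Measure.quasiMeasurePreserving_snd (μ := gam d) (ν := ν.prod (gam d))).ae (ae_prod hν)

theorem abs_pow_le {x : ℝ} (hx : x ∈ Icc (-1 : ℝ) 1) (k : ℕ) : |x ^ k| ≤ 1 := by
  rw [abs_pow]
  exact pow_le_one₀ (abs_nonneg _) (abs_le.mpr ⟨hx.1, hx.2⟩)

theorem integrable2 {ν : Measure ℝ} (hν : Conc ν) {g : E d → ℝ} (hg : LG g) (k : ℕ) (y : E d) :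
    Integrable (fun p : ℝ × E d => p.1 ^ k * g (act p.1 y p.2)) (ν.prod (gam d)) := by
  have := hν.fin
  obtain ⟨hgc, C, hC, hgC⟩ := hg
  have hb : Integrable (fun p : ℝ × E d => C * (1 + ‖y‖ + ‖p.2‖)) (ν.prod (gam d)) :=
    ((integrable_const (1 + ‖y‖)).add ((inorm1 (d := d)).comp_snd ν)).const_mul C
  refine hb.mono' ?_ ((ae_prod hν).mono fun p hp => ?_)
  · refine Continuous.aestronglyMeasurable ?_
    exact (continuous_fst.pow k).mul (hgc.comp (continuous_act2 y))
  · rw [norm_mul, Real.norm_eq_abs, Real.norm_eq_abs]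
    have h1 := abs_pow_le hp k
    have h2 := hgC (act p.1 y p.2)
    have h3 := norm_act_le hp y p.2
    have h4 : C * (1 + ‖act p.1 y p.2‖) ≤ C * (1 + ‖y‖ + ‖p.2‖) :=
      mul_le_mul_of_nonneg_left (by linarith) hC
    have h5 := mul_le_mul h1 (h2.trans h4) (abs_nonneg _) zero_le_one
    linarith

theorem integrable3 {ν : Measure ℝ} (hν : Conc ν) {g h : E d → ℝ} (hg : LG g) (hh : LG h) :
    Integrable (fun q : E d × (ℝ × E d) => h q.1 * g (act q.2.1 q.1 q.2.2))
      ((gam d).prod (ν.prod (gam d))) := by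
  have := hν.fin
  obtain ⟨hgc, C, hC, hgC⟩ := hg
  obtain ⟨hhc, C', hC', hhC⟩ := hh
  have i1 : Integrable (fun q : E d × (ℝ × E d) => ‖q.1‖ ^ 2) ((gam d).prod (ν.prod (gam d))) :=
    (inorm2 (d := d)).comp_fst _
  have i2 : Integrable (fun q : E d × (ℝ × E d) => ‖q.2.2‖ ^ 2) ((gam d).prod (ν.prod (gam d))) :=
    ((inorm2 (d := d)).comp_snd ν).comp_snd _
  have hb : Integrable (fun q : E d × (ℝ × E d) => C' * C * (3 + 3 * ‖q.1‖ ^ 2 + ‖q.2.2‖ ^ 2))
      ((gam d).prod (ν.prod (gam d))) :=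
    (((integrable_const (3 : ℝ)).add (i1.const_mul 3)).add i2).const_mul (C' * C)
  refine hb.mono' ?_ ((ae_prod3 hν).mono fun q hq => ?_)
  · refine Continuous.aestronglyMeasurable ?_
    exact (hhc.comp continuous_fst).mul (hgc.comp continuous_act3)
  · rw [Real.norm_eq_abs, abs_mul]
    have h2 := hgC (act q.2.1 q.1 q.2.2)
    have h3 := norm_act_le hq q.1 q.2.2
    have h4 : C * (1 + ‖act q.2.1 q.1 q.2.2‖) ≤ C * (1 + ‖q.1‖ + ‖q.2.2‖) :=
      mul_le_mul_of_nonneg_left (by linarith) hC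
    have h5 := mul_le_mul (hhC q.1) (h2.trans h4) (abs_nonneg _)
      (mul_nonneg hC' (by positivity))
    refine h5.trans ?_
    have h6 : (1 + ‖q.1‖) * (1 + ‖q.1‖ + ‖q.2.2‖) ≤ 3 + 3 * ‖q.1‖ ^ 2 + ‖q.2.2‖ ^ 2 := by
      nlinarith [sq_nonneg (1 - ‖q.1‖), sq_nonneg (1 + ‖q.1‖ - ‖q.2.2‖)]
    have h7 := mul_le_mul_of_nonneg_left h6 (mul_nonneg hC' hC)
    nlinarith

/-- `K` as an iterated integral -/
theorem K_eq {ν : Measure ℝ} (hν : Conc ν) {g : E d → ℝ} (hg : LG g) (y : E d) :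
    K ν 0 g y = ∫ x, Mh x g y ∂ν := by
  have := hν.fin
  have h := integrable2 hν hg 0 y
  unfold K
  rw [integral_prod _ h]
  refine integral_congr_ae (ae_of_all _ fun x => ?_)
  simp only [pow_zero, one_mul]
  rfl

/-- the pairing as an integral over `x` -/
theorem pair_eq {ν : Measure ℝ} (hν : Conc ν) {g h : E d → ℝ} (hg : LG g) (hh : LG h) :
    ∫ y, h y * K ν 0 g y ∂(gam d) = ∫ x, (∫ y, h y * Mh x g y ∂(gam d)) ∂ν := by
  have := hν.fin
  have h3 := integrable3 hν hg hh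
  have h4 : Integrable (fun q : (E d × ℝ) × E d => h q.1.1 * g (act q.1.2 q.1.1 q.2))
      (((gam d).prod ν).prod (gam d)) :=
    ((measurePreserving_prodAssoc (gam d) ν (gam d)).integrable_comp_emb
      (MeasurableEquiv.measurableEmbedding _)).mpr h3
  have h5 := h4.integral_prod_left
  have h6 : Integrable (Function.uncurry fun (y : E d) (x : ℝ) => h y * Mh x g y)
      ((gam d).prod ν) := by
    refine h5.congr (ae_of_all _ fun q => ?_)
    simp only [Function.uncurry]
    rw [integral_const_mul]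
    rfl
  rw [← integral_integral_swap h6]
  refine integral_congr_ae (ae_of_all _ fun y => ?_)
  simp only
  rw [integral_const_mul, K_eq hν hg]

theorem integral_neg_gam {F : Type*} [NormedAddCommGroup F] [NormedSpace ℝ F] (g : E d → F) :
    ∫ z, g (-z) ∂(gam d) = ∫ z, g z ∂(gam d) := by
  have h : (gam d).map (fun z : E d => -z) = gam d :=
    stdGaussian_map (LinearIsometryEquiv.neg ℝ (E := E d))
  have e : MeasurableEmbedding (fun z : E d => -z) := (MeasurableEquiv.neg (E d)).measurableEmbedding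
  conv_rhs => rw [← h]
  rw [e.integral_map]

/-- integrability of one slice -/
theorem integrable_slice {g h : E d → ℝ} (hg : LG g) (hh : LG h) (a b : ℝ) (ha : |a| ≤ 1) (hb : |b| ≤ 1) :
    Integrable (fun q : E d × E d => h q.1 * g (a • q.1 + b • q.2)) ((gam d).prod (gam d)) := by
  obtain ⟨hgc, C, hC, hgC⟩ := hg
  obtain ⟨hhc, C', hC', hhC⟩ := hh
  have i1 : Integrable (fun q : E d × E d => ‖q.1‖ ^ 2) ((gam d).prod (gam d)) :=
    (inorm2 (d := d)).comp_fst _
  have i2 : Integrable (fun q : E d × E d => ‖q.2‖ ^ 2) ((gam d).prod (gam d)) :=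
    (inorm2 (d := d)).comp_snd _
  have hb' : Integrable (fun q : E d × E d => C' * C * (3 + 3 * ‖q.1‖ ^ 2 + ‖q.2‖ ^ 2))
      ((gam d).prod (gam d)) :=
    (((integrable_const (3 : ℝ)).add (i1.const_mul 3)).add i2).const_mul (C' * C)
  refine hb'.mono' ?_ (ae_of_all _ fun q => ?_)
  · refine Continuous.aestronglyMeasurable ?_
    exact (hhc.comp continuous_fst).mul (hgc.comp (by fun_prop))
  · rw [Real.norm_eq_abs, abs_mul]
    have h2 := hgC (a • q.1 + b • q.2)
    have h3 : ‖a • q.1 + b • q.2‖ ≤ ‖q.1‖ + ‖q.2‖ := by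
      refine (norm_add_le _ _).trans ?_
      rw [norm_smul, norm_smul, Real.norm_eq_abs, Real.norm_eq_abs]
      have := mul_le_mul_of_nonneg_right ha (norm_nonneg q.1)
      have := mul_le_mul_of_nonneg_right hb (norm_nonneg q.2)
      linarith
    have h4 : C * (1 + ‖a • q.1 + b • q.2‖) ≤ C * (1 + ‖q.1‖ + ‖q.2‖) :=
      mul_le_mul_of_nonneg_left (by linarith) hC
    have h5 := mul_le_mul (hhC q.1) (h2.trans h4) (abs_nonneg _)
      (mul_nonneg hC' (by positivity))
    refine h5.trans ?_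
    have h6 : (1 + ‖q.1‖) * (1 + ‖q.1‖ + ‖q.2‖) ≤ 3 + 3 * ‖q.1‖ ^ 2 + ‖q.2‖ ^ 2 := by
      nlinarith [sq_nonneg (1 - ‖q.1‖), sq_nonneg (1 + ‖q.1‖ - ‖q.2‖)]
    have h7 := mul_le_mul_of_nonneg_left h6 (mul_nonneg hC' hC)
    nlinarith

/-- symmetry of the Mehler kernel -/
theorem mh_symm {g h : E d → ℝ} (hg : LG g) (hh : LG h) {x : ℝ} (hx : x ∈ Icc (-1 : ℝ) 1) :
    ∫ y, h y * Mh x g y ∂(gam d) = ∫ y, g y * Mh x h y ∂(gam d) := by
  have hrot := IsGaussian.map_rotation_eq_self (μ := gam d) (by exact integral_id_stdGaussian)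
    (Real.arccos x)
  set s : ℝ := √(1 - x ^ 2) with hs
  have hx1 : |x| ≤ 1 := abs_le.mpr ⟨hx.1, hx.2⟩
  have hsn : |s| ≤ 1 := by
    rw [abs_of_nonneg (Real.sqrt_nonneg _)]
    exact Real.sqrt_le_one.mpr (by nlinarith [sq_nonneg x])
  have hss : s ^ 2 = 1 - x ^ 2 := Real.sq_sqrt (by nlinarith [hx.1, hx.2])
  have hcos : Real.cos (Real.arccos x) = x := Real.cos_arccos hx.1 hx.2
  have hsin : Real.sin (Real.arccos x) = s := Real.sin_arccos x
  have e1 : ∫ y, h y * Mh x g y ∂(gam d) =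
      ∫ q : E d × E d, h q.1 * g (x • q.1 + s • q.2) ∂((gam d).prod (gam d)) := by
    rw [integral_prod _ (integrable_slice hg hh x s hx1 hsn)]
    refine integral_congr_ae (ae_of_all _ fun y => ?_)
    simp only
    rw [integral_const_mul]
    rfl
  have e2 : ∫ y, g y * Mh x h y ∂(gam d) =
      ∫ q : E d × E d, g q.1 * h (x • q.1 + (-s) • q.2) ∂((gam d).prod (gam d)) := by
    rw [integral_prod _ (integrable_slice hh hg x (-s) hx1 (by rwa [abs_neg]))]
    refine integral_congr_ae (ae_of_all _ fun y => ?_)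
    simp only
    rw [integral_const_mul]
    congr 1
    unfold Mh
    rw [← integral_neg_gam]
    refine integral_congr_ae (ae_of_all _ fun z => ?_)
    simp only [smul_neg, neg_smul, ← hs]
  rw [e1, e2]
  have hΦ : AEStronglyMeasurable (fun q : E d × E d => g q.1 * h (x • q.1 + (-s) • q.2))
      (((gam d).prod (gam d)).map (ContinuousLinearMap.rotation (Real.arccos x))) := by
    refine Continuous.aestronglyMeasurable ?_
    exact (hg.1.comp continuous_fst).mul (hh.1.comp (by fun_prop))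
  conv_rhs => rw [← hrot]
  rw [integral_map (by fun_prop) hΦ]
  refine integral_congr_ae (ae_of_all _ fun q => ?_)
  simp only [ContinuousLinearMap.rotation_apply, hcos, hsin]
  rw [mul_comm]
  congr 2
  have : x • (x • q.1 + s • q.2) + -s • (-s • q.1 + x • q.2) = (x ^ 2 + s ^ 2) • q.1 := by
    module
  rw [this, hss]
  simp

theorem tower_LG {G : (k : ℕ) → (Fin k → Fin d) → E d → ℝ} (hG : Tower G) (k : ℕ)
    (α : Fin k → Fin d) : LG (G k α) := by
  obtain ⟨C, hC⟩ := hG.growth k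
  refine ⟨?_, max C 0, le_max_right _ _, fun y => (hC α y).trans ?_⟩
  · exact continuous_iff_continuousAt.mpr fun y => (hG.deriv k α y).continuousAt
  · exact mul_le_mul_of_nonneg_right (le_max_left _ _) (by positivity)

theorem K_abs_le {ν : Measure ℝ} (hν : Conc ν) {g : E d → ℝ} {C : ℝ} (hC : 0 ≤ C)
    (hgC : ∀ y, |g y| ≤ C * (1 + ‖y‖)) (k : ℕ) (y : E d) :
    |K ν k g y| ≤ C * (ν.real univ * (1 + ∫ z : E d, ‖z‖ ∂(gam d))) * (1 + ‖y‖) := by
  have := hν.fin
  have hb : Integrable (fun p : ℝ × E d => C * (1 + ‖y‖ + ‖p.2‖)) (ν.prod (gam d)) :=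
    ((integrable_const (1 + ‖y‖)).add ((inorm1 (d := d)).comp_snd ν)).const_mul C
  have h1 : |K ν k g y| ≤ ∫ p : ℝ × E d, C * (1 + ‖y‖ + ‖p.2‖) ∂(ν.prod (gam d)) := by
    unfold K
    rw [← Real.norm_eq_abs]
    refine norm_integral_le_of_norm_le hb ((ae_prod hν).mono fun p hp => ?_)
    rw [norm_mul, Real.norm_eq_abs, Real.norm_eq_abs]
    have h1 := abs_pow_le hp k
    have h2 := hgC (act p.1 y p.2)
    have h3 := norm_act_le hp y p.2
    have h4 : C * (1 + ‖act p.1 y p.2‖) ≤ C * (1 + ‖y‖ + ‖p.2‖) :=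
      mul_le_mul_of_nonneg_left (by linarith) hC
    have h5 := mul_le_mul h1 (h2.trans h4) (abs_nonneg _) zero_le_one
    linarith
  refine h1.trans ?_
  rw [integral_const_mul, integral_add (integrable_const _) ((inorm1 (d := d)).comp_snd ν),
    integral_const]
  have e : ∫ p : ℝ × E d, ‖p.2‖ ∂(ν.prod (gam d)) = ν.real univ * ∫ z : E d, ‖z‖ ∂(gam d) := by
    have := integral_fun_snd (μ := ν) (ν := gam d) (fun z : E d => ‖z‖)
    rw [this, smul_eq_mul]
  rw [e]
  have e2 : (ν.prod (gam d)).real univ = ν.real univ := by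
    rw [measureReal_def, measureReal_def, ← univ_prod_univ, Measure.prod_prod]
    simp
  rw [e2, smul_eq_mul, mul_assoc]
  refine mul_le_mul_of_nonneg_left ?_ hC
  have i1 : 0 ≤ ∫ z : E d, ‖z‖ ∂(gam d) := integral_nonneg fun z => norm_nonneg _
  have i2 : 0 ≤ ν.real univ := measureReal_nonneg
  have i3 := norm_nonneg y
  nlinarith [mul_nonneg i2 (mul_nonneg i1 i3)]

theorem K_tower {ν : Measure ℝ} (hν : Conc ν) {G : (k : ℕ) → (Fin k → Fin d) → E d → ℝ}
    (hG : Tower G) : Tower (fun k α y => K ν k (G k α) y) where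
  deriv := by
    intro k α y
    have := hν.fin
    obtain ⟨C, hC⟩ := hG.growth (k + 1)
    have hC0 : 0 ≤ max C 0 := le_max_right _ _
    have hC' : ∀ (α : Fin (k + 1) → Fin d) (y : E d), |G (k + 1) α y| ≤ max C 0 * (1 + ‖y‖) :=
      fun α y => (hC α y).trans (mul_le_mul_of_nonneg_right (le_max_left _ _) (by positivity))
    set C1 := max C 0
    let F' : E d → ℝ × E d → (E d →L[ℝ] ℝ) := fun y p =>
      ∑ i : Fin d, (p.1 ^ (k + 1) * G (k + 1) (Fin.cons i α) (act p.1 y p.2)) •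
        (EuclideanSpace.proj i : E d →L[ℝ] ℝ)
    have hpn : ∀ i : Fin d, ‖(EuclideanSpace.proj i : E d →L[ℝ] ℝ)‖ ≤ 1 := fun i =>
      ContinuousLinearMap.opNorm_le_bound _ zero_le_one fun x => by
        rw [one_mul]; exact PiLp.norm_apply_le x i
    have key : HasFDerivAt (fun y => ∫ p, p.1 ^ k * G k α (act p.1 y p.2) ∂(ν.prod (gam d)))
        (∫ p, F' y p ∂(ν.prod (gam d))) y := by
      refine hasFDerivAt_integral_of_dominated_of_fderiv_le (s := Metric.ball y 1)
        (bound := fun p : ℝ × E d => (d : ℝ) * (C1 * (1 + (‖y‖ + 1) + ‖p.2‖)))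
        (Metric.ball_mem_nhds y one_pos) ?_ ?_ ?_ ?_ ?_ ?_
      · exact Eventually.of_forall fun y' =>
          (integrable2 hν (tower_LG hG k α) k y').aestronglyMeasurable
      · exact integrable2 hν (tower_LG hG k α) k y
      · refine Continuous.aestronglyMeasurable ?_
        refine continuous_finsetSum _ fun i _ => ?_
        exact ((continuous_fst.pow (k + 1)).mul
          ((tower_LG hG (k + 1) (Fin.cons i α)).1.comp (continuous_act2 y))).smul continuous_const
      · refine (ae_prod hν).mono fun p hp y' hy' => ?_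
        refine (norm_sum_le _ _).trans ?_
        have : ∀ i ∈ (Finset.univ : Finset (Fin d)),
            ‖(p.1 ^ (k + 1) * G (k + 1) (Fin.cons i α) (act p.1 y' p.2)) •
              (EuclideanSpace.proj i : E d →L[ℝ] ℝ)‖ ≤ C1 * (1 + (‖y‖ + 1) + ‖p.2‖) := by
          intro i _
          rw [norm_smul, norm_mul, Real.norm_eq_abs, Real.norm_eq_abs]
          have h1 := abs_pow_le hp (k + 1)
          have h2 := hC' (Fin.cons i α) (act p.1 y' p.2)
          have h3 := norm_act_le hp y' p.2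
          have hy1 : ‖y'‖ ≤ ‖y‖ + 1 := by
            have : ‖y' - y‖ < 1 := by rwa [Metric.mem_ball, dist_eq_norm] at hy'
            have := norm_sub_norm_le y' y
            linarith
          have h4 : C1 * (1 + ‖act p.1 y' p.2‖) ≤ C1 * (1 + (‖y‖ + 1) + ‖p.2‖) :=
            mul_le_mul_of_nonneg_left (by linarith) hC0
          have h5 := mul_le_mul h1 (h2.trans h4) (abs_nonneg _) zero_le_one
          have h6 := mul_le_mul h5 (hpn i) (norm_nonneg _) (by positivity)
          linarith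
        refine (Finset.sum_le_card_nsmul _ _ _ this).trans ?_
        simp
      · exact (((integrable_const (1 + (‖y‖ + 1))).add
          ((inorm1 (d := d)).comp_snd ν)).const_mul C1).const_mul (d : ℝ)
      · refine ae_of_all _ fun p y' _ => ?_
        have h1 := hG.deriv k α (act p.1 y' p.2)
        have h2 : HasFDerivAt (fun y' : E d => act p.1 y' p.2)
            (p.1 • ContinuousLinearMap.id ℝ (E d)) y' := by
          unfold act
          exact ((hasFDerivAt_id y').const_smul p.1).add_const _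
        have h3 := (h1.comp y' h2).const_mul (p.1 ^ k)
        refine h3.congr_fderiv ?_
        ext v
        simp only [F', ContinuousLinearMap.comp_apply, _root_.sum_apply,
          _root_.smul_apply, ContinuousLinearMap.id_apply, smul_eq_mul, map_smul,
          Finset.mul_sum]
        refine Finset.sum_congr rfl fun i _ => ?_
        ring
    have e : ∫ p, F' y p ∂(ν.prod (gam d)) =
        ∑ i : Fin d, K ν (k + 1) (G (k + 1) (Fin.cons i α)) y •
          (EuclideanSpace.proj i : E d →L[ℝ] ℝ) := by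
      simp only [F']
      rw [integral_finsetSum]
      · refine Finset.sum_congr rfl fun i _ => ?_
        rw [integral_smul_const]
        rfl
      · intro i _
        exact (integrable2 hν (tower_LG hG (k + 1) (Fin.cons i α)) (k + 1) y).smul_const _
    rw [← e]
    exact key
  growth := by
    intro k
    obtain ⟨C, hC⟩ := hG.growth k
    refine ⟨_, fun α y => K_abs_le hν (le_max_right C 0) (fun y => (hC α y).trans
      (mul_le_mul_of_nonneg_right (le_max_left _ _) (by positivity))) k y⟩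

theorem Tower_lin {G H : (k : ℕ) → (Fin k → Fin d) → E d → ℝ} (hG : Tower G) (hH : Tower H)
    (a b : ℝ) : Tower (fun k α y => a * G k α y + b * H k α y) where
  deriv := by
    intro k α y
    refine (((hG.deriv k α y).const_mul a).add ((hH.deriv k α y).const_mul b)).congr_fderiv ?_
    ext v
    simp only [_root_.add_apply, _root_.smul_apply, _root_.sum_apply, smul_eq_mul,
      Finset.mul_sum, ← Finset.sum_add_distrib]
    refine Finset.sum_congr rfl fun i _ => ?_
    ring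
  growth := by
    intro k
    obtain ⟨C, hC⟩ := hG.growth k
    obtain ⟨C', hC'⟩ := hH.growth k
    refine ⟨|a| * C + |b| * C', fun α y => ?_⟩
    refine (abs_add_le _ _).trans ?_
    rw [abs_mul, abs_mul]
    have h1 := mul_le_mul_of_nonneg_left (hC α y) (abs_nonneg a)
    have h2 := mul_le_mul_of_nonneg_left (hC' α y) (abs_nonneg b)
    linarith

theorem LG.lin {g h : E d → ℝ} (hg : LG g) (hh : LG h) (a b : ℝ) :
    LG (fun y => a * g y + b * h y) := by
  obtain ⟨hgc, C, hC, hgC⟩ := hg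
  obtain ⟨hhc, C', hC', hhC⟩ := hh
  refine ⟨(continuous_const.mul hgc).add (continuous_const.mul hhc), |a| * C + |b| * C',
    by positivity, fun y => ?_⟩
  refine (abs_add_le _ _).trans ?_
  rw [abs_mul, abs_mul]
  have h1 := mul_le_mul_of_nonneg_left (hgC y) (abs_nonneg a)
  have h2 := mul_le_mul_of_nonneg_left (hhC y) (abs_nonneg b)
  linarith

theorem K_lin {ν : Measure ℝ} (hν : Conc ν) {g h : E d → ℝ} (hg : LG g) (hh : LG h) (a b : ℝ)
    (y : E d) : K ν 0 (fun y => a * g y + b * h y) y = a * K ν 0 g y + b * K ν 0 h y := by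
  have i1 := integrable2 hν hg 0 y
  have i2 := integrable2 hν hh 0 y
  unfold K
  rw [← integral_const_mul, ← integral_const_mul, ← integral_add (i1.const_mul a)
    (i2.const_mul b)]
  refine integral_congr_ae (ae_of_all _ fun p => ?_)
  simp only
  ring

/-- Lebesgue measure on `[-1,1]` -/
noncomputable def nu1 : Measure ℝ := volume.restrict (Ioc (-1 : ℝ) 1)

/-- the quadrature measure -/
noncomputable def nu2 {J : ℕ} (c w : Fin J → ℝ) : Measure ℝ :=
  ∑ j, ENNReal.ofReal (w j) • Measure.dirac (c j)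

theorem conc_nu1 : Conc nu1 where
  fin := by unfold nu1; infer_instance
  ae := by
    unfold nu1
    filter_upwards [ae_restrict_mem measurableSet_Ioc] with x hx
    exact ⟨hx.1.le, hx.2⟩

theorem conc_nu2 {J : ℕ} (c w : Fin J → ℝ) (hc : ∀ j, c j ∈ Ioo (-1 : ℝ) 1) :
    Conc (nu2 c w) where
  fin := by
    refine ⟨?_⟩
    unfold nu2
    rw [Measure.finsetSum_apply]
    refine ENNReal.sum_lt_top.mpr fun j _ => ?_
    rw [Measure.smul_apply, smul_eq_mul]
    exact ENNReal.mul_lt_top ENNReal.ofReal_lt_top (measure_lt_top _ _)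
  ae := by
    unfold nu2
    rw [ae_iff, Measure.finsetSum_apply]
    refine Finset.sum_eq_zero fun j _ => ?_
    rw [Measure.smul_apply, smul_eq_mul, Measure.dirac_apply' _ (by measurability)]
    have : c j ∉ {a | ¬ a ∈ Icc (-1 : ℝ) 1} := fun h => h ⟨(hc j).1.le, (hc j).2.le⟩
    rw [indicator_of_notMem this, mul_zero]

theorem integral_nu2 {J : ℕ} (c w : Fin J → ℝ) (hw : ∀ j, 0 ≤ w j) (F : ℝ → ℝ) :
    ∫ x, F x ∂(nu2 c w) = ∑ j, w j * F (c j) := by
  unfold nu2
  rw [integral_finsetSum_measure]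
  · refine Finset.sum_congr rfl fun j _ => ?_
    rw [integral_smul_measure, integral_dirac, ENNReal.toReal_ofReal (hw j), smul_eq_mul]
  · intro j _
    exact (integrable_dirac (by simp)).smul_measure ENNReal.ofReal_ne_top

/-- the error operator -/
noncomputable def T {J : ℕ} (c w : Fin J → ℝ) (g : E d → ℝ) (y : E d) : ℝ :=
  K nu1 0 g y - K (nu2 c w) 0 g y

theorem T_eq {J : ℕ} {c w : Fin J → ℝ} (hc : ∀ j, c j ∈ Ioo (-1 : ℝ) 1) (hw : ∀ j, 0 < w j)
    {g : E d → ℝ} (hg : LG g) (y : E d) :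
    T c w g y = (∫ x in (-1 : ℝ)..1, Mh x g y) - ∑ j, w j * Mh (c j) g y := by
  unfold T
  rw [K_eq conc_nu1 hg, K_eq (conc_nu2 c w hc) hg, integral_nu2 c w (fun j => (hw j).le),
    intervalIntegral.integral_of_le (by norm_num)]
  rfl

theorem pair_T {J : ℕ} {c w : Fin J → ℝ} (hc : ∀ j, c j ∈ Ioo (-1 : ℝ) 1)
    {G : (k : ℕ) → (Fin k → Fin d) → E d → ℝ} (hG : Tower G) {g : E d → ℝ}
    (hg : ∀ α, G 0 α = g) {h : E d → ℝ} (hh : LG h) :
    ∫ y, h y * T c w g y ∂(gam d) =
      (∫ x, (∫ y, h y * Mh x g y ∂(gam d)) ∂nu1) -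
        ∫ x, (∫ y, h y * Mh x g y ∂(gam d)) ∂(nu2 c w) := by
  have hgL : LG g := by rw [← hg Fin.elim0]; exact tower_LG hG 0 _
  have k1 : LG (K nu1 0 g) := by
    have := tower_LG (K_tower conc_nu1 hG) 0 Fin.elim0
    simpa only [hg] using this
  have k2 : LG (K (nu2 c w) 0 g) := by
    have := tower_LG (K_tower (conc_nu2 c w hc) hG) 0 Fin.elim0
    simpa only [hg] using this
  rw [← pair_eq conc_nu1 hgL hh, ← pair_eq (conc_nu2 c w hc) hgL hh,
    ← integral_sub (hh.mul_integrable k1) (hh.mul_integrable k2)]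
  refine integral_congr_ae (ae_of_all _ fun y => ?_)
  simp only [T]
  ring

theorem pair_symm {J : ℕ} {c w : Fin J → ℝ} (hc : ∀ j, c j ∈ Ioo (-1 : ℝ) 1)
    {G H : (k : ℕ) → (Fin k → Fin d) → E d → ℝ} (hG : Tower G) {g h : E d → ℝ}
    (hg : ∀ α, G 0 α = g) (hH : Tower H) (hh : ∀ α, H 0 α = h) :
    ∫ y, h y * T c w g y ∂(gam d) = ∫ y, g y * T c w h y ∂(gam d) := by
  have hgL : LG g := by rw [← hg Fin.elim0]; exact tower_LG hG 0 _
  have hhL : LG h := by rw [← hh Fin.elim0]; exact tower_LG hH 0 _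
  rw [pair_T hc hG hg hhL, pair_T hc hH hh hgL]
  congr 1
  · exact integral_congr_ae (conc_nu1.ae.mono fun x hx => mh_symm hgL hhL hx)
  · exact integral_congr_ae ((conc_nu2 c w hc).ae.mono fun x hx => mh_symm hgL hhL hx)

theorem diag (hD : S_DERIV) {J : ℕ} {η : ℝ} {c w : Fin J → ℝ} (hR : Rule J η c w)
    {G : (k : ℕ) → (Fin k → Fin d) → E d → ℝ} (hG : Tower G) {g : E d → ℝ}
    (hg : ∀ α, G 0 α = g) :
    |∫ y, g y * T c w g y ∂(gam d)| ≤ η * ∫ y, g y ^ 2 ∂(gam d) := by
  obtain ⟨ψ, h0, hψ⟩ := hD d G g hG hg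
  have hgL : LG g := by rw [← hg Fin.elim0]; exact tower_LG hG 0 _
  rw [pair_T hR.mem hG hg hgL, integral_nu2 c w (fun j => (hR.pos j).le)]
  have e1 : ∫ x, (∫ y, g y * Mh x g y ∂(gam d)) ∂nu1 = ∫ x in (-1 : ℝ)..1, ψ 0 x := by
    rw [intervalIntegral.integral_of_le (by norm_num), nu1, integral_Ioc_eq_integral_Ioo,
      integral_Ioc_eq_integral_Ioo]
    refine setIntegral_congr_fun measurableSet_Ioo fun x hx => ?_
    exact (h0 x hx).symm
  have e2 : ∑ j, w j * (∫ y, g y * Mh (c j) g y ∂(gam d)) = ∑ j, w j * ψ 0 (c j) :=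
    Finset.sum_congr rfl fun j _ => by rw [h0 _ (hR.mem j)]
  rw [e1, e2]
  exact hR.err _ ψ fun k x hx => hψ k x hx

theorem quad {u v p q : E d → ℝ} (hu : LG u) (hv : LG v) (hp : LG p) (hq : LG q) (t b : ℝ) :
    ∫ y, (t * u y + b * v y) * (t * p y + b * q y) ∂(gam d) =
      t ^ 2 * (∫ y, u y * p y ∂(gam d)) + t * b * (∫ y, u y * q y ∂(gam d)) +
        t * b * (∫ y, v y * p y ∂(gam d)) + b ^ 2 * ∫ y, v y * q y ∂(gam d) := by
  have i1 : Integrable (fun y => t ^ 2 * (u y * p y)) (gam d) := (hu.mul_integrable hp).const_mul _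
  have i2 : Integrable (fun y => t * b * (u y * q y)) (gam d) := (hu.mul_integrable hq).const_mul _
  have i3 : Integrable (fun y => t * b * (v y * p y)) (gam d) := (hv.mul_integrable hp).const_mul _
  have i4 : Integrable (fun y => b ^ 2 * (v y * q y)) (gam d) := (hv.mul_integrable hq).const_mul _
  have i12 : Integrable (fun y => t ^ 2 * (u y * p y) + t * b * (u y * q y)) (gam d) := i1.add i2
  have i123 : Integrable (fun y => t ^ 2 * (u y * p y) + t * b * (u y * q y) +
      t * b * (v y * p y)) (gam d) := i12.add i3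
  have e : ∀ y, (t * u y + b * v y) * (t * p y + b * q y) = t ^ 2 * (u y * p y) +
      t * b * (u y * q y) + t * b * (v y * p y) + b ^ 2 * (v y * q y) := fun y => by ring
  simp_rw [e]
  rw [integral_add i123 i4, integral_add i12 i3, integral_add i1 i2, integral_const_mul,
    integral_const_mul, integral_const_mul, integral_const_mul]

theorem T_LG {J : ℕ} {c w : Fin J → ℝ} (hc : ∀ j, c j ∈ Ioo (-1 : ℝ) 1)
    {G : (k : ℕ) → (Fin k → Fin d) → E d → ℝ} (hG : Tower G) {g : E d → ℝ}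
    (hg : ∀ α, G 0 α = g) : LG (T c w g) := by
  have k1 : LG (K nu1 0 g) := by
    have := tower_LG (K_tower conc_nu1 hG) 0 Fin.elim0
    simpa only [hg] using this
  have k2 : LG (K (nu2 c w) 0 g) := by
    have := tower_LG (K_tower (conc_nu2 c w hc) hG) 0 Fin.elim0
    simpa only [hg] using this
  have := k1.lin k2 1 (-1)
  have e : (fun y => 1 * K nu1 0 g y + -1 * K (nu2 c w) 0 g y) = T c w g := by
    funext y
    unfold T
    ring
  rwa [e] at this

theorem T_lin {J : ℕ} {c w : Fin J → ℝ} (hc : ∀ j, c j ∈ Ioo (-1 : ℝ) 1) {g h : E d → ℝ}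
    (hg : LG g) (hh : LG h) (a b : ℝ) (y : E d) :
    T c w (fun y => a * g y + b * h y) y = a * T c w g y + b * T c w h y := by
  unfold T
  rw [K_lin conc_nu1 hg hh, K_lin (conc_nu2 c w hc) hg hh]
  ring

end MQ

theorem mq (hD : S_DERIV) : S_MQ := by
  intro d J η c w hη hR G g hG hg
  have hgL : MQ.LG g := by rw [← hg Fin.elim0]; exact MQ.tower_LG hG 0 _
  have hc := hR.mem
  -- the tower of `T g`
  have hT1 := MQ.Tower_lin (MQ.K_tower MQ.conc_nu1 hG) (MQ.K_tower (MQ.conc_nu2 c w hc) hG) 1 (-1)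
  set h : E d → ℝ := MQ.T c w g with hh
  have hH0 : ∀ α, (fun y => 1 * MQ.K MQ.nu1 0 (G 0 α) y + -1 * MQ.K (MQ.nu2 c w) 0 (G 0 α) y) = h := by
    intro α
    funext y
    rw [hh, hg]
    unfold MQ.T
    ring
  have hhL : MQ.LG h := by
    have := MQ.tower_LG hT1 0 Fin.elim0
    rwa [hH0] at this
  have hThL : MQ.LG (MQ.T c w h) := MQ.T_LG hc hT1 hH0
  have e0 : ∫ y, ((∫ x in (-1 : ℝ)..1, Mh x g y) - ∑ j, w j * Mh (c j) g y) ^ 2 ∂(gam d) =
      ∫ y, h y ^ 2 ∂(gam d) := by
    refine integral_congr_ae (ae_of_all _ fun y => ?_)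
    simp only
    rw [hh, MQ.T_eq hc hR.pos hgL]
  rw [e0]
  set Ng := ∫ y, g y ^ 2 ∂(gam d) with hNg
  set Nh := ∫ y, h y ^ 2 ∂(gam d) with hNh
  have hNg0 : 0 ≤ Ng := integral_nonneg fun y => sq_nonneg _
  have hNh0 : 0 ≤ Nh := integral_nonneg fun y => sq_nonneg _
  have hB1 : ∫ y, h y * h y ∂(gam d) = Nh := by
    rw [hNh]; simp_rw [pow_two]
  have hB0 : ∫ y, g y * g y ∂(gam d) = Ng := by
    rw [hNg]; simp_rw [pow_two]
  have hB2 : ∫ y, g y * MQ.T c w h y ∂(gam d) = Nh := by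
    rw [← hB1, ← MQ.pair_symm hc hG hg hT1 hH0]
  -- polarisation
  have key : ∀ t b : ℝ, |t ^ 2 * (∫ y, h y * MQ.T c w h y ∂(gam d)) + t * b * Nh + t * b * Nh +
      b ^ 2 * ∫ y, g y * h y ∂(gam d)| ≤
      η * (t ^ 2 * Nh + t * b * (∫ y, h y * g y ∂(gam d)) + t * b * (∫ y, g y * h y ∂(gam d)) +
        b ^ 2 * Ng) := by
    intro t b
    have hp := MQ.diag hD hR (MQ.Tower_lin hT1 hG t b) (g := fun y => t * h y + b * g y)
      (fun α => by
        funext y
        have := congrFun (hH0 α) y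
        beta_reduce at this ⊢
        rw [this, hg])
    simp_rw [MQ.T_lin hc hhL hgL, pow_two (t * h _ + b * g _)] at hp
    rw [← hh, MQ.quad hhL hgL hThL hhL, MQ.quad hhL hgL hhL hgL, hB1, hB2, hB0] at hp
    exact hp
  have pol : ∀ t : ℝ, t * Nh ≤ η / 2 * (t ^ 2 * Nh + Ng) := by
    intro t
    have h1 := (abs_le.mp (key t 1)).2
    have h2 := (abs_le.mp (key t (-1))).1
    nlinarith
  rcases hη.eq_or_lt with h0 | h0
  · have := pol 1
    rw [← h0] at this ⊢
    linarith
  · have := pol (1 / η)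
    have e1 : η / 2 * ((1 / η) ^ 2 * Nh + Ng) = 1 / η * Nh / 2 + η / 2 * Ng := by
      field_simp
    rw [e1] at this
    have e2 : 1 / η * Nh ≤ η * Ng := by linarith
    have e3 := mul_le_mul_of_nonneg_left e2 h0.le
    have e4 : η * (1 / η * Nh) = Nh := by field_simp
    nlinarith

end LCS
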