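import Vale.Agent.P347.SHIFT

namespace LCS
namespace NOISE

open MeasureTheory ProbabilityTheory Set Filter
open scoped ENNReal NNReal Topology RealInnerProductSpace BigOperators ContDiff

variable {G : Type} [NormedAddCommGroup G] [InnerProductSpace ℝ G]
  [FiniteDimensional ℝ G] [MeasurableSpace G] [BorelSpace G]

lemma jensen0 (φ : G → ℝ) (hint : Integrable φ (stdGaussian G)) (h0 : ∫ x, φ x ∂(stdGaussian G) = 0) :
    1 ≤ ∫⁻ z, ENNReal.ofReal (Real.exp (-φ z)) ∂(stdGaussian G) := by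
  have h1 : Integrable (fun z => 1 - φ z) (stdGaussian G) := (integrable_const _).sub hint
  have h2 : ∫ z, (1 - φ z) ∂(stdGaussian G) = 1 := by
    rw [integral_sub (integrable_const _) hint, h0]
    simp
  have h3 : ENNReal.ofReal (∫ z, (1 - φ z) ∂(stdGaussian G))
      ≤ ∫⁻ z, ENNReal.ofReal (1 - φ z) ∂(stdGaussian G) := by
    rw [integral_eq_lintegral_pos_part_sub_lintegral_neg_part h1]
    refine (ENNReal.ofReal_le_ofReal (sub_le_self _ ENNReal.toReal_nonneg)).trans ?_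
    exact ENNReal.ofReal_toReal_le
  rw [h2, ENNReal.ofReal_one] at h3
  refine h3.trans (lintegral_mono fun z => ENNReal.ofReal_le_ofReal ?_)
  have := Real.add_one_le_exp (-φ z)
  linarith

lemma mp_zero (hMP : S_MP) (φ : G → ℝ) (hφ : ContDiff ℝ 1 φ) (hint : Integrable φ (stdGaussian G))
    (h0 : ∫ x, φ x ∂(stdGaussian G) = 0) (l : ℝ) (hl : ∀ x, ‖fderiv ℝ φ x‖ ≤ l) :
    ∫⁻ y, ENNReal.ofReal (Real.exp (φ y)) ∂(stdGaussian G)
      ≤ ENNReal.ofReal (Real.exp (Real.pi ^ 2 / 8 * l ^ 2)) := by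
  have hm : Measurable φ := hφ.continuous.measurable
  have h1 := hMP G φ hφ
  have h2 : ∀ y, ∫⁻ z, ENNReal.ofReal (Real.exp (φ y - φ z)) ∂(stdGaussian G)
      = ENNReal.ofReal (Real.exp (φ y)) * ∫⁻ z, ENNReal.ofReal (Real.exp (-φ z)) ∂(stdGaussian G) := by
    intro y
    rw [← lintegral_const_mul _ (by fun_prop)]
    refine lintegral_congr fun z => ?_
    rw [← ENNReal.ofReal_mul (Real.exp_pos _).le, ← Real.exp_add, sub_eq_add_neg]
  calc ∫⁻ y, ENNReal.ofReal (Real.exp (φ y)) ∂(stdGaussian G)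
      ≤ ∫⁻ y, ∫⁻ z, ENNReal.ofReal (Real.exp (φ y - φ z)) ∂(stdGaussian G) ∂(stdGaussian G) := by
        refine lintegral_mono fun y => ?_
        rw [h2]
        exact le_mul_of_one_le_right zero_le (jensen0 φ hint h0)
    _ ≤ ∫⁻ y, ENNReal.ofReal (Real.exp (Real.pi ^ 2 / 8 * ‖fderiv ℝ φ y‖ ^ 2)) ∂(stdGaussian G) := h1
    _ ≤ ∫⁻ y, ENNReal.ofReal (Real.exp (Real.pi ^ 2 / 8 * l ^ 2)) ∂(stdGaussian G) := by
        refine lintegral_mono fun y => ENNReal.ofReal_le_ofReal (Real.exp_le_exp.2 ?_)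
        have : ‖fderiv ℝ φ y‖ ^ 2 ≤ l ^ 2 := pow_le_pow_left₀ (norm_nonneg _) (hl y) 2
        exact mul_le_mul_of_nonneg_left this (by positivity)
    _ = ENNReal.ofReal (Real.exp (Real.pi ^ 2 / 8 * l ^ 2)) := by
        rw [lintegral_const, measure_univ, mul_one]

variable {d : ℕ}

omit [FiniteDimensional ℝ G] [MeasurableSpace G] [BorelSpace G] in
lemma lip_of (F : G → E d) (L : ℝ) (hF : ContDiff ℝ 1 F) (hL : ∀ x, ‖fderiv ℝ F x‖ ≤ L) (x : G) :
    ‖F x‖ ≤ ‖F 0‖ + L * ‖x‖ := by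
  have h := Convex.norm_image_sub_le_of_norm_fderiv_le (𝕜 := ℝ) (f := F) (s := univ) (C := L)
    (fun x _ => (hF.differentiable one_ne_zero) x) (fun x _ => hL x) convex_univ
    (mem_univ (0 : G)) (mem_univ x)
  rw [sub_zero] at h
  calc ‖F x‖ = ‖F 0 + (F x - F 0)‖ := by rw [add_sub_cancel]
    _ ≤ ‖F 0‖ + ‖F x - F 0‖ := norm_add_le _ _
    _ ≤ ‖F 0‖ + L * ‖x‖ := by linarith

lemma int_F (F : G → E d) (L : ℝ) (hF : ContDiff ℝ 1 F) (hL : ∀ x, ‖fderiv ℝ F x‖ ≤ L) :
    Integrable F (stdGaussian G) := by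
  have h1 : Integrable (fun x : G => ‖F 0‖ + L * ‖x‖) (stdGaussian G) := by
    have : Integrable (fun x : G => x) (stdGaussian G) := IsGaussian.integrable_fun_id
    exact (integrable_const _).add (this.norm.const_mul L)
  refine h1.mono' hF.continuous.aestronglyMeasurable (ae_of_all _ fun x => lip_of F L hF hL x)

/-- the inner function -/
lemma inner_bound (hMP : S_MP) (F : G → E d) (L σ : ℝ) (hF : ContDiff ℝ 1 F)
    (hL : ∀ x, ‖fderiv ℝ F x‖ ≤ L) (hσ : 0 < σ) (w : E d) :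
    ∫⁻ x, ENNReal.ofReal (Real.exp ⟪σ⁻¹ • (F x - ∫ y, F y ∂(stdGaussian G)), w⟫) ∂(stdGaussian G)
      ≤ ENNReal.ofReal (Real.exp (Real.pi ^ 2 / 8 * (L / σ * ‖w‖) ^ 2)) := by
  set mF := ∫ y, F y ∂(stdGaussian G) with hmF
  have hiF := int_F F L hF hL
  have hd : ContDiff ℝ 1 fun x => ⟪σ⁻¹ • (F x - mF), w⟫ :=
    ((hF.sub contDiff_const).const_smul σ⁻¹).inner ℝ contDiff_const
  have hi : Integrable (fun x => ⟪σ⁻¹ • (F x - mF), w⟫) (stdGaussian G) := by
    have h1 : Integrable (fun x => σ⁻¹ • (F x - mF)) (stdGaussian G) :=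
      (hiF.sub (integrable_const _)).smul σ⁻¹
    exact h1.inner_const w
  refine mp_zero hMP _ hd hi ?_ _ ?_
  · have h1 : Integrable (fun x => σ⁻¹ • (F x - mF)) (stdGaussian G) :=
      (hiF.sub (integrable_const _)).smul σ⁻¹
    have h2 : ∫ x, ⟪σ⁻¹ • (F x - mF), w⟫ ∂(stdGaussian G)
        = ⟪w, ∫ x, σ⁻¹ • (F x - mF) ∂(stdGaussian G)⟫ := by
      rw [← integral_inner h1 w]
      refine integral_congr_ae (ae_of_all _ fun x => ?_)
      exact real_inner_comm _ _
    rw [h2, integral_smul, integral_sub hiF (integrable_const _)]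
    simp [hmF]
  · intro x
    have hdx : HasFDerivAt F (fderiv ℝ F x) x := (hF.differentiable one_ne_zero x).hasFDerivAt
    have h1 : HasFDerivAt (fun x => σ⁻¹ • (F x - mF)) (σ⁻¹ • fderiv ℝ F x) x :=
      (hdx.sub_const mF).const_smul σ⁻¹
    have h2 : HasFDerivAt (fun x => ⟪σ⁻¹ • (F x - mF), w⟫)
        ((innerSL ℝ w).comp (σ⁻¹ • fderiv ℝ F x)) x := by
      have h3 := (innerSL ℝ w).hasFDerivAt.comp x h1
      refine h3.congr_of_eventuallyEq (Eventually.of_forall fun y => ?_)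
      simp only [Function.comp_apply]
      rw [innerSL_apply_apply]
      exact real_inner_comm _ _
    rw [h2.fderiv]
    calc ‖(innerSL ℝ w).comp (σ⁻¹ • fderiv ℝ F x)‖
        ≤ ‖innerSL ℝ w‖ * ‖σ⁻¹ • fderiv ℝ F x‖ := ContinuousLinearMap.opNorm_comp_le _ _
      _ = ‖w‖ * (σ⁻¹ * ‖fderiv ℝ F x‖) := by
          rw [innerSL_apply_norm, norm_smul, Real.norm_of_nonneg (inv_nonneg.2 hσ.le)]
      _ ≤ ‖w‖ * (σ⁻¹ * L) := by
          gcongr
          exact hL x
      _ = L / σ * ‖w‖ := by ring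

lemma exp_le_lin (x : ℝ) (h0 : 0 ≤ x) (h1 : x ≤ 1) : Real.exp x ≤ 1 + 2 * x := by
  have hc := convexOn_exp.2 (Set.mem_univ (0 : ℝ)) (Set.mem_univ (1 : ℝ))
    (show 0 ≤ 1 - x by linarith) h0 (by ring)
  simp only [smul_eq_mul, mul_zero, mul_one, zero_add, Real.exp_zero] at hc
  have he : Real.exp 1 < 3 := by
    have := Real.exp_one_lt_d9
    linarith
  nlinarith

/-- `(1-t)^{-d/2} ≤ exp (d t)` for `t ≤ 1/2`. -/
lemma rpow_bound (t : ℝ) (h0 : 0 ≤ t) (h1 : t ≤ 1 / 2) (d : ℕ) :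
    (1 - t) ^ (-(d : ℝ) / 2) ≤ Real.exp (d * t) := by
  have hpos : 0 < 1 - t := by linarith
  rw [Real.rpow_def_of_pos hpos]
  refine Real.exp_le_exp.2 ?_
  have hlog : - (2 * t) ≤ Real.log (1 - t) := by
    have h2 := Real.one_sub_inv_le_log_of_pos hpos
    have h3 : (1 - t)⁻¹ ≤ 1 + 2 * t := by
      rw [inv_le_iff_one_le_mul₀ hpos]
      nlinarith
    linarith
  have hd : (0 : ℝ) ≤ d := Nat.cast_nonneg d
  nlinarith

end NOISE

open MeasureTheory ProbabilityTheory Set Filter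
open scoped ENNReal NNReal Topology RealInnerProductSpace BigOperators ContDiff

/-- NOISE -/
theorem noise (hMP : S_MP) : S_NOISE := by
  intro G _ _ _ _ _ d F L σ hd hF _ hL hσ
  set Γ := stdGaussian G with hΓ
  set mF := ∫ y, F y ∂Γ with hmF
  obtain ⟨κ, hκ⟩ : ∃ κ : G → E d, κ = fun x => σ⁻¹ • (F x - mF) := ⟨_, rfl⟩
  have hκm : Measurable κ := by
    have : Measurable F := hF.continuous.measurable
    rw [hκ]
    exact (this.sub_const mF).const_smul σ⁻¹
  set u : ℝ := L ^ 2 / σ ^ 2 with hu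
  have hu0 : 0 ≤ u := by positivity
  have hsd : 1 ≤ √(d : ℝ) := by
    rw [Real.one_le_sqrt]
    exact_mod_cast hd
  have hmapF : Measurable fun q : G × E d => F q.1 + σ • q.2 :=
    (hF.continuous.measurable.comp measurable_fst).add (measurable_snd.const_smul σ)
  have hgoal : 4 * √(d : ℝ) * L ^ 2 / σ ^ 2 = 4 * √(d : ℝ) * u := by rw [hu]; ring
  intro B hB
  rw [hgoal]
  rcases le_or_gt 1 (4 * √(d : ℝ) * u) with hbig | hsmall
  · have p1 : IsProbabilityMeasure ((Γ.prod (gam d)).map fun q : G × E d => F q.1 + σ • q.2) :=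
      Measure.isProbabilityMeasure_map hmapF.aemeasurable
    have p2 : IsProbabilityMeasure ((gam d).map fun z => mF + σ • z) :=
      Measure.isProbabilityMeasure_map (Measurable.aemeasurable (by fun_prop))
    have h1 : ((Γ.prod (gam d)).map fun q : G × E d => F q.1 + σ • q.2).real B ≤ 1 :=
      measureReal_le_one
    have h2 : ((gam d).map fun z => mF + σ • z).real B ≤ 1 := measureReal_le_one
    have h3 : 0 ≤ ((Γ.prod (gam d)).map fun q : G × E d => F q.1 + σ • q.2).real B :=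
      measureReal_nonneg
    have h4 : 0 ≤ ((gam d).map fun z => mF + σ • z).real B := measureReal_nonneg
    rw [abs_le]
    constructor <;> linarith
  · -- small case
    have hu4 : u < 1 / 4 := by nlinarith
    have hdu : (d : ℝ) * u ^ 2 ≤ 1 / 16 := by
      have h5 : (√(d : ℝ) * u) ^ 2 ≤ (1 / 4) ^ 2 := by
        refine pow_le_pow_left₀ (by positivity) ?_ 2
        linarith
      rw [mul_pow, Real.sq_sqrt (Nat.cast_nonneg d)] at h5
      linarith
    have hpi : Real.pi ^ 2 ≤ 10 := by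
      have := Real.pi_lt_d2
      have h0 := Real.pi_pos
      nlinarith
    set a : ℝ := Real.pi ^ 2 / 8 * (L / σ) ^ 2 with ha
    have ha0 : 0 ≤ a := by positivity
    have hau : a ≤ 10 / 8 * u := by
      rw [ha, div_pow, ← hu]
      exact mul_le_mul_of_nonneg_right (by linarith) hu0
    have ha2 : a ^ 2 ≤ 100 / 64 * u ^ 2 := by
      have := pow_le_pow_left₀ ha0 hau 2
      calc a ^ 2 ≤ (10 / 8 * u) ^ 2 := this
        _ = 100 / 64 * u ^ 2 := by ring
    have hu16 : u ^ 2 ≤ 1 / 16 := by nlinarith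
    have hθ : 4 * a ^ 2 ≤ 1 / 2 := by nlinarith
    -- bound of the double integral
    have hI : ∫⁻ x, ∫⁻ x', ENNReal.ofReal (Real.exp ⟪κ x, κ x'⟫) ∂Γ ∂Γ
        ≤ ENNReal.ofReal (1 + 64 * (d * u ^ 2)) := by
      have s1 : ∀ x, ∫⁻ x', ENNReal.ofReal (Real.exp ⟪κ x, κ x'⟫) ∂Γ
          ≤ ∫⁻ g, ENNReal.ofReal (Real.exp ⟪κ x, √(2 * a) • g⟫) ∂(gam d) := by
        intro x
        have h1 := NOISE.inner_bound hMP F L σ hF hL hσ (κ x)
        have h2 : ∀ x', ⟪κ x, κ x'⟫ = ⟪σ⁻¹ • (F x' - ∫ y, F y ∂(stdGaussian G)), κ x⟫ := by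
          intro x'
          rw [real_inner_comm, hκ]
        simp only [h2]
        refine h1.trans (le_of_eq ?_)
        have h3 : ∀ g : E d, ⟪κ x, √(2 * a) • g⟫ = ⟪√(2 * a) • κ x, g⟫ := by
          intro g
          rw [real_inner_smul_left, real_inner_smul_right]
        simp only [h3]
        have h4 : √(2 * a) ^ 2 = 2 * a := Real.sq_sqrt (by positivity)
        rw [SHIFT.mgf_gam, norm_smul, Real.norm_of_nonneg (Real.sqrt_nonneg _)]
        congr 2
        rw [mul_pow (√(2 * a)), h4, ha]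
        ring
      have s2 : ∀ g : E d, ∫⁻ x, ENNReal.ofReal (Real.exp ⟪κ x, √(2 * a) • g⟫) ∂Γ
          ≤ ENNReal.ofReal (Real.exp (2 * a ^ 2 * ‖g‖ ^ 2)) := by
        intro g
        have h1 := NOISE.inner_bound hMP F L σ hF hL hσ (√(2 * a) • g)
        have h4 : √(2 * a) ^ 2 = 2 * a := Real.sq_sqrt (by positivity)
        have h5 : ∫⁻ x, ENNReal.ofReal (Real.exp ⟪κ x, √(2 * a) • g⟫) ∂Γ
            ≤ ENNReal.ofReal (Real.exp (Real.pi ^ 2 / 8 * (L / σ * ‖√(2 * a) • g‖) ^ 2)) := by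
          rw [hκ]
          exact h1
        refine h5.trans (le_of_eq ?_)
        rw [norm_smul, Real.norm_of_nonneg (Real.sqrt_nonneg _)]
        congr 2
        have h6 : (L / σ * (√(2 * a) * ‖g‖)) ^ 2 = (L / σ) ^ 2 * (2 * a) * ‖g‖ ^ 2 := by
          rw [mul_pow, mul_pow, h4]
          ring
        rw [h6, show Real.pi ^ 2 / 8 * ((L / σ) ^ 2 * (2 * a) * ‖g‖ ^ 2)
          = (Real.pi ^ 2 / 8 * (L / σ) ^ 2) * (2 * a) * ‖g‖ ^ 2 by ring, ← ha]
        ring
      have hsw : AEMeasurable (Function.uncurry fun (x : G) (g : E d) =>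
          ENNReal.ofReal (Real.exp ⟪κ x, √(2 * a) • g⟫)) (Γ.prod (gam d)) := by
        refine Measurable.aemeasurable ?_
        have h4 : Measurable fun q : G × E d => κ q.1 := hκm.comp measurable_fst
        unfold Function.uncurry
        fun_prop
      have hmom := (cm d).2.2 (2 * a ^ 2) (by linarith)
      calc ∫⁻ x, ∫⁻ x', ENNReal.ofReal (Real.exp ⟪κ x, κ x'⟫) ∂Γ ∂Γ
          ≤ ∫⁻ x, ∫⁻ g, ENNReal.ofReal (Real.exp ⟪κ x, √(2 * a) • g⟫) ∂(gam d) ∂Γ :=
            lintegral_mono s1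
        _ = ∫⁻ g, ∫⁻ x, ENNReal.ofReal (Real.exp ⟪κ x, √(2 * a) • g⟫) ∂Γ ∂(gam d) :=
            lintegral_lintegral_swap hsw
        _ ≤ ∫⁻ g, ENNReal.ofReal (Real.exp (2 * a ^ 2 * ‖g‖ ^ 2)) ∂(gam d) := lintegral_mono s2
        _ = ENNReal.ofReal (∫ g, Real.exp (2 * a ^ 2 * ‖g‖ ^ 2) ∂(gam d)) :=
            (ofReal_integral_eq_lintegral_ofReal hmom.1
              (ae_of_all _ fun g => (Real.exp_pos _).le)).symm
        _ = ENNReal.ofReal ((1 - 2 * (2 * a ^ 2)) ^ (-(d : ℝ) / 2)) := by rw [hmom.2]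
        _ ≤ ENNReal.ofReal (1 + 64 * (d * u ^ 2)) := by
            refine ENNReal.ofReal_le_ofReal ?_
            have h5 := NOISE.rpow_bound (2 * (2 * a ^ 2)) (by positivity) (by linarith) d
            have h6 : (d : ℝ) * (2 * (2 * a ^ 2)) ≤ 25 / 4 * (d * u ^ 2) := by
              have hd0 : (0 : ℝ) ≤ d := Nat.cast_nonneg d
              nlinarith
            have h7 : (0 : ℝ) ≤ d * (2 * (2 * a ^ 2)) := by positivity
            have h8 := NOISE.exp_le_lin _ h7 (by linarith)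
            have h9 : (0 : ℝ) ≤ d * u ^ 2 := by positivity
            linarith
    have htv := SHIFT.tv_law Γ κ hκm (64 * (d * u ^ 2)) (by positivity) hI
      ((fun z => mF + σ • z) ⁻¹' B) ((by fun_prop : Measurable fun z : E d => mF + σ • z) hB)
    have hsum : Measurable fun q : G × E d => κ q.1 + q.2 :=
      (hκm.comp measurable_fst).add measurable_snd
    have haff : Measurable fun z : E d => mF + σ • z := by fun_prop
    have e1 : ((Γ.prod (gam d)).map fun q : G × E d => F q.1 + σ • q.2).real B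
        = ((Γ.prod (gam d)).map fun q : G × E d => κ q.1 + q.2).real
          ((fun z => mF + σ • z) ⁻¹' B) := by
      rw [Measure.real, Measure.real, Measure.map_apply hmapF hB,
        Measure.map_apply hsum (haff hB)]
      congr 2
      ext q
      simp only [Set.mem_preimage, hκ]
      have : mF + σ • (σ⁻¹ • (F q.1 - mF) + q.2) = F q.1 + σ • q.2 := by
        rw [smul_add, smul_smul, mul_inv_cancel₀ hσ.ne', one_smul]
        abel
      rw [this]
    have e2 : ((gam d).map fun z => mF + σ • z).real B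
        = (gam d).real ((fun z => mF + σ • z) ⁻¹' B) := by
      rw [Measure.real, Measure.real, Measure.map_apply haff hB]
    rw [e1, e2]
    refine htv.trans (le_of_eq ?_)
    rw [show 64 * ((d : ℝ) * u ^ 2) = (8 * u) ^ 2 * d by ring, Real.sqrt_mul (by positivity),
      Real.sqrt_sq (by positivity)]
    ring

end LCS
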