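import Mathlib
import Vale.Agent.P347.Defs
import Vale.Agent.P347.Base
import Vale.Agent.P347.Dens
import Vale.Agent.P347.TV3

/-!
# P347, module OU: defect of the Ornstein-Uhlenbeck kernel
-/

namespace LCS

namespace OU

open MeasureTheory ProbabilityTheory Set Filter
open scoped ENNReal NNReal Topology RealInnerProductSpace BigOperators ContDiff

variable {d : ℕ}

/-- normalising constant -/
noncomputable def ZZ (f : E d → ℝ) : ℝ := ∫ y, Real.exp (-f y) ∂(gam d)

theorem ZZ_pos {f : E d → ℝ} (hI : Integrable (fun y => Real.exp (-f y)) (gam d)) : 0 < ZZ f :=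
  integral_exp_pos hI

theorem loc_eq {f : E d → ℝ} (hc : Continuous f)
    (hI : Integrable (fun y => Real.exp (-f y)) (gam d)) :
    loc f = (gam d).withDensity (fun y => ENNReal.ofReal (Real.exp (-f y) / ZZ f)) := by
  have hZ := ZZ_pos hI
  have h1 : ∫⁻ y, ENNReal.ofReal (Real.exp (-f y)) ∂(gam d) = ENNReal.ofReal (ZZ f) := by
    rw [ZZ, ofReal_integral_eq_lintegral_ofReal hI]
    exact Eventually.of_forall fun y => (Real.exp_pos _).le
  have hm : Measurable fun y => ENNReal.ofReal (Real.exp (-f y)) :=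
    (Real.continuous_exp.comp hc.neg).measurable.ennreal_ofReal
  rw [loc, h1, ← withDensity_smul _ hm]
  congr 1
  funext y
  rw [Pi.smul_apply, smul_eq_mul, div_eq_mul_inv, ENNReal.ofReal_mul (Real.exp_pos _).le,
    ENNReal.ofReal_inv_of_pos hZ, mul_comm]

theorem loc_prob {f : E d → ℝ} (hc : Continuous f)
    (hI : Integrable (fun y => Real.exp (-f y)) (gam d)) : IsProbabilityMeasure (loc f) := by
  have hZ := ZZ_pos hI
  refine ⟨?_⟩
  rw [loc_eq hc hI, withDensity_apply _ MeasurableSet.univ, setLIntegral_univ,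
    ← ofReal_integral_eq_lintegral_ofReal (hI.div_const _)
      (Eventually.of_forall fun y => by positivity), integral_div]
  change ENNReal.ofReal (ZZ f / ZZ f) = 1
  rw [div_self hZ.ne', ENNReal.ofReal_one]

theorem integral_loc {f : E d → ℝ} (hc : Continuous f)
    (hI : Integrable (fun y => Real.exp (-f y)) (gam d)) (g : E d → ℝ) :
    ∫ y, g y ∂(loc f) = ∫ y, Real.exp (-f y) / ZZ f * g y ∂(gam d) := by
  have hZ := ZZ_pos hI
  have hm : Measurable fun y => ENNReal.ofReal (Real.exp (-f y) / ZZ f) :=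
    ((Real.continuous_exp.comp hc.neg).measurable.div_const _).ennreal_ofReal
  rw [loc_eq hc hI, integral_withDensity_eq_integral_toReal_smul hm
    (Eventually.of_forall fun y => ENNReal.ofReal_lt_top)]
  refine integral_congr_ae (Eventually.of_forall fun y => ?_)
  simp only [smul_eq_mul]
  rw [ENNReal.toReal_ofReal (by positivity)]

theorem sum_sq_fderiv (f : E d → ℝ) (y : E d) :
    ∑ i : Fin d, (fderiv ℝ f y (EuclideanSpace.single i 1)) ^ 2 = ‖gradient f y‖ ^ 2 := by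
  rw [EuclideanSpace.real_norm_sq_eq]
  refine Finset.sum_congr rfl fun i _ => ?_
  rw [← inner_gradient, EuclideanSpace.inner_single_right]
  simp

section rr

variable {s A : ℝ} {f : E d → ℝ}

/-- derivatives of the density -/
theorem fderiv_r (hf : Loc d s A f) (Z : ℝ) (y : E d) :
    HasFDerivAt (fun y => Real.exp (-f y) / Z) ((-(Real.exp (-f y) / Z)) • fderiv ℝ f y) y := by
  have h1 : HasFDerivAt f (fderiv ℝ f y) y :=
    (hf.smooth.differentiable (by norm_num) y).hasFDerivAt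
  have h2 : HasFDerivAt (fun y => Real.exp (-f y) * Z⁻¹)
      (Z⁻¹ • (Real.exp (-f y) • -fderiv ℝ f y)) y := (h1.neg.exp).mul_const Z⁻¹
  have e1 : (fun y => Real.exp (-f y) / Z) = fun y => Real.exp (-f y) * Z⁻¹ := by
    funext y; rw [div_eq_mul_inv]
  rw [e1]
  refine h2.congr_fderiv ?_
  ext v
  simp only [_root_.smul_apply, _root_.neg_apply, smul_eq_mul, div_eq_mul_inv]
  ring

theorem fderiv_r_eq (hf : Loc d s A f) (Z : ℝ) :
    fderiv ℝ (fun y => Real.exp (-f y) / Z) = fun y => (-(Real.exp (-f y) / Z)) • fderiv ℝ f y :=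
  funext fun y => (fderiv_r hf Z y).fderiv

theorem fderiv2_r (hf : Loc d s A f) (Z : ℝ) (y : E d) :
    fderiv ℝ (fderiv ℝ (fun y => Real.exp (-f y) / Z)) y =
      (-(Real.exp (-f y) / Z)) • fderiv ℝ (fderiv ℝ f) y +
        ((Real.exp (-f y) / Z) • fderiv ℝ f y).smulRight (fderiv ℝ f y) := by
  rw [fderiv_r_eq hf]
  have h1 := (fderiv_r hf Z y).neg
  have h2 : HasFDerivAt (fderiv ℝ f) (fderiv ℝ (fderiv ℝ f) y) y :=
    ((contDiff_fderiv hf.smooth).differentiable (by norm_num) y).hasFDerivAt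
  have h3 := h1.smul h2
  have h4 := h3.fderiv
  refine h4.trans ?_
  congr 2
  ext v
  simp

end rr

theorem exp_bound1 (t : ℝ) : 2 + t ≤ 2 * Real.exp (t / 2) := by
  have := Real.add_one_le_exp (t / 2)
  linarith

theorem exp_bound2 (n : ℝ) : (1 + n ^ 2) ^ 2 ≤ 66 * Real.exp (1 / 4 * n ^ 2) := by
  have h1 := Real.quadratic_le_exp_of_nonneg (x := 1 / 4 * n ^ 2) (by positivity)
  nlinarith [sq_nonneg (n ^ 2), sq_nonneg n]

theorem moment4 (hCM : S_CM) (hd : 1 ≤ d) :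
    Integrable (fun y : E d => ‖y‖ ^ 4) (gam d) ∧ ∫ y : E d, ‖y‖ ^ 4 ∂(gam d) ≤ 400 * (d : ℝ) ^ 2 := by
  obtain ⟨-, -, hexp⟩ := hCM d
  have hd' : (1 : ℝ) ≤ d := by exact_mod_cast hd
  have hd0 : (0 : ℝ) < d := by linarith
  set θ : ℝ := 1 / (10 * d) with hθ
  have hθ0 : 0 < θ := by positivity
  have hθ1 : θ ≤ 1 / 10 := by
    rw [hθ]
    exact one_div_le_one_div_of_le (by norm_num) (by linarith)
  obtain ⟨hi, he⟩ := hexp θ (by linarith)
  have hpt : ∀ y : E d, ‖y‖ ^ 4 ≤ 200 * (d : ℝ) ^ 2 * Real.exp (θ * ‖y‖ ^ 2) := by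
    intro y
    have h1 := Real.quadratic_le_exp_of_nonneg (x := θ * ‖y‖ ^ 2) (by positivity)
    have h2 : (θ * ‖y‖ ^ 2) ^ 2 / 2 ≤ Real.exp (θ * ‖y‖ ^ 2) := by
      have : 0 ≤ θ * ‖y‖ ^ 2 := by positivity
      linarith
    have h3 : (θ * ‖y‖ ^ 2) ^ 2 / 2 = ‖y‖ ^ 4 / (200 * (d : ℝ) ^ 2) := by
      rw [hθ]; field_simp; ring
    rw [h3, div_le_iff₀ (by positivity)] at h2
    linarith
  have hi4 : Integrable (fun y : E d => ‖y‖ ^ 4) (gam d) := by
    refine (hi.const_mul (200 * (d : ℝ) ^ 2)).mono' (by fun_prop) (Eventually.of_forall fun y => ?_)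
    rw [Real.norm_eq_abs, abs_of_nonneg (by positivity)]
    exact hpt y
  refine ⟨hi4, ?_⟩
  calc ∫ y : E d, ‖y‖ ^ 4 ∂(gam d) ≤ ∫ y : E d, 200 * (d : ℝ) ^ 2 * Real.exp (θ * ‖y‖ ^ 2) ∂(gam d) :=
        integral_mono hi4 (hi.const_mul _) hpt
    _ = 200 * (d : ℝ) ^ 2 * (1 - 2 * θ) ^ (-(d : ℝ) / 2) := by rw [integral_const_mul, he]
    _ ≤ 200 * (d : ℝ) ^ 2 * 2 := by
        have h1 := DENS.rpow_bound (x := 2 * θ) (by positivity) (by linarith) d
        have h2 : 5 / 8 * (2 * θ) * d = 1 / 8 := by rw [hθ]; field_simp; norm_num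
        rw [h2] at h1
        have h3 : Real.exp (1 / 8) ≤ 2 := by
          have h4 : (1 / 8 : ℝ) ≤ Real.log 2 := by
            have := Real.log_two_gt_d9
            linarith
          calc Real.exp (1 / 8) ≤ Real.exp (Real.log 2) := Real.exp_le_exp.mpr h4
            _ = 2 := Real.exp_log (by norm_num)
        exact mul_le_mul_of_nonneg_left (h1.trans h3) (by positivity)
    _ = 400 * (d : ℝ) ^ 2 := by ring

section main

variable {s A : ℝ} {f : E d → ℝ}

theorem Lr_eq (hf : Loc d s A f) (Z : ℝ) (y : E d) :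
    lap (fun y => Real.exp (-f y) / Z) y - ⟪y, gradient (fun y => Real.exp (-f y) / Z) y⟫ =
      Real.exp (-f y) / Z * (‖gradient f y‖ ^ 2 - (lap f y - ⟪y, gradient f y⟫)) := by
  have h1 : gradient (fun y => Real.exp (-f y) / Z) y = (-(Real.exp (-f y) / Z)) • gradient f y := by
    rw [gradient, fderiv_r_eq hf, gradient, map_smul]
  have h2 : lap (fun y => Real.exp (-f y) / Z) y =
      -(Real.exp (-f y) / Z) * lap f y + Real.exp (-f y) / Z * ‖gradient f y‖ ^ 2 := by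
    rw [← sum_sq_fderiv, lap, lap, Finset.mul_sum, Finset.mul_sum, ← Finset.sum_add_distrib]
    refine Finset.sum_congr rfl fun i _ => ?_
    rw [fderiv2_r hf]
    simp only [_root_.add_apply, _root_.smul_apply, ContinuousLinearMap.smulRight_apply, smul_eq_mul]
    ring
  rw [h1, h2, inner_smul_right]
  ring

theorem growth (hP : Par d s A) (hf : Loc d s A f) {Z : ℝ} (hZ : 0 < Z) :
    ∃ C : ℝ, ∀ y, |(fun y => Real.exp (-f y) / Z) y| + ‖fderiv ℝ (fun y => Real.exp (-f y) / Z) y‖ +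
      ‖fderiv ℝ (fderiv ℝ (fun y => Real.exp (-f y) / Z)) y‖ ≤ C * Real.exp (C * ‖y‖) := by
  have hs := hP.s_pos
  have hs' := hP.s_le
  set K : ℝ := Real.exp (-f 0) / Z with hK
  have hK0 : 0 < K := by positivity
  refine ⟨max (8 * K) 3, fun y => ?_⟩
  set n := ‖y‖ with hn
  have hn0 : 0 ≤ n := norm_nonneg _
  set r := Real.exp (-f y) / Z with hr
  have hr0 : 0 < r := by positivity
  have hrK : r ≤ K * Real.exp (2 * n) := by
    rw [hr, hK, div_mul_eq_mul_div, ← Real.exp_add]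
    apply div_le_div_of_nonneg_right _ hZ.le
    apply Real.exp_le_exp.mpr
    have h1 := hf.lower_le y
    have h2 : s * A * n ≤ 2 * n := mul_le_mul_of_nonneg_right hP.sA hn0
    linarith
  have hg : ‖fderiv ℝ f y‖ ≤ 2 + n := by
    rw [← norm_gradient]
    have h1 := hf.grad_le hs.le y
    have h2 : 2 * s * n ≤ 1 * n := mul_le_mul_of_nonneg_right (by linarith) hn0
    linarith [hP.sA]
  have hH : ‖fderiv ℝ (fderiv ℝ f) y‖ ≤ 1 := by
    have h1 := hess_opnorm hf.smooth (K := 2 * s) (by positivity) y (hf.abs_hess y)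
    linarith
  have e1 : ‖fderiv ℝ (fun y => Real.exp (-f y) / Z) y‖ ≤ r * (2 + n) := by
    rw [fderiv_r_eq hf, norm_smul, norm_neg, Real.norm_eq_abs, abs_of_pos hr0]
    exact mul_le_mul_of_nonneg_left hg hr0.le
  have e2 : ‖fderiv ℝ (fderiv ℝ (fun y => Real.exp (-f y) / Z)) y‖ ≤ r * 1 + r * (2 + n) * (2 + n) := by
    rw [fderiv2_r hf]
    have hn2 : 0 ≤ 2 + n := by linarith
    refine ContinuousLinearMap.opNorm_le_bound₂ _ (by positivity) fun v w => ?_
    have h1 : |fderiv ℝ (fderiv ℝ f) y v w| ≤ 1 * ‖v‖ * ‖w‖ := by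
      have h2 := (fderiv ℝ (fderiv ℝ f) y).le_opNorm₂ v w
      rw [Real.norm_eq_abs] at h2
      refine h2.trans ?_
      gcongr
    have h2 : |fderiv ℝ f y v| ≤ (2 + n) * ‖v‖ := by
      have h3 := (fderiv ℝ f y).le_opNorm v
      rw [Real.norm_eq_abs] at h3
      refine h3.trans ?_
      gcongr
    have h3 : |fderiv ℝ f y w| ≤ (2 + n) * ‖w‖ := by
      have h3 := (fderiv ℝ f y).le_opNorm w
      rw [Real.norm_eq_abs] at h3
      refine h3.trans ?_
      gcongr
    have e3 : ((-(Real.exp (-f y) / Z)) • fderiv ℝ (fderiv ℝ f) y +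
        ((Real.exp (-f y) / Z) • fderiv ℝ f y).smulRight (fderiv ℝ f y)) v w =
        -(r * fderiv ℝ (fderiv ℝ f) y v w) + r * (fderiv ℝ f y v * fderiv ℝ f y w) := by
      simp only [_root_.add_apply, _root_.smul_apply, ContinuousLinearMap.smulRight_apply,
        smul_eq_mul, ← hr]
      ring
    rw [e3, Real.norm_eq_abs]
    calc |-(r * fderiv ℝ (fderiv ℝ f) y v w) + r * (fderiv ℝ f y v * fderiv ℝ f y w)|
        ≤ |-(r * fderiv ℝ (fderiv ℝ f) y v w)| + |r * (fderiv ℝ f y v * fderiv ℝ f y w)| :=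
          abs_add_le _ _
      _ = r * |fderiv ℝ (fderiv ℝ f) y v w| + r * (|fderiv ℝ f y v| * |fderiv ℝ f y w|) := by
          rw [abs_neg, abs_mul, abs_mul, abs_mul, abs_of_pos hr0]
      _ ≤ r * (1 * ‖v‖ * ‖w‖) + r * (((2 + n) * ‖v‖) * ((2 + n) * ‖w‖)) := by
          gcongr
      _ = (r * 1 + r * (2 + n) * (2 + n)) * ‖v‖ * ‖w‖ := by ring
  have e0 : |(fun y => Real.exp (-f y) / Z) y| = r := abs_of_pos hr0
  have h3 : 2 + n ≤ 2 * Real.exp (n / 2) := exp_bound1 n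
  have h4 : (2 + n) * (2 + n) ≤ 4 * Real.exp n := by
    have : Real.exp n = Real.exp (n / 2) * Real.exp (n / 2) := by rw [← Real.exp_add]; congr 1; ring
    rw [this]
    nlinarith [Real.exp_pos (n / 2)]
  have h5 : Real.exp (n / 2) ≤ Real.exp n := Real.exp_le_exp.mpr (by linarith)
  have h6 : 1 ≤ Real.exp n := Real.one_le_exp hn0
  have h7 : r + r * (2 + n) + (r * 1 + r * (2 + n) * (2 + n)) ≤ r * (8 * Real.exp n) := by
    have : r + r * (2 + n) + (r * 1 + r * (2 + n) * (2 + n)) =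
      r * (2 + (2 + n) + (2 + n) * (2 + n)) := by ring
    rw [this]
    exact mul_le_mul_of_nonneg_left (by linarith) hr0.le
  rw [e0]
  calc r + ‖fderiv ℝ (fun y => Real.exp (-f y) / Z) y‖ +
      ‖fderiv ℝ (fderiv ℝ (fun y => Real.exp (-f y) / Z)) y‖
      ≤ r + r * (2 + n) + (r * 1 + r * (2 + n) * (2 + n)) := by linarith
    _ ≤ r * (8 * Real.exp n) := h7
    _ ≤ K * Real.exp (2 * n) * (8 * Real.exp n) := mul_le_mul_of_nonneg_right hrK (by positivity)
    _ = 8 * K * Real.exp (3 * n) := by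
        have : Real.exp (3 * n) = Real.exp (2 * n) * Real.exp n := by
          rw [← Real.exp_add]; congr 1; ring
        rw [this]; ring
    _ ≤ max (8 * K) 3 * Real.exp (max (8 * K) 3 * n) := by
        apply mul_le_mul (le_max_left _ _) _ (Real.exp_pos _).le (by positivity)
        exact Real.exp_le_exp.mpr (mul_le_mul_of_nonneg_right (le_max_right _ _) hn0)

theorem continuous_lap (hf : Loc d s A f) : Continuous (lap f) := by
  have h1 : Continuous (fderiv ℝ (fderiv ℝ f)) :=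
    (contDiff_fderiv hf.smooth).continuous_fderiv (by norm_num)
  unfold lap
  fun_prop

/-- the second moment of `u = |∇f|² - Lf` -/
theorem u_sq (hCM : S_CM) (hBOCH : S_BOCH) (hd : 1 ≤ d) (hP : Par d s A) (hfS : LocS d s A f) :
    Integrable (fun y => (‖gradient f y‖ ^ 2 - (lap f y - ⟪y, gradient f y⟫)) ^ 2) (gam d) ∧
    ∫ y, (‖gradient f y‖ ^ 2 - (lap f y - ⟪y, gradient f y⟫)) ^ 2 ∂(gam d) ≤
      410000 * (s * A) ^ 2 := by
  have hf := hfS.toLoc
  obtain ⟨-, -, hexp⟩ := hCM d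
  obtain ⟨hi, -⟩ := hexp (1 / 4) (by norm_num)
  obtain ⟨hi4, hm4⟩ := moment4 hCM hd
  have hs := hP.s_pos
  have hs' := hP.s_le
  have hd' : (1 : ℝ) ≤ d := by exact_mod_cast hd
  have hA0 : 0 ≤ A := (Real.sqrt_nonneg _).trans hP.dA
  have hsA0 : 0 ≤ s * A := by positivity
  have hcg := hf.continuous_grad
  have hcl := continuous_lap hf
  -- pointwise bounds
  have hgr : ∀ y, ‖gradient f y‖ ≤ 2 + ‖y‖ := by
    intro y
    have h1 := hf.grad_le hs.le y
    have h2 : 2 * s * ‖y‖ ≤ 1 * ‖y‖ := mul_le_mul_of_nonneg_right (by linarith) (norm_nonneg _)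
    linarith [hP.sA]
  have hlap : ∀ y, |lap f y| ≤ d := by
    intro y
    rw [lap]
    calc |∑ i : Fin d, fderiv ℝ (fderiv ℝ f) y (EuclideanSpace.single i 1) (EuclideanSpace.single i 1)|
        ≤ ∑ i : Fin d, |fderiv ℝ (fderiv ℝ f) y (EuclideanSpace.single i 1)
            (EuclideanSpace.single i 1)| := Finset.abs_sum_le_sum_abs _ _
      _ ≤ ∑ _i : Fin d, (1 : ℝ) := by
          refine Finset.sum_le_sum fun i _ => ?_
          have h1 := hf.abs_hess y (EuclideanSpace.single i 1)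
          have h2 : ‖(EuclideanSpace.single i (1 : ℝ) : E d)‖ = 1 := by simp
          rw [h2] at h1
          linarith
      _ = d := by simp
  have hin : ∀ y, |⟪y, gradient f y⟫| ≤ ‖y‖ * (2 + ‖y‖) := fun y =>
    (abs_real_inner_le_norm _ _).trans (mul_le_mul_of_nonneg_left (hgr y) (norm_nonneg _))
  have hLf : ∀ y, |lap f y - ⟪y, gradient f y⟫| ≤ d + ‖y‖ * (2 + ‖y‖) := fun y =>
    (abs_sub _ _).trans (add_le_add (hlap y) (hin y))
  have hsq : ∀ (g : E d → ℝ), Continuous g → (∀ y, |g y| ≤ (9 + d) * (1 + ‖y‖ ^ 2)) →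
      Integrable (fun y => g y ^ 2) (gam d) := by
    intro g hg hb
    refine (hi.const_mul ((9 + (d : ℝ)) ^ 2 * 66)).mono' (hg.pow 2).aestronglyMeasurable
      (Eventually.of_forall fun y => ?_)
    rw [Real.norm_eq_abs, abs_pow]
    calc |g y| ^ 2 ≤ ((9 + d) * (1 + ‖y‖ ^ 2)) ^ 2 := pow_le_pow_left₀ (abs_nonneg _) (hb y) 2
      _ = (9 + (d : ℝ)) ^ 2 * (1 + ‖y‖ ^ 2) ^ 2 := by ring
      _ ≤ (9 + (d : ℝ)) ^ 2 * (66 * Real.exp (1 / 4 * ‖y‖ ^ 2)) :=
          mul_le_mul_of_nonneg_left (exp_bound2 _) (by positivity)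
      _ = _ := by ring
  have i1 : Integrable (fun y => (lap f y - ⟪y, gradient f y⟫) ^ 2) (gam d) := by
    refine hsq _ (by fun_prop) fun y => (hLf y).trans ?_
    have := norm_nonneg y
    nlinarith [sq_nonneg (‖y‖ - 1), sq_nonneg ‖y‖]
  have i2 : Integrable (fun y => (‖gradient f y‖ ^ 2) ^ 2) (gam d) := by
    refine hsq _ (by fun_prop) fun y => ?_
    rw [abs_of_nonneg (by positivity)]
    have h1 := hgr y
    have h2 := norm_nonneg y
    have h3 : ‖gradient f y‖ ^ 2 ≤ (2 + ‖y‖) ^ 2 := pow_le_pow_left₀ (norm_nonneg _) h1 2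
    nlinarith [sq_nonneg (‖y‖ - 1), sq_nonneg ‖y‖, sq_nonneg (‖y‖ - 2)]
  have i3 : Integrable (fun y => (‖gradient f y‖ ^ 2 - (lap f y - ⟪y, gradient f y⟫)) ^ 2)
      (gam d) := by
    refine hsq _ (by fun_prop) fun y => ?_
    have h1 := hgr y
    have h2 := norm_nonneg y
    have h3 : ‖gradient f y‖ ^ 2 ≤ (2 + ‖y‖) ^ 2 := pow_le_pow_left₀ (norm_nonneg _) h1 2
    have h4 := abs_sub (‖gradient f y‖ ^ 2) (lap f y - ⟪y, gradient f y⟫)
    rw [abs_of_nonneg (sq_nonneg ‖gradient f y‖)] at h4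
    have h5 := hLf y
    have h6 : (2 + ‖y‖) ^ 2 ≤ 8 + 2 * ‖y‖ ^ 2 := by nlinarith [sq_nonneg (‖y‖ - 2)]
    have h7 : ‖y‖ * (2 + ‖y‖) ≤ 1 + 2 * ‖y‖ ^ 2 := by nlinarith [sq_nonneg (‖y‖ - 1)]
    have h8 : 0 ≤ ‖y‖ ^ 2 := by positivity
    nlinarith
  refine ⟨i3, ?_⟩
  have hB := hBOCH d s A f hd hP hfS
  have h4 : ∫ y, (‖gradient f y‖ ^ 2) ^ 2 ∂(gam d) ≤ 204832 * (s * A) ^ 2 := by
    have hpt : ∀ y, (‖gradient f y‖ ^ 2) ^ 2 ≤ 8 * (s * A) ^ 4 + 128 * s ^ 4 * ‖y‖ ^ 4 := by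
      intro y
      have h1 := hf.grad_le hs.le y
      have h2 : ‖gradient f y‖ ^ 2 ≤ (s * A + 2 * s * ‖y‖) ^ 2 :=
        pow_le_pow_left₀ (norm_nonneg _) h1 2
      have h3 : (s * A + 2 * s * ‖y‖) ^ 2 ≤ 2 * (s * A) ^ 2 + 8 * s ^ 2 * ‖y‖ ^ 2 := by
        nlinarith [sq_nonneg (s * A - 2 * s * ‖y‖)]
      have h5 : (‖gradient f y‖ ^ 2) ^ 2 ≤ (2 * (s * A) ^ 2 + 8 * s ^ 2 * ‖y‖ ^ 2) ^ 2 :=
        pow_le_pow_left₀ (sq_nonneg _) (h2.trans h3) 2
      nlinarith [sq_nonneg (2 * (s * A) ^ 2 - 8 * s ^ 2 * ‖y‖ ^ 2)]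
    calc ∫ y, (‖gradient f y‖ ^ 2) ^ 2 ∂(gam d)
        ≤ ∫ y : E d, (8 * (s * A) ^ 4 + 128 * s ^ 4 * ‖y‖ ^ 4) ∂(gam d) :=
          integral_mono i2 ((integrable_const _).add (hi4.const_mul _)) hpt
      _ = 8 * (s * A) ^ 4 + 128 * s ^ 4 * ∫ y : E d, ‖y‖ ^ 4 ∂(gam d) := by
          rw [integral_add (integrable_const _) (hi4.const_mul _),
            integral_const_mul (128 * s ^ 4) (fun y : E d => ‖y‖ ^ 4)]
          simp
      _ ≤ 8 * (s * A) ^ 4 + 128 * s ^ 4 * (400 * (d : ℝ) ^ 2) := by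
          gcongr
      _ ≤ 204832 * (s * A) ^ 2 := by
          have h7 : (d : ℝ) ≤ A ^ 2 := by
            have := hP.dA
            rw [← Real.sqrt_le_left hA0]
            exact this
          have h8 : (d : ℝ) ^ 2 ≤ (A ^ 2) ^ 2 := pow_le_pow_left₀ (by positivity) h7 2
          have h9 : 128 * s ^ 4 * (400 * (d : ℝ) ^ 2) ≤ 128 * s ^ 4 * (400 * (A ^ 2) ^ 2) := by
            gcongr
          have h10 : 128 * s ^ 4 * (400 * (A ^ 2) ^ 2) = 51200 * (s * A) ^ 4 := by ring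
          have h11 : (s * A) ^ 2 ≤ 4 := by nlinarith [hP.sA]
          have h12 : (s * A) ^ 4 ≤ 4 * (s * A) ^ 2 := by
            have : (s * A) ^ 4 = (s * A) ^ 2 * (s * A) ^ 2 := by ring
            rw [this]
            exact mul_le_mul_of_nonneg_right h11 (sq_nonneg _)
          linarith
  calc ∫ y, (‖gradient f y‖ ^ 2 - (lap f y - ⟪y, gradient f y⟫)) ^ 2 ∂(gam d)
      ≤ ∫ y, (2 * (‖gradient f y‖ ^ 2) ^ 2 + 2 * (lap f y - ⟪y, gradient f y⟫) ^ 2) ∂(gam d) := by
        refine integral_mono i3 ((i2.const_mul 2).add (i1.const_mul 2)) fun y => ?_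
        simp only
        nlinarith [sq_nonneg (‖gradient f y‖ ^ 2 + (lap f y - ⟪y, gradient f y⟫))]
    _ = 2 * ∫ y, (‖gradient f y‖ ^ 2) ^ 2 ∂(gam d) +
        2 * ∫ y, (lap f y - ⟪y, gradient f y⟫) ^ 2 ∂(gam d) := by
        rw [integral_add (i2.const_mul 2) (i1.const_mul 2), integral_const_mul, integral_const_mul]
    _ ≤ 410000 * (s * A) ^ 2 := by
        nlinarith [sq_nonneg (s * A)]

theorem main (hCM : S_CM) (hOUL : S_OUL) (hBOCH : S_BOCH) {CD : ℝ} (hd : 1 ≤ d)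
    (hP : Par d s A) (hfS : LocS d s A f) (hI1 : Integrable (fun y => Real.exp (-f y)) (gam d))
    (hI2 : Integrable (fun y => Real.exp (-2 * f y)) (gam d))
    (hDe : ∫ y, Real.exp (-2 * f y) ∂(gam d) ≤ CD * (∫ y, Real.exp (-f y) ∂(gam d)) ^ 2)
    {β : ℝ} (hβ : 1 / 2 ≤ β) (hβ1 : β < 1) :
    TV (((loc f).prod (gam d)).map fun q => β • q.1 + √(1 - β ^ 2) • q.2) (loc f)
      ((CD + 410000) * (1 - β) * (s * A)) := by
  have hf := hfS.toLoc
  have hc : Continuous f := hf.smooth.continuous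
  have hZ := ZZ_pos hI1
  have hprob := loc_prob hc hI1
  have hs := hP.s_pos
  have hd' : (1 : ℝ) ≤ d := by exact_mod_cast hd
  have hA0 : 0 < A := lt_of_lt_of_le (Real.sqrt_pos.mpr (by linarith)) hP.dA
  have ht : 0 < s * A := by positivity
  obtain ⟨iu, hu⟩ := u_sq hCM hBOCH hd hP hfS
  set r : E d → ℝ := fun y => Real.exp (-f y) / ZZ f with hr
  have hr0 : ∀ y, 0 < r y := fun y => by rw [hr]; positivity
  have ir : Integrable r (gam d) := hI1.div_const _
  -- `∫ r² ≤ CD`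
  have ir2 : Integrable (fun y => r y ^ 2) (gam d) := by
    have : (fun y => r y ^ 2) = fun y => Real.exp (-2 * f y) / (ZZ f) ^ 2 := by
      funext y
      rw [hr]
      simp only
      rw [div_pow, ← Real.exp_nat_mul]
      congr 2
      push_cast; ring
    rw [this]
    exact hI2.div_const _
  have hr2 : ∫ y, r y ^ 2 ∂(gam d) ≤ CD := by
    have : (fun y => r y ^ 2) = fun y => Real.exp (-2 * f y) / (ZZ f) ^ 2 := by
      funext y
      rw [hr]
      simp only
      rw [div_pow, ← Real.exp_nat_mul]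
      congr 2
      push_cast; ring
    rw [this, integral_div, div_le_iff₀ (by positivity)]
    exact hDe
  -- smoothness
  have hrs : ContDiff ℝ 2 r := (hf.smooth.neg.exp).div_const _
  obtain ⟨C, hC⟩ := growth hP hf hZ
  -- L¹ norm of `L r`
  have hL1 : ∫ y, |lap r y - ⟪y, gradient r y⟫| ∂(gam d) ≤ (CD + 410000) / 2 * (s * A) := by
    have hpt : ∀ y, |lap r y - ⟪y, gradient r y⟫| ≤
        (s * A) / 2 * r y ^ 2 + 1 / (2 * (s * A)) *
          (‖gradient f y‖ ^ 2 - (lap f y - ⟪y, gradient f y⟫)) ^ 2 := by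
      intro y
      have h1 := Lr_eq hf (ZZ f) y
      change |lap (fun y => Real.exp (-f y) / ZZ f) y -
        ⟪y, gradient (fun y => Real.exp (-f y) / ZZ f) y⟫| ≤ _
      rw [h1, abs_mul]
      set u := ‖gradient f y‖ ^ 2 - (lap f y - ⟪y, gradient f y⟫) with hu'
      change |r y| * |u| ≤ _
      rw [abs_of_pos (hr0 y)]
      have h2 : 0 ≤ (s * A * r y - |u|) ^ 2 := sq_nonneg _
      have h3 : |u| ^ 2 = u ^ 2 := sq_abs u
      have h4 : (s * A) / 2 * r y ^ 2 + 1 / (2 * (s * A)) * u ^ 2 - r y * |u| =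
          (s * A * r y - |u|) ^ 2 / (2 * (s * A)) := by
        rw [← h3]; field_simp; ring
      have h5 : 0 ≤ (s * A * r y - |u|) ^ 2 / (2 * (s * A)) := by positivity
      linarith
    have ib : Integrable (fun y => (s * A) / 2 * r y ^ 2 + 1 / (2 * (s * A)) *
          (‖gradient f y‖ ^ 2 - (lap f y - ⟪y, gradient f y⟫)) ^ 2) (gam d) :=
      (ir2.const_mul _).add (iu.const_mul _)
    calc ∫ y, |lap r y - ⟪y, gradient r y⟫| ∂(gam d)
        ≤ ∫ y, ((s * A) / 2 * r y ^ 2 + 1 / (2 * (s * A)) *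
          (‖gradient f y‖ ^ 2 - (lap f y - ⟪y, gradient f y⟫)) ^ 2) ∂(gam d) :=
          integral_mono_of_nonneg (Eventually.of_forall fun y => abs_nonneg _) ib
            (Eventually.of_forall hpt)
      _ = (s * A) / 2 * ∫ y, r y ^ 2 ∂(gam d) + 1 / (2 * (s * A)) *
          ∫ y, (‖gradient f y‖ ^ 2 - (lap f y - ⟪y, gradient f y⟫)) ^ 2 ∂(gam d) := by
          rw [integral_add (ir2.const_mul _) (iu.const_mul _), integral_const_mul,
            integral_const_mul]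
      _ ≤ (s * A) / 2 * CD + 1 / (2 * (s * A)) * (410000 * (s * A) ^ 2) := by
          gcongr
      _ = (CD + 410000) / 2 * (s * A) := by field_simp
  -- the test functions
  intro B hB
  set φ : E d → ℝ := B.indicator 1 with hφ
  have hφm : Measurable φ := measurable_one.indicator hB
  have hφ0 : ∀ y, 0 ≤ φ y := fun y => Set.indicator_nonneg (fun _ _ => zero_le_one) y
  have hφ1 : ∀ y, φ y ≤ 1 := fun y => Set.indicator_le_self' (fun _ _ => zero_le_one) y
  have hF : Measurable fun q : E d × E d => β • q.1 + √(1 - β ^ 2) • q.2 := by fun_prop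
  obtain ⟨hm, hp0, hp1, he⟩ := TV3.real_map_prod (loc f) (gam d) hF hB
  have hmh : ∀ x : E d, ((gam d).map fun y => β • x + √(1 - β ^ 2) • y).real B = Mh β φ x := by
    intro x
    have hmx : Measurable fun y : E d => β • x + √(1 - β ^ 2) • y := by fun_prop
    rw [Mh, ← integral_map (φ := fun y : E d => β • x + √(1 - β ^ 2) • y) (f := φ)
      hmx.aemeasurable hφm.aestronglyMeasurable, hφ, integral_indicator_one hB]
  simp only [hmh] at hm hp0 hp1 he
  rw [he]
  have hBr : (loc f).real B = ∫ y, φ y ∂(loc f) := by rw [hφ, integral_indicator_one hB]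
  rw [hBr, integral_loc hc hI1, integral_loc hc hI1]
  have ia : Integrable (fun y => r y * Mh β φ y) (gam d) := by
    refine ir.mono' (ir.aestronglyMeasurable.mul hm.aestronglyMeasurable)
      (Eventually.of_forall fun y => ?_)
    rw [Real.norm_eq_abs, abs_mul, abs_of_pos (hr0 y), abs_of_nonneg (hp0 y)]
    exact mul_le_of_le_one_right (hr0 y).le (hp1 y)
  have ib : Integrable (fun y => r y * φ y) (gam d) := by
    refine ir.mono' (ir.aestronglyMeasurable.mul hφm.aestronglyMeasurable)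
      (Eventually.of_forall fun y => ?_)
    rw [Real.norm_eq_abs, abs_mul, abs_of_pos (hr0 y), abs_of_nonneg (hφ0 y)]
    exact mul_le_of_le_one_right (hr0 y).le (hφ1 y)
  have e1 : (∫ y, Real.exp (-f y) / ZZ f * Mh β φ y ∂(gam d)) -
      ∫ y, Real.exp (-f y) / ZZ f * φ y ∂(gam d) = ∫ y, r y * (Mh β φ y - φ y) ∂(gam d) := by
    rw [← integral_sub ia ib]
    refine integral_congr_ae (Eventually.of_forall fun y => ?_)
    simp only [hr]; ring
  rw [e1]
  have hlog0 : 0 ≤ -Real.log β := by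
    have := Real.log_nonpos (by linarith : (0 : ℝ) ≤ β) hβ1.le
    linarith
  have hlog : -Real.log β ≤ 2 * (1 - β) := by
    have h1 := Real.one_sub_inv_le_log_of_pos (by linarith : (0 : ℝ) < β)
    have h2 : β⁻¹ - 1 ≤ 2 * (1 - β) := by
      have hb0 : 0 < β := by linarith
      have h3 : β⁻¹ ≤ 2 := by
        rw [inv_le_comm₀ hb0 (by norm_num)]; linarith
      have h4 : β⁻¹ - 1 = β⁻¹ * (1 - β) := by field_simp
      rw [h4]
      exact mul_le_mul_of_nonneg_right h3 (by linarith)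
    linarith
  have hCD : 0 ≤ CD := le_trans (integral_nonneg fun y => sq_nonneg (r y)) hr2
  calc |∫ y, r y * (Mh β φ y - φ y) ∂(gam d)|
      ≤ (-Real.log β) * ∫ y, |lap r y - ⟪y, gradient r y⟫| ∂(gam d) :=
        hOUL d r C hrs hC β φ (by linarith) hβ1 hφm (fun y => by
          rw [abs_of_nonneg (hφ0 y)]; exact hφ1 y)
    _ ≤ (2 * (1 - β)) * ((CD + 410000) / 2 * (s * A)) :=
        mul_le_mul hlog hL1 (integral_nonneg fun y => abs_nonneg _) (by linarith)
    _ = (CD + 410000) * (1 - β) * (s * A) := by ring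

end main

end OU

open OU in
theorem ou (hCM : S_CM) (hOUL : S_OUL) (hBOCH : S_BOCH) (hDENS : S_DENS) : S_OU := by
  obtain ⟨CD, hCD, hD⟩ := hDENS
  refine ⟨CD + 410000, by positivity, fun d s A β f hd hP hf hβ hβ1 => ?_⟩
  obtain ⟨h1, h2, h3⟩ := hD d s A f hd hP hf.toLoc
  exact OU.main hCM hOUL hBOCH hd hP hf h1 h2 h3 hβ hβ1

end LCS
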