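import Vale.Agent.P347.Boch

/-!
# P347, module OUL: the Ornstein-Uhlenbeck semigroup in `L¹(γ)`
-/

namespace LCS

open MeasureTheory ProbabilityTheory Set Filter
open scoped ENNReal NNReal Topology RealInnerProductSpace BigOperators ContDiff

namespace OUL

open BOCH

variable {d : ℕ}

theorem map_rot (θ : ℝ) :
    ((gam d).prod (gam d)).map (ContinuousLinearMap.rotation θ) = (gam d).prod (gam d) :=
  IsGaussian.map_rotation_eq_self (by simp) θ

/-- integrability on the product -/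
theorem integrable_prod_growth (hCM : S_CM) {g : E d × E d → ℝ}
    (hg : AEStronglyMeasurable g ((gam d).prod (gam d))) (A B : ℝ)
    (h : ∀ p, |g p| ≤ A * Real.exp (B * (‖p.1‖ + ‖p.2‖))) :
    Integrable g ((gam d).prod (gam d)) := by
  have h1 : Integrable (fun y : E d => Real.exp (B * ‖y‖)) (gam d) := by
    refine IBP.integrable_of_growth hCM (by fun_prop) 1 B fun y => ?_
    rw [Real.norm_eq_abs, abs_of_pos (Real.exp_pos _), one_mul]
  have h2 : Integrable (fun p : E d × E d => A * (Real.exp (B * ‖p.1‖) * Real.exp (B * ‖p.2‖)))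
      ((gam d).prod (gam d)) := (h1.mul_prod h1).const_mul A
  refine h2.mono' hg (Eventually.of_forall fun p => ?_)
  rw [Real.norm_eq_abs, ← Real.exp_add, ← mul_add]
  exact h p

/-- the rotated point -/
noncomputable def X (θ : ℝ) (p : E d × E d) : E d := Real.cos θ • p.1 - Real.sin θ • p.2

theorem norm_X_le (θ : ℝ) (p : E d × E d) : ‖X θ p‖ ≤ ‖p.1‖ + ‖p.2‖ := by
  refine (norm_sub_le _ _).trans (add_le_add ?_ ?_)
  · rw [norm_smul, Real.norm_eq_abs]
    exact mul_le_of_le_one_left (norm_nonneg _) (Real.abs_cos_le_one θ)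
  · rw [norm_smul, Real.norm_eq_abs]
    exact mul_le_of_le_one_left (norm_nonneg _) (Real.abs_sin_le_one θ)

theorem continuous_X (θ : ℝ) : Continuous (X θ : E d × E d → E d) := by
  unfold X
  fun_prop

theorem integral_comp_X (θ : ℝ) (F : E d → ℝ) (hF : Continuous F) :
    ∫ p, F (X θ p) ∂((gam d).prod (gam d)) = ∫ y, F y ∂(gam d) := by
  have h1 : ∫ y, F y ∂(gam d) = ∫ p : E d × E d, F p.1 ∂((gam d).prod (gam d)) := by
    rw [integral_fun_fst]
    simp
  rw [h1]
  conv_rhs => rw [← map_rot (d := d) (-θ)]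
  rw [integral_map (by fun_prop) (by
    exact (hF.comp continuous_fst).aestronglyMeasurable)]
  refine integral_congr_ae (Eventually.of_forall fun p => ?_)
  simp only [ContinuousLinearMap.rotation_apply, X, Real.cos_neg, Real.sin_neg, neg_smul,
    sub_eq_add_neg]

/-- the derivative integrand -/
noncomputable def F' (r φ : E d → ℝ) (θ : ℝ) (p : E d × E d) : ℝ :=
  fderiv ℝ r (X θ p) (-(Real.sin θ) • p.1 - Real.cos θ • p.2) * φ p.1

theorem hasDerivAt_G (hCM : S_CM) {r φ : E d → ℝ} {C : ℝ} (hr : ContDiff ℝ 2 r)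
    (hgr : ∀ y, |r y| + ‖fderiv ℝ r y‖ + ‖fderiv ℝ (fderiv ℝ r) y‖ ≤ C * Real.exp (C * ‖y‖))
    (hφ : Measurable φ) (hφ1 : ∀ y, |φ y| ≤ 1) (θ : ℝ) :
    HasDerivAt (fun θ => ∫ p, r (X θ p) * φ p.1 ∂((gam d).prod (gam d)))
      (∫ p, F' r φ θ p ∂((gam d).prod (gam d))) θ := by
  have hC : 0 ≤ C := by
    have h0 : 0 ≤ |r 0| + ‖fderiv ℝ r 0‖ + ‖fderiv ℝ (fderiv ℝ r) 0‖ := by positivity
    exact nonneg_of_mul_nonneg_left (h0.trans (hgr 0)) (Real.exp_pos _)
  have h1 : ∀ y, |r y| ≤ C * Real.exp (C * ‖y‖) := fun y => by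
    have := hgr y
    have := norm_nonneg (fderiv ℝ r y)
    have := norm_nonneg (fderiv ℝ (fderiv ℝ r) y)
    linarith
  have h2 : ∀ y, ‖fderiv ℝ r y‖ ≤ C * Real.exp (C * ‖y‖) := fun y => by
    have := hgr y
    have := abs_nonneg (r y)
    have := norm_nonneg (fderiv ℝ (fderiv ℝ r) y)
    linarith
  have hrc : Continuous r := hr.continuous
  have hrd : Continuous (fderiv ℝ r) := hr.continuous_fderiv (by norm_num)
  have hφ2 : Measurable (fun p : E d × E d => φ p.1) := hφ.comp measurable_fst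
  have hexp : ∀ θ (p : E d × E d), Real.exp (C * ‖X θ p‖) ≤ Real.exp (C * (‖p.1‖ + ‖p.2‖)) :=
    fun θ p => Real.exp_le_exp.mpr (mul_le_mul_of_nonneg_left (norm_X_le θ p) hC)
  have hm : ∀ θ, AEStronglyMeasurable (fun p : E d × E d => r (X θ p) * φ p.1)
      ((gam d).prod (gam d)) := fun θ =>
    ((hrc.comp (continuous_X θ)).measurable.mul hφ2).aestronglyMeasurable
  have hm' : AEStronglyMeasurable (F' r φ θ) ((gam d).prod (gam d)) := by
    refine Measurable.aestronglyMeasurable ?_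
    refine Measurable.mul ?_ hφ2
    refine Continuous.measurable ?_
    exact (hrd.comp (continuous_X θ)).clm_apply (by fun_prop)
  refine (hasDerivAt_integral_of_dominated_loc_of_deriv_le (s := Set.univ) (F' := F' r φ)
    (bound := fun p => C * Real.exp ((C + 1) * (‖p.1‖ + ‖p.2‖))) Filter.univ_mem
    (Eventually.of_forall hm) ?_ hm' ?_ ?_ ?_).2
  · refine integrable_prod_growth hCM (hm θ) C C fun p => ?_
    rw [abs_mul]
    calc |r (X θ p)| * |φ p.1| ≤ |r (X θ p)| * 1 :=
          mul_le_mul_of_nonneg_left (hφ1 _) (abs_nonneg _)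
      _ ≤ C * Real.exp (C * ‖X θ p‖) := by rw [mul_one]; exact h1 _
      _ ≤ _ := mul_le_mul_of_nonneg_left (hexp θ p) hC
  · refine Eventually.of_forall fun p t _ => ?_
    have e1 : ‖-(Real.sin t) • p.1 - Real.cos t • p.2‖ ≤ ‖p.1‖ + ‖p.2‖ := by
      refine (norm_sub_le _ _).trans (add_le_add ?_ ?_)
      · rw [norm_smul, norm_neg, Real.norm_eq_abs]
        exact mul_le_of_le_one_left (norm_nonneg _) (Real.abs_sin_le_one t)
      · rw [norm_smul, Real.norm_eq_abs]
        exact mul_le_of_le_one_left (norm_nonneg _) (Real.abs_cos_le_one t)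
    have e2 : ‖p.1‖ + ‖p.2‖ ≤ Real.exp (‖p.1‖ + ‖p.2‖) := by
      have := Real.add_one_le_exp (‖p.1‖ + ‖p.2‖)
      linarith
    rw [F', norm_mul, Real.norm_eq_abs (φ p.1)]
    calc ‖fderiv ℝ r (X t p) (-(Real.sin t) • p.1 - Real.cos t • p.2)‖ * |φ p.1|
        ≤ ‖fderiv ℝ r (X t p) (-(Real.sin t) • p.1 - Real.cos t • p.2)‖ * 1 :=
          mul_le_mul_of_nonneg_left (hφ1 _) (norm_nonneg _)
      _ ≤ ‖fderiv ℝ r (X t p)‖ * (‖p.1‖ + ‖p.2‖) := by
          rw [mul_one]
          exact ((fderiv ℝ r (X t p)).le_opNorm _).trans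
            (mul_le_mul_of_nonneg_left e1 (norm_nonneg _))
      _ ≤ (C * Real.exp (C * (‖p.1‖ + ‖p.2‖))) * Real.exp (‖p.1‖ + ‖p.2‖) :=
          mul_le_mul ((h2 _).trans (mul_le_mul_of_nonneg_left (hexp t p) hC)) e2
            (by positivity) (by positivity)
      _ = C * Real.exp ((C + 1) * (‖p.1‖ + ‖p.2‖)) := by
          rw [mul_assoc, ← Real.exp_add]
          congr 2
          ring
  · refine integrable_prod_growth hCM ?_ C (C + 1) fun p => ?_
    · exact Continuous.aestronglyMeasurable (by fun_prop)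
    · rw [abs_of_nonneg (by positivity)]
  · refine Eventually.of_forall fun p t _ => ?_
    have d1 : HasDerivAt (fun t => X t p) (-(Real.sin t) • p.1 - Real.cos t • p.2) t :=
      ((Real.hasDerivAt_cos t).smul_const p.1).sub ((Real.hasDerivAt_sin t).smul_const p.2)
    have d2 : HasFDerivAt r (fderiv ℝ r (X t p)) (X t p) :=
      (hr.differentiable (by norm_num)).differentiableAt.hasFDerivAt
    have d3 := (d2.comp_hasDerivAt t d1).mul_const (φ p.1)
    exact d3

/-- the generator -/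
noncomputable def Lr (r : E d → ℝ) (y : E d) : ℝ := lap r y - ⟪y, gradient r y⟫

theorem continuous_lap {r : E d → ℝ} (hr : ContDiff ℝ 2 r) : Continuous (lap r) := by
  unfold lap
  refine continuous_finsetSum _ fun i _ => ?_
  have h1 : Continuous (fderiv ℝ (fderiv ℝ r)) := (contDiff_fderiv hr).continuous_fderiv one_ne_zero
  exact (h1.clm_apply continuous_const).clm_apply continuous_const

theorem continuous_Lr {r : E d → ℝ} (hr : ContDiff ℝ 2 r) : Continuous (Lr r) :=
  (continuous_lap hr).sub (continuous_id.inner (contDiff_gradient hr).continuous)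

theorem abs_lap_le (r : E d → ℝ) (y : E d) : |lap r y| ≤ d * ‖fderiv ℝ (fderiv ℝ r) y‖ := by
  refine (Finset.abs_sum_le_sum_abs _ _).trans ?_
  have h1 : ∀ i : Fin d, |fderiv ℝ (fderiv ℝ r) y (e i) (e i)| ≤ ‖fderiv ℝ (fderiv ℝ r) y‖ := by
    intro i
    have h2 := (fderiv ℝ (fderiv ℝ r) y).le_opNorm₂ (e i) (e i)
    rw [norm_e, mul_one, mul_one, Real.norm_eq_abs] at h2
    exact h2
  calc ∑ i : Fin d, |fderiv ℝ (fderiv ℝ r) y (e i) (e i)|
      ≤ ∑ _i : Fin d, ‖fderiv ℝ (fderiv ℝ r) y‖ := Finset.sum_le_sum fun i _ => h1 i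
    _ = d * ‖fderiv ℝ (fderiv ℝ r) y‖ := by simp

section inner

variable {r : E d → ℝ} {C : ℝ}

theorem inner_eq (hCM : S_CM) (hr : ContDiff ℝ 2 r)
    (hgr : ∀ y, |r y| + ‖fderiv ℝ r y‖ + ‖fderiv ℝ (fderiv ℝ r) y‖ ≤ C * Real.exp (C * ‖y‖))
    (θ : ℝ) (hθ : Real.cos θ ≠ 0) (y : E d) :
    ∫ z, fderiv ℝ r (X θ (y, z)) (-(Real.sin θ) • y - Real.cos θ • z) ∂(gam d)
      = (Real.sin θ / Real.cos θ) * ∫ z, Lr r (X θ (y, z)) ∂(gam d) := by
  have hC : 0 ≤ C := by
    have h0 : 0 ≤ |r 0| + ‖fderiv ℝ r 0‖ + ‖fderiv ℝ (fderiv ℝ r) 0‖ := by positivity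
    exact nonneg_of_mul_nonneg_left (h0.trans (hgr 0)) (Real.exp_pos _)
  have h2 : ∀ y, ‖fderiv ℝ r y‖ ≤ C * Real.exp (C * ‖y‖) := fun y => by
    have := hgr y
    have := abs_nonneg (r y)
    have := norm_nonneg (fderiv ℝ (fderiv ℝ r) y)
    linarith
  have h3 : ∀ y, ‖fderiv ℝ (fderiv ℝ r) y‖ ≤ C * Real.exp (C * ‖y‖) := fun y => by
    have := hgr y
    have := abs_nonneg (r y)
    have := norm_nonneg (fderiv ℝ r y)
    linarith
  have hrd : Continuous (fderiv ℝ r) := hr.continuous_fderiv (by norm_num)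
  set s := Real.sin θ with hs
  set c := Real.cos θ with hc
  set D0 : ℝ := C * Real.exp (C * ‖y‖) with hD0
  have hD0' : 0 ≤ D0 := by positivity
  have hXz : ∀ z, X θ (y, z) = c • y - s • z := fun z => rfl
  have hXc : Continuous fun z : E d => X θ (y, z) := by
    simp only [hXz]
    fun_prop
  have hexp : ∀ z, C * Real.exp (C * ‖X θ (y, z)‖) ≤ D0 * Real.exp (C * ‖z‖) := by
    intro z
    rw [hD0, mul_assoc, ← Real.exp_add, ← mul_add]
    exact mul_le_mul_of_nonneg_left (Real.exp_le_exp.mpr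
      (mul_le_mul_of_nonneg_left (norm_X_le θ (y, z)) hC)) hC
  have hXd : ∀ z, HasFDerivAt (fun z : E d => X θ (y, z))
      (-(s • ContinuousLinearMap.id ℝ (E d))) z := by
    intro z
    have h4 := ((hasFDerivAt_id (𝕜 := ℝ) z).const_smul s).const_sub (c • y)
    exact h4
  -- the components
  set g : Fin d → E d → ℝ := fun i z => fderiv ℝ r (X θ (y, z)) (e i) with hg
  have hgd : ∀ i z, HasFDerivAt (g i) (((ContinuousLinearMap.apply ℝ ℝ (e i)).comp
      (fderiv ℝ (fderiv ℝ r) (X θ (y, z)))).comp (-(s • ContinuousLinearMap.id ℝ (E d)))) z := by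
    intro i z
    have h4 : HasFDerivAt (fderiv ℝ r) (fderiv ℝ (fderiv ℝ r) (X θ (y, z))) (X θ (y, z)) :=
      ((contDiff_fderiv hr).differentiable one_ne_zero).differentiableAt.hasFDerivAt
    have h5 : HasFDerivAt (fun x => fderiv ℝ r x (e i)) ((ContinuousLinearMap.apply ℝ ℝ (e i)).comp
      (fderiv ℝ (fderiv ℝ r) (X θ (y, z)))) (X θ (y, z)) :=
      (ContinuousLinearMap.apply ℝ ℝ (e i)).hasFDerivAt.comp _ h4
    exact h5.comp z (hXd z)
  have hgPG : ∀ i, PG (g i) := by
    intro i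
    refine ⟨?_, D0, C, hD0', hC, fun z => ?_⟩
    · have h4 : ContDiff ℝ 1 fun z : E d => X θ (y, z) := by
        simp only [hXz]
        fun_prop
      exact ((contDiff_fderiv hr).comp h4).clm_apply contDiff_const
    · have e1 : |g i z| ≤ ‖fderiv ℝ r (X θ (y, z))‖ := by
        have := (fderiv ℝ r (X θ (y, z))).le_opNorm (e i)
        rw [norm_e, mul_one, Real.norm_eq_abs] at this
        exact this
      have e2 : ‖fderiv ℝ (g i) z‖ ≤ ‖fderiv ℝ (fderiv ℝ r) (X θ (y, z))‖ := by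
        rw [(hgd i z).fderiv]
        refine ContinuousLinearMap.opNorm_le_bound _ (by positivity) fun v => ?_
        have e3 : ((((ContinuousLinearMap.apply ℝ ℝ (e i)).comp
          (fderiv ℝ (fderiv ℝ r) (X θ (y, z)))).comp (-(s • ContinuousLinearMap.id ℝ (E d)))) v)
          = fderiv ℝ (fderiv ℝ r) (X θ (y, z)) (-(s • v)) (e i) := rfl
        rw [e3]
        refine ((fderiv ℝ (fderiv ℝ r) (X θ (y, z))).le_opNorm₂ _ _).trans ?_
        rw [norm_e, mul_one, norm_neg, norm_smul, Real.norm_eq_abs]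
        refine mul_le_mul_of_nonneg_left ?_ (by positivity)
        exact mul_le_of_le_one_left (norm_nonneg _) (Real.abs_sin_le_one θ)
      have e4 := hgr (X θ (y, z))
      have e5 := abs_nonneg (r (X θ (y, z)))
      have e6 := hexp z
      linarith
  -- integration by parts
  have hA : ∫ z, fderiv ℝ r (X θ (y, z)) z ∂(gam d) = - s * ∫ z, lap r (X θ (y, z)) ∂(gam d) := by
    have e1 : ∀ z, fderiv ℝ r (X θ (y, z)) z = ∑ i, z i * g i z := by
      intro z
      conv_lhs => rw [sum_coord z]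
      rw [map_sum]
      refine Finset.sum_congr rfl fun i _ => ?_
      rw [map_smul, smul_eq_mul, ← sum_coord z]
    have e2 : ∀ i, Integrable (fun z : E d => z i * g i z) (gam d) := fun i =>
      ((PG.coord i).mul (hgPG i)).integrable hCM
    simp only [e1]
    rw [integral_finsetSum _ fun i _ => e2 i]
    have e3 : ∀ i, ∫ z, z i * g i z ∂(gam d)
        = ∫ z, - s * fderiv ℝ (fderiv ℝ r) (X θ (y, z)) (e i) (e i) ∂(gam d) := by
      intro i
      rw [(hgPG i).ibp hCM i]
      refine integral_congr_ae (Eventually.of_forall fun z => ?_)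
      simp only []
      rw [(hgd i z).fderiv]
      change fderiv ℝ (fderiv ℝ r) (X θ (y, z)) (-(s • e i)) (e i) = _
      rw [map_neg, map_smul]
      simp only [_root_.neg_apply, _root_.smul_apply, smul_eq_mul]
      ring
    have e4 : ∀ i : Fin d, Integrable (fun z => - s * fderiv ℝ (fderiv ℝ r) (X θ (y, z)) (e i) (e i))
        (gam d) := by
      intro i
      have h4 : Continuous (fderiv ℝ (fderiv ℝ r)) :=
        (contDiff_fderiv hr).continuous_fderiv one_ne_zero
      refine Integrable.const_mul ?_ _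
      refine IBP.integrable_of_growth hCM
        (((h4.comp hXc).clm_apply continuous_const).clm_apply
          continuous_const).aestronglyMeasurable D0 C fun z => ?_
      refine ((fderiv ℝ (fderiv ℝ r) (X θ (y, z))).le_opNorm₂ _ _).trans ?_
      rw [norm_e, mul_one, mul_one]
      exact (h3 _).trans (hexp z)
    simp only [e3]
    rw [← integral_finsetSum _ fun i _ => e4 i, ← integral_const_mul]
    refine integral_congr_ae (Eventually.of_forall fun z => ?_)
    simp only [lap, Finset.mul_sum]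
  -- integrability
  have hz1 : ∀ z : E d, ‖z‖ ≤ Real.exp ‖z‖ := fun z => by
    have := Real.add_one_le_exp ‖z‖
    linarith
  have i1 : Integrable (fun z => fderiv ℝ r (X θ (y, z)) y) (gam d) := by
    refine IBP.integrable_of_growth hCM ((hrd.comp hXc).clm_apply
      continuous_const).aestronglyMeasurable (D0 * ‖y‖) C fun z => ?_
    refine ((fderiv ℝ r (X θ (y, z))).le_opNorm y).trans ?_
    calc ‖fderiv ℝ r (X θ (y, z))‖ * ‖y‖ ≤ (D0 * Real.exp (C * ‖z‖)) * ‖y‖ :=
          mul_le_mul_of_nonneg_right ((h2 _).trans (hexp z)) (norm_nonneg _)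
      _ = _ := by ring
  have i2 : Integrable (fun z => fderiv ℝ r (X θ (y, z)) z) (gam d) := by
    refine IBP.integrable_of_growth hCM ((hrd.comp hXc).clm_apply
      continuous_id).aestronglyMeasurable D0 (C + 1) fun z => ?_
    refine ((fderiv ℝ r (X θ (y, z))).le_opNorm z).trans ?_
    calc ‖fderiv ℝ r (X θ (y, z))‖ * ‖z‖ ≤ (D0 * Real.exp (C * ‖z‖)) * Real.exp ‖z‖ :=
          mul_le_mul ((h2 _).trans (hexp z)) (hz1 z) (norm_nonneg _) (by positivity)
      _ = D0 * Real.exp ((C + 1) * ‖z‖) := by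
          rw [mul_assoc, ← Real.exp_add]
          congr 2
          ring
  have i3 : Integrable (fun z => lap r (X θ (y, z))) (gam d) := by
    refine IBP.integrable_of_growth hCM ((continuous_lap hr).comp hXc).aestronglyMeasurable
      (d * D0) C fun z => ?_
    rw [Real.norm_eq_abs]
    refine (abs_lap_le r _).trans ?_
    rw [mul_assoc]
    exact mul_le_mul_of_nonneg_left ((h3 _).trans (hexp z)) (Nat.cast_nonneg d)
  have f1 : ∀ z, fderiv ℝ r (X θ (y, z)) (-s • y - c • z)
      = - s * fderiv ℝ r (X θ (y, z)) y - c * fderiv ℝ r (X θ (y, z)) z := by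
    intro z
    rw [map_sub, map_smul, map_smul, smul_eq_mul, smul_eq_mul]
  have f2 : ∀ z, Lr r (X θ (y, z)) = lap r (X θ (y, z)) - c * fderiv ℝ r (X θ (y, z)) y
      + s * fderiv ℝ r (X θ (y, z)) z := by
    intro z
    rw [Lr, real_inner_comm, inner_gradient]
    have : fderiv ℝ r (X θ (y, z)) (X θ (y, z))
        = c * fderiv ℝ r (X θ (y, z)) y - s * fderiv ℝ r (X θ (y, z)) z := by
      conv_lhs => rw [show fderiv ℝ r (X θ (y, z)) (X θ (y, z))
        = fderiv ℝ r (X θ (y, z)) (c • y - s • z) from rfl]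
      rw [map_sub, map_smul, map_smul, smul_eq_mul, smul_eq_mul]
    rw [this]
    ring
  simp only [f1, f2]
  have i4 : Integrable (fun z => lap r (X θ (y, z)) - c * fderiv ℝ r (X θ (y, z)) y) (gam d) :=
    i3.sub (i1.const_mul c)
  rw [integral_sub (i1.const_mul _) (i2.const_mul _),
    integral_add i4 (i2.const_mul _), integral_sub i3 (i1.const_mul _),
    integral_const_mul, integral_const_mul, integral_const_mul, integral_const_mul, hA]
  have hsc : s ^ 2 + c ^ 2 = 1 := Real.sin_sq_add_cos_sq θ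
  field_simp
  have hs2 : s ^ 2 = 1 - c ^ 2 := by linarith
  generalize ∫ z, lap r (X θ (y, z)) ∂(gam d) = D
  generalize ∫ z, fderiv ℝ r (X θ (y, z)) y ∂(gam d) = B
  linear_combination (s * D) * hsc
end inner

theorem integral_F' (hCM : S_CM) {r φ : E d → ℝ} {C : ℝ} (hr : ContDiff ℝ 2 r)
    (hgr : ∀ y, |r y| + ‖fderiv ℝ r y‖ + ‖fderiv ℝ (fderiv ℝ r) y‖ ≤ C * Real.exp (C * ‖y‖))
    (hφ : Measurable φ) (hφ1 : ∀ y, |φ y| ≤ 1) (θ : ℝ) (hθ : 0 < Real.cos θ)
    (hθ2 : 0 ≤ Real.sin θ) :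
    ‖∫ p, F' r φ θ p ∂((gam d).prod (gam d))‖
      ≤ (Real.sin θ / Real.cos θ) * ∫ y, |Lr r y| ∂(gam d) := by
  have hC : 0 ≤ C := by
    have h0 : 0 ≤ |r 0| + ‖fderiv ℝ r 0‖ + ‖fderiv ℝ (fderiv ℝ r) 0‖ := by positivity
    exact nonneg_of_mul_nonneg_left (h0.trans (hgr 0)) (Real.exp_pos _)
  have h2 : ∀ y, ‖fderiv ℝ r y‖ ≤ C * Real.exp (C * ‖y‖) := fun y => by
    have := hgr y
    have := abs_nonneg (r y)
    have := norm_nonneg (fderiv ℝ (fderiv ℝ r) y)
    linarith
  have h3 : ∀ y, ‖fderiv ℝ (fderiv ℝ r) y‖ ≤ C * Real.exp (C * ‖y‖) := fun y => by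
    have := hgr y
    have := abs_nonneg (r y)
    have := norm_nonneg (fderiv ℝ r y)
    linarith
  have hrd : Continuous (fderiv ℝ r) := hr.continuous_fderiv (by norm_num)
  have hφ2 : Measurable (fun p : E d × E d => φ p.1) := hφ.comp measurable_fst
  have hexp : ∀ θ (p : E d × E d), Real.exp (C * ‖X θ p‖) ≤ Real.exp (C * (‖p.1‖ + ‖p.2‖)) :=
    fun θ p => Real.exp_le_exp.mpr (mul_le_mul_of_nonneg_left (norm_X_le θ p) hC)
  have hm' : AEStronglyMeasurable (F' r φ θ) ((gam d).prod (gam d)) := by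
    refine Measurable.aestronglyMeasurable ?_
    refine Measurable.mul ?_ hφ2
    refine Continuous.measurable ?_
    exact (hrd.comp (continuous_X θ)).clm_apply (by fun_prop)
  have hsum : ∀ p : E d × E d, ‖p.1‖ + ‖p.2‖ ≤ Real.exp (‖p.1‖ + ‖p.2‖) := fun p => by
    have := Real.add_one_le_exp (‖p.1‖ + ‖p.2‖)
    linarith
  have hF'int : Integrable (F' r φ θ) ((gam d).prod (gam d)) := by
    refine integrable_prod_growth hCM hm' C (C + 1) fun p => ?_
    have e1 : ‖-(Real.sin θ) • p.1 - Real.cos θ • p.2‖ ≤ ‖p.1‖ + ‖p.2‖ := by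
      refine (norm_sub_le _ _).trans (add_le_add ?_ ?_)
      · rw [norm_smul, norm_neg, Real.norm_eq_abs]
        exact mul_le_of_le_one_left (norm_nonneg _) (Real.abs_sin_le_one θ)
      · rw [norm_smul, Real.norm_eq_abs]
        exact mul_le_of_le_one_left (norm_nonneg _) (Real.abs_cos_le_one θ)
    rw [F', abs_mul, ← Real.norm_eq_abs (fderiv ℝ r _ _)]
    calc ‖fderiv ℝ r (X θ p) (-(Real.sin θ) • p.1 - Real.cos θ • p.2)‖ * |φ p.1|
        ≤ ‖fderiv ℝ r (X θ p) (-(Real.sin θ) • p.1 - Real.cos θ • p.2)‖ * 1 :=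
          mul_le_mul_of_nonneg_left (hφ1 _) (norm_nonneg _)
      _ ≤ ‖fderiv ℝ r (X θ p)‖ * (‖p.1‖ + ‖p.2‖) := by
          rw [mul_one]
          exact ((fderiv ℝ r (X θ p)).le_opNorm _).trans
            (mul_le_mul_of_nonneg_left e1 (norm_nonneg _))
      _ ≤ (C * Real.exp (C * (‖p.1‖ + ‖p.2‖))) * Real.exp (‖p.1‖ + ‖p.2‖) :=
          mul_le_mul ((h2 _).trans (mul_le_mul_of_nonneg_left (hexp θ p) hC)) (hsum p)
            (by positivity) (by positivity)
      _ = C * Real.exp ((C + 1) * (‖p.1‖ + ‖p.2‖)) := by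
          rw [mul_assoc, ← Real.exp_add]
          congr 2
          ring
  have hLm : Measurable (fun p : E d × E d => Lr r (X θ p)) :=
    ((continuous_Lr hr).comp (continuous_X θ)).measurable
  have hLgr : ∀ x, |Lr r x| ≤ (d * C + C) * Real.exp ((C + 1) * ‖x‖) := by
    intro x
    have e1 := abs_lap_le r x
    have e2 : |⟪x, gradient r x⟫| ≤ ‖x‖ * ‖fderiv ℝ r x‖ := by
      rw [← norm_gradient]
      exact abs_real_inner_le_norm _ _
    have e3 : ‖x‖ ≤ Real.exp ‖x‖ := by
      have := Real.add_one_le_exp ‖x‖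
      linarith
    have e4 : Real.exp (C * ‖x‖) ≤ Real.exp ((C + 1) * ‖x‖) :=
      Real.exp_le_exp.mpr (by have := norm_nonneg x; nlinarith)
    have e5 : ‖x‖ * ‖fderiv ℝ r x‖ ≤ C * Real.exp ((C + 1) * ‖x‖) := by
      calc ‖x‖ * ‖fderiv ℝ r x‖ ≤ Real.exp ‖x‖ * (C * Real.exp (C * ‖x‖)) :=
            mul_le_mul e3 (h2 x) (norm_nonneg _) (Real.exp_nonneg _)
        _ = C * Real.exp ((C + 1) * ‖x‖) := by
            rw [show (C + 1) * ‖x‖ = ‖x‖ + C * ‖x‖ by ring, Real.exp_add]
            ring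
    have e6 : (d : ℝ) * ‖fderiv ℝ (fderiv ℝ r) x‖ ≤ d * (C * Real.exp ((C + 1) * ‖x‖)) :=
      mul_le_mul_of_nonneg_left ((h3 x).trans (mul_le_mul_of_nonneg_left e4 hC))
        (Nat.cast_nonneg d)
    have e7 : |Lr r x| ≤ |lap r x| + |⟪x, gradient r x⟫| := abs_sub _ _
    linarith
  have hL1 : Integrable (fun p : E d × E d => Lr r (X θ p)) ((gam d).prod (gam d)) := by
    refine integrable_prod_growth hCM hLm.aestronglyMeasurable (d * C + C) (C + 1) fun p => ?_
    refine (hLgr _).trans (mul_le_mul_of_nonneg_left (Real.exp_le_exp.mpr ?_) (by positivity))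
    exact mul_le_mul_of_nonneg_left (norm_X_le θ p) (by positivity)
  have hL2 : Integrable (fun p : E d × E d => Lr r (X θ p) * φ p.1) ((gam d).prod (gam d)) := by
    refine hL1.mono (hLm.mul hφ2).aestronglyMeasurable (Eventually.of_forall fun p => ?_)
    rw [norm_mul, Real.norm_eq_abs (φ p.1)]
    exact mul_le_of_le_one_right (norm_nonneg _) (hφ1 _)
  have key : ∫ p, F' r φ θ p ∂((gam d).prod (gam d))
      = (Real.sin θ / Real.cos θ) * ∫ p, Lr r (X θ p) * φ p.1 ∂((gam d).prod (gam d)) := by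
    rw [integral_prod _ hF'int, integral_prod _ hL2, ← integral_const_mul]
    refine integral_congr_ae (Eventually.of_forall fun y => ?_)
    simp only [F']
    rw [integral_mul_const, integral_mul_const, inner_eq hCM hr hgr θ hθ.ne' y]
    ring
  rw [key, norm_mul, Real.norm_eq_abs, abs_of_nonneg (by positivity)]
  refine mul_le_mul_of_nonneg_left ?_ (by positivity)
  calc ‖∫ p, Lr r (X θ p) * φ p.1 ∂((gam d).prod (gam d))‖
      ≤ ∫ p, ‖Lr r (X θ p) * φ p.1‖ ∂((gam d).prod (gam d)) := norm_integral_le_integral_norm _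
    _ ≤ ∫ p, |Lr r (X θ p)| ∂((gam d).prod (gam d)) := by
        refine integral_mono hL2.norm hL1.abs fun p => ?_
        simp only [norm_mul, Real.norm_eq_abs]
        exact mul_le_of_le_one_right (abs_nonneg _) (hφ1 _)
    _ = ∫ y, |Lr r y| ∂(gam d) :=
        integral_comp_X θ (fun y => |Lr r y|) (continuous_Lr hr).abs

end OUL

open OUL in
theorem oul (hCM : S_CM) : S_OUL := by
  intro d r C hr hgr β φ hβ0 hβ1 hφ hφ1
  have hC : 0 ≤ C := by
    have h0 : 0 ≤ |r 0| + ‖fderiv ℝ r 0‖ + ‖fderiv ℝ (fderiv ℝ r) 0‖ := by positivity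
    exact nonneg_of_mul_nonneg_left (h0.trans (hgr 0)) (Real.exp_pos _)
  have h1 : ∀ y, |r y| ≤ C * Real.exp (C * ‖y‖) := fun y => by
    have := hgr y
    have := norm_nonneg (fderiv ℝ r y)
    have := norm_nonneg (fderiv ℝ (fderiv ℝ r) y)
    linarith
  have hφ2 : Measurable (fun p : E d × E d => φ p.1) := hφ.comp measurable_fst
  set Θ : ℝ := Real.arccos β with hΘ
  have hcosΘ : Real.cos Θ = β := Real.cos_arccos (by linarith) hβ1.le
  have hsinΘ : Real.sin Θ = √(1 - β ^ 2) := Real.sin_arccos β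
  have hΘ0 : 0 ≤ Θ := Real.arccos_nonneg β
  have hΘ1 : Θ < Real.pi / 2 := Real.arccos_lt_pi_div_two.mpr hβ0
  set G : ℝ → ℝ := fun θ => ∫ p, r (X θ p) * φ p.1 ∂((gam d).prod (gam d)) with hG
  set K : ℝ := ∫ y, |Lr r y| ∂(gam d) with hK
  have hGd : ∀ θ, HasDerivAt G (∫ p, F' r φ θ p ∂((gam d).prod (gam d))) θ := fun θ =>
    hasDerivAt_G hCM hr hgr hφ hφ1 θ
  have hcos : ∀ t ∈ Icc (0 : ℝ) Θ, 0 < Real.cos t := fun t ht =>
    Real.cos_pos_of_mem_Ioo ⟨by linarith [ht.1, Real.pi_pos], by linarith [ht.2]⟩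
  have hB : ∀ t ∈ Icc (0 : ℝ) Θ, HasDerivAt (fun t => -Real.log (Real.cos t) * K)
      ((Real.sin t / Real.cos t) * K) t := by
    intro t ht
    have := ((Real.hasDerivAt_cos t).log (hcos t ht).ne').neg.mul_const K
    refine this.congr_deriv ?_
    ring
  have hfin := image_norm_le_of_norm_deriv_right_le_deriv_boundary' (f := fun t => G t - G 0)
    (f' := fun θ => ∫ p, F' r φ θ p ∂((gam d).prod (gam d))) (a := 0) (b := Θ)
    (fun t _ => ((hGd t).sub_const (G 0)).continuousAt.continuousWithinAt)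
    (fun t _ => ((hGd t).sub_const (G 0)).hasDerivWithinAt)
    (B := fun t => -Real.log (Real.cos t) * K) (B' := fun t => (Real.sin t / Real.cos t) * K)
    (by simp) (fun t ht => (hB t ht).continuousAt.continuousWithinAt)
    (fun t ht => (hB t ⟨ht.1, ht.2.le⟩).hasDerivWithinAt)
    (fun t ht => integral_F' hCM hr hgr hφ hφ1 t (hcos t ⟨ht.1, ht.2.le⟩)
      (Real.sin_nonneg_of_nonneg_of_le_pi ht.1 (by linarith [ht.2, Real.pi_pos])))
    ⟨hΘ0, le_rfl⟩
  simp only [hcosΘ] at hfin
  -- integrability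
  have hrint : Integrable r (gam d) :=
    IBP.integrable_of_growth hCM hr.continuous.aestronglyMeasurable C C h1
  have hrφ : Integrable (fun y => r y * φ y) (gam d) := by
    refine hrint.mono (hr.continuous.measurable.mul hφ).aestronglyMeasurable
      (Eventually.of_forall fun y => ?_)
    rw [norm_mul, Real.norm_eq_abs (φ y)]
    exact mul_le_of_le_one_right (norm_nonneg _) (hφ1 _)
  have hG0 : G 0 = ∫ y, r y * φ y ∂(gam d) := by
    simp only [hG, X, Real.cos_zero, Real.sin_zero, one_smul, zero_smul, sub_zero]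
    rw [integral_fun_fst (fun y => r y * φ y)]
    simp
  have hm2 : Measurable (fun p : E d × E d => r p.1 * φ (β • p.1 + √(1 - β ^ 2) • p.2)) := by
    refine (hr.continuous.measurable.comp measurable_fst).mul (hφ.comp ?_)
    exact Continuous.measurable (by fun_prop)
  have hint2 : Integrable (fun p : E d × E d => r p.1 * φ (β • p.1 + √(1 - β ^ 2) • p.2))
      ((gam d).prod (gam d)) := by
    refine integrable_prod_growth hCM hm2.aestronglyMeasurable C C fun p => ?_
    rw [abs_mul]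
    calc |r p.1| * |φ (β • p.1 + √(1 - β ^ 2) • p.2)| ≤ |r p.1| * 1 :=
          mul_le_mul_of_nonneg_left (hφ1 _) (abs_nonneg _)
      _ ≤ C * Real.exp (C * ‖p.1‖) := by rw [mul_one]; exact h1 _
      _ ≤ _ := by
          refine mul_le_mul_of_nonneg_left (Real.exp_le_exp.mpr ?_) hC
          have := norm_nonneg p.2
          nlinarith
  have hGΘ : G Θ = ∫ y, r y * Mh β φ y ∂(gam d) := by
    have e1 : G Θ = ∫ p, r p.1 * φ (β • p.1 + √(1 - β ^ 2) • p.2) ∂((gam d).prod (gam d)) := by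
      simp only [hG]
      conv_lhs => rw [← map_rot (d := d) Θ]
      rw [integral_map (by fun_prop) (by
        refine Measurable.aestronglyMeasurable ?_
        exact ((hr.continuous.comp (continuous_X Θ)).measurable).mul hφ2)]
      refine integral_congr_ae (Eventually.of_forall fun p => ?_)
      simp only [ContinuousLinearMap.rotation_apply, X, hcosΘ, ← hsinΘ]
      have e2 : β • (β • p.1 + Real.sin Θ • p.2) - Real.sin Θ • (-Real.sin Θ • p.1 + β • p.2)
          = p.1 := by
        have e3 : β ^ 2 + Real.sin Θ ^ 2 = 1 := by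
          rw [← hcosΘ]
          exact Real.cos_sq_add_sin_sq Θ
        have e4 : β • (β • p.1 + Real.sin Θ • p.2) - Real.sin Θ • (-Real.sin Θ • p.1 + β • p.2)
            = (β ^ 2 + Real.sin Θ ^ 2) • p.1 := by
          module
        rw [e4, e3, one_smul]
      rw [e2]
    rw [e1, integral_prod _ hint2]
    refine integral_congr_ae (Eventually.of_forall fun y => ?_)
    simp only [Mh]
    rw [integral_const_mul]
  have hrM : Integrable (fun y => r y * Mh β φ y) (gam d) := by
    have := hint2.integral_prod_left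
    refine this.congr (Eventually.of_forall fun y => ?_)
    simp only [Mh]
    rw [integral_const_mul]
  have hfinal : ∫ y, r y * (Mh β φ y - φ y) ∂(gam d) = G Θ - G 0 := by
    rw [hGΘ, hG0, ← integral_sub hrM hrφ]
    refine integral_congr_ae (Eventually.of_forall fun y => ?_)
    simp only []
    ring
  rw [hfinal, ← Real.norm_eq_abs]
  exact hfin

end LCS
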