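import Vale.Agent.P347.Base

/-! # P347 module PATH: pathwise comparison of the rotation-kick map with the free path -/

namespace LCS

open MeasureTheory ProbabilityTheory Set Filter
open scoped ENNReal NNReal Topology RealInnerProductSpace BigOperators ContDiff

namespace PATH

variable {d : ℕ} (f : E d → ℝ) (τ : ℝ)

/-- the orbit -/
noncomputable def orb (q : E d × E d) (j : ℕ) : E d × E d := ((kick f τ)^[j]) q

theorem orb_zero (q : E d × E d) : orb f τ q 0 = q := rfl

theorem orb_succ (q : E d × E d) (j : ℕ) : orb f τ q (j + 1) = kick f τ (orb f τ q j) := by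
  rw [orb, Function.iterate_succ_apply']
  rfl

theorem formula (y z : E d) (j : ℕ) :
    (orb f τ (y, z) j).1 = Real.cos (j * τ) • y + Real.sin (j * τ) • z -
      τ • ∑ i ∈ Finset.range j, Real.sin ((j - i) * τ) • gradient f (orb f τ (y, z) i).1 ∧
    (orb f τ (y, z) j).2 = -Real.sin (j * τ) • y + Real.cos (j * τ) • z -
      τ • ∑ i ∈ Finset.range j, Real.cos ((j - i) * τ) • gradient f (orb f τ (y, z) i).1 := by
  induction j with
  | zero => simp [orb_zero]
  | succ j ih =>
    obtain ⟨ih1, ih2⟩ := ih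
    have hs : ∀ i : ℕ, Real.sin (((j + 1 : ℕ) - i) * τ) =
        Real.sin ((j - i) * τ) * Real.cos τ + Real.cos ((j - i) * τ) * Real.sin τ := by
      intro i
      rw [← Real.sin_add]
      congr 1
      push_cast
      ring
    have hc : ∀ i : ℕ, Real.cos (((j + 1 : ℕ) - i) * τ) =
        Real.cos ((j - i) * τ) * Real.cos τ - Real.sin ((j - i) * τ) * Real.sin τ := by
      intro i
      rw [← Real.cos_add]
      congr 1
      push_cast
      ring
    have hj : Real.cos ((j + 1 : ℕ) * τ) =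
        Real.cos (j * τ) * Real.cos τ - Real.sin (j * τ) * Real.sin τ := by
      rw [← Real.cos_add]
      congr 1
      push_cast
      ring
    have hj' : Real.sin ((j + 1 : ℕ) * τ) =
        Real.sin (j * τ) * Real.cos τ + Real.cos (j * τ) * Real.sin τ := by
      rw [← Real.sin_add]
      congr 1
      push_cast
      ring
    set S1 := ∑ i ∈ Finset.range j, Real.sin ((j - i) * τ) • gradient f (orb f τ (y, z) i).1
      with hS1
    set S2 := ∑ i ∈ Finset.range j, Real.cos ((j - i) * τ) • gradient f (orb f τ (y, z) i).1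
      with hS2
    have e1 : ∑ i ∈ Finset.range j,
        Real.sin (((j + 1 : ℕ) - i) * τ) • gradient f (orb f τ (y, z) i).1 =
        Real.cos τ • S1 + Real.sin τ • S2 := by
      rw [hS1, hS2, Finset.smul_sum, Finset.smul_sum, ← Finset.sum_add_distrib]
      refine Finset.sum_congr rfl fun i _ => ?_
      rw [hs]
      module
    have e2 : ∑ i ∈ Finset.range j,
        Real.cos (((j + 1 : ℕ) - i) * τ) • gradient f (orb f τ (y, z) i).1 =
        Real.cos τ • S2 - Real.sin τ • S1 := by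
      rw [hS1, hS2, Finset.smul_sum, Finset.smul_sum, ← Finset.sum_sub_distrib]
      refine Finset.sum_congr rfl fun i _ => ?_
      rw [hc]
      module
    have h0 : (((j + 1 : ℕ) : ℝ) - (j : ℕ)) * τ = τ := by
      push_cast
      ring
    rw [Finset.sum_range_succ, Finset.sum_range_succ, e1, e2, h0, hj, hj', orb_succ, kick, ih1, ih2]
    constructor <;> module

variable {f τ}

theorem norm_trig (a b : ℝ) (ha : |a| ≤ 1) (hb : |b| ≤ 1) (y z : E d) :
    ‖a • y + b • z‖ ≤ ‖y‖ + ‖z‖ := by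
  refine (norm_add_le _ _).trans ?_
  rw [norm_smul, norm_smul, Real.norm_eq_abs, Real.norm_eq_abs]
  have h1 : |a| * ‖y‖ ≤ 1 * ‖y‖ := mul_le_mul_of_nonneg_right ha (norm_nonneg _)
  have h2 : |b| * ‖z‖ ≤ 1 * ‖z‖ := mul_le_mul_of_nonneg_right hb (norm_nonneg _)
  linarith

theorem sum_bound (hτ : 0 ≤ τ) (j : ℕ) (a : ℕ → ℝ) (ha : ∀ i, |a i| ≤ 1) (g : ℕ → E d) (K : ℝ)
    (hK : ∀ i < j, ‖g i‖ ≤ K) :
    ‖τ • ∑ i ∈ Finset.range j, a i • g i‖ ≤ j * τ * K := by
  rw [norm_smul, Real.norm_eq_abs, abs_of_nonneg hτ]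
  have h1 : ‖∑ i ∈ Finset.range j, a i • g i‖ ≤ ∑ _i ∈ Finset.range j, K := by
    refine (norm_sum_le _ _).trans (Finset.sum_le_sum fun i hi => ?_)
    rw [norm_smul, Real.norm_eq_abs]
    have := hK i (Finset.mem_range.mp hi)
    calc |a i| * ‖g i‖ ≤ 1 * ‖g i‖ := mul_le_mul_of_nonneg_right (ha i) (norm_nonneg _)
      _ ≤ K := by rw [one_mul]; exact this
  rw [Finset.sum_const, Finset.card_range, nsmul_eq_mul] at h1
  calc τ * ‖∑ i ∈ Finset.range j, a i • g i‖ ≤ τ * (j * K) := mul_le_mul_of_nonneg_left h1 hτ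
    _ = j * τ * K := by ring

theorem orb_bound {s A : ℝ} (hP : Par d s A) (hL : Loc d s A f) {J : ℕ} (hJ : 1 ≤ J)
    (hτ : τ = Real.pi / J) (y z : E d) : ∀ j ≤ J,
    ‖(orb f τ (y, z) j).1‖ ≤ 2 * (‖y‖ + ‖z‖) + A := by
  have hJ0 : (0 : ℝ) < J := by exact_mod_cast hJ
  have hτ0 : 0 ≤ τ := by rw [hτ]; positivity
  have hA : 0 ≤ A := (Real.sqrt_nonneg _).trans hP.dA
  have hs := hP.s_pos
  intro j
  induction j using Nat.strong_induction_on with
  | _ j ih =>
    intro hj
    have hK : ∀ i < j, ‖gradient f (orb f τ (y, z) i).1‖ ≤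
        s * A + 2 * s * (2 * (‖y‖ + ‖z‖) + A) := by
      intro i hi
      refine (hL.grad_le hs.le _).trans ?_
      have := ih i hi (by omega)
      gcongr
    rw [(formula f τ y z j).1]
    have h1 := norm_trig (Real.cos (j * τ)) (Real.sin (j * τ)) (Real.abs_cos_le_one _)
      (Real.abs_sin_le_one _) y z
    have h2 := sum_bound hτ0 j (fun i => Real.sin ((j - i) * τ)) (fun i => Real.abs_sin_le_one _)
      (fun i => gradient f (orb f τ (y, z) i).1) _ hK
    have h3 : (j : ℝ) * τ ≤ Real.pi := by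
      rw [hτ]
      have : (j : ℝ) ≤ J := by exact_mod_cast hj
      calc (j : ℝ) * (Real.pi / J) ≤ J * (Real.pi / J) := by gcongr
        _ = Real.pi := by field_simp
    have h4 : (j : ℝ) * τ * (s * A + 2 * s * (2 * (‖y‖ + ‖z‖) + A)) ≤
        3.15 * (s * A + 2 * s * (2 * (‖y‖ + ‖z‖) + A)) := by
      have : (j : ℝ) * τ ≤ 3.15 := h3.trans Real.pi_lt_d2.le
      gcongr
    have h5 : s * (3.15 * (A + 2 * (2 * (‖y‖ + ‖z‖) + A))) ≤
        (1 / 20) * (3.15 * (A + 2 * (2 * (‖y‖ + ‖z‖) + A))) := by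
      have := hP.s_le
      gcongr
    have h6 : ‖y‖ + ‖z‖ ≥ 0 := by positivity
    refine (norm_sub_le _ _).trans ?_
    nlinarith

end PATH

open PATH in
/-- pathwise comparison with the free path -/
theorem path : S_PATH := by
  refine ⟨80, by norm_num, ?_⟩
  intro d s A f _ hP hL J hJ y z
  have hJ0 : (0 : ℝ) < J := by exact_mod_cast hJ
  set τ := Real.pi / J with hτ
  have hτ0 : 0 ≤ τ := by positivity
  have hA : 0 ≤ A := (Real.sqrt_nonneg _).trans hP.dA
  have hs := hP.s_pos
  have hJτ : (J : ℝ) * τ = Real.pi := by rw [hτ]; field_simp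
  set G := s * A + 2 * s * (2 * (‖y‖ + ‖z‖) + A) with hG
  have hG0 : 0 ≤ G := by positivity
  have hg : ∀ i ≤ J, ‖gradient f (orb f τ (y, z) i).1‖ ≤ G := by
    intro i hi
    refine (hL.grad_le hs.le _).trans ?_
    have := orb_bound hP hL hJ hτ y z i hi
    rw [hG]
    gcongr
  have hdist : ∀ i < J, ‖gradient f (orb f τ (y, z) i).1 -
      gradient f (Real.cos (i * τ) • y + Real.sin (i * τ) • z)‖ ≤ 2 * s * (Real.pi * G) := by
    intro i hi
    refine (hL.grad_lip hs.le _ _).trans ?_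
    gcongr
    rw [(formula f τ y z i).1, sub_right_comm, sub_self, zero_sub, norm_neg]
    refine (sum_bound hτ0 i (fun k => Real.sin ((i - k) * τ)) (fun k => Real.abs_sin_le_one _)
      (fun k => gradient f (orb f τ (y, z) k).1) G (fun k hk => hg k (by omega))).trans ?_
    have h3 : (i : ℝ) * τ ≤ Real.pi := by
      rw [← hJτ]
      have : (i : ℝ) ≤ J := by exact_mod_cast hi.le
      gcongr
    gcongr
  have hmain : ((kick f τ)^[J] (y, z)).1 - (-y - freeD f J y z) =
      -(τ • ∑ i ∈ Finset.range J, Real.sin (i * τ) •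
        (gradient f (orb f τ (y, z) i).1 -
          gradient f (Real.cos (i * τ) • y + Real.sin (i * τ) • z))) := by
    have h1 := (formula f τ y z J).1
    have h2 : ∑ i ∈ Finset.range J, Real.sin ((J - i) * τ) • gradient f (orb f τ (y, z) i).1 =
        ∑ i ∈ Finset.range J, Real.sin (i * τ) • gradient f (orb f τ (y, z) i).1 := by
      refine Finset.sum_congr rfl fun i _ => ?_
      rw [sub_mul, hJτ, Real.sin_pi_sub]
    rw [h2, hJτ, Real.cos_pi, Real.sin_pi] at h1
    change (orb f τ (y, z) J).1 - _ = _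
    rw [h1, freeD, ← hτ]
    simp only [smul_sub, Finset.sum_sub_distrib]
    module
  rw [hmain, norm_neg]
  refine (sum_bound hτ0 J (fun i => Real.sin (i * τ)) (fun i => Real.abs_sin_le_one _)
    _ _ hdist).trans ?_
  rw [hJτ]
  have hG1 : G ≤ 4 * s * (A + ‖y‖ + ‖z‖) := by
    rw [hG]
    nlinarith [norm_nonneg y, norm_nonneg z]
  have hpi : Real.pi ^ 2 ≤ 10 := by
    have h1 := Real.pi_lt_d2
    have h2 := Real.pi_pos
    nlinarith
  calc Real.pi * (2 * s * (Real.pi * G)) = Real.pi ^ 2 * (2 * s * G) := by ring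
    _ ≤ 10 * (2 * s * (4 * s * (A + ‖y‖ + ‖z‖))) := by gcongr
    _ = 80 * s ^ 2 * (A + ‖y‖ + ‖z‖) := by ring

end LCS
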