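import Mathlib
import Vale.Agent.P347.Base
import Vale.Agent.P347.TVBasic
import Vale.Agent.P347.LocBasic

/-! # P347: PHAT, one step of the algorithm against the ideal step (from NOISE) -/

namespace LCS

open MeasureTheory ProbabilityTheory Set Filter
open scoped ENNReal NNReal Topology RealInnerProductSpace BigOperators ContDiff

namespace PHAT

/-- the product Hilbert space -/
abbrev Gj (d J : ℕ) : Type := PiLp 2 (fun _ : Fin J => E d)

theorem map_pi_gam (d J : ℕ) :
    (Measure.pi (fun _ : Fin J => gam d)).map (WithLp.toLp 2) = stdGaussian (Gj d J) := by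
  apply Measure.ext_of_charFun (E := Gj d J)
  ext t
  rw [charFun_stdGaussian, charFun_pi]
  simp_rw [charFun_stdGaussian]
  rw [← Complex.exp_sum]
  congr 1
  have h : (‖t‖ : ℂ) ^ 2 = ∑ i, (‖t i‖ : ℂ) ^ 2 := by
    have := PiLp.norm_sq_eq_of_L2 (fun _ : Fin J => E d) t
    exact_mod_cast congrArg (fun x : ℝ => (x : ℂ)) this
  rw [← Finset.sum_div, Finset.sum_neg_distrib, h]

theorem pot_abs {d : ℕ} {V : E d → ℝ} (hV : Pot d V) (x v : E d) :
    |fderiv ℝ (fderiv ℝ V) x v v| ≤ 2 * ‖v‖ ^ 2 := by
  rw [abs_of_nonneg (le_trans (by positivity) (hV.lower x v))]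
  exact hV.upper x v

theorem pot_lip {d : ℕ} {V : E d → ℝ} (hV : Pot d V) (x y : E d) :
    ‖gradient V x - gradient V y‖ ≤ 2 * ‖x - y‖ :=
  grad_lip hV.smooth (by norm_num) (pot_abs hV) x y

variable {d J : ℕ} (V : E d → ℝ) (s β : ℝ) (c w : Fin J → ℝ) (q : E d × E d)

theorem node_sub (s c : ℝ) (p v z z' : E d) :
    node V s c p v z - node V s c p v z' = -((√s * √(1 - c ^ 2)) • (z - z')) := by
  unfold node
  module

theorem node_lip {c : ℝ} (p v z z' : E d) :
    ‖node V s c p v z - node V s c p v z'‖ ≤ √s * ‖z - z'‖ := by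
  rw [node_sub, norm_neg, norm_smul, Real.norm_eq_abs, abs_of_nonneg (by positivity)]
  have h1 : √(1 - c ^ 2) ≤ 1 := by
    rw [Real.sqrt_le_one]
    nlinarith [sq_nonneg c]
  have h2 := norm_nonneg (z - z')
  have h3 := Real.sqrt_nonneg s
  calc √s * √(1 - c ^ 2) * ‖z - z'‖ ≤ √s * 1 * ‖z - z'‖ := by gcongr
    _ = _ := by ring

theorem contDiff_node (s c : ℝ) (p v : E d) : ContDiff ℝ 1 (fun z => node V s c p v z) := by
  unfold node
  fun_prop

/-- the noise map -/
noncomputable def nz : Gj d J → E d := fun ξ => rmean V s β c w q (fun j => ξ j)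

theorem contDiff_nz (hV : Pot d V) : ContDiff ℝ 1 (nz V s β c w q) := by
  unfold nz rmean
  have h : ∀ j : Fin J, ContDiff ℝ 1 (fun ξ : Gj d J => gradient V (node V s (c j) q.1 q.2 (ξ j))) := by
    intro j
    have h1 : ContDiff ℝ 1 (fun ξ : Gj d J => ξ j) := by fun_prop
    exact (contDiff_gradient hV.smooth).comp ((contDiff_node V s (c j) q.1 q.2).comp h1)
  have h2 : ContDiff ℝ 1 (fun ξ : Gj d J => ∑ j, w j • gradient V (node V s (c j) q.1 q.2 (ξ j))) :=
    ContDiff.sum fun j _ => (h j).const_smul (w j)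
  exact contDiff_const.sub ((contDiff_const.add (h2.const_smul β)).const_smul (√s))

theorem nz_lip (hV : Pot d V) (hs : 0 < s) (hβ : 0 ≤ β) (hβ1 : β < 1) (hw : ∀ j, 0 < w j)
    (hw2 : ∑ j, w j = 2) (ξ ξ' : Gj d J) :
    ‖nz V s β c w q ξ - nz V s β c w q ξ'‖ ≤ 4 * s * ‖ξ - ξ'‖ := by
  have e : nz V s β c w q ξ - nz V s β c w q ξ' =
      -((√s * β) • ∑ j, w j • (gradient V (node V s (c j) q.1 q.2 (ξ j)) -
        gradient V (node V s (c j) q.1 q.2 (ξ' j)))) := by
    unfold nz rmean
    simp only [smul_sub, Finset.sum_sub_distrib]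
    module
  rw [e, norm_neg, norm_smul, Real.norm_eq_abs, abs_of_nonneg (by positivity)]
  have h1 : ‖∑ j, w j • (gradient V (node V s (c j) q.1 q.2 (ξ j)) -
        gradient V (node V s (c j) q.1 q.2 (ξ' j)))‖ ≤ ∑ j, w j * (2 * (√s * ‖ξ - ξ'‖)) := by
    refine norm_sum_le_of_le _ fun j _ => ?_
    rw [norm_smul, Real.norm_eq_abs, abs_of_pos (hw j)]
    refine mul_le_mul_of_nonneg_left ?_ (hw j).le
    refine (pot_lip hV _ _).trans ?_
    refine mul_le_mul_of_nonneg_left ?_ (by norm_num)
    refine (node_lip V s _ _ _ _).trans ?_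
    refine mul_le_mul_of_nonneg_left ?_ (Real.sqrt_nonneg _)
    have := PiLp.norm_apply_le (ξ - ξ') j
    simpa using this
  rw [← Finset.sum_mul, hw2] at h1
  have h2 := Real.mul_self_sqrt hs.le
  have h3 := norm_nonneg (ξ - ξ')
  calc √s * β * ‖∑ j, w j • (gradient V (node V s (c j) q.1 q.2 (ξ j)) -
        gradient V (node V s (c j) q.1 q.2 (ξ' j)))‖
      ≤ √s * 1 * (2 * (2 * (√s * ‖ξ - ξ'‖))) := by gcongr
    _ = 4 * (√s * √s) * ‖ξ - ξ'‖ := by ring
    _ = _ := by rw [h2]

theorem integrable_grad_node (hV : Pot d V) (hs : 0 < s) (c : ℝ) (p v : E d) :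
    Integrable (fun z => gradient V (node V s c p v z)) (gam d) := by
  have hid : Integrable (fun z : E d => ‖z‖) (gam d) :=
    (IsGaussian.integrable_id (μ := gam d)).norm
  have hc : Continuous (fun z => gradient V (node V s c p v z)) :=
    ((contDiff_gradient hV.smooth).comp (contDiff_node V s c p v)).continuous
  refine ((hid.const_mul (2 * √s)).add (integrable_const ‖gradient V (node V s c p v 0)‖)).mono'
    hc.aestronglyMeasurable (ae_of_all _ fun z => ?_)
  have h1 := pot_lip hV (node V s c p v z) (node V s c p v 0)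
  have h2 := node_lip V s (c := c) p v z 0
  rw [sub_zero] at h2
  have h3 : ‖gradient V (node V s c p v z)‖ ≤ ‖gradient V (node V s c p v z) -
      gradient V (node V s c p v 0)‖ + ‖gradient V (node V s c p v 0)‖ := by
    calc ‖gradient V (node V s c p v z)‖ = ‖(gradient V (node V s c p v z) -
      gradient V (node V s c p v 0)) + gradient V (node V s c p v 0)‖ := by rw [sub_add_cancel]
      _ ≤ _ := norm_add_le _ _
  simp only [Pi.add_apply]
  linarith

theorem integral_nz (hV : Pot d V) (hs : 0 < s) :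
    ∫ ξ, nz V s β c w q ξ ∂(stdGaussian (Gj d J)) = mean V s β c w q := by
  have hcont : Continuous (nz V s β c w q) := (contDiff_nz V s β c w q hV).continuous
  rw [← map_pi_gam, integral_map (by fun_prop) hcont.aestronglyMeasurable]
  have hint : ∀ j : Fin J, Integrable (fun ξ : Fin J → E d =>
      gradient V (node V s (c j) q.1 q.2 (ξ j))) (Measure.pi fun _ : Fin J => gam d) := by
    intro j
    exact integrable_comp_eval (μ := fun _ : Fin J => gam d) (i := j)
      (integrable_grad_node V s hV hs (c j) q.1 q.2)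
  have hint2 : Integrable (fun ξ : Fin J → E d =>
      ∑ j, w j • gradient V (node V s (c j) q.1 q.2 (ξ j))) (Measure.pi fun _ : Fin J => gam d) :=
    integrable_finsetSum _ fun j _ => (hint j).smul (w j)
  have hint3 : Integrable (fun ξ : Fin J → E d => β • ∑ j, w j • gradient V (node V s (c j) q.1 q.2
      (ξ j))) (Measure.pi fun _ : Fin J => gam d) := hint2.smul β
  have hint4 : Integrable (fun ξ : Fin J → E d => (1 - β) • gradient V q.1 +
      β • ∑ j, w j • gradient V (node V s (c j) q.1 q.2 (ξ j))) (Measure.pi fun _ : Fin J => gam d) :=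
    (integrable_const _).add hint3
  have hint5 : Integrable (fun ξ : Fin J → E d => √s • ((1 - β) • gradient V q.1 +
      β • ∑ j, w j • gradient V (node V s (c j) q.1 q.2 (ξ j)))) (Measure.pi fun _ : Fin J => gam d) :=
    hint4.smul (√s)
  have hint6 : ∀ j : Fin J, Integrable (fun ξ : Fin J → E d =>
      w j • gradient V (node V s (c j) q.1 q.2 (ξ j))) (Measure.pi fun _ : Fin J => gam d) :=
    fun j => (hint j).smul (w j)
  unfold nz rmean mean
  simp only
  rw [integral_sub (integrable_const _) hint5,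
    integral_const, integral_smul, integral_add (integrable_const _) hint3,
    integral_const, integral_smul, integral_finsetSum _ fun j _ => hint6 j]
  simp only [probReal_univ, one_smul, integral_smul]
  congr 4
  refine Finset.sum_congr rfl fun j _ => ?_
  congr 1
  exact integral_comp_eval (μ := fun _ : Fin J => gam d) (i := j)
      (integrable_grad_node V s hV hs (c j) q.1 q.2).aestronglyMeasurable

end PHAT

open PHAT in
theorem phat (hN : S_NOISE) : S_PHAT := by
  intro d J V s β c w q hd hV hs hβ hβ1 _ hw hw2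
  set σ := √(1 - β ^ 2) with hσ
  have hσ2 : 0 < 1 - β ^ 2 := by nlinarith
  have hσ0 : 0 < σ := Real.sqrt_pos.mpr hσ2
  have hσs : σ ^ 2 = 1 - β ^ 2 := Real.sq_sqrt hσ2.le
  have hcont : Continuous (nz V s β c w q) := (contDiff_nz V s β c w q hV).continuous
  have hL : ∀ x, ‖fderiv ℝ (nz V s β c w q) x‖ ≤ 4 * s := by
    intro x
    have hl : LipschitzWith (Real.toNNReal (4 * s)) (nz V s β c w q) := by
      refine LipschitzWith.of_dist_le_mul fun a b => ?_
      rw [dist_eq_norm, dist_eq_norm, Real.coe_toNNReal _ (by positivity)]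
      exact nz_lip V s β c w q hV hs hβ hβ1 hw hw2 a b
    have := norm_fderiv_le_of_lipschitz ℝ hl (x₀ := x)
    rwa [Real.coe_toNNReal _ (by positivity)] at this
  have key := hN (Gj d J) d (nz V s β c w q) (4 * s) σ hd (contDiff_nz V s β c w q hV)
    (by positivity) hL hσ0
  rw [integral_nz V s β c w q hV hs] at key
  -- post-composition
  have hK : Measurable (fun u : E d => (q.1 + (2 * √s) • u, u)) := by fun_prop
  have key2 := key.map hK
  have e1 : (((gam d).map fun z => mean V s β c w q + σ • z).map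
      (fun u : E d => (q.1 + (2 * √s) • u, u))) = (gam d).map fun z => nstep V s β c w (q, z) := by
    rw [Measure.map_map hK (by fun_prop)]
    rfl
  have hm1 : Measurable (fun r : Gj d J × E d => nz V s β c w q r.1 + σ • r.2) := by
    have := hcont.measurable
    fun_prop
  have hpm : (aux d J).map (Prod.map (WithLp.toLp 2) id) = (stdGaussian (Gj d J)).prod (gam d) := by
    rw [aux, ← Measure.map_prod_map _ _ (by fun_prop) measurable_id, map_pi_gam, Measure.map_id]
  have e2 : ((((stdGaussian (Gj d J)).prod (gam d)).map fun r => nz V s β c w q r.1 + σ • r.2).map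
      (fun u : E d => (q.1 + (2 * √s) • u, u))) = (aux d J).map fun r => pstep V s β c w (q, r) := by
    rw [Measure.map_map hK hm1, ← hpm, Measure.map_map (hK.comp hm1) (by fun_prop)]
    rfl
  rw [e1, e2] at key2
  refine key2.mono (le_of_eq ?_)
  rw [hσs]
  ring

end LCS
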