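import Vale.Agent.P347.Defs

/-! # P347, module QUAD: positive composite quadrature rules -/

namespace LCS.QUAD

open MeasureTheory Set Filter
open scoped Topology BigOperators

section Hull

variable {F : Type} [NormedAddCommGroup F] [NormedSpace ℝ F] [FiniteDimensional ℝ F]

/-- the convex hull of a compact set in finite dimension is compact -/
theorem isCompact_hull {s : Set F} (hs : IsCompact s) : IsCompact (convexHull ℝ s) := by
  classical
  rcases s.eq_empty_or_nonempty with rfl | ⟨z0, hz0⟩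
  · simp
  set n : ℕ := Module.finrank ℝ F + 1 with hn
  have hK : IsCompact ((stdSimplex ℝ (Fin n)) ×ˢ (Set.pi univ (fun _ : Fin n => s))) :=
    (isCompact_stdSimplex ℝ (Fin n)).prod (isCompact_univ_pi fun _ => hs)
  have hc : Continuous fun p : (Fin n → ℝ) × (Fin n → F) => ∑ i, p.1 i • p.2 i := by
    fun_prop
  have : convexHull ℝ s = (fun p : (Fin n → ℝ) × (Fin n → F) => ∑ i, p.1 i • p.2 i) ''
      ((stdSimplex ℝ (Fin n)) ×ˢ (Set.pi univ (fun _ : Fin n => s))) := by
    apply Subset.antisymm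
    · intro x hx
      obtain ⟨ι, hι, z, w, hz, hai, hw, hw1, hx⟩ := eq_pos_convex_span_of_mem_convexHull hx
      have hcard : Fintype.card ι ≤ n := by
        have := hai.card_le_finrank_succ
        refine this.trans ?_
        rw [hn]
        exact Nat.succ_le_succ (Submodule.finrank_le _)
      obtain ⟨em⟩ : Nonempty (ι ↪ Fin n) := by
        apply Function.Embedding.nonempty_of_card_le
        simpa using hcard
      have hsum : ∀ {V : Type} [AddCommMonoid V] (g : ι → V) (h : Fin n → V),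
          (∀ i, h (em i) = g i) → (∀ j, (¬ ∃ i, em i = j) → h j = 0) → ∑ j, h j = ∑ i, g i := by
        intro V _ g h h1 h2
        have : ∑ j ∈ Finset.univ.map em, h j = ∑ j, h j := by
          apply Finset.sum_subset (Finset.subset_univ _)
          intro j _ hj
          apply h2
          rintro ⟨i, rfl⟩
          exact hj (by simp)
        rw [← this, Finset.sum_map]
        exact Finset.sum_congr rfl fun i _ => h1 i
      refine ⟨(Function.extend em w 0, Function.extend em z (fun _ => z0)), ⟨⟨?_, ?_⟩, ?_⟩, ?_⟩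
      · intro j
        by_cases hj : ∃ i, em i = j
        · obtain ⟨i, rfl⟩ := hj
          simp only [em.injective.extend_apply]
          exact (hw i).le
        · simp [Function.extend_apply' _ _ _ hj]
      · simp only
        rw [hsum w (Function.extend em w 0) (fun i => em.injective.extend_apply _ _ _)
          (fun j hj => Function.extend_apply' _ _ _ hj)]
        exact hw1
      · intro j _
        by_cases hj : ∃ i, em i = j
        · obtain ⟨i, rfl⟩ := hj
          simp only [em.injective.extend_apply]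
          exact hz ⟨i, rfl⟩
        · simpa [Function.extend_apply' _ _ _ hj] using hz0
      · simp only
        rw [hsum (fun i => w i • z i)]
        · exact hx
        · intro i
          simp only [em.injective.extend_apply]
        · intro j hj
          simp [Function.extend_apply' _ _ _ hj]
    · rintro _ ⟨⟨w, z⟩, ⟨⟨hw0, hw1⟩, hz⟩, rfl⟩
      apply (convex_convexHull ℝ s).sum_mem (fun i _ => hw0 i) hw1
      intro i _
      exact subset_convexHull ℝ s (hz i (mem_univ i))
  rw [this]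
  exact hK.image hc

end Hull

/-- a positive rule on `[0,1]`, exact for the monomials of degree `< K`. -/
theorem base_rule (K : ℕ) : ∃ (n : ℕ) (t w : Fin n → ℝ), (∀ j, t j ∈ Icc (0 : ℝ) 1) ∧
    (∀ j, 0 < w j) ∧ ∑ j, w j = 1 ∧ ∀ k < K, ∑ j, w j * t j ^ k = 1 / (k + 1) := by
  classical
  set φ : ℝ → (Fin K → ℝ) := fun t k => t ^ (k : ℕ) with hφ
  have hφc : Continuous φ := by
    rw [hφ]
    fun_prop
  set s : Set (Fin K → ℝ) := φ '' Icc 0 1 with hs
  have hsc : IsCompact s := isCompact_Icc.image hφc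
  set μ : Measure ℝ := volume.restrict (Icc 0 1) with hμ
  have : IsProbabilityMeasure μ := ⟨by rw [hμ]; simp⟩
  have hint : Integrable φ μ := by
    rw [hμ]
    exact (hφc.continuousOn).integrableOn_compact isCompact_Icc
  have hmem : (∫ t, φ t ∂μ) ∈ convexHull ℝ s := by
    apply (convex_convexHull ℝ s).integral_mem (isCompact_hull hsc).isClosed
    · rw [hμ]
      filter_upwards [ae_restrict_mem measurableSet_Icc] with t ht
      exact subset_convexHull ℝ s ⟨t, ht, rfl⟩
    · exact hint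
  obtain ⟨ι, hι, z, w, hz, hai, hw, hw1, hx⟩ := eq_pos_convex_span_of_mem_convexHull hmem
  have hz' : ∀ i, ∃ t ∈ Icc (0 : ℝ) 1, φ t = z i := fun i => hz ⟨i, rfl⟩
  choose t ht htz using hz'
  let eq := Fintype.equivFin ι
  refine ⟨Fintype.card ι, fun j => t (eq.symm j), fun j => w (eq.symm j), fun j => ht _,
    fun j => hw _, ?_, ?_⟩
  · rw [Equiv.sum_comp eq.symm (fun i => w i)]
    exact hw1
  · intro k hk
    rw [Equiv.sum_comp eq.symm (fun i => w i * t i ^ k)]
    have h1 := congrFun hx ⟨k, hk⟩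
    have h2 : (∫ t, φ t ∂μ) ⟨k, hk⟩ = ∫ t, t ^ k ∂μ := by
      have h0 : ∀ i : Fin K, Integrable (fun t => φ t i) μ := fun i =>
        (ContinuousLinearMap.proj (R := ℝ) (φ := fun _ : Fin K => ℝ) i).integrable_comp hint
      exact eval_integral h0 (⟨k, hk⟩ : Fin K)
    rw [h2, hμ, integral_Icc_eq_integral_Ioc, ← intervalIntegral.integral_of_le zero_le_one] at h1
    rw [integral_pow] at h1
    rw [Finset.sum_apply] at h1
    simp only [Pi.smul_apply, smul_eq_mul, one_pow] at h1
    have h3 : ∀ i, w i * z i ⟨k, hk⟩ = w i * t i ^ k := by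
      intro i
      rw [← htz i]
    rw [Finset.sum_congr rfl fun i _ => (h3 i).symm, h1]
    simp

/-- the hypothesis on the integrand -/
def Hyp (M : ℝ) (ψ : ℕ → ℝ → ℝ) : Prop := ∀ k, ∀ x ∈ Ioo (-1 : ℝ) 1,
  HasDerivAt (ψ k) (ψ (k + 1) x) x ∧ |ψ k x| ≤ (k.factorial : ℝ) * M / (1 - |x|) ^ k

theorem Hyp.bound0 {M : ℝ} {ψ : ℕ → ℝ → ℝ} (h : Hyp M ψ) {x : ℝ} (hx : x ∈ Ioo (-1 : ℝ) 1) :
    |ψ 0 x| ≤ M := by
  have := (h 0 x hx).2
  simpa using this

theorem Hyp.M_nonneg {M : ℝ} {ψ : ℕ → ℝ → ℝ} (h : Hyp M ψ) : 0 ≤ M :=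
  (abs_nonneg _).trans (h.bound0 (x := 0) (by constructor <;> norm_num))

theorem Hyp.integrable {M : ℝ} {ψ : ℕ → ℝ → ℝ} (h : Hyp M ψ) {a b : ℝ} (ha : -1 ≤ a)
    (hab : a ≤ b) (hb : b ≤ 1) : IntervalIntegrable (ψ 0) volume a b := by
  have h1 : IntegrableOn (ψ 0) (Ioo (-1 : ℝ) 1) := by
    have hc : ContinuousOn (ψ 0) (Ioo (-1 : ℝ) 1) := fun x hx =>
      ((h 0 x hx).1.continuousAt).continuousWithinAt
    refine Integrable.of_bound (C := M) ?_ ?_
    · exact hc.aestronglyMeasurable measurableSet_Ioo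
    · filter_upwards [ae_restrict_mem measurableSet_Ioo] with x hx
      exact h.bound0 hx
  rw [intervalIntegrable_iff_integrableOn_Icc_of_le hab]
  have h2 : IntegrableOn (ψ 0) (Icc (-1 : ℝ) 1) := by
    rw [integrableOn_Icc_iff_integrableOn_Ioo]
    exact h1
  exact h2.mono_set (Icc_subset_Icc ha hb)

theorem Hyp.integral_le {M : ℝ} {ψ : ℕ → ℝ → ℝ} (h : Hyp M ψ) {a b : ℝ} (ha : -1 ≤ a)
    (hab : a ≤ b) (hb : b ≤ 1) : |∫ x in a..b, ψ 0 x| ≤ M * (b - a) := by
  have := intervalIntegral.norm_integral_le_of_norm_le_const_ae (a := a) (b := b) (C := M)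
    (f := ψ 0) ?_
  · rwa [Real.norm_eq_abs, abs_of_nonneg (sub_nonneg.2 hab)] at this
  · have h1 : ∀ᵐ x : ℝ, x ≠ 1 := by
      rw [ae_iff]
      simp
    filter_upwards [h1] with x hx1 hx
    rw [uIoc_of_le hab] at hx
    apply h.bound0
    exact ⟨by linarith [hx.1], lt_of_le_of_ne (hx.2.trans hb) hx1⟩

/-- rules on subintervals -/
def PR (a b : ℝ) (n : ℕ) (δ : ℝ) : Prop := ∃ (J : ℕ) (c w : Fin J → ℝ), J ≤ n ∧
  (∀ j, c j ∈ Ioo (-1 : ℝ) 1) ∧ (∀ j, 0 < w j) ∧ ∑ j, w j = b - a ∧
  ∀ (M : ℝ) (ψ : ℕ → ℝ → ℝ), Hyp M ψ → |(∫ x in a..b, ψ 0 x) - ∑ j, w j * ψ 0 (c j)| ≤ δ * M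

theorem PR.append {a b c δ δ' : ℝ} {n n' : ℕ} (h : PR a b n δ) (h' : PR b c n' δ')
    (ha : -1 ≤ a) (hab : a ≤ b) (hbc : b ≤ c) (hc : c ≤ 1) : PR a c (n + n') (δ + δ') := by
  obtain ⟨J, x, w, hJ, hx, hw, hs, he⟩ := h
  obtain ⟨J', x', w', hJ', hx', hw', hs', he'⟩ := h'
  refine ⟨J + J', Fin.append x x', Fin.append w w', by omega, ?_, ?_, ?_, ?_⟩
  · intro j
    refine Fin.addCases (fun i => ?_) (fun i => ?_) j
    · rw [Fin.append_left]; exact hx i
    · rw [Fin.append_right]; exact hx' i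
  · intro j
    refine Fin.addCases (fun i => ?_) (fun i => ?_) j
    · rw [Fin.append_left]; exact hw i
    · rw [Fin.append_right]; exact hw' i
  · rw [Fin.sum_univ_add]
    simp only [Fin.append_left, Fin.append_right]
    rw [hs, hs']; ring
  · intro M ψ hψ
    rw [Fin.sum_univ_add]
    simp only [Fin.append_left, Fin.append_right]
    rw [← intervalIntegral.integral_add_adjacent_intervals
      (hψ.integrable ha hab (hbc.trans hc)) (hψ.integrable (ha.trans hab) hbc hc)]
    have e1 := he M ψ hψ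
    have e2 := he' M ψ hψ
    rw [abs_le] at *
    constructor <;> nlinarith [e1.1, e1.2, e2.1, e2.2]

theorem PR.neg {a b δ : ℝ} {n : ℕ} (h : PR a b n δ) : PR (-b) (-a) n δ := by
  obtain ⟨J, x, w, hJ, hx, hw, hs, he⟩ := h
  refine ⟨J, fun j => -x j, w, hJ, fun j => ?_, hw, by rw [hs]; ring, ?_⟩
  · have := hx j
    exact ⟨by linarith [this.2], by linarith [this.1]⟩
  · intro M ψ hψ
    have hψ' : Hyp M (fun k x => (-1) ^ k * ψ k (-x)) := by
      intro k y hy
      have hy' : -y ∈ Ioo (-1 : ℝ) 1 := ⟨by linarith [hy.2], by linarith [hy.1]⟩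
      obtain ⟨h1, h2⟩ := hψ k (-y) hy'
      constructor
      · have h3 := (h1.comp y (hasDerivAt_neg y)).const_mul ((-1 : ℝ) ^ k)
        refine h3.congr_deriv ?_
        simp only [pow_succ]; ring
      · rw [abs_mul, abs_pow, abs_neg, abs_one, one_pow, one_mul]
        rwa [abs_neg] at h2
    have h3 := he M _ hψ'
    simp only [pow_zero, one_mul] at h3
    rwa [intervalIntegral.integral_comp_neg] at h3

theorem PR.mono {a b δ δ' : ℝ} {n n' : ℕ} (h : PR a b n δ) (hn : n ≤ n') (hδ : δ ≤ δ') :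
    PR a b n' δ' := by
  obtain ⟨J, x, w, hJ, hx, hw, hs, he⟩ := h
  refine ⟨J, x, w, hJ.trans hn, hx, hw, hs, fun M ψ hψ => (he M ψ hψ).trans ?_⟩
  exact mul_le_mul_of_nonneg_right hδ hψ.M_nonneg

theorem PR.nil {a : ℝ} : PR a a 0 0 := by
  refine ⟨0, fun j => j.elim0, fun j => j.elim0, le_rfl, fun j => j.elim0, fun j => j.elim0, ?_, ?_⟩
  · simp
  · intro M ψ hψ
    simp

/-- end cell -/
theorem PR.last {a : ℝ} (ha : -1 ≤ a) (ha1 : a < 1) : PR a 1 1 (2 * (1 - a)) := by
  refine ⟨1, fun _ => (a + 1) / 2, fun _ => 1 - a, le_rfl, fun _ => ⟨by linarith, by linarith⟩,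
    fun _ => by linarith, by simp, ?_⟩
  intro M ψ hψ
  have h1 := hψ.integral_le ha ha1.le le_rfl
  have h2 := hψ.bound0 (x := (a + 1) / 2) ⟨by linarith, by linarith⟩
  simp only [Finset.univ_unique, Fin.default_eq_zero, Finset.sum_const, Finset.card_singleton,
    one_smul]
  have h3 : |(1 - a) * ψ 0 ((a + 1) / 2)| ≤ (1 - a) * M := by
    rw [abs_mul, abs_of_nonneg (by linarith : (0 : ℝ) ≤ 1 - a)]
    exact mul_le_mul_of_nonneg_left h2 (by linarith)
  calc _ ≤ |∫ x in a..1, ψ 0 x| + |(1 - a) * ψ 0 ((a + 1) / 2)| := abs_sub _ _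
    _ ≤ M * (1 - a) + (1 - a) * M := add_le_add h1 h3
    _ = _ := by ring

/-- Taylor's inequality for a family of successive derivatives -/
theorem taylor (K : ℕ) : ∀ (ψ : ℕ → ℝ → ℝ) (a b B : ℝ), (∀ k, ∀ x ∈ Icc a b,
    HasDerivAt (ψ k) (ψ (k + 1) x) x) → (∀ x ∈ Icc a b, |ψ K x| ≤ B) → ∀ x ∈ Icc a b,
    |ψ 0 x - ∑ k ∈ Finset.range K, ψ k a * (x - a) ^ k / k.factorial|
      ≤ B * (x - a) ^ K / K.factorial := by
  induction K with
  | zero =>
      intro ψ a b B hd hB x hx
      simpa using hB x hx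
  | succ K ih =>
      intro ψ a b B hd hB
      have ih' := ih (fun k => ψ (k + 1)) a b B (fun k x hx => hd (k + 1) x hx) hB
      have hder : ∀ x ∈ Icc a b, HasDerivAt (fun x => ψ 0 x - ∑ k ∈ Finset.range (K + 1),
          ψ k a * (x - a) ^ k / k.factorial) (ψ 1 x - ∑ k ∈ Finset.range K,
          ψ (k + 1) a * (x - a) ^ k / k.factorial) x := by
        intro x hx
        apply (hd 0 x hx).sub
        have h1 : ∀ k ∈ Finset.range (K + 1), HasDerivAt
            (fun x => ψ k a * (x - a) ^ k / k.factorial)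
            (ψ k a * ((k : ℝ) * (x - a) ^ (k - 1) * 1) / k.factorial) x := by
          intro k _
          exact ((((hasDerivAt_id x).sub_const a).pow k).const_mul (ψ k a)).div_const _
        have h2 := HasDerivAt.fun_sum h1
        refine h2.congr_deriv ?_
        rw [Finset.sum_range_succ']
        simp only [Nat.cast_zero, zero_mul, mul_zero, zero_div, add_zero]
        apply Finset.sum_congr rfl
        intro k _
        rw [Nat.factorial_succ]
        have : ((k + 1 : ℕ) : ℝ) ≠ 0 := by positivity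
        have h3 : (k.factorial : ℝ) ≠ 0 := by positivity
        push_cast at this ⊢
        field_simp
      have hB' : ∀ x, HasDerivAt (fun x => B * (x - a) ^ (K + 1) / (K + 1).factorial)
          (B * (x - a) ^ K / K.factorial) x := by
        intro x
        have := ((((hasDerivAt_id x).sub_const a).pow (K + 1)).const_mul B).div_const
          ((K + 1).factorial : ℝ)
        refine this.congr_deriv ?_
        rw [Nat.factorial_succ]
        have h4 : ((K + 1 : ℕ) : ℝ) ≠ 0 := by positivity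
        have h3 : (K.factorial : ℝ) ≠ 0 := by positivity
        push_cast at h4 ⊢
        simp only [id]
        field_simp
      intro x hx
      have := image_norm_le_of_norm_deriv_right_le_deriv_boundary' (a := a) (b := b)
        (f := fun x => ψ 0 x - ∑ k ∈ Finset.range (K + 1), ψ k a * (x - a) ^ k / k.factorial)
        (f' := fun x => ψ 1 x - ∑ k ∈ Finset.range K, ψ (k + 1) a * (x - a) ^ k / k.factorial)
        (B := fun x => B * (x - a) ^ (K + 1) / (K + 1).factorial)
        (B' := fun x => B * (x - a) ^ K / K.factorial)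
        (fun x hx => (hder x hx).continuousAt.continuousWithinAt)
        (fun x hx => (hder x ⟨hx.1, hx.2.le⟩).hasDerivWithinAt)
        (by
          rw [Finset.sum_range_succ']
          simp)
        (fun x _ => (hB' x).continuousAt.continuousWithinAt)
        (fun x _ => (hB' x).hasDerivWithinAt)
        (fun x hx => ih' x ⟨hx.1, hx.2.le⟩) hx
      exact this

/-- the rule on a small cell -/
theorem cell {K n : ℕ} {t w : Fin n → ℝ} (ht : ∀ j, t j ∈ Icc (0 : ℝ) 1)
    (hw : ∀ j, 0 < w j) (hw1 : ∑ j, w j = 1) (hex : ∀ k < K, ∑ j, w j * t j ^ k = 1 / (k + 1))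
    {a l r : ℝ} (ha : 0 ≤ a) (hl : 0 < l) (hr : 0 < r) (hal : a + l ≤ 1 - r) :
    PR a (a + l) n (2 * l * (l / r) ^ K) := by
  have hc : ∀ j, a + l * t j ∈ Icc a (a + l) := by
    intro j
    have := ht j
    constructor
    · nlinarith [this.1]
    · nlinarith [this.2]
  refine ⟨n, fun j => a + l * t j, fun j => l * w j, le_rfl, fun j => ?_, fun j =>
    mul_pos hl (hw j), ?_, ?_⟩
  · have := hc j
    exact ⟨by linarith [this.1], by linarith [this.2]⟩
  · rw [← Finset.mul_sum, hw1]; ring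
  intro M ψ hψ
  have hM := hψ.M_nonneg
  have hsub : ∀ x ∈ Icc a (a + l), x ∈ Ioo (-1 : ℝ) 1 := fun x hx =>
    ⟨by linarith [hx.1], by linarith [hx.2]⟩
  set T : ℝ → ℝ := fun x => ∑ k ∈ Finset.range K, ψ k a * (x - a) ^ k / k.factorial with hT
  have hTc : Continuous T := by rw [hT]; fun_prop
  have hR : ∀ x ∈ Icc a (a + l), |ψ 0 x - T x| ≤ M * (l / r) ^ K := by
    intro x hx
    have h1 := taylor K ψ a (a + l) (K.factorial * M / r ^ K) (fun k x hx => (hψ k x (hsub x hx)).1)
      (by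
        intro y hy
        refine (hψ K y (hsub y hy)).2.trans ?_
        have hy0 : |y| = y := abs_of_nonneg (ha.trans hy.1)
        rw [hy0]
        apply div_le_div_of_nonneg_left (by positivity) (by positivity)
        apply pow_le_pow_left₀ hr.le
        linarith [hy.2]) x hx
    refine h1.trans ?_
    have h2 : (x - a) ^ K ≤ l ^ K := pow_le_pow_left₀ (by linarith [hx.1]) (by linarith [hx.2]) K
    have h3 : (K.factorial : ℝ) ≠ 0 := by positivity
    rw [div_pow]
    have : (K.factorial : ℝ) * M / r ^ K * (x - a) ^ K / K.factorial = M * ((x - a) ^ K / r ^ K) := by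
      field_simp
    rw [this]
    apply mul_le_mul_of_nonneg_left _ hM
    exact div_le_div_of_nonneg_right h2 (by positivity)
  have hexact : ∫ x in a..(a + l), T x = ∑ j, (l * w j) * T (a + l * t j) := by
    have h1 : ∫ x in a..(a + l), T x = ∑ k ∈ Finset.range K,
        ψ k a / k.factorial * (l ^ (k + 1) / (k + 1)) := by
      rw [hT]
      simp only
      rw [intervalIntegral.integral_finsetSum]
      · apply Finset.sum_congr rfl
        intro k _
        have : ∀ x : ℝ, ψ k a * (x - a) ^ k / k.factorial = ψ k a / k.factorial * (x - a) ^ k := by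
          intro x; ring
        simp only [this]
        rw [intervalIntegral.integral_const_mul, intervalIntegral.integral_comp_sub_right
          (fun x => x ^ k), integral_pow]
        simp
      · intro k _
        apply Continuous.intervalIntegrable
        fun_prop
    rw [h1]
    have h2 : ∀ j, (l * w j) * T (a + l * t j) = ∑ k ∈ Finset.range K,
        ψ k a / k.factorial * (l ^ (k + 1)) * (w j * t j ^ k) := by
      intro j
      rw [hT]
      simp only
      rw [Finset.mul_sum]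
      apply Finset.sum_congr rfl
      intro k _
      rw [add_sub_cancel_left, mul_pow]
      ring
    simp only [h2]
    rw [Finset.sum_comm]
    apply Finset.sum_congr rfl
    intro k hk
    rw [← Finset.mul_sum, hex k (Finset.mem_range.1 hk)]
    ring
  have e1 : |∫ x in a..(a + l), (ψ 0 x - T x)| ≤ M * (l / r) ^ K * l := by
    have := intervalIntegral.norm_integral_le_of_norm_le_const (a := a) (b := a + l)
      (C := M * (l / r) ^ K) (f := fun x => ψ 0 x - T x) (by
        intro x hx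
        rw [uIoc_of_le (by linarith)] at hx
        exact hR x ⟨hx.1.le, hx.2⟩)
    rwa [Real.norm_eq_abs, add_sub_cancel_left, abs_of_pos hl] at this
  have e2 : |∑ j, (l * w j) * (ψ 0 (a + l * t j) - T (a + l * t j))| ≤ M * (l / r) ^ K * l := by
    calc _ ≤ ∑ j, |(l * w j) * (ψ 0 (a + l * t j) - T (a + l * t j))| :=
          Finset.abs_sum_le_sum_abs _ _
      _ ≤ ∑ j, (l * w j) * (M * (l / r) ^ K) := by
          apply Finset.sum_le_sum
          intro j _
          rw [abs_mul, abs_of_pos (mul_pos hl (hw j))]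
          exact mul_le_mul_of_nonneg_left (hR _ (hc j)) (mul_pos hl (hw j)).le
      _ = _ := by
          rw [← Finset.sum_mul, ← Finset.mul_sum, hw1]; ring
  have e3 : (∫ x in a..(a + l), ψ 0 x) - ∑ j, (l * w j) * ψ 0 (a + l * t j)
      = (∫ x in a..(a + l), (ψ 0 x - T x))
        - ∑ j, (l * w j) * (ψ 0 (a + l * t j) - T (a + l * t j)) := by
    rw [intervalIntegral.integral_sub (hψ.integrable (by linarith) (by linarith) (by linarith))
      (hTc.intervalIntegrable _ _), hexact]
    simp only [mul_sub, Finset.sum_sub_distrib]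
    ring
  rw [e3]
  calc _ ≤ |∫ x in a..(a + l), (ψ 0 x - T x)| +
        |∑ j, (l * w j) * (ψ 0 (a + l * t j) - T (a + l * t j))| := abs_sub _ _
    _ ≤ M * (l / r) ^ K * l + M * (l / r) ^ K * l := add_le_add e1 e2
    _ = _ := by ring

/-- `p` consecutive small cells -/
theorem cells {K n : ℕ} {t w : Fin n → ℝ} (ht : ∀ j, t j ∈ Icc (0 : ℝ) 1)
    (hw : ∀ j, 0 < w j) (hw1 : ∑ j, w j = 1) (hex : ∀ k < K, ∑ j, w j * t j ^ k = 1 / (k + 1))
    {a l r : ℝ} (ha : 0 ≤ a) (hl : 0 < l) (hr : 0 < r) (p : ℕ) (hal : a + p * l ≤ 1 - r) :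
    PR a (a + p * l) (p * n) (p * (2 * l * (l / r) ^ K)) := by
  induction p with
  | zero => simpa using (PR.nil (a := a))
  | succ p ih =>
      push_cast at hal ⊢
      have h1 : a + p * l ≤ 1 - r := by nlinarith
      have h2 := cell ht hw hw1 hex (a := a + p * l) (l := l) (r := r) (by positivity) hl hr
        (by linarith)
      have h3 := (ih h1).append h2 (by linarith) (by nlinarith [mul_nonneg (Nat.cast_nonneg (α := ℝ) p) hl.le]) (by linarith)
        (by linarith)
      have e1 : a + p * l + l = a + (p + 1) * l := by ring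
      rw [e1] at h3
      refine h3.mono (by ring_nf; rfl) (by ring_nf; rfl)

/-- the dyadic cells -/
theorem dyadic {K n : ℕ} {t w : Fin n → ℝ} (ht : ∀ j, t j ∈ Icc (0 : ℝ) 1)
    (hw : ∀ j, 0 < w j) (hw1 : ∑ j, w j = 1) (hex : ∀ k < K, ∑ j, w j * t j ^ k = 1 / (k + 1))
    (N : ℕ) (hN : 1 ≤ N) (m : ℕ) :
    PR 0 (1 - (1 / 2) ^ m) (m * (N * n)) (2 * (1 - (1 / 2) ^ m) * (1 / N) ^ K) := by
  have hN0 : (0 : ℝ) < N := by exact_mod_cast hN
  induction m with
  | zero => simpa using (PR.nil (a := 0))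
  | succ m ih =>
      have hp : (0 : ℝ) < (1 / 2) ^ m := by positivity
      have hp1 : ((1 : ℝ) / 2) ^ m ≤ 1 := pow_le_one₀ (by norm_num) (by norm_num)
      have h2 := cells ht hw hw1 hex (a := 1 - (1 / 2) ^ m) (l := (1 / 2) ^ (m + 1) / N)
        (r := (1 / 2) ^ (m + 1)) (by linarith) (by positivity) (by positivity) N (by
          rw [mul_div_cancel₀ _ hN0.ne', pow_succ]; linarith)
      have e0 : (1 : ℝ) - (1 / 2) ^ m + N * ((1 / 2) ^ (m + 1) / N) = 1 - (1 / 2) ^ (m + 1) := by
        rw [mul_div_cancel₀ _ hN0.ne', pow_succ]; ring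
      rw [e0] at h2
      have h3 := ih.append h2 (by norm_num) (by linarith) (by rw [pow_succ]; linarith) (by
        have : (0 : ℝ) < (1 / 2) ^ (m + 1) := by positivity
        linarith)
      refine h3.mono (by ring_nf; rfl) (le_of_eq ?_)
      have e1 : ((1 : ℝ) / 2) ^ (m + 1) / N / (1 / 2) ^ (m + 1) = 1 / N := by
        field_simp
      rw [e1]
      have e2 : (N : ℝ) * (2 * ((1 / 2) ^ (m + 1) / N) * (1 / N) ^ K)
          = 2 * (1 / 2) ^ (m + 1) * (1 / N) ^ K := by
        field_simp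
      rw [e2, pow_succ]
      ring

/-- the complete rule -/
theorem full {K n : ℕ} {t w : Fin n → ℝ} (ht : ∀ j, t j ∈ Icc (0 : ℝ) 1)
    (hw : ∀ j, 0 < w j) (hw1 : ∑ j, w j = 1) (hex : ∀ k < K, ∑ j, w j * t j ^ k = 1 / (k + 1))
    (N : ℕ) (hN : 1 ≤ N) (m : ℕ) :
    PR (-1) 1 (2 * (m * (N * n) + 1)) (4 * (1 / N) ^ K + 4 * (1 / 2) ^ m) := by
  have hN0 : (0 : ℝ) < N := by exact_mod_cast hN
  have hp : (0 : ℝ) < (1 / 2) ^ m := by positivity
  have hp1 : ((1 : ℝ) / 2) ^ m ≤ 1 := pow_le_one₀ (by norm_num) (by norm_num)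
  have h1 := dyadic ht hw hw1 hex N hN m
  have h2 := PR.last (a := 1 - (1 / 2) ^ m) (by linarith) (by linarith)
  have h3 := h1.append h2 (by norm_num) (by linarith) (by linarith) le_rfl
  have h4 : PR 0 1 (m * (N * n) + 1) (2 * (1 / N) ^ K + 2 * (1 / 2) ^ m) := by
    refine h3.mono le_rfl ?_
    have : (0 : ℝ) ≤ (1 / N) ^ K := by positivity
    nlinarith
  have h5 := h4.neg
  rw [neg_zero] at h5
  have h6 := h5.append h4 (by norm_num) (by norm_num) (by norm_num) le_rfl
  exact h6.mono (by ring_nf; rfl) (by ring_nf; rfl)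

end LCS.QUAD

namespace LCS

open QUAD

/-- QUAD: existence of quadrature rules. -/
theorem quad : S_QUAD := by
  intro ε hε
  obtain ⟨K, hK⟩ := exists_nat_gt (2 / ε)
  have hK0 : (0 : ℝ) < K := (by positivity : (0 : ℝ) < 2 / ε).trans hK
  have hK1 : 1 ≤ K := by exact_mod_cast hK0
  obtain ⟨n, t, w, ht, hw, hw1, hex⟩ := base_rule K
  refine ⟨(8 * K * n + 2) * 64, ?_⟩
  intro η hη hη1
  set X : ℝ := (8 / η) ^ (1 / (K : ℝ)) with hX
  have h8 : 1 ≤ 8 / η := by
    rw [le_div_iff₀ hη]; linarith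
  have hX1 : 1 ≤ X := Real.one_le_rpow h8 (by positivity)
  set N : ℕ := ⌈X⌉₊ with hN
  have hNX : X ≤ N := Nat.le_ceil X
  have hN2 : (N : ℝ) ≤ 2 * X := by
    have := (Nat.ceil_lt_add_one (by linarith : (0 : ℝ) ≤ X)).le
    linarith
  have hN1 : 1 ≤ N := by
    have : (1 : ℝ) ≤ N := hX1.trans hNX
    exact_mod_cast this
  have hN0 : (0 : ℝ) < N := by linarith
  have hXK : X ^ K = 8 / η := by
    rw [hX, ← Real.rpow_natCast, ← Real.rpow_mul (by positivity), one_div,
      inv_mul_cancel₀ hK0.ne', Real.rpow_one]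
  have hNK : 8 / η ≤ (N : ℝ) ^ K := by
    rw [← hXK]
    exact pow_le_pow_left₀ (by linarith) hNX K
  have h1 : ((1 : ℝ) / N) ^ K ≤ η / 8 := by
    rw [div_pow, one_pow, div_le_iff₀ (by positivity)]
    have := mul_le_mul_of_nonneg_left hNK (by positivity : (0 : ℝ) ≤ η / 8)
    have e : η / 8 * (8 / η) = 1 := by field_simp
    linarith
  have h2 : ((1 : ℝ) / 2) ^ (K * N) ≤ η / 8 := by
    rw [mul_comm K N, pow_mul]
    refine le_trans ?_ h1
    apply pow_le_pow_left₀ (by positivity)
    rw [div_pow, one_pow]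
    apply div_le_div_of_nonneg_left (by norm_num) hN0
    exact_mod_cast (Nat.lt_two_pow_self (n := N)).le
  obtain ⟨J, c, w', hJ, hc, hw', hs, he⟩ := full ht hw hw1 hex N hN1 (K * N)
  refine ⟨J, c, w', ?_, hc, hw', by rw [hs]; norm_num, ?_⟩
  · have hJ' : (J : ℝ) ≤ 2 * (K * N * (N * n) + 1) := by exact_mod_cast hJ
    have h3 : (N : ℝ) * N ≤ 4 * X ^ 2 := by nlinarith
    have h4 : (J : ℝ) ≤ (8 * K * n + 2) * X ^ 2 := by
      have h5 : (K : ℝ) * n * (N * N) ≤ K * n * (4 * X ^ 2) :=
        mul_le_mul_of_nonneg_left h3 (by positivity)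
      have h6 : 1 ≤ X ^ 2 := one_le_pow₀ hX1
      nlinarith
    refine h4.trans ?_
    have h7 : X ^ 2 ≤ 64 * η ^ (-ε) := by
      rw [hX, ← Real.rpow_natCast, ← Real.rpow_mul (by positivity),
        Real.div_rpow (by norm_num) hη.le, div_eq_mul_inv, ← Real.rpow_neg hη.le]
      apply mul_le_mul
      · have h8 : (8 : ℝ) ^ (1 / (K : ℝ) * ((2 : ℕ) : ℝ)) ≤ 8 ^ (2 : ℝ) := by
          apply Real.rpow_le_rpow_of_exponent_le (by norm_num)
          have : 1 / (K : ℝ) ≤ 1 := by
            rw [div_le_one hK0]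
            exact_mod_cast hK1
          push_cast
          linarith
        refine h8.trans ?_
        norm_num
      · apply Real.rpow_le_rpow_of_exponent_ge hη hη1.le
        have h9 : 2 / (K : ℝ) ≤ ε := by
          rw [div_le_iff₀ hK0]
          rw [div_lt_iff₀ hε] at hK
          linarith
        have : 1 / (K : ℝ) * ((2 : ℕ) : ℝ) = 2 / K := by push_cast; ring
        rw [this]
        linarith
      · positivity
      · norm_num
    have := mul_le_mul_of_nonneg_left h7 (by positivity : (0 : ℝ) ≤ 8 * K * n + 2)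
    linarith
  · intro M ψ hψ
    refine (he M ψ hψ).trans ?_
    exact mul_le_mul_of_nonneg_right (by linarith) (Hyp.M_nonneg hψ)

end LCS
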