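import Vale.Agent.P347.Base

/-!
# P347, module ROT: asymptotic invariance of the rotation-kick steps
-/

namespace LCS

namespace ROT

open MeasureTheory ProbabilityTheory Set Filter
open scoped ENNReal NNReal Topology RealInnerProductSpace BigOperators ContDiff

variable {d : ℕ}

/-- the discrepancy exponent -/
noncomputable def D (f : E d → ℝ) (τ : ℝ) (q : E d × E d) : ℝ :=
  f q.1 - f (Real.cos τ • q.1 - Real.sin τ • q.2)
    - τ * ⟪gradient f (Real.cos τ • q.1 - Real.sin τ • q.2), Real.sin τ • q.1 + Real.cos τ • q.2⟫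
    - τ ^ 2 * ‖gradient f (Real.cos τ • q.1 - Real.sin τ • q.2)‖ ^ 2 / 2

theorem back (τ : ℝ) (y z : E d) :
    Real.cos τ • (Real.cos τ • y + Real.sin τ • z) - Real.sin τ • (-Real.sin τ • y + Real.cos τ • z)
      = y := by
  have h := Real.cos_sq_add_sin_sq τ
  have : Real.cos τ • (Real.cos τ • y + Real.sin τ • z)
      - Real.sin τ • (-Real.sin τ • y + Real.cos τ • z)
      = (Real.cos τ ^ 2 + Real.sin τ ^ 2) • y := by module
  rw [this, h, one_smul]

theorem back' (τ : ℝ) (y z : E d) :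
    Real.sin τ • (Real.cos τ • y + Real.sin τ • z) + Real.cos τ • (-Real.sin τ • y + Real.cos τ • z)
      = z := by
  have h := Real.cos_sq_add_sin_sq τ
  have : Real.sin τ • (Real.cos τ • y + Real.sin τ • z)
      + Real.cos τ • (-Real.sin τ • y + Real.cos τ • z)
      = (Real.cos τ ^ 2 + Real.sin τ ^ 2) • z := by module
  rw [this, h, one_smul]

theorem continuous_D {f : E d → ℝ} (hf : ContDiff ℝ 2 f) (τ : ℝ) : Continuous (D f τ) := by
  have h1 : Continuous f := hf.continuous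
  have h2 : Continuous (gradient f) := (contDiff_gradient hf).continuous
  unfold D
  fun_prop

theorem continuous_kick {f : E d → ℝ} (hf : ContDiff ℝ 2 f) (τ : ℝ) : Continuous (kick f τ) := by
  have h2 : Continuous (gradient f) := (contDiff_gradient hf).continuous
  unfold kick
  fun_prop

theorem kick_eq (f : E d → ℝ) (τ : ℝ) (y z : E d) :
    kick f τ (y, z) = ContinuousLinearMap.rotation τ (y, z + (-(τ • gradient f y))) := by
  rw [ContinuousLinearMap.rotation_apply, kick, sub_eq_add_neg]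

theorem rot_mp (τ : ℝ) : MeasurePreserving (ContinuousLinearMap.rotation τ)
    ((gam d).prod (gam d)) ((gam d).prod (gam d)) where
  measurable := (ContinuousLinearMap.rotation τ).continuous.measurable
  map_eq := IsGaussian.map_rotation_eq_self (by simpa using integral_id_stdGaussian) τ

theorem lint_kick (hCM : S_CM) {f : E d → ℝ} (hf : ContDiff ℝ 2 f) (τ : ℝ)
    {g : E d × E d → ℝ≥0∞} (hg : Measurable g) :
    ∫⁻ q, ENNReal.ofReal (Real.exp (-f q.1)) * g (kick f τ q) ∂((gam d).prod (gam d))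
      = ∫⁻ q, ENNReal.ofReal (Real.exp (-f q.1 + D f τ q)) * g q ∂((gam d).prod (gam d)) := by
  have h1 : Continuous f := hf.continuous
  have h2 : Continuous (gradient f) := (contDiff_gradient hf).continuous
  have hR : Measurable (ContinuousLinearMap.rotation τ : E d × E d → E d × E d) :=
    (ContinuousLinearMap.rotation τ).continuous.measurable
  have hD := continuous_D hf τ
  rw [lintegral_prod _ (by
    refine Measurable.aemeasurable ?_
    refine Measurable.mul ?_ (hg.comp (continuous_kick hf τ).measurable)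
    exact (Continuous.measurable (by fun_prop)).ennreal_ofReal)]
  have inner : ∀ y : E d, ∫⁻ z, ENNReal.ofReal (Real.exp (-f y)) * g (kick f τ (y, z)) ∂(gam d)
      = ∫⁻ z, ENNReal.ofReal (Real.exp (-f (ContinuousLinearMap.rotation τ (y, z)).1
          + D f τ (ContinuousLinearMap.rotation τ (y, z)))) *
          g (ContinuousLinearMap.rotation τ (y, z)) ∂(gam d) := by
    intro y
    have hG : Measurable fun z => g (ContinuousLinearMap.rotation τ (y, z)) :=
      hg.comp (hR.comp (measurable_const.prodMk measurable_id))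
    have hG' : Measurable fun z => g (kick f τ (y, z)) :=
      hg.comp ((continuous_kick hf τ).measurable.comp (measurable_const.prodMk measurable_id))
    rw [lintegral_const_mul _ hG']
    have e1 := (hCM d).1 (-(τ • gradient f y)) (fun z => g (ContinuousLinearMap.rotation τ (y, z))) hG
    have e2 : ∫⁻ z, g (kick f τ (y, z)) ∂(gam d)
        = ∫⁻ z, g (ContinuousLinearMap.rotation τ (y, z + (-(τ • gradient f y)))) ∂(gam d) := by
      refine lintegral_congr fun z => ?_
      rw [kick_eq]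
    rw [e2, e1, ← lintegral_const_mul _ (by
      refine hG.mul ?_
      exact (Continuous.measurable (by fun_prop)).ennreal_ofReal)]
    refine lintegral_congr fun z => ?_
    rw [mul_comm (g _), ← mul_assoc, ← ENNReal.ofReal_mul (Real.exp_pos _).le, ← Real.exp_add]
    congr 3
    rw [D, ContinuousLinearMap.rotation_apply]
    simp only
    rw [back, back', inner_neg_left, real_inner_smul_left, norm_neg, norm_smul, mul_pow,
      Real.norm_eq_abs, sq_abs]
    ring
  rw [lintegral_congr inner]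
  have hK : Measurable fun q : E d × E d =>
      ENNReal.ofReal (Real.exp (-f q.1 + D f τ q)) * g q := by
    refine Measurable.mul ?_ hg
    exact (Continuous.measurable (by fun_prop)).ennreal_ofReal
  rw [← (rot_mp τ).lintegral_comp hK, lintegral_prod _ (by
    exact (hK.comp hR).aemeasurable)]

theorem real_bound {n m g t s x R I : ℝ} (hn : 0 ≤ n) (hm : 0 ≤ m) (hg : 0 ≤ g)
    (hg1 : g ≤ 2 + n) (ht : 0 ≤ t) (hs0 : 0 ≤ s) (hs1 : s ≤ 1 / 20) (hx0 : 0 ≤ x)
    (hx : x ≤ t * (n + m) ^ 2) (hR0 : 0 ≤ R) (hR : R ≤ s * x) (hI : |I| ≤ g * (t * (n + m))) :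
    |R + I - t * g ^ 2 / 2| ≤ t * (8 * (1 + n ^ 2 + m ^ 2)) := by
  have i3 := abs_le.mp hI
  have k1 : g * (n + m) ≤ (2 + n) * (n + m) := mul_le_mul_of_nonneg_right hg1 (by linarith)
  have k2 : g ^ 2 ≤ (2 + n) ^ 2 := pow_le_pow_left₀ hg hg1 2
  have k3 : (n + m) ^ 2 / 20 + (2 + n) * (n + m) + (2 + n) ^ 2 / 2 ≤ 8 * (1 + n ^ 2 + m ^ 2) := by
    have e : 8 * (1 + n ^ 2 + m ^ 2) - ((n + m) ^ 2 / 20 + (2 + n) * (n + m) + (2 + n) ^ 2 / 2)
        = 11 / 20 * (n - m) ^ 2 + 2 * (n - 1) ^ 2 + (m - 1) ^ 2 + 39 / 10 * n ^ 2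
          + 64 / 10 * m ^ 2 + 3 := by ring
    have : 0 ≤ 11 / 20 * (n - m) ^ 2 + 2 * (n - 1) ^ 2 + (m - 1) ^ 2 + 39 / 10 * n ^ 2
          + 64 / 10 * m ^ 2 + 3 := by positivity
    linarith
  have k4 : s * x ≤ t * ((n + m) ^ 2 / 20) := by
    have : s * x ≤ 1 / 20 * (t * (n + m) ^ 2) := mul_le_mul hs1 hx hx0 (by norm_num)
    linarith
  have k5 : t * ((n + m) ^ 2 / 20 + (2 + n) * (n + m) + (2 + n) ^ 2 / 2)
      ≤ t * (8 * (1 + n ^ 2 + m ^ 2)) := mul_le_mul_of_nonneg_left k3 ht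
  have k6 : g * (t * (n + m)) ≤ t * ((2 + n) * (n + m)) := by
    have := mul_le_mul_of_nonneg_left k1 ht
    have e : g * (t * (n + m)) = t * (g * (n + m)) := by ring
    rw [e]; exact this
  have k7 : t * g ^ 2 ≤ t * (2 + n) ^ 2 := mul_le_mul_of_nonneg_left k2 ht
  have p1 : 0 ≤ t * g ^ 2 := by positivity
  have p2 : 0 ≤ t * ((n + m) ^ 2 / 20) := by positivity
  have p3 : 0 ≤ t * ((2 + n) * (n + m)) := by positivity
  have e5 : t * ((n + m) ^ 2 / 20 + (2 + n) * (n + m) + (2 + n) ^ 2 / 2)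
      = t * ((n + m) ^ 2 / 20) + t * ((2 + n) * (n + m)) + t * (2 + n) ^ 2 / 2 := by ring
  rw [e5] at k5
  rw [abs_le]
  constructor
  · linarith
  · linarith

theorem trig_bounds {τ : ℝ} (h0 : 0 < τ) (h1 : τ ≤ 1) :
    |Real.cos τ - 1| ≤ τ ^ 2 / 2 ∧ |Real.sin τ - τ| ≤ τ ^ 2 / 2 ∧ |Real.sin τ| ≤ τ := by
  have s2 := sq_nonneg τ
  have h2 := Real.sin_gt_sub_cube h0
  have h3 := Real.sin_le h0.le
  have h5 : τ ^ 2 ≤ τ := by nlinarith
  have h4 : τ ^ 3 ≤ τ ^ 2 := by nlinarith
  refine ⟨?_, ?_, ?_⟩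
  · rw [abs_le]
    have := Real.one_sub_sq_div_two_le_cos (x := τ)
    have h3 := Real.cos_le_one τ
    constructor <;> linarith
  · rw [abs_le]
    constructor <;> linarith
  · rw [abs_le]
    constructor <;> linarith

theorem D_bound {s A : ℝ} {f : E d → ℝ} (hp : Par d s A) (hf : Loc d s A f) {τ : ℝ} (h0 : 0 < τ)
    (h1 : τ ≤ 1) (q : E d × E d) :
    |D f τ q| ≤ 8 * τ ^ 2 * (1 + ‖q.1‖ ^ 2 + ‖q.2‖ ^ 2) := by
  obtain ⟨a, b⟩ := q
  set y := Real.cos τ • a - Real.sin τ • b with hy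
  set z := Real.sin τ • a + Real.cos τ • b with hz
  have hcs := Real.cos_sq_add_sin_sq τ
  have ha : a = Real.cos τ • y + Real.sin τ • z := by
    have : Real.cos τ • y + Real.sin τ • z = (Real.cos τ ^ 2 + Real.sin τ ^ 2) • a := by
      rw [hy, hz]; module
    rw [this, hcs, one_smul]
  have hn : ‖y‖ ^ 2 + ‖z‖ ^ 2 = ‖a‖ ^ 2 + ‖b‖ ^ 2 := by
    rw [hy, hz, @norm_sub_sq_real, @norm_add_sq_real, norm_smul, norm_smul, norm_smul, norm_smul,
      real_inner_smul_left, real_inner_smul_left, real_inner_smul_right, real_inner_smul_right]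
    simp only [mul_pow, Real.norm_eq_abs, sq_abs]
    have : Real.cos τ ^ 2 * ‖a‖ ^ 2 - 2 * (Real.cos τ * (Real.sin τ * ⟪a, b⟫))
        + Real.sin τ ^ 2 * ‖b‖ ^ 2
        + (Real.sin τ ^ 2 * ‖a‖ ^ 2 + 2 * (Real.sin τ * (Real.cos τ * ⟪a, b⟫))
        + Real.cos τ ^ 2 * ‖b‖ ^ 2) = (Real.cos τ ^ 2 + Real.sin τ ^ 2) * (‖a‖ ^ 2 + ‖b‖ ^ 2) := by
      ring
    rw [this, hcs, one_mul]
  have hs0 := hp.s_pos
  have hs1 := hp.s_le
  -- trigonometric bounds
  obtain ⟨c1, c2, c3⟩ := trig_bounds h0 h1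
  set n := ‖y‖ with hnn
  set m := ‖z‖ with hmm
  have hn0 : 0 ≤ n := norm_nonneg _
  have hm0 : 0 ≤ m := norm_nonneg _
  set g := ‖gradient f y‖ with hg
  have hg0 : 0 ≤ g := norm_nonneg _
  have hg1 : g ≤ 2 + n := by
    have := hf.grad_le hs0.le y
    have h3 := hp.sA
    nlinarith
  have e1 : a - y = (Real.cos τ - 1) • y + Real.sin τ • z := by
    nth_rewrite 1 [ha]; module
  have e2 : a - y - τ • z = (Real.cos τ - 1) • y + (Real.sin τ - τ) • z := by
    rw [e1]; module
  have b1 : ‖a - y‖ ≤ τ * (n + m) := by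
    rw [e1]
    refine (norm_add_le _ _).trans ?_
    rw [norm_smul, norm_smul, Real.norm_eq_abs, Real.norm_eq_abs]
    have h3 : |Real.cos τ - 1| * ‖y‖ ≤ τ ^ 2 / 2 * n := mul_le_mul_of_nonneg_right c1 hn0
    have h4 : |Real.sin τ| * ‖z‖ ≤ τ * m := mul_le_mul_of_nonneg_right c3 hm0
    have h5 : τ ^ 2 / 2 * n ≤ τ * n := by
      refine mul_le_mul_of_nonneg_right ?_ hn0
      nlinarith
    linarith
  have b2 : ‖a - y - τ • z‖ ≤ τ ^ 2 * (n + m) := by
    rw [e2]
    refine (norm_add_le _ _).trans ?_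
    rw [norm_smul, norm_smul, Real.norm_eq_abs, Real.norm_eq_abs]
    have h3 : |Real.cos τ - 1| * ‖y‖ ≤ τ ^ 2 / 2 * n := mul_le_mul_of_nonneg_right c1 hn0
    have h4 : |Real.sin τ - τ| * ‖z‖ ≤ τ ^ 2 / 2 * m := mul_le_mul_of_nonneg_right c2 hm0
    have h5 : τ ^ 2 / 2 * n + τ ^ 2 / 2 * m = τ ^ 2 * (n + m) / 2 := by ring
    have h6 : 0 ≤ τ ^ 2 * (n + m) := by positivity
    linarith
  have t1 := taylor_lower hf.smooth (m := 0) (fun x v => by rw [zero_mul]; exact hf.lower x v) y a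
  have t2 := taylor_upper hf.smooth (m := 2 * s) hf.upper y a
  have hD : D f τ (a, b) = (f a - f y - ⟪gradient f y, a - y⟫) + ⟪gradient f y, a - y - τ • z⟫
      - τ ^ 2 * g ^ 2 / 2 := by
    rw [D]
    simp only
    rw [← hy, ← hz, inner_sub_right (gradient f y) (a - y) (τ • z), real_inner_smul_right]
    ring
  have i1 : |⟪gradient f y, a - y - τ • z⟫| ≤ g * (τ ^ 2 * (n + m)) :=
    (abs_real_inner_le_norm _ _).trans (mul_le_mul_of_nonneg_left b2 hg0)
  have i2 : ‖a - y‖ ^ 2 ≤ τ ^ 2 * (n + m) ^ 2 := by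
    have := pow_le_pow_left₀ (norm_nonneg (a - y)) b1 2
    rw [mul_pow] at this
    exact this
  have hR0 : 0 ≤ f a - f y - ⟪gradient f y, a - y⟫ := by
    rw [zero_div, zero_mul] at t1; linarith
  have hR1 : f a - f y - ⟪gradient f y, a - y⟫ ≤ s * ‖a - y‖ ^ 2 := by
    have : 2 * s / 2 * ‖a - y‖ ^ 2 = s * ‖a - y‖ ^ 2 := by ring
    rw [this] at t2; linarith
  rw [hD]
  have k8 : 1 + ‖a‖ ^ 2 + ‖b‖ ^ 2 = 1 + n ^ 2 + m ^ 2 := by linarith
  have k9 : 8 * τ ^ 2 * (1 + ‖(a, b).1‖ ^ 2 + ‖(a, b).2‖ ^ 2) = τ ^ 2 * (8 * (1 + n ^ 2 + m ^ 2)) := by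
    simp only
    rw [k8]; ring
  rw [k9]
  exact real_bound hn0 hm0 hg0 hg1 (sq_nonneg τ) hs0.le hs1 (sq_nonneg _) i2 hR0 hR1 i1

/-- the majorant -/
noncomputable def W (f : E d → ℝ) (q : E d × E d) : ℝ :=
  Real.exp (-f q.1) * Real.exp ((1 + ‖q.1‖ ^ 2 + ‖q.2‖ ^ 2) / 8)

theorem W_int (hCM : S_CM) {s A : ℝ} {f : E d → ℝ} (hp : Par d s A) (hf : Loc d s A f) :
    Integrable (W f) ((gam d).prod (gam d)) := by
  have h1 : Continuous f := hf.smooth.continuous
  have i1 := ((hCM d).2.2 (1 / 4) (by norm_num)).1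
  have i2 := ((hCM d).2.2 (1 / 8) (by norm_num)).1
  have i3 := (i1.mul_prod i2).const_mul (Real.exp (-f 0 + 8 + 1 / 8))
  refine i3.mono' ?_ (Eventually.of_forall fun q => ?_)
  · refine Continuous.aestronglyMeasurable ?_
    unfold W
    fun_prop
  · rw [W, Real.norm_eq_abs, abs_of_nonneg (by positivity), ← Real.exp_add, ← Real.exp_add,
      ← Real.exp_add]
    rw [Real.exp_le_exp]
    have h3 := hf.lower_le q.1
    have h4 := hp.sA
    have h5 : s * A * ‖q.1‖ ≤ 2 * ‖q.1‖ := mul_le_mul_of_nonneg_right h4 (norm_nonneg _)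
    nlinarith [sq_nonneg (‖q.1‖ - 8)]

theorem exp_sub_one_bound (x : ℝ) : |Real.exp x - 1| ≤ |x| * Real.exp |x| := by
  have h1 : Real.exp |x| - 1 ≤ |x| * Real.exp |x| := by
    have h := Real.add_one_le_exp (-|x|)
    have h2 : Real.exp |x| * Real.exp (-|x|) = 1 := by rw [← Real.exp_add]; simp
    nlinarith [Real.exp_pos |x|]
  have h2 : Real.exp x ≤ Real.exp |x| := Real.exp_le_exp.mpr (le_abs_self x)
  have h3 := Real.add_one_le_exp x
  have h4 : |x| ≤ |x| * Real.exp |x| := by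
    have := Real.one_le_exp (abs_nonneg x)
    nlinarith [abs_nonneg x]
  rw [abs_le]
  constructor
  · have := neg_abs_le x
    linarith
  · linarith

theorem diff_bound {s A : ℝ} {f : E d → ℝ} (hp : Par d s A) (hf : Loc d s A f) {τ : ℝ} (h0 : 0 < τ)
    (h1 : τ ≤ 1 / 12) (q : E d × E d) :
    |Real.exp (-f q.1 + D f τ q) - Real.exp (-f q.1)| ≤ 128 * τ ^ 2 * W f q := by
  have hb := D_bound hp hf h0 (by linarith) q
  set Q := 1 + ‖q.1‖ ^ 2 + ‖q.2‖ ^ 2 with hQ
  have hQ0 : 0 ≤ Q := by positivity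
  have e : Real.exp (-f q.1 + D f τ q) - Real.exp (-f q.1)
      = Real.exp (-f q.1) * (Real.exp (D f τ q) - 1) := by rw [Real.exp_add]; ring
  rw [e, abs_mul, abs_of_pos (Real.exp_pos _), W, ← hQ]
  have h2 := exp_sub_one_bound (D f τ q)
  have h3 : |D f τ q| ≤ Q / 16 := by
    refine hb.trans ?_
    have : 8 * τ ^ 2 ≤ 1 / 16 := by nlinarith
    nlinarith
  have h4 : Real.exp |D f τ q| ≤ Real.exp (Q / 16) := Real.exp_le_exp.mpr h3
  have h5 : Q ≤ 16 * Real.exp (Q / 16) := by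
    have := Real.add_one_le_exp (Q / 16)
    linarith
  have h6 : |D f τ q| * Real.exp |D f τ q| ≤ (8 * τ ^ 2 * Q) * Real.exp (Q / 16) :=
    mul_le_mul hb h4 (Real.exp_pos _).le (by positivity)
  have h7 : (8 * τ ^ 2 * Q) * Real.exp (Q / 16) ≤ (8 * τ ^ 2 * (16 * Real.exp (Q / 16))) *
      Real.exp (Q / 16) := by
    refine mul_le_mul_of_nonneg_right ?_ (Real.exp_pos _).le
    exact mul_le_mul_of_nonneg_left h5 (by positivity)
  have h8 : (8 * τ ^ 2 * (16 * Real.exp (Q / 16))) * Real.exp (Q / 16)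
      = 128 * τ ^ 2 * Real.exp (Q / 8) := by
    have : Real.exp (Q / 8) = Real.exp (Q / 16) * Real.exp (Q / 16) := by
      rw [← Real.exp_add]; congr 1; ring
    rw [this]; ring
  calc Real.exp (-f q.1) * |Real.exp (D f τ q) - 1|
      ≤ Real.exp (-f q.1) * (128 * τ ^ 2 * Real.exp (Q / 8)) :=
        mul_le_mul_of_nonneg_left (by linarith) (Real.exp_pos _).le
    _ = 128 * τ ^ 2 * (Real.exp (-f q.1) * Real.exp (Q / 8)) := by ring

theorem int_exp (hCM : S_CM) {s A : ℝ} {f : E d → ℝ} (hp : Par d s A) (hf : Loc d s A f) :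
    Integrable (fun q : E d × E d => Real.exp (-f q.1)) ((gam d).prod (gam d)) := by
  have h1 : Continuous f := hf.smooth.continuous
  refine (W_int hCM hp hf).mono' (Continuous.aestronglyMeasurable (by fun_prop))
    (Eventually.of_forall fun q => ?_)
  rw [Real.norm_eq_abs, abs_of_pos (Real.exp_pos _), W]
  have : (1 : ℝ) ≤ Real.exp ((1 + ‖q.1‖ ^ 2 + ‖q.2‖ ^ 2) / 8) := Real.one_le_exp (by positivity)
  nlinarith [Real.exp_pos (-f q.1)]

theorem int_exp' (hCM : S_CM) {s A : ℝ} {f : E d → ℝ} (hp : Par d s A) (hf : Loc d s A f)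
    {τ : ℝ} (h0 : 0 < τ) (h1 : τ ≤ 1 / 12) :
    Integrable (fun q : E d × E d => Real.exp (-f q.1 + D f τ q)) ((gam d).prod (gam d)) := by
  have h2 : Continuous f := hf.smooth.continuous
  have h3 := continuous_D hf.smooth τ
  have i1 : Integrable (fun q : E d × E d => Real.exp (-f q.1 + D f τ q) - Real.exp (-f q.1))
      ((gam d).prod (gam d)) := by
    refine ((W_int hCM hp hf).const_mul (128 * τ ^ 2)).mono'
      (Continuous.aestronglyMeasurable (by fun_prop)) (Eventually.of_forall fun q => ?_)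
    exact diff_bound hp hf h0 h1 q
  have := i1.add (int_exp hCM hp hf)
  refine this.congr (Eventually.of_forall fun q => ?_)
  simp

/-- the joint law -/
theorem joint_eq {f : E d → ℝ} (hf : ContDiff ℝ 2 f) :
    (loc f).prod (gam d) = (∫⁻ y, ENNReal.ofReal (Real.exp (-f y)) ∂(gam d))⁻¹ •
      ((gam d).prod (gam d)).withDensity (fun q => ENNReal.ofReal (Real.exp (-f q.1))) := by
  have h1 : Continuous f := hf.continuous
  have hm : Measurable fun y : E d => ENNReal.ofReal (Real.exp (-f y)) :=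
    (Continuous.measurable (by fun_prop)).ennreal_ofReal
  rw [loc, Measure.prod_smul_left, prod_withDensity_left hm]

theorem joint_apply {f : E d → ℝ} (hf : ContDiff ℝ 2 f) {B : Set (E d × E d)}
    (hB : MeasurableSet B) :
    ((loc f).prod (gam d)) B = (∫⁻ y, ENNReal.ofReal (Real.exp (-f y)) ∂(gam d))⁻¹ *
      ∫⁻ q in B, ENNReal.ofReal (Real.exp (-f q.1)) ∂((gam d).prod (gam d)) := by
  rw [joint_eq hf, Measure.smul_apply, withDensity_apply _ hB, smul_eq_mul]

theorem kick_apply (hCM : S_CM) {f : E d → ℝ} (hf : ContDiff ℝ 2 f) (τ : ℝ) {B : Set (E d × E d)}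
    (hB : MeasurableSet B) :
    (((loc f).prod (gam d)).map (kick f τ)) B
      = (∫⁻ y, ENNReal.ofReal (Real.exp (-f y)) ∂(gam d))⁻¹ *
      ∫⁻ q in B, ENNReal.ofReal (Real.exp (-f q.1 + D f τ q)) ∂((gam d).prod (gam d)) := by
  have hk := (continuous_kick hf τ).measurable
  rw [Measure.map_apply hk hB, joint_apply hf (hk hB)]
  congr 1
  rw [← lintegral_indicator (hk hB), ← lintegral_indicator hB]
  have := lint_kick hCM hf τ (g := B.indicator 1) (measurable_one.indicator hB)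
  have e1 : ∀ q, (kick f τ ⁻¹' B).indicator (fun q : E d × E d => ENNReal.ofReal (Real.exp (-f q.1))) q
      = ENNReal.ofReal (Real.exp (-f q.1)) * B.indicator 1 (kick f τ q) := by
    intro q
    by_cases hq : kick f τ q ∈ B
    · rw [indicator_of_mem (show q ∈ kick f τ ⁻¹' B from hq), indicator_of_mem hq]; simp
    · rw [indicator_of_notMem (show q ∉ kick f τ ⁻¹' B from hq), indicator_of_notMem hq]; simp
  have e2 : ∀ q, B.indicator (fun q : E d × E d => ENNReal.ofReal (Real.exp (-f q.1 + D f τ q))) q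
      = ENNReal.ofReal (Real.exp (-f q.1 + D f τ q)) * B.indicator 1 q := by
    intro q
    by_cases hq : q ∈ B
    · rw [indicator_of_mem hq, indicator_of_mem hq]; simp
    · rw [indicator_of_notMem hq, indicator_of_notMem hq]; simp
  rw [lintegral_congr e1, lintegral_congr e2, this]

theorem lint_real {g : E d × E d → ℝ} (hg : Integrable g ((gam d).prod (gam d)))
    (h0 : ∀ q, 0 ≤ g q) (B : Set (E d × E d)) :
    (∫⁻ q in B, ENNReal.ofReal (g q) ∂((gam d).prod (gam d))).toReal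
      = ∫ q in B, g q ∂((gam d).prod (gam d)) := by
  rw [← ofReal_integral_eq_lintegral_ofReal hg.integrableOn (Eventually.of_forall h0),
    ENNReal.toReal_ofReal (setIntegral_nonneg_of_ae (Eventually.of_forall h0))]

/-- one step -/
theorem one_step (hCM : S_CM) {s A : ℝ} {f : E d → ℝ} (hp : Par d s A) (hf : Loc d s A f) :
    ∃ C : ℝ, 0 ≤ C ∧ ∀ τ : ℝ, 0 < τ → τ ≤ 1 / 12 →
      TV (((loc f).prod (gam d)).map (kick f τ)) ((loc f).prod (gam d)) (C * τ ^ 2) := by
  set Z := (∫⁻ y, ENNReal.ofReal (Real.exp (-f y)) ∂(gam d)) with hZ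
  refine ⟨Z⁻¹.toReal * (128 * ∫ q, W f q ∂((gam d).prod (gam d))), ?_, ?_⟩
  · refine mul_nonneg ENNReal.toReal_nonneg (mul_nonneg (by norm_num) (integral_nonneg fun q => ?_))
    unfold W; positivity
  intro τ h0 h1 B hB
  have i1 := int_exp hCM hp hf
  have i2 := int_exp' hCM hp hf h0 h1
  rw [Measure.real, Measure.real, kick_apply hCM hf.smooth τ hB, joint_apply hf.smooth hB,
    ENNReal.toReal_mul, ENNReal.toReal_mul, lint_real i1 (fun q => (Real.exp_pos _).le),
    lint_real i2 (fun q => (Real.exp_pos _).le), ← mul_sub, abs_mul,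
    abs_of_nonneg ENNReal.toReal_nonneg, ← integral_sub i2.integrableOn i1.integrableOn, ← hZ]
  rw [mul_assoc, mul_assoc]
  refine mul_le_mul_of_nonneg_left ?_ ENNReal.toReal_nonneg
  refine (abs_integral_le_integral_abs).trans ?_
  refine (setIntegral_le_integral (i2.sub i1).abs (Eventually.of_forall fun q => abs_nonneg _)).trans ?_
  rw [mul_comm (∫ q, W f q ∂((gam d).prod (gam d))) (τ ^ 2), ← mul_assoc, ← integral_const_mul]
  refine integral_mono (i2.sub i1).abs ((W_int hCM hp hf).const_mul _) fun q => ?_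
  exact diff_bound hp hf h0 h1 q

theorem tv_iter {X : Type*} [MeasurableSpace X] {μ : Measure X} {Φ : X → X} (hΦ : Measurable Φ)
    {ε : ℝ} (h : TV (μ.map Φ) μ ε) (n : ℕ) : TV (μ.map (Φ^[n])) μ (n * ε) := by
  induction n with
  | zero =>
    intro B hB
    simp
  | succ n ih =>
    intro B hB
    have hm := hΦ.iterate n
    have e1 : (μ.map (Φ^[n + 1])).real B = (μ.map (Φ^[n])).real (Φ ⁻¹' B) := by
      rw [Measure.real, Measure.real, Measure.map_apply (hΦ.iterate _) hB,
        Measure.map_apply hm (hΦ hB), Function.iterate_succ', Set.preimage_comp]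
    have e2 : (μ.map Φ).real B = μ.real (Φ ⁻¹' B) := by
      rw [Measure.real, Measure.real, Measure.map_apply hΦ hB]
    have h1 := ih (Φ ⁻¹' B) (hΦ hB)
    have h2 := h B hB
    rw [e1]
    rw [e2] at h2
    have := abs_add_le ((μ.map (Φ^[n])).real (Φ ⁻¹' B) - μ.real (Φ ⁻¹' B))
      (μ.real (Φ ⁻¹' B) - μ.real B)
    rw [sub_add_sub_cancel] at this
    push_cast
    linarith

end ROT

open MeasureTheory ProbabilityTheory Set Filter
open scoped ENNReal NNReal Topology RealInnerProductSpace BigOperators ContDiff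

/-- **module ROT** -/
theorem rot (hCM : S_CM) : S_ROT := by
  intro d s A f _ hp hf δ hδ
  obtain ⟨C, hC, hstep⟩ := ROT.one_step hCM hp hf
  have hlim : Tendsto (fun J : ℕ => C * Real.pi ^ 2 / (J : ℝ)) atTop (𝓝 0) :=
    tendsto_const_div_atTop_nhds_zero_nat _
  have hlim2 : Tendsto (fun J : ℕ => Real.pi / (J : ℝ)) atTop (𝓝 0) :=
    tendsto_const_div_atTop_nhds_zero_nat _
  filter_upwards [hlim.eventually (gt_mem_nhds hδ), hlim2.eventually (gt_mem_nhds
    (show (0 : ℝ) < 1 / 12 by norm_num)), eventually_ge_atTop 1] with J h1 h2 h3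
  have hJ : (0 : ℝ) < J := by exact_mod_cast h3
  have hτ : 0 < Real.pi / J := div_pos Real.pi_pos hJ
  have hk : Measurable (kick f (Real.pi / J)) := (ROT.continuous_kick hf.smooth _).measurable
  have ht := ROT.tv_iter hk (hstep _ hτ h2.le) J
  have e1 : (((loc f).prod (gam d)).map fun q => (((kick f (Real.pi / J))^[J]) q).1)
      = (((loc f).prod (gam d)).map ((kick f (Real.pi / J))^[J])).map Prod.fst := by
    rw [Measure.map_map measurable_fst (hk.iterate J)]; rfl
  have e2 : loc f = ((loc f).prod (gam d)).map Prod.fst := by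
    rw [Measure.map_fst_prod, measure_univ, one_smul]
  intro B hB
  have e4 : (loc f).real B = ((loc f).prod (gam d)).real (Prod.fst ⁻¹' B) := by
    conv_lhs => rw [e2]
    rw [Measure.real, Measure.real, Measure.map_apply measurable_fst hB]
  have := ht (Prod.fst ⁻¹' B) (measurable_fst hB)
  rw [e1, e4, Measure.real, Measure.map_apply measurable_fst hB]
  refine this.trans ?_
  have e3 : (J : ℝ) * (C * (Real.pi / J) ^ 2) = C * Real.pi ^ 2 / J := by
    field_simp
  rw [e3]; exact h1.le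

end LCS
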