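import Vale.Agent.P347.CM

namespace LCS
namespace SHIFT

open MeasureTheory ProbabilityTheory Set Filter
open scoped ENNReal NNReal Topology RealInnerProductSpace BigOperators ContDiff

/-- chi-square bound for the total variation distance -/
lemma tv_withDensity {Y : Type*} [MeasurableSpace Y] (ρ : Measure Y) [IsProbabilityMeasure ρ]
    (h : Y → ℝ≥0∞) (hm : Measurable h) (h1 : ∫⁻ y, h y ∂ρ = 1) (χ : ℝ) (hχ : 0 ≤ χ)
    (h2 : ∫⁻ y, h y ^ 2 ∂ρ ≤ ENNReal.ofReal (1 + χ)) :
    TV (ρ.withDensity h) ρ (√χ / 2) := by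
  intro B hB
  set f : Y → ℝ := fun y => (h y).toReal with hf
  have hfin : ∀ᵐ y ∂ρ, h y < ⊤ := ae_lt_top hm (by rw [h1]; exact ENNReal.one_ne_top)
  have hfm : Measurable f := hm.ennreal_toReal
  have hint : Integrable f ρ := integrable_toReal_of_lintegral_ne_top hm.aemeasurable
    (by rw [h1]; exact ENNReal.one_ne_top)
  have hf1 : ∫ y, f y ∂ρ = 1 := by
    rw [hf, integral_toReal hm.aemeasurable hfin, h1, ENNReal.toReal_one]
  have h2top : ∫⁻ y, h y ^ 2 ∂ρ ≠ ⊤ := ne_top_of_le_ne_top ENNReal.ofReal_ne_top h2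
  have hsq : ∀ y, f y ^ 2 = (h y ^ 2).toReal := fun y => by
    rw [hf, ENNReal.toReal_pow]
  have hint2 : Integrable (fun y => f y ^ 2) ρ := by
    have := integrable_toReal_of_lintegral_ne_top (hm.pow_const 2).aemeasurable h2top
    simpa only [hsq] using this
  have hf2 : ∫ y, f y ^ 2 ∂ρ ≤ 1 + χ := by
    have hfin2 : ∀ᵐ y ∂ρ, h y ^ 2 < ⊤ := ae_lt_top (hm.pow_const 2) h2top
    simp only [hsq]
    rw [integral_toReal (hm.pow_const 2).aemeasurable hfin2]
    calc (∫⁻ y, h y ^ 2 ∂ρ).toReal ≤ (ENNReal.ofReal (1 + χ)).toReal :=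
          ENNReal.toReal_mono ENNReal.ofReal_ne_top h2
      _ = 1 + χ := ENNReal.toReal_ofReal (by linarith)
  have hg : Integrable (fun y => f y - 1) ρ := hint.sub (integrable_const _)
  have hga : Integrable (fun y => |f y - 1|) ρ := hg.abs
  have hgsq : Integrable (fun y => (f y - 1) ^ 2) ρ := by
    have : (fun y => (f y - 1) ^ 2) = fun y => f y ^ 2 - 2 * f y + 1 := by funext y; ring
    rw [this]
    exact (hint2.sub (hint.const_mul 2)).add (integrable_const _)
  have hgsqI : ∫ y, (f y - 1) ^ 2 ∂ρ ≤ χ := by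
    have : (fun y => (f y - 1) ^ 2) = fun y => f y ^ 2 - 2 * f y + 1 := by funext y; ring
    have hI : Integrable (fun y => f y ^ 2 - 2 * f y) ρ := hint2.sub (hint.const_mul 2)
    rw [this, integral_add hI (integrable_const _),
      integral_sub hint2 (hint.const_mul 2), integral_const_mul, hf1]
    simp only [integral_const, probReal_univ, smul_eq_mul, one_mul]
    linarith
  set c : ℝ := ∫ y, |f y - 1| ∂ρ with hc
  have hc0 : 0 ≤ c := integral_nonneg fun y => abs_nonneg _
  have hcs : c ^ 2 ≤ χ := by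
    have h3 : 0 ≤ ∫ y, (|f y - 1| - c) ^ 2 ∂ρ := integral_nonneg fun y => sq_nonneg _
    have h4 : (fun y => (|f y - 1| - c) ^ 2)
        = fun y => (f y - 1) ^ 2 - 2 * c * |f y - 1| + c ^ 2 := by
      funext y
      have := sq_abs (f y - 1)
      nlinarith
    have hI : Integrable (fun y => (f y - 1) ^ 2 - 2 * c * |f y - 1|) ρ :=
      hgsq.sub (hga.const_mul _)
    rw [h4, integral_add hI (integrable_const _),
      integral_sub hgsq (hga.const_mul _), integral_const_mul, ← hc] at h3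
    simp only [integral_const, probReal_univ, smul_eq_mul, one_mul] at h3
    nlinarith
  have hcle : c ≤ √χ := Real.le_sqrt_of_sq_le hcs
  have e1 : (ρ.withDensity h).real B = ∫ y in B, f y ∂ρ := by
    rw [Measure.real, withDensity_apply _ hB, hf, integral_toReal hm.aemeasurable
      (ae_restrict_of_ae hfin)]
  have e2 : ρ.real B = ∫ _y in B, (1 : ℝ) ∂ρ := by simp
  have e3 : (ρ.withDensity h).real B - ρ.real B = ∫ y in B, (f y - 1) ∂ρ := by
    rw [e1, e2, integral_sub hint.integrableOn (integrable_const _)]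
  have e4 : ∫ y in B, (f y - 1) ∂ρ + ∫ y in Bᶜ, (f y - 1) ∂ρ = 0 := by
    rw [integral_add_compl hB hg, integral_sub hint (integrable_const _), hf1]
    simp
  have e5 : |∫ y in B, (f y - 1) ∂ρ| ≤ ∫ y in B, |f y - 1| ∂ρ := abs_integral_le_integral_abs
  have e6 : |∫ y in Bᶜ, (f y - 1) ∂ρ| ≤ ∫ y in Bᶜ, |f y - 1| ∂ρ := abs_integral_le_integral_abs
  have e7 : ∫ y in B, |f y - 1| ∂ρ + ∫ y in Bᶜ, |f y - 1| ∂ρ = c := integral_add_compl hB hga
  rw [e3]
  have e8 : |∫ y in B, (f y - 1) ∂ρ| = |∫ y in Bᶜ, (f y - 1) ∂ρ| := by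
    have : ∫ y in B, (f y - 1) ∂ρ = - ∫ y in Bᶜ, (f y - 1) ∂ρ := by linarith
    rw [this, abs_neg]
  linarith

variable {d : ℕ} {X : Type*} [MeasurableSpace X]

/-- the exponential kernel -/
noncomputable def ek (κ : X → E d) (x : X) (z : E d) : ℝ≥0∞ :=
  ENNReal.ofReal (Real.exp (⟪κ x, z⟫ - ‖κ x‖ ^ 2 / 2))

lemma meas_ek (κ : X → E d) (hκ : Measurable κ) :
    Measurable fun q : X × E d => ek κ q.1 q.2 := by
  unfold ek
  have : Measurable fun q : X × E d => κ q.1 := hκ.comp measurable_fst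
  fun_prop

lemma meas_ek_left (κ : X → E d) (hκ : Measurable κ) (z : E d) :
    Measurable fun x : X => ek κ x z := by
  unfold ek
  fun_prop

omit [MeasurableSpace X] in
lemma meas_ek_right (κ : X → E d) (x : X) :
    Measurable fun z : E d => ek κ x z := by
  unfold ek
  fun_prop

lemma meas_ek_swap (κ : X → E d) (hκ : Measurable κ) :
    Measurable fun q : E d × X => ek κ q.2 q.1 := by
  unfold ek
  have : Measurable fun q : E d × X => κ q.2 := hκ.comp measurable_snd
  fun_prop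

/-- the density of `κ(x) + z` -/
noncomputable def hh (Γ : Measure X) (κ : X → E d) (z : E d) : ℝ≥0∞ := ∫⁻ x, ek κ x z ∂Γ

lemma meas_hh (Γ : Measure X) [SFinite Γ] (κ : X → E d) (hκ : Measurable κ) :
    Measurable (hh Γ κ) := by
  unfold hh
  exact ((meas_ek κ hκ).comp measurable_swap).lintegral_prod_right'

lemma mgf_gam (w : E d) :
    ∫⁻ z, ENNReal.ofReal (Real.exp ⟪w, z⟫) ∂(gam d) = ENNReal.ofReal (Real.exp (‖w‖ ^ 2 / 2)) := by
  have h := (cm d).1 w (fun _ => 1) measurable_const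
  simp only [lintegral_const, measure_univ, mul_one, one_mul] at h
  have h2 : ∀ z : E d, ENNReal.ofReal (Real.exp ⟪w, z⟫)
      = ENNReal.ofReal (Real.exp (‖w‖ ^ 2 / 2)) *
        ENNReal.ofReal (Real.exp (⟪w, z⟫ - ‖w‖ ^ 2 / 2)) := by
    intro z
    rw [← ENNReal.ofReal_mul (Real.exp_pos _).le, ← Real.exp_add]
    congr 2
    ring
  simp only [h2]
  rw [lintegral_const_mul _ (by fun_prop), ← h, mul_one]

lemma law_eq (Γ : Measure X) [IsProbabilityMeasure Γ] (κ : X → E d) (hκ : Measurable κ) :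
    ((Γ.prod (gam d)).map fun q => κ q.1 + q.2) = (gam d).withDensity (hh Γ κ) := by
  have hmap : Measurable fun q : X × E d => κ q.1 + q.2 :=
    (hκ.comp measurable_fst).add measurable_snd
  ext B hB
  rw [Measure.map_apply hmap hB, Measure.prod_apply (hmap hB), withDensity_apply _ hB]
  have h1 : ∀ x, gam d (Prod.mk x ⁻¹' ((fun q : X × E d => κ q.1 + q.2) ⁻¹' B))
      = ∫⁻ z, B.indicator (fun _ => (1 : ℝ≥0∞)) z * ek κ x z ∂(gam d) := by
    intro x
    have h2 := (cm d).1 (κ x) (B.indicator fun _ => (1 : ℝ≥0∞)) (measurable_const.indicator hB)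
    unfold ek
    rw [← h2, ← lintegral_indicator_one]
    · refine lintegral_congr fun z => ?_
      have hmem : z ∈ Prod.mk x ⁻¹' ((fun q : X × E d => κ q.1 + q.2) ⁻¹' B) ↔ z + κ x ∈ B := by
        rw [Set.mem_preimage, Set.mem_preimage, add_comm]
      by_cases hz : z + κ x ∈ B
      · rw [Set.indicator_of_mem (hmem.2 hz), Set.indicator_of_mem hz]
        rfl
      · rw [Set.indicator_of_notMem (fun h => hz (hmem.1 h)), Set.indicator_of_notMem hz]
    · exact measurable_prodMk_left (hmap hB)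
  simp only [h1]
  rw [lintegral_lintegral_swap]
  · rw [← lintegral_indicator hB]
    refine lintegral_congr fun z => ?_
    unfold hh
    by_cases hz : z ∈ B
    · simp [hz]
    · simp [hz]
  · refine Measurable.aemeasurable ?_
    have h3 := meas_ek κ hκ
    have h4 : Measurable fun q : X × E d => B.indicator (fun _ => (1 : ℝ≥0∞)) q.2 :=
      (measurable_const.indicator hB).comp measurable_snd
    exact h4.mul h3

omit [MeasurableSpace X] in
lemma ek_mul (κ : X → E d) (x x' : X) :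
    ∫⁻ z, ek κ x z * ek κ x' z ∂(gam d) = ENNReal.ofReal (Real.exp ⟪κ x, κ x'⟫) := by
  have h2 : ∀ z : E d, ek κ x z * ek κ x' z
      = ENNReal.ofReal (Real.exp (- (‖κ x‖ ^ 2 + ‖κ x'‖ ^ 2) / 2)) *
        ENNReal.ofReal (Real.exp ⟪κ x + κ x', z⟫) := by
    intro z
    unfold ek
    rw [← ENNReal.ofReal_mul (Real.exp_pos _).le, ← Real.exp_add,
      ← ENNReal.ofReal_mul (Real.exp_pos _).le, ← Real.exp_add, inner_add_left]
    congr 2
    ring
  simp only [h2]
  rw [lintegral_const_mul _ (by fun_prop), mgf_gam, ← ENNReal.ofReal_mul (Real.exp_pos _).le,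
    ← Real.exp_add]
  congr 2
  rw [norm_add_sq_real]
  ring

lemma hh_one (Γ : Measure X) [IsProbabilityMeasure Γ] (κ : X → E d) (hκ : Measurable κ) :
    ∫⁻ z, hh Γ κ z ∂(gam d) = 1 := by
  have h := law_eq Γ κ hκ
  have hmap : Measurable fun q : X × E d => κ q.1 + q.2 :=
    (hκ.comp measurable_fst).add measurable_snd
  have h2 := congrArg (fun m : Measure (E d) => m univ) h
  simp only [Measure.map_apply hmap MeasurableSet.univ, preimage_univ, measure_univ,
    withDensity_apply _ MeasurableSet.univ, Measure.restrict_univ] at h2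
  exact h2.symm

lemma hh_sq (Γ : Measure X) [IsProbabilityMeasure Γ] (κ : X → E d) (hκ : Measurable κ) :
    ∫⁻ z, hh Γ κ z ^ 2 ∂(gam d)
      = ∫⁻ x, ∫⁻ x', ENNReal.ofReal (Real.exp ⟪κ x, κ x'⟫) ∂Γ ∂Γ := by
  have hhm := meas_hh Γ κ hκ
  have h1 : ∀ z, hh Γ κ z ^ 2 = ∫⁻ x, ek κ x z * hh Γ κ z ∂Γ := by
    intro z
    have := lintegral_mul_const (μ := Γ) (hh Γ κ z) (meas_ek_left κ hκ z)
    rw [this, sq]
    rfl
  have hA : AEMeasurable (Function.uncurry fun (z : E d) (x : X) => ek κ x z * hh Γ κ z)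
      ((gam d).prod Γ) := by
    refine Measurable.aemeasurable ?_
    exact (meas_ek_swap κ hκ).mul (hhm.comp measurable_fst)
  simp only [h1]
  rw [lintegral_lintegral_swap hA]
  refine lintegral_congr fun x => ?_
  have h2 : ∀ z, ek κ x z * hh Γ κ z = ∫⁻ x', ek κ x z * ek κ x' z ∂Γ := by
    intro z
    have := lintegral_const_mul (μ := Γ) (ek κ x z) (meas_ek_left κ hκ z)
    rw [this]
    rfl
  have hB : AEMeasurable (Function.uncurry fun (z : E d) (x' : X) => ek κ x z * ek κ x' z)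
      ((gam d).prod Γ) := by
    refine Measurable.aemeasurable ?_
    have h3 : Measurable fun q : E d × X => ek κ x q.1 := (meas_ek_right κ x).comp measurable_fst
    exact h3.mul (meas_ek_swap κ hκ)
  simp only [h2]
  rw [lintegral_lintegral_swap hB]
  exact lintegral_congr fun x' => ek_mul κ x x'

/-- law of `κ(x) + z` against `γ`. -/
lemma tv_law (Γ : Measure X) [IsProbabilityMeasure Γ] (κ : X → E d) (hκ : Measurable κ) (χ : ℝ)
    (hχ : 0 ≤ χ) (h : ∫⁻ x, ∫⁻ x', ENNReal.ofReal (Real.exp ⟪κ x, κ x'⟫) ∂Γ ∂Γ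
      ≤ ENNReal.ofReal (1 + χ)) :
    TV ((Γ.prod (gam d)).map fun q => κ q.1 + q.2) (gam d) (√χ / 2) := by
  rw [law_eq Γ κ hκ]
  exact tv_withDensity _ _ (meas_hh Γ κ hκ) (hh_one Γ κ hκ) χ hχ (by rw [hh_sq Γ κ hκ]; exact h)

/-- shift of the standard Gaussian -/
lemma tv_shift (v : E d) (B : Set (E d)) (hB : MeasurableSet B) :
    |(gam d).real ((fun z => v + z) ⁻¹' B) - (gam d).real B| ≤ ‖v‖ := by
  rcases le_or_gt 1 ‖v‖ with h | h
  · have h1 : (gam d).real ((fun z => v + z) ⁻¹' B) ≤ 1 := measureReal_le_one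
    have h2 : (gam d).real B ≤ 1 := measureReal_le_one
    have h3 : 0 ≤ (gam d).real ((fun z => v + z) ⁻¹' B) := measureReal_nonneg
    have h4 : 0 ≤ (gam d).real B := measureReal_nonneg
    rw [abs_le]
    constructor <;> linarith
  · have hexp : Real.exp (‖v‖ ^ 2) ≤ 1 + 4 * ‖v‖ ^ 2 := by
      have h0 : 0 ≤ ‖v‖ ^ 2 := sq_nonneg _
      have h1 : ‖v‖ ^ 2 ≤ 1 := by nlinarith [norm_nonneg v]
      have hc := convexOn_exp.2 (Set.mem_univ (0 : ℝ)) (Set.mem_univ (1 : ℝ))
        (show 0 ≤ 1 - ‖v‖ ^ 2 by linarith) h0 (by ring)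
      simp only [smul_eq_mul, mul_zero, mul_one, zero_add, Real.exp_zero] at hc
      have he : Real.exp 1 < 5 := by
        have := Real.exp_one_lt_d9
        linarith
      nlinarith
    have h2 := tv_law (d := d) (Measure.dirac ()) (fun _ : Unit => v) measurable_const
      (4 * ‖v‖ ^ 2) (by positivity) (by
        simp only [lintegral_dirac]
        rw [real_inner_self_eq_norm_sq]
        exact ENNReal.ofReal_le_ofReal hexp) B hB
    have hmap : Measurable fun q : Unit × E d => v + q.2 := by fun_prop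
    have h3 : (((Measure.dirac ()).prod (gam d)).map fun q : Unit × E d => v + q.2)
        = (gam d).map fun z => v + z := by
      rw [Measure.dirac_prod, Measure.map_map hmap (by fun_prop)]
      rfl
    rw [h3, Measure.real, Measure.map_apply (by fun_prop) hB] at h2
    have h4 : √(4 * ‖v‖ ^ 2) / 2 = ‖v‖ := by
      rw [show 4 * ‖v‖ ^ 2 = (2 * ‖v‖) ^ 2 by ring, Real.sqrt_sq (by positivity)]
      ring
    rw [h4] at h2
    exact h2

end SHIFT

open MeasureTheory ProbabilityTheory Set Filter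
open scoped ENNReal NNReal Topology RealInnerProductSpace BigOperators ContDiff

/-- SHIFT -/
theorem shift : S_SHIFT := by
  intro X _ μ _ d F F' σ hF hF' hσ hint B hB
  have hm : Measurable fun q : X × E d => F q.1 + σ • q.2 :=
    (hF.comp measurable_fst).add (measurable_snd.const_smul σ)
  have hm' : Measurable fun q : X × E d => F' q.1 + σ • q.2 :=
    (hF'.comp measurable_fst).add (measurable_snd.const_smul σ)
  have key : ∀ x, |(gam d).real (Prod.mk x ⁻¹' ((fun q : X × E d => F q.1 + σ • q.2) ⁻¹' B))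
      - (gam d).real (Prod.mk x ⁻¹' ((fun q : X × E d => F' q.1 + σ • q.2) ⁻¹' B))|
      ≤ ‖F x - F' x‖ / σ := by
    intro x
    have h := SHIFT.tv_shift (σ⁻¹ • (F x - F' x))
      (Prod.mk x ⁻¹' ((fun q : X × E d => F' q.1 + σ • q.2) ⁻¹' B))
      (measurable_prodMk_left (hm' hB))
    have h2 : (fun z => σ⁻¹ • (F x - F' x) + z) ⁻¹'
        (Prod.mk x ⁻¹' ((fun q : X × E d => F' q.1 + σ • q.2) ⁻¹' B))
        = Prod.mk x ⁻¹' ((fun q : X × E d => F q.1 + σ • q.2) ⁻¹' B) := by
      ext z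
      simp only [Set.mem_preimage]
      have : F' x + σ • (σ⁻¹ • (F x - F' x) + z) = F x + σ • z := by
        rw [smul_add, smul_smul, mul_inv_cancel₀ hσ.ne', one_smul]
        abel
      rw [this]
    rw [h2, norm_smul, Real.norm_of_nonneg (inv_nonneg.2 hσ.le)] at h
    rw [div_eq_inv_mul]
    exact h
  have hr : ∀ (H : X × E d → E d), Measurable H → ((μ.prod (gam d)).map H).real B
      = ∫ x, (gam d).real (Prod.mk x ⁻¹' (H ⁻¹' B)) ∂μ := by
    intro H hH
    rw [Measure.real, Measure.map_apply hH hB, Measure.prod_apply (hH hB)]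
    simp only [Measure.real]
    rw [integral_toReal]
    · exact (measurable_measure_prodMk_left (hH hB)).aemeasurable
    · exact ae_of_all _ fun x => measure_lt_top _ _
  have hi : ∀ (H : X × E d → E d), Measurable H →
      Integrable (fun x => (gam d).real (Prod.mk x ⁻¹' (H ⁻¹' B))) μ := by
    intro H hH
    refine Integrable.of_bound
      (measurable_measure_prodMk_left (hH hB)).ennreal_toReal.aestronglyMeasurable 1
      (ae_of_all _ fun x => ?_)
    rw [Real.norm_of_nonneg measureReal_nonneg]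
    exact measureReal_le_one
  rw [hr _ hm, hr _ hm', ← integral_sub (hi _ hm) (hi _ hm'), ← integral_div]
  calc |∫ x, ((gam d).real (Prod.mk x ⁻¹' ((fun q : X × E d => F q.1 + σ • q.2) ⁻¹' B))
      - (gam d).real (Prod.mk x ⁻¹' ((fun q : X × E d => F' q.1 + σ • q.2) ⁻¹' B))) ∂μ|
      ≤ ∫ x, |(gam d).real (Prod.mk x ⁻¹' ((fun q : X × E d => F q.1 + σ • q.2) ⁻¹' B))
      - (gam d).real (Prod.mk x ⁻¹' ((fun q : X × E d => F' q.1 + σ • q.2) ⁻¹' B))| ∂μ :=
        abs_integral_le_integral_abs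
    _ ≤ ∫ x, ‖F x - F' x‖ / σ ∂μ :=
        integral_mono ((hi _ hm).sub (hi _ hm')).abs (hint.div_const σ) key

end LCS
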