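import Vale.Agent.P347.LocBasic

/-!
# P347, module SUM: the law of the output of the chain
-/

namespace LCS

open MeasureTheory ProbabilityTheory Set Filter
open scoped ENNReal NNReal Topology RealInnerProductSpace BigOperators

namespace SUM

set_option linter.unusedSectionVars false

noncomputable section

variable {d J : ℕ} {V : E d → ℝ} {s β : ℝ} {c w : Fin J → ℝ}

lemma measurable_grad (hV : Pot d V) : Measurable (gradient V) :=
  (contDiff_gradient hV.smooth).continuous.measurable

lemma pstep_measurable (hg : Measurable (gradient V)) : Measurable (pstep V s β c w) := by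
  have hn : ∀ j : Fin J, Measurable fun q : (E d × E d) × ((Fin J → E d) × E d) =>
      node V s (c j) q.1.1 q.1.2 (q.2.1 j) := by
    intro j
    unfold node
    apply measurable_fst.fst.fun_sub
    apply Measurable.fun_const_smul
    apply Measurable.fun_add
    · apply Measurable.fun_add
      · exact ((hg.comp measurable_fst.fst).fun_const_smul _).fun_const_smul _
      · exact measurable_fst.snd.fun_const_smul _
    · apply Measurable.fun_const_smul
      exact (measurable_pi_apply j).comp measurable_snd.fst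
  have h1 : Measurable fun q : (E d × E d) × ((Fin J → E d) × E d) =>
      rmean V s β c w q.1 q.2.1 + √(1 - β ^ 2) • q.2.2 := by
    unfold rmean
    apply Measurable.fun_add
    · apply Measurable.fun_sub
      · exact measurable_fst.snd.fun_const_smul _
      · apply Measurable.fun_const_smul
        apply Measurable.fun_add
        · exact (hg.comp measurable_fst.fst).fun_const_smul _
        · apply Measurable.fun_const_smul
          apply Finset.measurable_fun_sum
          intro j _
          exact (hg.comp (hn j)).fun_const_smul _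
    · exact measurable_snd.snd.fun_const_smul _
  exact (measurable_fst.fst.fun_add (h1.fun_const_smul _)).prodMk h1

lemma mean_measurable (hg : Measurable (gradient V)) : Measurable (mean V s β c w) := by
  unfold mean
  apply Measurable.fun_sub
  · exact measurable_snd.fun_const_smul _
  · apply Measurable.fun_const_smul
    apply Measurable.fun_add
    · exact (hg.comp measurable_fst).fun_const_smul _
    · apply Measurable.fun_const_smul
      apply Finset.measurable_fun_sum
      intro j _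
      apply Measurable.fun_const_smul
      have hn : Measurable fun q : (E d × E d) × E d =>
          gradient V (node V s (c j) q.1.1 q.1.2 q.2) := by
        apply hg.comp
        unfold node
        apply measurable_fst.fst.fun_sub
        apply Measurable.fun_const_smul
        apply Measurable.fun_add
        · apply Measurable.fun_add
          · exact ((hg.comp measurable_fst.fst).fun_const_smul _).fun_const_smul _
          · exact measurable_fst.snd.fun_const_smul _
        · exact measurable_snd.fun_const_smul _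
      exact (hn.stronglyMeasurable.integral_prod_right').measurable

lemma nstep_measurable (hg : Measurable (gradient V)) : Measurable (nstep V s β c w) := by
  have h1 : Measurable fun q : (E d × E d) × E d =>
      mean V s β c w q.1 + √(1 - β ^ 2) • q.2 :=
    ((mean_measurable hg).comp measurable_fst).fun_add (measurable_snd.fun_const_smul _)
  exact (measurable_fst.fst.fun_add (h1.fun_const_smul _)).prodMk h1

variable (V s β c w)

/-- the ideal kernel acting on measures -/
def K (μ : Measure (E d × E d)) : Measure (E d × E d) := (μ.prod (gam d)).map (nstep V s β c w)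

variable {V s β c w}

instance (d J : ℕ) : IsProbabilityMeasure (aux d J) := by
  unfold aux
  infer_instance

lemma K_prob (hg : Measurable (gradient V)) (μ : Measure (E d × E d)) [IsProbabilityMeasure μ] :
    IsProbabilityMeasure (K V s β c w μ) :=
  Measure.isProbabilityMeasure_map (nstep_measurable hg).aemeasurable

lemma Kn_prob (hg : Measurable (gradient V)) (μ : Measure (E d × E d)) [IsProbabilityMeasure μ]
    (n : ℕ) : IsProbabilityMeasure ((K V s β c w)^[n] μ) := by
  induction n with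
  | zero => simpa
  | succ n ih =>
    rw [Function.iterate_succ_apply']
    exact K_prob hg _

lemma chain_prob (hg : Measurable (gradient V)) (n : ℕ) :
    IsProbabilityMeasure (chain V s β c w n) := by
  induction n with
  | zero => unfold chain; infer_instance
  | succ n ih =>
    unfold chain
    exact Measure.isProbabilityMeasure_map (pstep_measurable hg).aemeasurable

/-- chain against ideal chain -/
lemma chain_ideal (hTVP : S_TVP) (hTVL : S_TVL) (hg : Measurable (gradient V)) {e1 : ℝ}
    (h : ∀ q : E d × E d, TV ((aux d J).map fun r => pstep V s β c w (q, r))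
      ((gam d).map fun z => nstep V s β c w (q, z)) e1) (n : ℕ) :
    TV (chain V s β c w n) ((K V s β c w)^[n] (Measure.dirac (0, 0))) (n * e1) := by
  induction n with
  | zero =>
    simp only [Function.iterate_zero, id_eq, Nat.cast_zero, zero_mul]
    exact TV.refl _
  | succ n ih =>
    rw [Function.iterate_succ_apply']
    have := chain_prob (s := s) (β := β) (c := c) (w := w) hg n
    have := Kn_prob (s := s) (β := β) (c := c) (w := w) hg (Measure.dirac ((0 : E d), (0 : E d))) n
    have h1 := hTVP _ _ _ _ (chain V s β c w n) (aux d J) (gam d) (pstep V s β c w)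
      (nstep V s β c w) (fun _ => e1) (pstep_measurable hg) (nstep_measurable hg)
      (integrable_const _) h
    have h2 := hTVL _ _ _ (chain V s β c w n) ((K V s β c w)^[n] (Measure.dirac (0, 0))) (gam d)
      (nstep V s β c w) _ (nstep_measurable hg) ih
    have h3 := h1.trans h2
    refine h3.mono (le_of_eq ?_)
    rw [integral_const]
    simp
    ring

/-- iterated invariance -/
lemma inv_iter (hTVL : S_TVL) (hg : Measurable (gradient V)) {e2 : ℝ} (π : Measure (E d × E d))
    [IsProbabilityMeasure π] (h : TV (K V s β c w π) π e2) (n : ℕ) :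
    TV ((K V s β c w)^[n] π) π (n * e2) := by
  induction n with
  | zero =>
    simp only [Function.iterate_zero, id_eq, Nat.cast_zero, zero_mul]
    exact TV.refl _
  | succ n ih =>
    rw [Function.iterate_succ_apply']
    have := Kn_prob (s := s) (β := β) (c := c) (w := w) hg π n
    have h1 := hTVL _ _ _ ((K V s β c w)^[n] π) π (gam d) (nstep V s β c w) _
      (nstep_measurable hg) ih
    refine (h1.trans h).mono (le_of_eq ?_)
    push_cast
    ring

lemma K_map (hg : Measurable (gradient V)) {X : Type} [MeasurableSpace X] (μ : Measure X)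
    [IsProbabilityMeasure μ] (a : X → E d × E d) (ha : Measurable a) :
    K V s β c w (μ.map a) = (μ.prod (gam d)).map fun p => nstep V s β c w (a p.1, p.2) := by
  unfold K
  have e1 : (μ.map a).prod (gam d) = (μ.prod (gam d)).map (Prod.map a id) := by
    rw [← Measure.map_prod_map _ _ ha measurable_id, Measure.map_id]
  rw [e1, Measure.map_map (nstep_measurable hg) (ha.prodMap measurable_id)]
  rfl

/-- the coupling -/
lemma couple (hTVP : S_TVP) (hg : Measurable (gradient V)) {r C : ℝ}
    (hr : ∀ (q q' : E d × E d) (z : E d),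
      √(Phi ((nstep V s β c w (q, z)).1 - (nstep V s β c w (q', z)).1)
        ((nstep V s β c w (q, z)).2 - (nstep V s β c w (q', z)).2))
        ≤ r * √(Phi (q.1 - q'.1) (q.2 - q'.2))) (hr0 : 0 ≤ r) (hC : 0 ≤ C)
    (hreg : ∀ (q q' : E d × E d),
      TV (((gam d).prod (gam d)).map fun z => nstep V s β c w (nstep V s β c w (q, z.1), z.2))
        (((gam d).prod (gam d)).map fun z => nstep V s β c w (nstep V s β c w (q', z.1), z.2))
        (C * √(Phi (q.1 - q'.1) (q.2 - q'.2)))) (n : ℕ) :
    ∀ (X : Type) [MeasurableSpace X] (μ : Measure X) [IsProbabilityMeasure μ]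
      (a b : X → E d × E d) (ε : X → ℝ), Measurable a → Measurable b → Integrable ε μ →
      (∀ x, √(Phi ((a x).1 - (b x).1) ((a x).2 - (b x).2)) ≤ ε x) →
      TV ((K V s β c w)^[n + 2] (μ.map a)) ((K V s β c w)^[n + 2] (μ.map b))
        (C * (r ^ n * ∫ x, ε x ∂μ)) := by
  induction n with
  | zero =>
    intro X _ μ _ a b ε ha hb hε hab
    have e : ∀ (a : X → E d × E d), Measurable a → (K V s β c w)^[0 + 2] (μ.map a)
        = (μ.prod ((gam d).prod (gam d))).map
          fun p => nstep V s β c w (nstep V s β c w (a p.1, p.2.1), p.2.2) := by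
      intro a ha
      show K V s β c w (K V s β c w (μ.map a)) = _
      rw [K_map hg μ a ha, K_map hg (μ.prod (gam d)) (fun p => nstep V s β c w (a p.1, p.2))
        ((nstep_measurable hg).comp ((ha.comp measurable_fst).prodMk measurable_snd))]
      rw [← Measure.prodAssoc_prod, Measure.map_map _ MeasurableEquiv.prodAssoc.measurable]
      · rfl
      · exact (nstep_measurable hg).comp (((nstep_measurable hg).comp
          ((ha.comp measurable_fst).prodMk measurable_snd.fst)).prodMk measurable_snd.snd)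
    rw [e a ha, e b hb, pow_zero, one_mul, ← integral_const_mul]
    have hF : ∀ a : X → E d × E d, Measurable a → Measurable
        fun p : X × (E d × E d) => nstep V s β c w (nstep V s β c w (a p.1, p.2.1), p.2.2) := by
      intro a ha
      exact (nstep_measurable hg).comp (((nstep_measurable hg).comp
          ((ha.comp measurable_fst).prodMk measurable_snd.fst)).prodMk measurable_snd.snd)
    exact hTVP _ _ _ _ μ ((gam d).prod (gam d)) ((gam d).prod (gam d)) _ _ (fun x => C * ε x)
      (hF a ha) (hF b hb) (hε.const_mul C)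
      (fun x => (hreg (a x) (b x)).mono (mul_le_mul_of_nonneg_left (hab x) hC))
  | succ n ih =>
    intro X _ μ _ a b ε ha hb hε hab
    have e : ∀ (a : X → E d × E d), (K V s β c w)^[n + 1 + 2] (μ.map a)
        = (K V s β c w)^[n + 2] (K V s β c w (μ.map a)) := by
      intro a
      rw [← Function.iterate_succ_apply]
    rw [e a, e b, K_map hg μ a ha, K_map hg μ b hb]
    have hm : ∀ a : X → E d × E d, Measurable a → Measurable
        fun p : X × E d => nstep V s β c w (a p.1, p.2) := by
      intro a ha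
      exact (nstep_measurable hg).comp ((ha.comp measurable_fst).prodMk measurable_snd)
    have h := ih (X × E d) (μ.prod (gam d)) (fun p => nstep V s β c w (a p.1, p.2))
      (fun p => nstep V s β c w (b p.1, p.2)) (fun p => r * ε p.1) (hm a ha) (hm b hb)
      ((hε.comp_fst (gam d)).const_mul r)
      (fun p => (hr (a p.1) (b p.1) p.2).trans (mul_le_mul_of_nonneg_left (hab p.1) hr0))
    refine h.mono (le_of_eq ?_)
    rw [integral_const_mul]
    have e2 : ∫ p : X × E d, ε p.1 ∂(μ.prod (gam d)) = ∫ x, ε x ∂μ := by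
      rw [integral_fun_fst]
      simp
    rw [e2, pow_succ]
    ring

lemma Phi_sqrt_bound (a b : E d) : ‖a‖ + ‖b‖ ≤ 3 * √(Phi a b) := by
  have h1 : ‖a‖ ≤ √(Phi a b) := by
    apply Real.le_sqrt_of_sq_le
    unfold Phi
    nlinarith [sq_nonneg ‖a + b‖]
  have h2 : ‖a + b‖ ≤ √(Phi a b) := by
    apply Real.le_sqrt_of_sq_le
    unfold Phi
    nlinarith [sq_nonneg ‖a‖]
  have h3 : ‖b‖ ≤ ‖a + b‖ + ‖a‖ := by
    calc ‖b‖ = ‖(a + b) - a‖ := by rw [add_sub_cancel_left]
      _ ≤ _ := norm_sub_le _ _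
  linarith

lemma sqrt_Phi_le (a b : E d) : √(Phi a b) ≤ 2 * ‖a‖ + ‖b‖ := by
  apply Real.sqrt_le_iff.2
  refine ⟨by positivity, ?_⟩
  unfold Phi
  have h := norm_add_le a b
  nlinarith [norm_nonneg a, norm_nonneg b, norm_nonneg (a + b), mul_nonneg (norm_nonneg a) (norm_nonneg b)]

lemma integrable_norm_gam : Integrable (fun y : E d => ‖y‖) (gam d) := by
  have h : Integrable (fun y : E d => 1 + ‖y‖ ^ 2) (gam d) :=
    (integrable_const _).add integrable_norm_sq_gam
  refine h.mono' (by fun_prop) (ae_of_all _ fun y => ?_)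
  rw [norm_norm]
  nlinarith [norm_nonneg y, sq_nonneg (‖y‖ - 1)]

/-- the real inequalities -/
lemma real_e1 {h D : ℝ} (hh : 0 < h) (hh1 : h ≤ 1 / 1000) (hD : 0 ≤ D) :
    64 * D * (h ^ 2 / 4) ^ 2 / (1 - (1 - 2 * h) ^ 2) ≤ 2 * (h ^ 3 * D) := by
  have e : 1 - (1 - 2 * h) ^ 2 = 4 * h * (1 - h) := by ring
  have h1 : 0 < 4 * h * (1 - h) := by nlinarith
  rw [e, div_le_iff₀ h1]
  have : 2 * (h ^ 3 * D) * (4 * h * (1 - h)) - 64 * D * (h ^ 2 / 4) ^ 2
      = D * h ^ 4 * (8 * (1 - h) - 4) := by ring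
  have h2 : 0 ≤ D * h ^ 4 * (8 * (1 - h) - 4) := by
    apply mul_nonneg (by positivity)
    linarith
  linarith

lemma real_err {h η : ℝ} (hh : 0 < h) (hh1 : h ≤ 1 / 1000) (hη : 0 ≤ η) :
    err d (h ^ 2 / 4) (√d) (1 - 2 * h) η ≤ 3 * (h ^ 3 * √d + η * h * √d) := by
  unfold err
  have hD : 0 ≤ √(d : ℝ) := Real.sqrt_nonneg _
  set D := √(d : ℝ) with hDdef
  have e : 1 - (1 - 2 * h) ^ 2 = 4 * h * (1 - h) := by ring
  have h1 : 0 < 4 * h * (1 - h) := by nlinarith
  have h2 : h ≤ √(1 - (1 - 2 * h) ^ 2) := by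
    rw [e]
    apply Real.le_sqrt_of_sq_le
    nlinarith
  have h3 : 0 < √(1 - (1 - 2 * h) ^ 2) := lt_of_lt_of_le hh h2
  have t1 : (1 - (1 - 2 * h)) * (h ^ 2 / 4 * D) = h ^ 3 * D / 2 := by ring
  have t2 : (h ^ 2 / 4) ^ 2 * D / √(1 - (1 - 2 * h) ^ 2) ≤ h ^ 3 * D / 16 := by
    rw [div_le_iff₀ h3]
    have : (h ^ 2 / 4) ^ 2 * D = h ^ 3 * D / 16 * h := by ring
    rw [this]
    exact mul_le_mul_of_nonneg_left h2 (by positivity)
  have t3 : D * (h ^ 2 / 4) ^ 2 / (1 - (1 - 2 * h) ^ 2) ≤ h ^ 3 * D := by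
    have := real_e1 hh hh1 hD
    have e2 : 64 * D * (h ^ 2 / 4) ^ 2 / (1 - (1 - 2 * h) ^ 2)
        = 64 * (D * (h ^ 2 / 4) ^ 2 / (1 - (1 - 2 * h) ^ 2)) := by ring
    rw [e2] at this
    have : 0 ≤ h ^ 3 * D := by positivity
    linarith
  have t4 : η * (h ^ 2 / 4 * D) / √(1 - (1 - 2 * h) ^ 2) ≤ η * h * D := by
    rw [div_le_iff₀ h3]
    have h4 : η * h * D * h ≤ η * h * D * √(1 - (1 - 2 * h) ^ 2) :=
      mul_le_mul_of_nonneg_left h2 (by positivity)
    have h5 : η * (h ^ 2 / 4 * D) = (η * h * D * h) / 4 := by ring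
    have h6 : 0 ≤ η * h * D * h := by positivity
    linarith
  rw [t1]
  have h7 : 0 ≤ h ^ 3 * D := by positivity
  have h8 : 0 ≤ η * h * D := by positivity
  linarith

lemma Pt_prob (hπ : IsProbabilityMeasure (gibbs V)) : IsProbabilityMeasure (Pt V s) := by
  unfold Pt
  exact Measure.isProbabilityMeasure_map (by fun_prop)

lemma Pt_fst (hπ : IsProbabilityMeasure (gibbs V)) :
    (Pt V s).map (fun q => q.1 - √s • q.2) = gibbs V := by
  unfold Pt
  rw [Measure.map_map (by fun_prop) (by fun_prop)]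
  have e : ((fun q : E d × E d => q.1 - √s • q.2) ∘ fun q => (q.1 + √s • q.2, q.2)) = Prod.fst := by
    funext q
    simp
  rw [e, Measure.map_fst_prod]
  simp

lemma Pt_int (hπ : IsProbabilityMeasure (gibbs V)) (hd : 1 ≤ d) (hs : √s ≤ 1)
    (h1 : Integrable (fun x => ‖x‖ ^ 2) (gibbs V)) (h2 : ∫ x, ‖x‖ ^ 2 ∂(gibbs V) ≤ 4 * d) :
    Integrable (fun q : E d × E d => 2 * ‖q.1‖ + ‖q.2‖) (Pt V s) ∧
      ∫ q, (2 * ‖q.1‖ + ‖q.2‖) ∂(Pt V s) ≤ 8 * √d := by
  have hd0 : (0 : ℝ) < √d := Real.sqrt_pos.2 (by exact_mod_cast hd)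
  have hdd : √(d : ℝ) * √d = d := Real.mul_self_sqrt (by positivity)
  have hi1 : Integrable (fun x : E d => ‖x‖) (gibbs V) := by
    have h : Integrable (fun y : E d => 1 + ‖y‖ ^ 2) (gibbs V) := (integrable_const _).add h1
    refine h.mono' (by fun_prop) (ae_of_all _ fun y => ?_)
    rw [norm_norm]
    nlinarith [norm_nonneg y, sq_nonneg (‖y‖ - 1)]
  have hi2 : ∫ x, ‖x‖ ∂(gibbs V) ≤ 5 / 2 * √d := by
    have hb : ∀ x : E d, ‖x‖ ≤ (√d / 2) + (1 / (2 * √d)) * ‖x‖ ^ 2 := by
      intro x
      have : (√d / 2) + (1 / (2 * √d)) * ‖x‖ ^ 2 - ‖x‖ = (√d - ‖x‖) ^ 2 / (2 * √d) := by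
        field_simp
        ring
      have h4 : 0 ≤ (√d - ‖x‖) ^ 2 / (2 * √d) := by positivity
      linarith
    have h5 : ∫ x, ‖x‖ ∂(gibbs V) ≤ ∫ x, ((√d / 2) + (1 / (2 * √d)) * ‖x‖ ^ 2) ∂(gibbs V) :=
      integral_mono hi1 ((integrable_const _).add (h1.const_mul _)) hb
    rw [integral_add (integrable_const _) (h1.const_mul _), integral_const_mul, integral_const] at h5
    have h6 : 1 / (2 * √(d : ℝ)) * ∫ x, ‖x‖ ^ 2 ∂(gibbs V) ≤ 1 / (2 * √(d : ℝ)) * (4 * d) :=
      mul_le_mul_of_nonneg_left h2 (by positivity)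
    have h7 : 1 / (2 * √(d : ℝ)) * (4 * d) = 2 * √d := by
      field_simp
      rw [Real.sq_sqrt (by positivity)]
      ring
    simp only [probReal_univ, one_smul] at h5
    linarith
  have hbound : ∀ q : E d × E d, 2 * ‖q.1 + √s • q.2‖ + ‖q.2‖ ≤ 2 * ‖q.1‖ + 3 * ‖q.2‖ := by
    intro q
    have h3 := norm_add_le q.1 (√s • q.2)
    rw [norm_smul, Real.norm_eq_abs, abs_of_nonneg (Real.sqrt_nonneg s)] at h3
    have h4 : √s * ‖q.2‖ ≤ 1 * ‖q.2‖ := mul_le_mul_of_nonneg_right hs (norm_nonneg _)
    linarith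
  have hI : Integrable (fun q : E d × E d => 2 * ‖q.1‖ + 3 * ‖q.2‖) ((gibbs V).prod (gam d)) :=
    ((hi1.comp_fst (gam d)).const_mul 2).add ((integrable_norm_gam.comp_snd (gibbs V)).const_mul 3)
  have hI2 : Integrable (fun q : E d × E d => 2 * ‖q.1 + √s • q.2‖ + ‖q.2‖)
      ((gibbs V).prod (gam d)) := by
    refine hI.mono' (by fun_prop) (ae_of_all _ fun q => ?_)
    rw [Real.norm_eq_abs, abs_of_nonneg (by positivity)]
    exact hbound q
  constructor
  · unfold Pt
    rw [integrable_map_measure (by fun_prop) (by fun_prop)]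
    exact hI2
  · unfold Pt
    rw [integral_map (by fun_prop) (by fun_prop)]
    refine (integral_mono hI2 hI hbound).trans ?_
    rw [integral_add ((hi1.comp_fst (gam d)).const_mul 2)
      ((integrable_norm_gam.comp_snd (gibbs V)).const_mul 3), integral_const_mul, integral_const_mul,
      integral_fun_fst, integral_fun_snd]
    simp only [probReal_univ, one_smul]
    have h5 := integral_norm_gam_le (d := d)
    linarith

end

end SUM

open SUM in
theorem sum (hINV : S_INV) (hPHAT : S_PHAT) (hCONTR : S_CONTR) (hREG : S_REG) (hMOM : S_MOM)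
    (hLIP : S_LIP) (hTVP : S_TVP) (hTVL : S_TVL) : S_SUM := by
  obtain ⟨C1, hC1, hinv⟩ := hINV
  obtain ⟨C2, hC2, hreg⟩ := hREG
  refine ⟨4 + 3 * C1 + 24 * C2, by positivity, ?_⟩
  intro d J N V h η c w hd hV hh hh1 hhd hη hR
  have hg := measurable_grad hV
  have hπ : IsProbabilityMeasure (gibbs V) := (hLIP d V hV).2.2.2.2
  obtain ⟨hm1, hm2, -, -⟩ := hMOM d V hd hV
  have hsq : √(h ^ 2 / 4) = h / 2 := by
    rw [show h ^ 2 / 4 = (h / 2) ^ 2 by ring]
    exact Real.sqrt_sq (by positivity)
  have hs0 : 0 < h ^ 2 / 4 := by positivity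
  have hPt := Pt_prob (s := h ^ 2 / 4) hπ
  have hD : 0 ≤ √(d : ℝ) := Real.sqrt_nonneg _
  -- comparison of the two chains
  have ha : ∀ q : E d × E d, TV ((aux d J).map fun r => pstep V (h ^ 2 / 4) (1 - 2 * h) c w (q, r))
      ((gam d).map fun z => nstep V (h ^ 2 / 4) (1 - 2 * h) c w (q, z)) (2 * (h ^ 3 * √d)) := by
    intro q
    exact (hPHAT d J V (h ^ 2 / 4) (1 - 2 * h) c w q hd hV hs0 (by linarith) (by linarith)
      hR.mem hR.pos hR.sum).mono (real_e1 hh hh1 hD)
  have hA := chain_ideal hTVP hTVL hg ha (N + 2)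
  -- invariance
  have hb : TV (K V (h ^ 2 / 4) (1 - 2 * h) c w (Pt V (h ^ 2 / 4))) (Pt V (h ^ 2 / 4))
      (C1 * (3 * (h ^ 3 * √d + η * h * √d)) + 2 * Real.exp (-d)) := by
    refine (hinv d J V (h ^ 2 / 4) (1 - 2 * h) η c w hd hV hs0 (by nlinarith) (by linarith)
      (by linarith) (by linarith) hη hR).mono ?_
    have := real_err (d := d) hh hh1 hη
    have := mul_le_mul_of_nonneg_left this hC1.le
    linarith
  have hB := inv_iter hTVL hg (Pt V (h ^ 2 / 4)) hb (N + 2)
  -- coupling
  have hr : ∀ (q q' : E d × E d) (z : E d),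
      √(Phi ((nstep V (h ^ 2 / 4) (1 - 2 * h) c w (q, z)).1
          - (nstep V (h ^ 2 / 4) (1 - 2 * h) c w (q', z)).1)
        ((nstep V (h ^ 2 / 4) (1 - 2 * h) c w (q, z)).2
          - (nstep V (h ^ 2 / 4) (1 - 2 * h) c w (q', z)).2))
        ≤ (1 - h / 4) * √(Phi (q.1 - q'.1) (q.2 - q'.2)) := by
    intro q q' z
    have h1 := hCONTR d J V h c w hV hh hh1 hR.mem hR.pos hR.sum q q' z
    have h2 : (1 - h / 2) * Phi (q.1 - q'.1) (q.2 - q'.2)
        ≤ (1 - h / 4) ^ 2 * Phi (q.1 - q'.1) (q.2 - q'.2) := by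
      apply mul_le_mul_of_nonneg_right
      · nlinarith [sq_nonneg h]
      · unfold Phi; positivity
    have h3 := Real.sqrt_le_sqrt (h1.trans h2)
    rwa [Real.sqrt_mul (by positivity), Real.sqrt_sq (by linarith)] at h3
  have hreg' : ∀ (q q' : E d × E d),
      TV (((gam d).prod (gam d)).map fun z => nstep V (h ^ 2 / 4) (1 - 2 * h) c w
          (nstep V (h ^ 2 / 4) (1 - 2 * h) c w (q, z.1), z.2))
        (((gam d).prod (gam d)).map fun z => nstep V (h ^ 2 / 4) (1 - 2 * h) c w
          (nstep V (h ^ 2 / 4) (1 - 2 * h) c w (q', z.1), z.2))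
        ((3 * C2 / h ^ 2) * √(Phi (q.1 - q'.1) (q.2 - q'.2))) := by
    intro q q'
    refine (hreg d J V h c w hV hh hh1 hR.mem hR.pos hR.sum q q').mono ?_
    have h1 := Phi_sqrt_bound (q.1 - q'.1) (q.2 - q'.2)
    rw [div_mul_eq_mul_div]
    apply div_le_div_of_nonneg_right _ (by positivity)
    have := mul_le_mul_of_nonneg_left h1 hC2.le
    linarith
  obtain ⟨hi1, hi2⟩ := Pt_int (V := V) (s := h ^ 2 / 4) hπ hd (by rw [hsq]; linarith) hm1 hm2
  have hC := couple hTVP hg hr (by linarith) (by positivity) hreg' N (E d × E d) (Pt V (h ^ 2 / 4))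
    (fun _ => (0, 0)) id (fun q => 2 * ‖q.1‖ + ‖q.2‖) measurable_const measurable_id hi1
    (by
      intro q
      have := sqrt_Phi_le (0 - q.1) (0 - q.2)
      simpa using this)
  rw [Measure.map_id, Measure.map_const, measure_univ, one_smul] at hC
  -- conclusion
  have hT := (hA.trans (hC.trans hB)).map (f := fun q : E d × E d => q.1 - (h / 2) • q.2)
    (by fun_prop)
  have hP : (Pt V (h ^ 2 / 4)).map (fun q => q.1 - (h / 2) • q.2) = gibbs V := by
    have := Pt_fst (s := h ^ 2 / 4) hπ
    rwa [hsq] at this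
  rw [hP] at hT
  refine hT.mono ?_
  have hr0 : 0 ≤ (1 - h / 4) ^ N := pow_nonneg (by linarith) N
  have k1 : 3 * C2 / h ^ 2 * ((1 - h / 4) ^ N * ∫ q, (2 * ‖q.1‖ + ‖q.2‖) ∂(Pt V (h ^ 2 / 4)))
      ≤ 24 * C2 * (√d * (1 - h / 4) ^ N / h ^ 2) := by
    have := mul_le_mul_of_nonneg_left (mul_le_mul_of_nonneg_left hi2 hr0)
      (show 0 ≤ 3 * C2 / h ^ 2 by positivity)
    refine this.trans (le_of_eq ?_)
    ring
  have k0 : 0 ≤ h ^ 3 * √(d : ℝ) := by positivity
  have k0' : 0 ≤ η * h * √(d : ℝ) := by positivity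
  have k0'' : 0 ≤ Real.exp (-(d : ℝ)) := (Real.exp_pos _).le
  have kN : (0 : ℝ) ≤ (N : ℝ) + 2 := by positivity
  have k2 : 0 ≤ √d * (1 - h / 4) ^ N / h ^ 2 := by positivity
  set X1 := h ^ 3 * √(d : ℝ)
  set X2 := η * h * √(d : ℝ)
  set X3 := Real.exp (-(d : ℝ))
  set X4 := √d * (1 - h / 4) ^ N / h ^ 2
  push_cast
  have k3 : ((N : ℝ) + 2) * (2 * X1) + ((N : ℝ) + 2) * (C1 * (3 * (X1 + X2)) + 2 * X3)
      ≤ (4 + 3 * C1) * (((N : ℝ) + 2) * (X1 + X2 + X3)) := by
    have : 0 ≤ ((N : ℝ) + 2) * (2 * X1 + 4 * X2 + 2 * X3 + 3 * C1 * X3) := by positivity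
    nlinarith
  have k4 : 0 ≤ C2 * (((N : ℝ) + 2) * (X1 + X2 + X3)) := by positivity
  have k5 : 0 ≤ (4 + 3 * C1) * X4 := by positivity
  nlinarith

end LCS
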