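import Vale.Agent.P347.Base

/-! # P347 module TOW: towers of derivatives of the gradient of a smooth local potential -/

namespace LCS

open MeasureTheory ProbabilityTheory Set Filter
open scoped ENNReal NNReal Topology RealInnerProductSpace BigOperators ContDiff

namespace TOW

variable {d : ℕ}

/-- the basis vectors -/
noncomputable def e (i : Fin d) : E d := EuclideanSpace.single i 1

/-- the directions of differentiation: first `α`, then `i` -/
noncomputable def w (i : Fin d) (k : ℕ) (α : Fin k → Fin d) : Fin (k + 1) → E d :=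
  fun j => if h : j.val < k then e (α ⟨j.val, h⟩) else e i

theorem w_cons_zero (i : Fin d) (k : ℕ) (α : Fin k → Fin d) (a : Fin d) :
    w i (k + 1) (Fin.cons a α) 0 = e a := by
  simp [w]

theorem w_cons_tail (i : Fin d) (k : ℕ) (α : Fin k → Fin d) (a : Fin d) :
    Fin.tail (w i (k + 1) (Fin.cons a α)) = w i k α := by
  funext j
  simp only [Fin.tail, w, Fin.val_succ, add_lt_add_iff_right]
  by_cases h : j.val < k
  · rw [dif_pos h, dif_pos h]
    congr 1
  · rw [dif_neg h, dif_neg h]

theorem norm_e (i : Fin d) : ‖e i‖ = 1 := by simp [e]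

theorem norm_w (i : Fin d) (k : ℕ) (α : Fin k → Fin d) (j : Fin (k + 1)) : ‖w i k α j‖ = 1 := by
  unfold w
  split_ifs
  · exact norm_e _
  · exact norm_e _

/-- the tower -/
noncomputable def G (f : E d → ℝ) (i : Fin d) (k : ℕ) (α : Fin k → Fin d) (y : E d) : ℝ :=
  iteratedFDeriv ℝ (k + 1) f y (w i k α)

theorem G_zero (f : E d → ℝ) (i : Fin d) (α : Fin 0 → Fin d) (y : E d) :
    G f i 0 α y = fderiv ℝ f y (e i) := by
  have h : G f i 0 α y = fderiv ℝ f y (w i 0 α 0) := iteratedFDeriv_one_apply _
  rw [h]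
  simp [w]

theorem sum_proj (L : E d →L[ℝ] ℝ) :
    L = ∑ a : Fin d, L (e a) • (EuclideanSpace.proj a : E d →L[ℝ] ℝ) := by
  ext v
  have h1 : v = ∑ a : Fin d, v a • e a := by
    have := (EuclideanSpace.basisFun (Fin d) ℝ).sum_repr v
    simpa [e] using this.symm
  conv_lhs => rw [h1]
  simp [mul_comm]

theorem G_deriv {f : E d → ℝ} (hf : ContDiff ℝ ∞ f) (i : Fin d) (k : ℕ) (α : Fin k → Fin d)
    (y : E d) : HasFDerivAt (G f i k α)
      (∑ a : Fin d, G f i (k + 1) (Fin.cons a α) y • (EuclideanSpace.proj a : E d →L[ℝ] ℝ)) y := by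
  have hd : DifferentiableAt ℝ (iteratedFDeriv ℝ (k + 1) f) y :=
    (hf.differentiable_iteratedFDeriv (by exact_mod_cast WithTop.coe_lt_top _)).differentiableAt
  have h1 : HasFDerivAt (fun y => iteratedFDeriv ℝ (k + 1) f y (w i k α))
      ((ContinuousMultilinearMap.apply ℝ (fun _ : Fin (k + 1) => E d) ℝ (w i k α)).comp
        (fderiv ℝ (iteratedFDeriv ℝ (k + 1) f) y)) y :=
    (ContinuousMultilinearMap.apply ℝ (fun _ : Fin (k + 1) => E d) ℝ
      (w i k α)).hasFDerivAt.comp y hd.hasFDerivAt
  have h2 : ((ContinuousMultilinearMap.apply ℝ (fun _ : Fin (k + 1) => E d) ℝ (w i k α)).comp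
        (fderiv ℝ (iteratedFDeriv ℝ (k + 1) f) y)) =
      ∑ a : Fin d, G f i (k + 1) (Fin.cons a α) y • (EuclideanSpace.proj a : E d →L[ℝ] ℝ) := by
    rw [sum_proj ((ContinuousMultilinearMap.apply ℝ (fun _ : Fin (k + 1) => E d) ℝ (w i k α)).comp
        (fderiv ℝ (iteratedFDeriv ℝ (k + 1) f) y))]
    refine Finset.sum_congr rfl fun a _ => ?_
    congr 1
    rw [G, iteratedFDeriv_succ_apply_left, w_cons_zero, w_cons_tail]
    rfl
  rw [← h2]
  exact h1

end TOW

open TOW in
/-- the components of the gradient of a smooth local potential have towers -/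
theorem tow : S_TOW := by
  intro d s A f hf i
  refine ⟨G f i, ⟨fun k α y => G_deriv hf.csmooth i k α y, ?_⟩, ?_⟩
  · intro k
    have hs : 0 ≤ s := by
      have h1 := hf.lower 0 (e i)
      have h2 := hf.upper 0 (e i)
      rw [norm_e] at h2
      linarith
    rcases Nat.eq_zero_or_pos k with rfl | hk
    · refine ⟨|s * A| + 2 * s, fun α y => ?_⟩
      rw [G_zero, ← inner_gradient]
      refine (abs_real_inner_le_norm _ _).trans ?_
      rw [norm_e, mul_one]
      have h3 := hf.toLoc.grad_le hs y
      have h4 := le_abs_self (s * A)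
      have h5 := norm_nonneg y
      have h6 := abs_nonneg (s * A)
      nlinarith
    · obtain ⟨C, hC⟩ := hf.bdd (k + 1) (by omega)
      refine ⟨C, fun α y => ?_⟩
      have h1 : |G f i k α y| ≤ C := by
        rw [G, ← Real.norm_eq_abs]
        refine (ContinuousMultilinearMap.le_opNorm _ _).trans ?_
        rw [Finset.prod_congr rfl (fun j _ => norm_w i k α j), Finset.prod_const_one, mul_one]
        exact hC y
      have h2 : 0 ≤ C := (abs_nonneg _).trans h1
      nlinarith [norm_nonneg y]
  · intro α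
    funext y
    rw [G_zero, ← inner_gradient, real_inner_comm, e, EuclideanSpace.inner_single_left]
    simp

end LCS
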