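import Vale.Agent.P347.Alg
import Vale.Agent.P347.Final
import Vale.Agent.P347.Sum
import Vale.Agent.P347.Inv
import Vale.Agent.P347.Loc
import Vale.Agent.P347.Locs
import Vale.Agent.P347.CM
import Vale.Agent.P347.NOISE
import Vale.Agent.P347.SHIFT
import Vale.Agent.P347.Dens
import Vale.Agent.P347.Ou
import Vale.Agent.P347.Boch
import Vale.Agent.P347.Oul
import Vale.Agent.P347.Ibp
import Vale.Agent.P347.Deriv
import Vale.Agent.P347.Mom
import Vale.Agent.P347.Mq
import Vale.Agent.P347.Mp
import Vale.Agent.P347.Contr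
import Vale.Agent.P347.Lip
import Vale.Agent.P347.Moll
import Vale.Agent.P347.Quad
import Vale.Agent.P347.REG
import Vale.Agent.P347.Rot
import Vale.Agent.P347.Phat
import Vale.Agent.P347.Path
import Vale.Agent.P347.Riem
import Vale.Agent.P347.Tow
import Vale.Agent.P347.TV3

/-! # P347: assembly of all modules -/

namespace LCS

theorem all : S_FINAL := by
  have h1 : S_NOISE := noise mp
  have h2 : S_DENS := dens cm mp
  have h3 : S_OU := ou cm (oul cm) (boch cm) h2
  have h4 : S_MQ := mq (deriv (ibp cm))
  have h5 : S_LOCS := locs tvp tvl h1 shift h2 h3 (rot cm) path riem h4 tow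
  have h6 : S_LOC := locC2 cm h5 moll shift
  have h7 : S_MOM := mom lip cm
  have h8 : S_INV := inv h6 h7 lip tvp cm
  have h9 : S_REG := reg lip shift tvp tvl
  have h10 : S_SUM := sum h8 (phat h1) (contr lip) h9 h7 lip tvp tvl
  exact final h10 alg quad

end LCS
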