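import Mathlib

/-!
# P347: query complexity of well-conditioned log-concave sampling: the model

The definitions are stated for an inner product space `F`; the problem is the case
`F = EuclideanSpace ℝ (Fin d)`.
-/

namespace LogConcaveSampling

open MeasureTheory

section

variable {F : Type} [NormedAddCommGroup F] [InnerProductSpace ℝ F] [CompleteSpace F]

/-- The class of potentials: `V ∈ C²`, `V(0) = 0`, `∇V(0) = 0`, `I ≤ ∇²V ≤ 2I`. -/
structure Potential (V : F → ℝ) : Prop where
  smooth : ContDiff ℝ 2 V
  zero : V 0 = 0
  grad_zero : gradient V 0 = 0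
  lower : ∀ x v, ‖v‖ ^ 2 ≤ fderiv ℝ (fderiv ℝ V) x v v
  upper : ∀ x v, fderiv ℝ (fderiv ℝ V) x v v ≤ 2 * ‖v‖ ^ 2

end

/-- The Gibbs law `Z⁻¹ exp(-V) dx`. -/
noncomputable def gibbsLaw {F : Type} [MeasureSpace F] (V : F → ℝ) : Measure F :=
  (∫⁻ x, ENNReal.ofReal (Real.exp (-V x)))⁻¹ •
    volume.withDensity (fun x => ENNReal.ofReal (Real.exp (-V x)))

/-- The total variation distance of two probability measures is at most `ε`. -/
def TVle {X : Type} [MeasurableSpace X] (μ ν : Measure X) (ε : ℝ) : Prop :=
  ∀ B, MeasurableSet B → |μ.real B - ν.real B| ≤ ε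

/-- A randomised adaptive algorithm on `F` with `q` first-order queries: a random seed (a random
element of a standard Borel space, i.e. any random reals), the position of query `k` as a
measurable function of the seed and of the previous `k` answers, and the output as a measurable
function of the seed and of all answers. -/
structure Algorithm (F : Type) [MeasurableSpace F] (q : ℕ) where
  Ω : Type
  mΩ : MeasurableSpace Ω
  sb : StandardBorelSpace Ω
  seed : Measure Ω
  prob : IsProbabilityMeasure seed
  query : (k : Fin q) → Ω → (Fin k.val → ℝ × F) → F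
  query_meas : ∀ k, Measurable fun p : Ω × (Fin k.val → ℝ × F) => query k p.1 p.2
  out : Ω → (Fin q → ℝ × F) → F
  out_meas : Measurable fun p : Ω × (Fin q → ℝ × F) => out p.1 p.2

section

variable {F : Type} [NormedAddCommGroup F] [InnerProductSpace ℝ F] [CompleteSpace F]
  [MeasurableSpace F] {q : ℕ}

/-- The first `k` answers `(V(x), ∇V(x))` of the exact first-order oracle. -/
noncomputable def Algorithm.answers (A : Algorithm F q) (V : F → ℝ) (r : A.Ω) :
    (k : ℕ) → k ≤ q → Fin k → ℝ × F
  | 0, _ => fun i => i.elim0
  | k + 1, hk =>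
    let prev := A.answers V r k (Nat.le_of_succ_le hk)
    let x := A.query ⟨k, hk⟩ r prev
    Fin.snoc (α := fun _ => ℝ × F) prev (V x, gradient V x)

/-- The law of the output. -/
noncomputable def Algorithm.law (A : Algorithm F q) (V : F → ℝ) : Measure F :=
  letI := A.mΩ
  A.seed.map fun r => A.out r (A.answers V r q le_rfl)

end

/-- `q` queries suffice on `F`: one algorithm with `q` queries samples from every Gibbs law of the
class up to total variation `1/10`. -/
def QueriesSuffice (F : Type) [NormedAddCommGroup F] [InnerProductSpace ℝ F] [CompleteSpace F]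
    [MeasureSpace F] (q : ℕ) : Prop :=
  ∃ A : Algorithm F q, ∀ V : F → ℝ, Potential V → TVle (A.law V) (gibbsLaw V) (1 / 10)

/-- The query complexity `Q(d)`. -/
noncomputable def queryComplexity (d : ℕ) : ℕ :=
  sInf {q | QueriesSuffice (EuclideanSpace ℝ (Fin d)) q}

end LogConcaveSampling
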