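import Mathlib
import Vale.Agent.P347.All
import Vale.Agent.P347.Spec

/-! # P347: from `LCS` to the final form of the statement -/

namespace LogConcaveSampling

open MeasureTheory Filter LCS

/-- conversion of algorithms -/
def conv {d q : ℕ} (A : Alg d q) : Algorithm (E d) q where
  Ω := A.Ω
  mΩ := A.mΩ
  sb := A.sb
  seed := A.seed
  prob := A.prob
  query := A.query
  query_meas := A.query_meas
  out := A.out
  out_meas := A.out_meas

theorem conv_answers {d q : ℕ} (A : Alg d q) (V : E d → ℝ) (r : A.Ω) :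
    ∀ (k : ℕ) (hk : k ≤ q), Algorithm.answers (conv A) V r k hk = A.ans V r k hk
  | 0, _ => rfl
  | k + 1, hk => congrArg (fun prev : Fin k → ℝ × E d =>
      Fin.snoc (α := fun _ => ℝ × E d) prev
        (V (A.query ⟨k, hk⟩ r prev), gradient V (A.query ⟨k, hk⟩ r prev)))
      (conv_answers A V r k (Nat.le_of_succ_le hk))

theorem conv_law {d q : ℕ} (A : Alg d q) (V : E d → ℝ) : (conv A).law V = A.law V := by
  have h : (fun r : A.Ω => A.out r (Algorithm.answers (conv A) V r q le_rfl))
      = fun r : A.Ω => A.out r (A.ans V r q le_rfl) :=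
    funext fun r => congrArg (A.out r) (conv_answers A V r q le_rfl)
  exact congrArg (fun g => @Measure.map A.Ω (E d) A.mΩ _ g A.seed) h

theorem suffices_of {d q : ℕ} (h : Suffices d q) : QueriesSuffice (E d) q := by
  obtain ⟨A, hA⟩ := h
  refine ⟨conv A, fun V hV => ?_⟩
  have := hA V ⟨hV.smooth, hV.zero, hV.grad_zero, hV.lower, hV.upper⟩
  rw [conv_law]
  exact this

theorem eventually_le (ε : ℝ) (hε : 0 < ε) : ∀ᶠ d : ℕ in atTop,
    QueriesSuffice (EuclideanSpace ℝ (Fin d)) (queryComplexity d) ∧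
      (queryComplexity d : ℝ) ≤ (d : ℝ) ^ (1 / 4 + ε) := by
  filter_upwards [LCS.all.1 ε hε] with d hd
  have h1 : QueriesSuffice (E d) (Q d) := suffices_of hd.1
  have hne : {q | QueriesSuffice (E d) q}.Nonempty := ⟨_, h1⟩
  refine ⟨Nat.sInf_mem hne, ?_⟩
  have h2 : queryComplexity d ≤ Q d := Nat.sInf_le h1
  have h3 : (queryComplexity d : ℝ) ≤ (Q d : ℝ) := by exact_mod_cast h2
  exact h3.trans hd.2

theorem log_ratio_nonneg (d : ℕ) : 0 ≤ Real.log (queryComplexity d) / Real.log d :=
  div_nonneg (Real.log_natCast_nonneg _) (Real.log_natCast_nonneg _)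

theorem log_ratio_le (ε : ℝ) (hε : 0 < ε) : ∀ᶠ d : ℕ in atTop,
    Real.log (queryComplexity d) / Real.log d ≤ 1 / 4 + ε := by
  filter_upwards [eventually_le ε hε, eventually_ge_atTop 2] with d hd hd2
  have hd1 : (1 : ℝ) < d := by exact_mod_cast hd2
  have hl : 0 < Real.log d := Real.log_pos hd1
  rw [div_le_iff₀ hl]
  rcases Nat.eq_zero_or_pos (queryComplexity d) with h0 | h0
  · rw [h0]; simp only [Nat.cast_zero, Real.log_zero]; positivity
  · have h1 : (0 : ℝ) < queryComplexity d := by exact_mod_cast h0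
    calc Real.log (queryComplexity d) ≤ Real.log ((d : ℝ) ^ (1 / 4 + ε)) :=
          Real.log_le_log h1 hd.2
      _ = (1 / 4 + ε) * Real.log d := Real.log_rpow (by linarith) _

theorem limsup_le : limsup (fun d : ℕ => Real.log (queryComplexity d) / Real.log d) atTop
    ≤ 1 / 4 := by
  refine le_of_forall_pos_le_add fun ε hε => ?_
  refine limsup_le_of_le ?_ (log_ratio_le ε hε)
  exact IsCoboundedUnder.of_frequently_ge (a := 0)
    (Frequently.of_forall fun d => log_ratio_nonneg d)

end LogConcaveSampling
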