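import Vale.Agent.P347.Defs

/-!
# P347 module CONTR (helper15)
-/

namespace LCS.CONTR

open MeasureTheory ProbabilityTheory Set Filter
open scoped ENNReal NNReal Topology RealInnerProductSpace ContDiff

variable {d : ℕ}

theorem real1 (h R a b : ℝ) (hh : 0 < h) (hh1 : h ≤ 1 / 1000) (hR : 0 ≤ R) (ha : a ≤ 2 * R)
    (hb : b ≤ 4 * R) : h * a + h ^ 2 * b ≤ 3 * h * R := by
  have a1 : h * a ≤ h * (2 * R) := mul_le_mul_of_nonneg_left ha hh.le
  have a2 : h ^ 2 * b ≤ h ^ 2 * (4 * R) := mul_le_mul_of_nonneg_left hb (by positivity)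
  have a3 : h * (h * R) ≤ 1 / 1000 * (h * R) :=
    mul_le_mul_of_nonneg_right hh1 (mul_nonneg hh.le hR)
  have a4 : 0 ≤ h * R := mul_nonneg hh.le hR
  have a5 : h ^ 2 * (4 * R) = 4 * (h * (h * R)) := by ring
  linarith

theorem real2 (h R a b : ℝ) (hh : 0 < h) (hh1 : h ≤ 1 / 1000) (hR : 0 ≤ R) (ha : a ≤ 2 * R)
    (hb : b ≤ 4 * R) : h * a + h * b + h ^ 2 * b ≤ 7 * h * R := by
  have a1 : h * a ≤ h * (2 * R) := mul_le_mul_of_nonneg_left ha hh.le
  have a1' : h * b ≤ h * (4 * R) := mul_le_mul_of_nonneg_left hb hh.le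
  have a2 : h ^ 2 * b ≤ h ^ 2 * (4 * R) := mul_le_mul_of_nonneg_left hb (by positivity)
  have a3 : h * (h * R) ≤ 1 / 1000 * (h * R) :=
    mul_le_mul_of_nonneg_right hh1 (mul_nonneg hh.le hR)
  have a4 : 0 ≤ h * R := mul_nonneg hh.le hR
  have a5 : h ^ 2 * (4 * R) = 4 * (h * (h * R)) := by ring
  linarith

theorem real3 (h R2 p2 w2 pU wU pX wX wn we pw A B : ℝ) (hh : 0 < h) (hh1 : h ≤ 1 / 1000)
    (hR2 : 0 ≤ R2) (hPhi : R2 = p2 + w2) (i3 : pU = pw - p2) (i4 : wU = w2 - pw)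
    (i5 : wX = 2 * w2 - wn + we) (b1 : A ≤ 9 * h ^ 2 * R2) (b2 : B ≤ 49 * h ^ 2 * R2)
    (b3 : -pX ≤ 4 * R2) (b4 : -wX ≤ 4 * R2) (b5 : wn ≤ R2 / 2 + 2 * h * R2)
    (b6 : -we ≤ 12 * h * R2) :
    p2 + 2 * (h * pU - h ^ 2 * pX) + A + (w2 + 2 * (h * wU - h * wX - h ^ 2 * wX) + B)
      ≤ (1 - h / 2) * R2 := by
  have c1 : p2 + 2 * (h * pU - h ^ 2 * pX) + A + (w2 + 2 * (h * wU - h * wX - h ^ 2 * wX) + B)
      = R2 + 2 * h * (-R2 + wn - we) + 2 * h ^ 2 * (-pX + -wX) + A + B := by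
    have : h * wX = h * (2 * w2 - wn + we) := by rw [i5]
    rw [i3, i4, hPhi]
    linarith
  rw [c1]
  have c2 : 2 * h * (-R2 + wn - we) ≤ 2 * h * (-R2 / 2 + 14 * h * R2) := by
    apply mul_le_mul_of_nonneg_left _ (by positivity)
    linarith
  have c3 : 2 * h ^ 2 * (-pX + -wX) ≤ 2 * h ^ 2 * (8 * R2) := by
    apply mul_le_mul_of_nonneg_left _ (by positivity)
    linarith
  have c4 : h * (h * R2) ≤ 1 / 1000 * (h * R2) :=
    mul_le_mul_of_nonneg_right hh1 (mul_nonneg hh.le hR2)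
  have c5 : 0 ≤ h * R2 := mul_nonneg hh.le hR2
  have c6 : 2 * h * (-R2 / 2 + 14 * h * R2) = -(h * R2) + 28 * (h * (h * R2)) := by ring
  have c7 : 2 * h ^ 2 * (8 * R2) = 16 * (h * (h * R2)) := by ring
  have c8 : 9 * h ^ 2 * R2 = 9 * (h * (h * R2)) := by ring
  have c9 : 49 * h ^ 2 * R2 = 49 * (h * (h * R2)) := by ring
  have c10 : (1 - h / 2) * R2 = R2 - (h * R2) / 2 := by ring
  rw [c6] at c2
  rw [c7] at c3
  rw [c8] at b1
  rw [c9] at b2
  rw [c10]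
  linarith

/-- the algebraic inequality -/
theorem key (P U n e : E d) (h R : ℝ) (hh : 0 < h) (hh1 : h ≤ 1 / 1000) (hR : 0 ≤ R)
    (hR2 : R ^ 2 = Phi P U) (hn : ‖n‖ ≤ ‖P‖ + 2 * h * R) (he : ‖e‖ ≤ 12 * h * R) :
    Phi (P + h • (U - h • ((2 : ℝ) • (P + U) - n + e))) (U - h • ((2 : ℝ) • (P + U) - n + e))
      ≤ (1 - h / 2) * Phi P U := by
  obtain ⟨W, hW⟩ : ∃ W, W = P + U := ⟨_, rfl⟩
  rw [← hW]
  obtain ⟨X, hX⟩ : ∃ X, X = (2 : ℝ) • W - n + e := ⟨_, rfl⟩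
  rw [← hX]
  have hU : U = W - P := by rw [hW]; abel
  rw [← hR2]
  have hPhi : R ^ 2 = ‖P‖ ^ 2 + ‖W‖ ^ 2 := by rw [hR2, Phi, hW]
  have hPR : ‖P‖ ≤ R := by
    apply le_of_sq_le_sq _ hR
    rw [hPhi]
    exact le_add_of_nonneg_right (sq_nonneg _)
  have hWR : ‖W‖ ≤ R := by
    apply le_of_sq_le_sq _ hR
    rw [hPhi]
    exact le_add_of_nonneg_left (sq_nonneg _)
  have hUR : ‖U‖ ≤ 2 * R := by
    rw [hU]
    refine (norm_sub_le _ _).trans ?_
    linarith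
  have hXR : ‖X‖ ≤ 4 * R := by
    have h1 : ‖X‖ ≤ ‖(2 : ℝ) • W‖ + ‖n‖ + ‖e‖ := by
      rw [hX]
      exact (norm_add_le _ _).trans (add_le_add (norm_sub_le _ _) le_rfl)
    rw [norm_smul, Real.norm_eq_abs, abs_of_pos (by norm_num : (0 : ℝ) < 2)] at h1
    have h2 : h * R ≤ 1 / 1000 * R := mul_le_mul_of_nonneg_right hh1 hR
    have h3 : 2 * h * R = 2 * (h * R) := by ring
    have h4 : 12 * h * R = 12 * (h * R) := by ring
    rw [h3] at hn
    rw [h4] at he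
    linarith
  -- the increments
  have e1 : P + h • (U - h • X) = P + (h • U - h ^ 2 • X) := by
    rw [smul_sub, smul_smul, ← pow_two]
  have e2 : P + h • (U - h • X) + (U - h • X) = W + (h • U - h • X - h ^ 2 • X) := by
    rw [smul_sub, smul_smul, ← pow_two, hW]
    abel
  have hPhi' : Phi (P + h • (U - h • X)) (U - h • X)
      = ‖P + (h • U - h ^ 2 • X)‖ ^ 2 + ‖W + (h • U - h • X - h ^ 2 • X)‖ ^ 2 := by
    rw [Phi, e2, e1]
  rw [hPhi', norm_add_sq_real, norm_add_sq_real]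
  have i1 : ⟪P, h • U - h ^ 2 • X⟫ = h * ⟪P, U⟫ - h ^ 2 * ⟪P, X⟫ := by
    rw [inner_sub_right, inner_smul_right, inner_smul_right]
  have i2 : ⟪W, h • U - h • X - h ^ 2 • X⟫ = h * ⟪W, U⟫ - h * ⟪W, X⟫ - h ^ 2 * ⟪W, X⟫ := by
    rw [inner_sub_right, inner_sub_right, inner_smul_right, inner_smul_right, inner_smul_right]
  have i3 : ⟪P, U⟫ = ⟪P, W⟫ - ‖P‖ ^ 2 := by
    rw [hU, inner_sub_right, real_inner_self_eq_norm_sq]
  have i4 : ⟪W, U⟫ = ‖W‖ ^ 2 - ⟪P, W⟫ := by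
    rw [hU, inner_sub_right, real_inner_self_eq_norm_sq, real_inner_comm]
  have i5 : ⟪W, X⟫ = 2 * ‖W‖ ^ 2 - ⟪W, n⟫ + ⟪W, e⟫ := by
    rw [hX, inner_add_right, inner_sub_right, inner_smul_right, real_inner_self_eq_norm_sq]
  have b1 : ‖h • U - h ^ 2 • X‖ ^ 2 ≤ 9 * h ^ 2 * R ^ 2 := by
    have : ‖h • U - h ^ 2 • X‖ ≤ 3 * h * R := by
      refine (norm_sub_le _ _).trans ?_
      rw [norm_smul, norm_smul, Real.norm_eq_abs, Real.norm_eq_abs, abs_of_pos hh,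
        abs_of_pos (by positivity : 0 < h ^ 2)]
      exact real1 h R _ _ hh hh1 hR hUR hXR
    calc ‖h • U - h ^ 2 • X‖ ^ 2 ≤ (3 * h * R) ^ 2 := by
          apply pow_le_pow_left₀ (norm_nonneg _) this
      _ = _ := by ring
  have b2 : ‖h • U - h • X - h ^ 2 • X‖ ^ 2 ≤ 49 * h ^ 2 * R ^ 2 := by
    have : ‖h • U - h • X - h ^ 2 • X‖ ≤ 7 * h * R := by
      refine (norm_sub_le _ _).trans ((add_le_add (norm_sub_le _ _) le_rfl).trans ?_)
      rw [norm_smul, norm_smul, norm_smul, Real.norm_eq_abs, Real.norm_eq_abs, abs_of_pos hh,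
        abs_of_pos (by positivity : 0 < h ^ 2)]
      exact real2 h R _ _ hh hh1 hR hUR hXR
    calc ‖h • U - h • X - h ^ 2 • X‖ ^ 2 ≤ (7 * h * R) ^ 2 := by
          apply pow_le_pow_left₀ (norm_nonneg _) this
      _ = _ := by ring
  have b3 : -⟪P, X⟫ ≤ 4 * R ^ 2 := by
    have := (abs_le.1 (abs_real_inner_le_norm P X)).1
    have h2 : ‖P‖ * ‖X‖ ≤ R * (4 * R) := mul_le_mul hPR hXR (norm_nonneg _) hR
    have h3 : R * (4 * R) = 4 * R ^ 2 := by ring
    rw [h3] at h2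
    linarith
  have b4 : -⟪W, X⟫ ≤ 4 * R ^ 2 := by
    have := (abs_le.1 (abs_real_inner_le_norm W X)).1
    have h2 : ‖W‖ * ‖X‖ ≤ R * (4 * R) := mul_le_mul hWR hXR (norm_nonneg _) hR
    have h3 : R * (4 * R) = 4 * R ^ 2 := by ring
    rw [h3] at h2
    linarith
  have b5 : ⟪W, n⟫ ≤ R ^ 2 / 2 + 2 * h * R ^ 2 := by
    have h1 := (abs_le.1 (abs_real_inner_le_norm W n)).2
    have h2 : ‖W‖ * ‖n‖ ≤ ‖W‖ * (‖P‖ + 2 * h * R) := mul_le_mul_of_nonneg_left hn (norm_nonneg _)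
    have h3 : ‖W‖ * ‖P‖ ≤ R ^ 2 / 2 := by
      rw [hPhi]
      have := two_mul_le_add_sq ‖W‖ ‖P‖
      linarith
    have h4 : ‖W‖ * (2 * h * R) ≤ R * (2 * h * R) :=
      mul_le_mul_of_nonneg_right hWR (by positivity)
    have h5 : R * (2 * h * R) = 2 * h * R ^ 2 := by ring
    have h6 : ‖W‖ * (‖P‖ + 2 * h * R) = ‖W‖ * ‖P‖ + ‖W‖ * (2 * h * R) := by ring
    rw [h5] at h4
    rw [h6] at h2
    linarith
  have b6 : -⟪W, e⟫ ≤ 12 * h * R ^ 2 := by
    have h1 := (abs_le.1 (abs_real_inner_le_norm W e)).1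
    have h2 : ‖W‖ * ‖e‖ ≤ R * (12 * h * R) := mul_le_mul hWR he (norm_nonneg _) hR
    have h3 : R * (12 * h * R) = 12 * h * R ^ 2 := by ring
    rw [h3] at h2
    linarith
  rw [i1, i2]
  exact real3 h (R ^ 2) _ _ _ _ _ _ _ _ _ _ _ hh hh1 (sq_nonneg R) hPhi i3 i4 i5 b1 b2 b3 b4 b5 b6

theorem real4 (h R p u n : ℝ) (hh : 0 < h) (hh1 : h ≤ 1 / 1000) (hR : 0 ≤ R) (hp : p ≤ R)
    (hu : u ≤ 2 * R) (hn : n ≤ p + (h ^ 2 * p + h / 2 * u)) : n ≤ p + 2 * h * R := by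
  have f1 : h ^ 2 * p ≤ h ^ 2 * R := mul_le_mul_of_nonneg_left hp (by positivity)
  have f2 : h / 2 * u ≤ h / 2 * (2 * R) := mul_le_mul_of_nonneg_left hu (by positivity)
  have a3 : h * (h * R) ≤ 1 / 1000 * (h * R) :=
    mul_le_mul_of_nonneg_right hh1 (mul_nonneg hh.le hR)
  have a4 : 0 ≤ h * R := mul_nonneg hh.le hR
  have a5 : h ^ 2 * R = h * (h * R) := by ring
  have a6 : h / 2 * (2 * R) = h * R := by ring
  have a7 : 2 * h * R = 2 * (h * R) := by ring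
  rw [a5] at f1
  rw [a6] at f2
  rw [a7]
  linarith

theorem real5 (h R p u n g e1 T : ℝ) (hh : 0 < h) (hh1 : h ≤ 1 / 1000) (hR : 0 ≤ R) (hp : p ≤ R)
    (hu : u ≤ 2 * R) (hn : n ≤ p + 2 * h * R) (hg : g ≤ 2 * p) (he0 : 0 ≤ e1)
    (he : e1 ≤ 2 * h ^ 2 * (2 * p) / 2 + h * u)
    (hT : T ≤ h * g + 4 * h * p + (1 - 2 * h) * e1 + 2 * h * n) : T ≤ 12 * h * R := by
  have a4 : 0 ≤ h * R := mul_nonneg hh.le hR
  have a3 : h * (h * R) ≤ 1 / 1000 * (h * R) := mul_le_mul_of_nonneg_right hh1 a4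
  have g0 : h * p ≤ h * R := mul_le_mul_of_nonneg_left hp hh.le
  have g2 : h * g ≤ h * (2 * p) := mul_le_mul_of_nonneg_left hg hh.le
  have g3 : (1 - 2 * h) * e1 ≤ 1 * e1 := mul_le_mul_of_nonneg_right (by linarith) he0
  have f1 : h ^ 2 * p ≤ h ^ 2 * R := mul_le_mul_of_nonneg_left hp (by positivity)
  have f2 : h * u ≤ h * (2 * R) := mul_le_mul_of_nonneg_left hu hh.le
  have g5 : 2 * h * n ≤ 2 * h * (p + 2 * h * R) := mul_le_mul_of_nonneg_left hn (by positivity)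
  have r1 : h ^ 2 * R = h * (h * R) := by ring
  have r2 : h * (2 * R) = 2 * (h * R) := by ring
  have r3 : 2 * h * (p + 2 * h * R) = 2 * (h * p) + 4 * (h * (h * R)) := by ring
  have r4 : 2 * h ^ 2 * (2 * p) / 2 = 2 * (h ^ 2 * p) := by ring
  have r5 : h * (2 * p) = 2 * (h * p) := by ring
  have r6 : 12 * h * R = 12 * (h * R) := by ring
  have r7 : 4 * h * p = 4 * (h * p) := by ring
  rw [r1] at f1
  rw [r2] at f2
  rw [r3] at g5
  rw [r4] at he
  rw [r5] at g2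
  rw [r6]
  rw [r7] at hT
  linarith

theorem four (a b c n : E d) (h : ℝ) (hh : 0 < h) (hh1 : h ≤ 1 / 1000) :
    ‖h • a - (4 * h) • b - (1 - 2 * h) • c + (2 * h) • n‖
      ≤ h * ‖a‖ + 4 * h * ‖b‖ + (1 - 2 * h) * ‖c‖ + 2 * h * ‖n‖ := by
  have g1 : ‖h • a - (4 * h) • b - (1 - 2 * h) • c + (2 * h) • n‖
      ≤ ‖h • a‖ + ‖(4 * h) • b‖ + ‖(1 - 2 * h) • c‖ + ‖(2 * h) • n‖ :=
    (norm_add_le _ _).trans (add_le_add ((norm_sub_le _ _).trans
      (add_le_add (norm_sub_le _ _) le_rfl)) le_rfl)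
  rw [norm_smul, norm_smul, norm_smul, norm_smul, Real.norm_eq_abs, Real.norm_eq_abs,
    Real.norm_eq_abs, Real.norm_eq_abs, abs_of_pos hh, abs_of_pos (by positivity : 0 < 4 * h),
    abs_of_pos (by linarith : 0 < 1 - 2 * h), abs_of_pos (by positivity : 0 < 2 * h)] at g1
  exact g1

/-- Gaussian integrability of Lipschitz maps -/
theorem integrable_lip (F : E d → E d) (L : ℝ) (hF : ∀ x y, ‖F x - F y‖ ≤ L * ‖x - y‖) :
    Integrable F (gam d) := by
  have hc : Continuous F := by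
    have : LipschitzWith (Real.toNNReal L) F := by
      apply LipschitzWith.of_dist_le_mul
      intro x y
      rw [dist_eq_norm, dist_eq_norm]
      refine (hF x y).trans ?_
      exact mul_le_mul_of_nonneg_right (Real.le_coe_toNNReal L) (norm_nonneg _)
    exact this.continuous
  have hid : Integrable (fun x : E d => x) (gam d) := by
    have := (IsGaussian.memLp_id (gam d) 1 (by norm_num)).integrable (by norm_num)
    exact this
  have hb : Integrable (fun x : E d => ‖F 0‖ + |L| * ‖x‖) (gam d) :=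
    (integrable_const _).add (hid.norm.const_mul _)
  refine hb.mono hc.aestronglyMeasurable (ae_of_all _ fun x => ?_)
  have h1 := hF x 0
  rw [sub_zero] at h1
  have h2 : ‖F x‖ ≤ ‖F 0‖ + L * ‖x‖ := by
    have := norm_sub_norm_le (F x) (F 0)
    linarith
  have h3 : L * ‖x‖ ≤ |L| * ‖x‖ := mul_le_mul_of_nonneg_right (le_abs_self L) (norm_nonneg _)
  rw [Real.norm_eq_abs, abs_of_nonneg (by positivity)]
  linarith

end LCS.CONTR

namespace LCS

open MeasureTheory ProbabilityTheory Set Filter CONTR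
open scoped ENNReal NNReal Topology RealInnerProductSpace ContDiff

theorem contr (hLIP : S_LIP) : S_CONTR := by
  intro d J V h c w hV hh hh1 hc hw hsum q q' z a b
  obtain ⟨hl1, hl2, -, hgc, -⟩ := hLIP d V hV
  have hsq : √(h ^ 2 / 4) = h / 2 := by
    rw [show h ^ 2 / 4 = (h / 2) ^ 2 by ring, Real.sqrt_sq (by positivity)]
  set P : E d := q.1 - q'.1 with hP
  set U : E d := q.2 - q'.2 with hU
  set G0 : E d := gradient V q.1 - gradient V q'.1 with hG0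
  set I : Fin J → E d := fun j => ∫ z, gradient V (node V (h ^ 2 / 4) (c j) q.1 q.2 z) ∂(gam d)
    with hI
  set I' : Fin J → E d := fun j => ∫ z, gradient V (node V (h ^ 2 / 4) (c j) q'.1 q'.2 z) ∂(gam d)
    with hI'
  set Dl : Fin J → E d := fun j => P - (h / 2) • ((1 - c j) • ((h / 2) • G0) + c j • U) with hDl
  have hG0n : ‖G0‖ ≤ 2 * ‖P‖ := hl1 _ _
  -- node differences
  have hnode : ∀ j z, node V (h ^ 2 / 4) (c j) q.1 q.2 z - node V (h ^ 2 / 4) (c j) q'.1 q'.2 z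
      = Dl j := by
    intro j z
    simp only [node, hDl, hsq, hP, hU, hG0]
    module
  have hnodelip : ∀ j (p v : E d) (x y : E d),
      ‖gradient V (node V (h ^ 2 / 4) (c j) p v x) - gradient V (node V (h ^ 2 / 4) (c j) p v y)‖
      ≤ (2 * (h / 2 * |√(1 - c j ^ 2)|)) * ‖x - y‖ := by
    intro j p v x y
    refine (hl1 _ _).trans ?_
    have : node V (h ^ 2 / 4) (c j) p v x - node V (h ^ 2 / 4) (c j) p v y
        = -((h / 2 * √(1 - c j ^ 2)) • (x - y)) := by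
      simp only [node, hsq]
      module
    rw [this, norm_neg, norm_smul, Real.norm_eq_abs, abs_mul, abs_of_pos (by positivity : 0 < h / 2)]
    exact le_of_eq (by ring)
  have hint : ∀ j (p v : E d), Integrable (fun z => gradient V (node V (h ^ 2 / 4) (c j) p v z))
      (gam d) := fun j p v => integrable_lip _ _ (hnodelip j p v)
  set N : Fin J → E d := fun j => (2 : ℝ) • Dl j - (I j - I' j) with hN
  have hNn : ∀ j, ‖N j‖ ≤ ‖Dl j‖ := by
    intro j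
    have e1 : N j = ∫ z, ((2 : ℝ) • Dl j - (gradient V (node V (h ^ 2 / 4) (c j) q.1 q.2 z)
        - gradient V (node V (h ^ 2 / 4) (c j) q'.1 q'.2 z))) ∂(gam d) := by
      have t1 : Integrable (fun z => gradient V (node V (h ^ 2 / 4) (c j) q.1 q.2 z)
        - gradient V (node V (h ^ 2 / 4) (c j) q'.1 q'.2 z)) (gam d) :=
        (hint j q.1 q.2).sub (hint j q'.1 q'.2)
      rw [integral_sub (integrable_const _) t1, integral_sub (hint _ _ _) (hint _ _ _)]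
      simp [hN, hI, hI']
    rw [e1]
    refine (norm_integral_le_of_norm_le_const (C := ‖Dl j‖) (ae_of_all _ fun z => ?_)).trans ?_
    · have := hl2 (node V (h ^ 2 / 4) (c j) q.1 q.2 z) (node V (h ^ 2 / 4) (c j) q'.1 q'.2 z)
      rw [hnode] at this
      refine le_trans (le_of_eq ?_) this
      congr 1
      rw [← hnode j z]
      module
    · simp
  have hDln : ∀ j, ‖Dl j‖ ≤ ‖P‖ + (h ^ 2 * ‖P‖ + h / 2 * ‖U‖) := by
    intro j
    have hcj := hc j
    rw [mem_Ioo] at hcj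
    have a1 : |1 - c j| ≤ 2 := by rw [abs_le]; constructor <;> linarith
    have a2 : |c j| ≤ 1 := by rw [abs_le]; constructor <;> linarith
    refine (norm_sub_le _ _).trans (add_le_add le_rfl ?_)
    rw [norm_smul, Real.norm_eq_abs, abs_of_pos (by positivity : 0 < h / 2)]
    have a3 : ‖(1 - c j) • ((h / 2) • G0) + c j • U‖ ≤ 2 * (h / 2 * (2 * ‖P‖)) + 1 * ‖U‖ := by
      refine (norm_add_le _ _).trans ?_
      rw [norm_smul, norm_smul, norm_smul, Real.norm_eq_abs, Real.norm_eq_abs, Real.norm_eq_abs,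
        abs_of_pos (by positivity : 0 < h / 2)]
      gcongr
    calc h / 2 * ‖(1 - c j) • ((h / 2) • G0) + c j • U‖
        ≤ h / 2 * (2 * (h / 2 * (2 * ‖P‖)) + 1 * ‖U‖) := mul_le_mul_of_nonneg_left a3 (by positivity)
      _ = _ := by ring
  set n : E d := (1 / 2 : ℝ) • ∑ j, w j • N j with hn
  have hnn : ‖n‖ ≤ ‖P‖ + (h ^ 2 * ‖P‖ + h / 2 * ‖U‖) := by
    rw [hn, norm_smul, Real.norm_eq_abs, abs_of_pos (by norm_num : (0 : ℝ) < 1 / 2)]
    have : ‖∑ j, w j • N j‖ ≤ ∑ j, w j * (‖P‖ + (h ^ 2 * ‖P‖ + h / 2 * ‖U‖)) := by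
      refine (norm_sum_le _ _).trans (Finset.sum_le_sum fun j _ => ?_)
      rw [norm_smul, Real.norm_eq_abs, abs_of_pos (hw j)]
      exact mul_le_mul_of_nonneg_left ((hNn j).trans (hDln j)) (hw j).le
    rw [← Finset.sum_mul, hsum] at this
    linarith
  set κ1 : ℝ := ∑ j, w j * (1 - c j) with hκ1
  set κ2 : ℝ := ∑ j, w j * c j with hκ2
  have hκ1n : |κ1| ≤ 4 := by
    refine (Finset.abs_sum_le_sum_abs _ _).trans ?_
    have : ∑ j, |w j * (1 - c j)| ≤ ∑ j, w j * 2 := by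
      refine Finset.sum_le_sum fun j _ => ?_
      have hcj := hc j
      rw [mem_Ioo] at hcj
      rw [abs_mul, abs_of_pos (hw j)]
      exact mul_le_mul_of_nonneg_left (by rw [abs_le]; constructor <;> linarith) (hw j).le
    rw [← Finset.sum_mul, hsum] at this
    linarith
  have hκ2n : |κ2| ≤ 2 := by
    refine (Finset.abs_sum_le_sum_abs _ _).trans ?_
    have : ∑ j, |w j * c j| ≤ ∑ j, w j * 1 := by
      refine Finset.sum_le_sum fun j _ => ?_
      have hcj := hc j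
      rw [mem_Ioo] at hcj
      rw [abs_mul, abs_of_pos (hw j)]
      exact mul_le_mul_of_nonneg_left (by rw [abs_le]; constructor <;> linarith) (hw j).le
    rw [← Finset.sum_mul, hsum] at this
    linarith
  set e1 : E d := (h / 2) • ((h / 2 * κ1) • G0 + κ2 • U) with he1
  have he1n : ‖e1‖ ≤ 2 * h ^ 2 * (2 * ‖P‖) / 2 + h * ‖U‖ := by
    rw [he1, norm_smul, Real.norm_eq_abs, abs_of_pos (by positivity : 0 < h / 2)]
    have a3 : ‖(h / 2 * κ1) • G0 + κ2 • U‖ ≤ (h / 2 * 4) * (2 * ‖P‖) + 2 * ‖U‖ := by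
      refine (norm_add_le _ _).trans ?_
      rw [norm_smul, norm_smul, Real.norm_eq_abs, Real.norm_eq_abs, abs_mul,
        abs_of_pos (by positivity : 0 < h / 2)]
      gcongr
    calc h / 2 * ‖(h / 2 * κ1) • G0 + κ2 • U‖
        ≤ h / 2 * ((h / 2 * 4) * (2 * ‖P‖) + 2 * ‖U‖) := mul_le_mul_of_nonneg_left a3 (by positivity)
      _ = _ := by ring
  -- the sum
  have hT : ∑ j, w j • (I j - I' j) = (4 : ℝ) • P - (2 : ℝ) • e1 - (2 : ℝ) • n := by
    have s1 : ∀ j, w j • (I j - I' j) = w j • ((2 : ℝ) • P) - (w j * (1 - c j)) • ((h * (h / 2)) • G0)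
        - (w j * c j) • (h • U) - w j • N j := by
      intro j
      simp only [hN, hDl]
      module
    rw [Finset.sum_congr rfl (fun j _ => s1 j), Finset.sum_sub_distrib, Finset.sum_sub_distrib,
      Finset.sum_sub_distrib, ← Finset.sum_smul, ← Finset.sum_smul, ← Finset.sum_smul, hsum,
      ← hκ1, ← hκ2, he1, hn]
    module
  -- mean difference
  set X : E d := (2 : ℝ) • (P + U) - n + (h • G0 - (4 * h) • P - (1 - 2 * h) • e1 + (2 * h) • n)
    with hX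
  have hmean : mean V (h ^ 2 / 4) (1 - 2 * h) c w q - mean V (h ^ 2 / 4) (1 - 2 * h) c w q'
      = U - h • X := by
    have s1 : mean V (h ^ 2 / 4) (1 - 2 * h) c w q - mean V (h ^ 2 / 4) (1 - 2 * h) c w q'
        = (1 - 2 * h) • U - (h / 2) • ((2 * h) • G0 + (1 - 2 * h) • ∑ j, w j • (I j - I' j)) := by
      have s2 : ∑ j, w j • (I j - I' j) = ∑ j, w j • I j - ∑ j, w j • I' j := by
        rw [← Finset.sum_sub_distrib]
        exact Finset.sum_congr rfl fun j _ => smul_sub _ _ _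
      rw [s2]
      simp only [mean, hsq, hI, hI', hU, hG0]
      module
    rw [s1, hT, hX]
    module
  have hab1 : a.1 - b.1 = P + h • (U - h • X) := by
    have : a.1 - b.1 = (q.1 - q'.1) + (2 * √(h ^ 2 / 4)) •
        (mean V (h ^ 2 / 4) (1 - 2 * h) c w q - mean V (h ^ 2 / 4) (1 - 2 * h) c w q') := by
      simp only [a, b, nstep]
      module
    rw [this, hmean, hsq, ← hP]
    congr 2
    ring
  have hab2 : a.2 - b.2 = U - h • X := by
    rw [← hmean]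
    simp only [a, b, nstep]
    abel
  rw [hab1, hab2]
  set R : ℝ := √(Phi P U) with hR
  have hPhi0 : 0 ≤ Phi P U := by unfold Phi; positivity
  have hR2 : R ^ 2 = Phi P U := Real.sq_sqrt hPhi0
  have hR0 : 0 ≤ R := Real.sqrt_nonneg _
  have hPR : ‖P‖ ≤ R := by
    apply le_of_sq_le_sq _ hR0
    rw [hR2, Phi]
    nlinarith [sq_nonneg ‖P + U‖]
  have hWR : ‖P + U‖ ≤ R := by
    apply le_of_sq_le_sq _ hR0
    rw [hR2, Phi]
    nlinarith [sq_nonneg ‖P‖]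
  have hUR : ‖U‖ ≤ 2 * R := by
    have : U = (P + U) - P := by abel
    rw [this]
    refine (norm_sub_le _ _).trans ?_
    linarith
  have hnfin : ‖n‖ ≤ ‖P‖ + 2 * h * R := real4 h R _ _ _ hh hh1 hR0 hPR hUR hnn
  have hefin : ‖h • G0 - (4 * h) • P - (1 - 2 * h) • e1 + (2 * h) • n‖ ≤ 12 * h * R := by
    have g1 := four G0 P e1 n h hh hh1
    exact real5 h R _ _ _ _ _ _ hh hh1 hR0 hPR hUR hnfin hG0n (norm_nonneg _) he1n g1
  exact key P U n _ h R hh hh1 hR0 hR2 hnfin hefin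

end LCS
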