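import Vale.Agent.P347.Base
import Vale.Agent.P347.TVBasic
import Vale.Agent.P347.LocBasic

/-! # P347: Lipschitz bounds for `node` and `mean` (helper28) -/

namespace LCS

open MeasureTheory ProbabilityTheory Set Filter
open scoped ENNReal NNReal Topology RealInnerProductSpace BigOperators ContDiff

theorem integrable_norm_gam {d : ℕ} : Integrable (fun y : E d => ‖y‖) (gam d) := by
  refine Integrable.mono' ((integrable_norm_sq_gam (d := d)).add (integrable_const (1 : ℝ)))
    (by fun_prop) (Filter.Eventually.of_forall fun y => ?_)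
  simp only [Pi.add_apply]
  rw [Real.norm_of_nonneg (norm_nonneg _)]
  nlinarith [norm_nonneg y, sq_nonneg (‖y‖ - 1)]

section

variable {d : ℕ} {V : E d → ℝ}

theorem gradV_norm_le (hV : Pot d V)
    (hL : ∀ x y, ‖gradient V x - gradient V y‖ ≤ 2 * ‖x - y‖) (x : E d) :
    ‖gradient V x‖ ≤ 2 * ‖x‖ := by
  have := hL x 0
  rwa [hV.grad_zero, sub_zero, sub_zero] at this

theorem continuous_gradV (hV : Pot d V) : Continuous (gradient V) :=
  (contDiff_gradient hV.smooth).continuous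

theorem node_sub_le {s c : ℝ} (hs : 0 < s) (hc : c ∈ Ioo (-1 : ℝ) 1)
    (hL : ∀ x y, ‖gradient V x - gradient V y‖ ≤ 2 * ‖x - y‖) (p v p' v' z : E d) :
    ‖node V s c p v z - node V s c p' v' z‖ ≤ (1 + 4 * s) * ‖p - p'‖ + √s * ‖v - v'‖ := by
  have hss : √s * √s = s := Real.mul_self_sqrt hs.le
  have e : node V s c p v z - node V s c p' v' z
      = (p - p') - ((√s * (1 - c) * √s) • (gradient V p - gradient V p')
        + (√s * c) • (v - v')) := by
    unfold node
    module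
  rw [e]
  have h1 : √s * (1 - c) * √s = s * (1 - c) := by
    rw [mul_right_comm, hss]
  have h2 : ‖(√s * (1 - c) * √s) • (gradient V p - gradient V p')‖ ≤ 4 * s * ‖p - p'‖ := by
    rw [norm_smul, h1, Real.norm_of_nonneg (mul_nonneg hs.le (by linarith [hc.2]))]
    have := hL p p'
    have h3 : s * (1 - c) ≤ s * 2 := by
      apply mul_le_mul_of_nonneg_left _ hs.le
      linarith [hc.1]
    calc s * (1 - c) * ‖gradient V p - gradient V p'‖
        ≤ (s * 2) * (2 * ‖p - p'‖) := by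
          apply mul_le_mul h3 this (norm_nonneg _) (by positivity)
      _ = 4 * s * ‖p - p'‖ := by ring
  have h4 : ‖(√s * c) • (v - v')‖ ≤ √s * ‖v - v'‖ := by
    rw [norm_smul, norm_mul, Real.norm_of_nonneg (Real.sqrt_nonneg s)]
    have : ‖c‖ ≤ 1 := by
      rw [Real.norm_eq_abs, abs_le]
      exact ⟨hc.1.le, hc.2.le⟩
    have h5 : √s * ‖c‖ ≤ √s := by
      calc √s * ‖c‖ ≤ √s * 1 := by gcongr
        _ = √s := mul_one _
    exact mul_le_mul_of_nonneg_right h5 (norm_nonneg _)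
  calc ‖(p - p') - ((√s * (1 - c) * √s) • (gradient V p - gradient V p') + (√s * c) • (v - v'))‖
      ≤ ‖p - p'‖ + ‖(√s * (1 - c) * √s) • (gradient V p - gradient V p')
        + (√s * c) • (v - v')‖ := norm_sub_le _ _
    _ ≤ ‖p - p'‖ + (‖(√s * (1 - c) * √s) • (gradient V p - gradient V p')‖
        + ‖(√s * c) • (v - v')‖) := by gcongr; exact norm_add_le _ _
    _ ≤ ‖p - p'‖ + (4 * s * ‖p - p'‖ + √s * ‖v - v'‖) := by gcongr
    _ = (1 + 4 * s) * ‖p - p'‖ + √s * ‖v - v'‖ := by ring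

theorem continuous_node_z {s c : ℝ} (p v : E d) : Continuous (fun z => node V s c p v z) := by
  unfold node
  fun_prop

theorem integrable_grad_node {s c : ℝ} (hV : Pot d V)
    (hL : ∀ x y, ‖gradient V x - gradient V y‖ ≤ 2 * ‖x - y‖) (p v : E d) :
    Integrable (fun z => gradient V (node V s c p v z)) (gam d) := by
  have hc : Continuous (fun z => gradient V (node V s c p v z)) :=
    (continuous_gradV hV).comp (continuous_node_z p v)
  set K : ℝ := ‖p - √s • ((1 - c) • (√s • gradient V p) + c • v)‖ with hK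
  set L : ℝ := |√s * √(1 - c ^ 2)| with hLL
  refine Integrable.mono' ((integrable_const (2 * K)).add
    ((integrable_norm_gam (d := d)).const_mul (2 * L))) hc.aestronglyMeasurable
    (Filter.Eventually.of_forall fun z => ?_)
  have h1 := gradV_norm_le hV hL (node V s c p v z)
  have e : node V s c p v z = (p - √s • ((1 - c) • (√s • gradient V p) + c • v))
      - (√s * √(1 - c ^ 2)) • z := by
    unfold node
    module
  have h2 : ‖node V s c p v z‖ ≤ K + L * ‖z‖ := by
    rw [e]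
    refine (norm_sub_le _ _).trans ?_
    rw [norm_smul, Real.norm_eq_abs]
  simp only [Pi.add_apply]
  calc ‖gradient V (node V s c p v z)‖ ≤ 2 * ‖node V s c p v z‖ := h1
    _ ≤ 2 * (K + L * ‖z‖) := by gcongr
    _ = 2 * K + 2 * L * ‖z‖ := by ring

theorem mean_sub_le {J : ℕ} {s β : ℝ} {c w : Fin J → ℝ} (hV : Pot d V)
    (hL : ∀ x y, ‖gradient V x - gradient V y‖ ≤ 2 * ‖x - y‖) (hs : 0 < s) (hβ : 0 ≤ β)
    (hβ1 : β ≤ 1) (hc : ∀ j, c j ∈ Ioo (-1 : ℝ) 1) (hw : ∀ j, 0 < w j) (hw2 : ∑ j, w j = 2)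
    (q q' : E d × E d) :
    ‖mean V s β c w q - mean V s β c w q'‖ ≤
      √s * (6 + 16 * s) * ‖q.1 - q'.1‖ + (1 + 4 * s) * ‖q.2 - q'.2‖ := by
  have hss : √s * √s = s := Real.mul_self_sqrt hs.le
  have hs0 : 0 ≤ √s := Real.sqrt_nonneg s
  set D : Fin J → E d := fun j => (∫ z, gradient V (node V s (c j) q.1 q.2 z) ∂(gam d))
    - ∫ z, gradient V (node V s (c j) q'.1 q'.2 z) ∂(gam d) with hD
  set B : ℝ := (1 + 4 * s) * ‖q.1 - q'.1‖ + √s * ‖q.2 - q'.2‖ with hB
  have hDj : ∀ j, ‖D j‖ ≤ 2 * B := by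
    intro j
    rw [hD]
    simp only
    rw [← integral_sub (integrable_grad_node hV hL _ _) (integrable_grad_node hV hL _ _)]
    refine (norm_integral_le_of_norm_le_const (C := 2 * B)
      (Filter.Eventually.of_forall fun z => ?_)).trans ?_
    · exact (hL _ _).trans (mul_le_mul_of_nonneg_left (node_sub_le hs (hc j) hL _ _ _ _ z)
        (by norm_num))
    · simp
  have e : mean V s β c w q - mean V s β c w q' = β • (q.2 - q'.2)
      - √s • ((1 - β) • (gradient V q.1 - gradient V q'.1) + β • ∑ j, w j • D j) := by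
    unfold mean
    have : ∑ j, w j • D j = (∑ j, w j • ∫ z, gradient V (node V s (c j) q.1 q.2 z) ∂(gam d))
        - ∑ j, w j • ∫ z, gradient V (node V s (c j) q'.1 q'.2 z) ∂(gam d) := by
      rw [← Finset.sum_sub_distrib]
      exact Finset.sum_congr rfl fun j _ => by rw [hD]; simp only [smul_sub]
    rw [this]
    module
  have hsum : ‖∑ j, w j • D j‖ ≤ 4 * B := by
    calc ‖∑ j, w j • D j‖ ≤ ∑ j, ‖w j • D j‖ := norm_sum_le _ _
      _ ≤ ∑ j, w j * (2 * B) := by
        apply Finset.sum_le_sum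
        intro j _
        rw [norm_smul, Real.norm_of_nonneg (hw j).le]
        exact mul_le_mul_of_nonneg_left (hDj j) (hw j).le
      _ = 4 * B := by rw [← Finset.sum_mul, hw2]; ring
  have hB0 : 0 ≤ B := by positivity
  have h1 : ‖β • (q.2 - q'.2)‖ ≤ ‖q.2 - q'.2‖ := by
    rw [norm_smul, Real.norm_of_nonneg hβ]
    exact mul_le_of_le_one_left (norm_nonneg _) hβ1
  have h2 : ‖(1 - β) • (gradient V q.1 - gradient V q'.1)‖ ≤ 2 * ‖q.1 - q'.1‖ := by
    rw [norm_smul, Real.norm_of_nonneg (by linarith)]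
    exact (mul_le_of_le_one_left (norm_nonneg _) (by linarith)).trans (hL _ _)
  have h3 : ‖β • ∑ j, w j • D j‖ ≤ 4 * B := by
    rw [norm_smul, Real.norm_of_nonneg hβ]
    exact (mul_le_of_le_one_left (norm_nonneg _) hβ1).trans hsum
  rw [e]
  calc ‖β • (q.2 - q'.2)
      - √s • ((1 - β) • (gradient V q.1 - gradient V q'.1) + β • ∑ j, w j • D j)‖
      ≤ ‖β • (q.2 - q'.2)‖
        + ‖√s • ((1 - β) • (gradient V q.1 - gradient V q'.1) + β • ∑ j, w j • D j)‖ :=
        norm_sub_le _ _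
    _ ≤ ‖q.2 - q'.2‖ + √s * (2 * ‖q.1 - q'.1‖ + 4 * B) := by
        rw [norm_smul √s, Real.norm_of_nonneg hs0]
        gcongr
        exact (norm_add_le _ _).trans (add_le_add h2 h3)
    _ = √s * (6 + 16 * s) * ‖q.1 - q'.1‖ + (1 + 4 * s) * ‖q.2 - q'.2‖ := by
        rw [hB]
        linear_combination 4 * ‖q.2 - q'.2‖ * hss

theorem continuous_mean {J : ℕ} {s β : ℝ} {c w : Fin J → ℝ} (hV : Pot d V)
    (hL : ∀ x y, ‖gradient V x - gradient V y‖ ≤ 2 * ‖x - y‖) (hs : 0 < s) (hβ : 0 ≤ β)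
    (hβ1 : β ≤ 1) (hc : ∀ j, c j ∈ Ioo (-1 : ℝ) 1) (hw : ∀ j, 0 < w j) (hw2 : ∑ j, w j = 2) :
    Continuous (mean V s β c w) := by
  have hl : LipschitzWith (Real.toNNReal (√s * (6 + 16 * s) + (1 + 4 * s)))
      (mean V s β c w) := by
    apply LipschitzWith.of_dist_le_mul
    intro q q'
    rw [dist_eq_norm, Real.coe_toNNReal _ (by positivity)]
    refine (mean_sub_le hV hL hs hβ hβ1 hc hw hw2 q q').trans ?_
    have h1 : ‖q.1 - q'.1‖ ≤ dist q q' := by
      rw [← dist_eq_norm]; exact le_max_left _ _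
    have h2 : ‖q.2 - q'.2‖ ≤ dist q q' := by
      rw [← dist_eq_norm]; exact le_max_right _ _
    calc √s * (6 + 16 * s) * ‖q.1 - q'.1‖ + (1 + 4 * s) * ‖q.2 - q'.2‖
        ≤ √s * (6 + 16 * s) * dist q q' + (1 + 4 * s) * dist q q' := by gcongr
      _ = (√s * (6 + 16 * s) + (1 + 4 * s)) * dist q q' := by ring
  exact hl.continuous

end

end LCS
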