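import Mathlib
import Vale.Agent.P347.TVBasic

/-! # P347: Pinsker's inequality (crude constant) -/

namespace LCS

open MeasureTheory ProbabilityTheory Set Filter InformationTheory
open scoped ENNReal NNReal Topology RealInnerProductSpace BigOperators ContDiff

namespace PIN

theorem sqrt_sub_one_sq_le {t : ℝ} (ht : 0 ≤ t) : (√t - 1) ^ 2 ≤ klFun t := by
  rw [klFun_apply]
  rcases ht.eq_or_lt with rfl | ht
  · simp
  · have h1 : 0 < √t := Real.sqrt_pos.mpr ht
    have h2 : Real.log t = 2 * Real.log (√t) := by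
      rw [Real.log_sqrt ht.le]; ring
    have h3 : 1 - (√t)⁻¹ ≤ Real.log (√t) := Real.one_sub_inv_le_log_of_pos h1
    have h4 : √t * √t = t := Real.mul_self_sqrt ht.le
    have h5 : t * (1 - (√t)⁻¹) = t - √t := by
      have : t * (√t)⁻¹ = √t := by
        rw [← div_eq_mul_inv, div_eq_iff h1.ne', h4]
      rw [mul_sub, this, mul_one]
    have h6 : t * (1 - (√t)⁻¹) ≤ t * Real.log (√t) := mul_le_mul_of_nonneg_left h3 ht.le
    rw [h2]
    nlinarith

theorem abs_sub_one_le {t u : ℝ} (ht : 0 ≤ t) (hu : 0 < u) :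
    |t - 1| ≤ klFun t / (2 * u) + u * (t + 1) := by
  have h0 := sqrt_sub_one_sq_le ht
  have h4 : √t * √t = t := Real.mul_self_sqrt ht
  have h5 : 0 ≤ √t := Real.sqrt_nonneg t
  have h6 : |t - 1| = |√t - 1| * (√t + 1) := by
    have : t - 1 = (√t - 1) * (√t + 1) := by nlinarith
    rw [this, abs_mul, abs_of_nonneg (by linarith : (0 : ℝ) ≤ √t + 1)]
  have h7 : |√t - 1| * (√t + 1) ≤ (√t - 1) ^ 2 / (2 * u) + u * (√t + 1) ^ 2 / 2 := by
    rw [div_add_div _ _ (by positivity) (by norm_num), le_div_iff₀ (by positivity)]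
    have := sq_nonneg (|√t - 1| - u * (√t + 1))
    have h8 : |√t - 1| ^ 2 = (√t - 1) ^ 2 := sq_abs _
    nlinarith
  have h8 : (√t + 1) ^ 2 ≤ 2 * (t + 1) := by nlinarith [sq_nonneg (√t - 1)]
  have h9 : (√t - 1) ^ 2 / (2 * u) ≤ klFun t / (2 * u) := by gcongr
  have h10 : u * (√t + 1) ^ 2 / 2 ≤ u * (t + 1) := by nlinarith
  rw [h6]
  linarith

end PIN

/-- Pinsker's inequality with a crude constant. -/
theorem pin {X : Type*} [MeasurableSpace X] (μ ν : Measure X) [IsProbabilityMeasure μ]
    [IsProbabilityMeasure ν] (e : ℝ) (he : 0 ≤ e) (h : klDiv μ ν ≤ ENNReal.ofReal e) :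
    TV μ ν (2 * √e) := by
  have hne : klDiv μ ν ≠ (⊤ : ℝ≥0∞) := ne_top_of_le_ne_top ENNReal.ofReal_ne_top h
  obtain ⟨hac, hint⟩ := klDiv_ne_top_iff.mp hne
  have hkl : ∫ x, klFun (μ.rnDeriv ν x).toReal ∂ν ≤ e := by
    rw [← toReal_klDiv_eq_integral_klFun hac]
    exact ENNReal.toReal_le_of_le_ofReal he h
  have hi1 : Integrable (fun x => klFun (μ.rnDeriv ν x).toReal) ν :=
    (integrable_klFun_rnDeriv_iff hac).mpr hint
  have hi2 : Integrable (fun x => (μ.rnDeriv ν x).toReal) ν := Measure.integrable_toReal_rnDeriv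
  have h1 : ∫ x, (μ.rnDeriv ν x).toReal ∂ν = 1 := by
    rw [Measure.integral_toReal_rnDeriv hac]; simp
  have key : ∀ u : ℝ, 0 < u → ∀ B, MeasurableSet B → |μ.real B - ν.real B| ≤ e / (2 * u) + u * 2 := by
    intro u hu B hB
    have e1 : μ.real B = ∫ x in B, (μ.rnDeriv ν x).toReal ∂ν := by
      rw [Measure.setIntegral_toReal_rnDeriv hac]
    have e2 : ν.real B = ∫ x in B, (1 : ℝ) ∂ν := by simp
    rw [e1, e2, ← integral_sub hi2.integrableOn (integrable_const _)]
    calc |∫ x in B, ((μ.rnDeriv ν x).toReal - 1) ∂ν|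
        ≤ ∫ x in B, |(μ.rnDeriv ν x).toReal - 1| ∂ν := abs_integral_le_integral_abs
      _ ≤ ∫ x, |(μ.rnDeriv ν x).toReal - 1| ∂ν :=
          setIntegral_le_integral (hi2.sub (integrable_const _)).abs
            (ae_of_all _ fun x => abs_nonneg _)
      _ ≤ ∫ x, (klFun (μ.rnDeriv ν x).toReal / (2 * u) + u * ((μ.rnDeriv ν x).toReal + 1)) ∂ν := by
          refine integral_mono (hi2.sub (integrable_const _)).abs ?_ ?_
          · exact (hi1.div_const _).add ((hi2.add (integrable_const _)).const_mul _)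
          · intro x
            exact PIN.abs_sub_one_le ENNReal.toReal_nonneg hu
      _ = (∫ x, klFun (μ.rnDeriv ν x).toReal ∂ν) / (2 * u) + u * 2 := by
          have e3 : Integrable (fun x => u * ((μ.rnDeriv ν x).toReal + 1)) ν :=
            (hi2.add (integrable_const _)).const_mul _
          rw [integral_add (hi1.div_const _) e3, integral_div, integral_const_mul,
            integral_add hi2 (integrable_const _), h1]
          simp
          norm_num
      _ ≤ e / (2 * u) + u * 2 := by gcongr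
  intro B hB
  rcases he.eq_or_lt with rfl | he'
  · simp only [Real.sqrt_zero, mul_zero]
    refine le_of_forall_pos_le_add fun δ hδ => ?_
    have := key (δ / 2) (by positivity) B hB
    simp only [zero_div, zero_add] at this ⊢
    linarith
  · have hs : 0 < √e := Real.sqrt_pos.mpr he'
    have := key (√e / 2) (by positivity) B hB
    have h4 : √e * √e = e := Real.mul_self_sqrt he
    have h5 : e / (2 * (√e / 2)) + √e / 2 * 2 = 2 * √e := by
      field_simp
      nlinarith
    linarith

end LCS
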